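import Vale.Agent.P231C.Dif

/-! Complete homogeneous polynomials in commuting variables. -/

open scoped ContDiff Topology
open Filter Set

noncomputable section

namespace Vale.Agent.P231C

variable {R : Type*} [Ring R] {x y z : R} {m : ℕ}

theorem hh_nil (x y : R) : hh x y 0 = 1 := by
  simp [hh]

theorem hh_succ_right (x y : R) (m : ℕ) : hh x y (m + 1) = hh x y m * y + x ^ (m + 1) := by
  unfold hh
  rw [Finset.sum_range_succ, Nat.sub_self, pow_zero, mul_one, Finset.sum_mul]
  refine congrArg (· + _) (Finset.sum_congr rfl fun i hi => ?_)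
  rw [mul_assoc, ← pow_succ, Nat.succ_sub (Nat.lt_succ_iff.1 (Finset.mem_range.1 hi))]

theorem hh_succ_left (x y : R) (m : ℕ) : hh x y (m + 1) = x * hh x y m + y ^ (m + 1) := by
  unfold hh
  rw [Finset.sum_range_succ', Nat.sub_zero, pow_zero, one_mul, Finset.mul_sum]
  refine congrArg (· + _) (Finset.sum_congr rfl fun i _ => ?_)
  rw [← mul_assoc, ← pow_succ', Nat.add_sub_add_right]

theorem hh_commute {w : R} (h1 : Commute w x) (h2 : Commute w y) (m : ℕ) :
    Commute w (hh x y m) :=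
  Commute.sum_right _ _ _ fun _ _ => (h1.pow_right _).mul_right (h2.pow_right _)

theorem hh_split (x y : R) (m : ℕ) : ∃ w, hh x y m = x * w + y ^ m := by
  cases m with
  | zero => exact ⟨0, by rw [hh_nil, mul_zero, zero_add, pow_zero]⟩
  | succ m => exact ⟨_, hh_succ_left x y m⟩

theorem hh_comm (h : Commute x y) (m : ℕ) : hh x y m = hh y x m := by
  induction m with
  | zero => rw [hh_nil, hh_nil]
  | succ m ih =>
    rw [hh_succ_right, hh_succ_left, ← ih, (hh_commute h.symm (Commute.refl y) m).eq]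

theorem sub_mul_hh (h : Commute x y) (m : ℕ) : (y - x) * hh x y m = y ^ (m + 1) - x ^ (m + 1) := by
  induction m with
  | zero => rw [hh_nil, mul_one, zero_add, pow_one, pow_one]
  | succ m ih =>
    rw [hh_succ_right, mul_add, ← mul_assoc, ih, sub_mul, sub_mul, (h.pow_left (m + 1)).eq,
      ← pow_succ, ← pow_succ']
    abel

theorem hh_self (x : R) (m : ℕ) : hh x x m = ((m : R) + 1) * x ^ m := by
  induction m with
  | zero => simp [hh_nil]
  | succ m ih =>
    rw [hh_succ_right, ih, mul_assoc, ← pow_succ, Nat.cast_succ, add_mul ((m : R) + 1) 1,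
      one_mul]

theorem hh_zero_left (y : R) (m : ℕ) : hh 0 y m = y ^ m := by
  obtain ⟨w, h⟩ := hh_split 0 y m
  rw [h, zero_mul, zero_add]

theorem map_hh {S : Type*} [Ring S] (f : R →+* S) (x y : R) (m : ℕ) :
    f (hh x y m) = hh (f x) (f y) m := by
  simp only [hh, map_sum, map_mul, map_pow]

/-- The complete homogeneous polynomial in three variables. -/
def hh3 (x y z : R) (m : ℕ) : R := ∑ i ∈ Finset.range (m + 1), hh x y i * z ^ (m - i)

theorem hh3_nil (x y z : R) : hh3 x y z 0 = 1 := by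
  simp [hh3, hh_nil]

theorem hh3_succ (x y z : R) (m : ℕ) :
    hh3 x y z (m + 1) = hh3 x y z m * z + hh x y (m + 1) := by
  unfold hh3
  rw [Finset.sum_range_succ, Nat.sub_self, pow_zero, mul_one, Finset.sum_mul]
  refine congrArg (· + _) (Finset.sum_congr rfl fun i hi => ?_)
  rw [mul_assoc, ← pow_succ, Nat.succ_sub (Nat.lt_succ_iff.1 (Finset.mem_range.1 hi))]

theorem hh3_zero_left (z : R) (m : ℕ) : hh3 0 0 z m = z ^ m := by
  induction m with
  | zero => rw [hh3_nil, pow_zero]
  | succ m ih => rw [hh3_succ, ih, hh_zero_left, pow_succ (0 : R), mul_zero, add_zero, pow_succ]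

theorem map_hh3 {S : Type*} [Ring S] (f : R →+* S) (x y z : R) (m : ℕ) :
    f (hh3 x y z m) = hh3 (f x) (f y) (f z) m := by
  simp only [hh3, map_sum, map_mul, map_pow, map_hh]

theorem hh3_left (h1 : Commute x y) (m : ℕ) :
    (y - x) * hh3 x y z m = hh y z (m + 1) - hh x z (m + 1) := by
  induction m with
  | zero =>
    rw [hh3_nil, hh_succ_right, hh_succ_right, hh_nil, hh_nil, mul_one, zero_add, pow_one, pow_one]
    abel
  | succ m ih =>
    rw [hh3_succ, mul_add, ← mul_assoc, ih, sub_mul_hh h1, hh_succ_right y z (m + 1),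
      hh_succ_right x z (m + 1), sub_mul]
    abel

theorem hh3_right (h1 : Commute x y) (h2 : Commute x z) (h3 : Commute y z) (m : ℕ) :
    (z - y) * hh3 x y z m = hh x z (m + 1) - hh x y (m + 1) := by
  induction m with
  | zero =>
    rw [hh3_nil, hh_succ_right, hh_succ_right, hh_nil, hh_nil, mul_one, one_mul, one_mul]
    abel
  | succ m ih =>
    rw [hh3_succ, mul_add, ← mul_assoc, ih, hh_succ_right x z (m + 1),
      hh_succ_right x y (m + 1), sub_mul, sub_mul, (hh_commute h2.symm h3.symm _).eq,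
      (hh_commute h1.symm (Commute.refl y) _).eq]
    abel

theorem hh_top_mul (hx : x ^ (m + 2) = 0) (y : R) (n : ℕ) :
    x ^ (m + 1) * hh x y n = x ^ (m + 1) * y ^ n := by
  obtain ⟨w, h⟩ := hh_split x y n
  rw [h, mul_add, ← mul_assoc, ← pow_succ, hx, zero_mul, zero_add]

theorem pow_mul_hh (hx : x ^ (m + 2) = 0) :
    x ^ m * hh x y (m + 1) = x ^ m * y ^ (m + 1) + x ^ (m + 1) * y ^ m := by
  rw [hh_succ_left, mul_add, ← mul_assoc, ← pow_succ, hh_top_mul hx, add_comm]

theorem hh3_mul_pow (h : Commute x y) (hx : x ^ (m + 2) = 0) :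
    hh3 x x y m * x ^ (m + 1) = x ^ (m + 1) * y ^ m := by
  have h1 : ∀ n, x ^ (m + 1) * hh3 x x y n = x ^ (m + 1) * y ^ n := fun n => by
    induction n with
    | zero => rw [hh3_nil, pow_zero]
    | succ n ih =>
      rw [hh3_succ, mul_add, ← mul_assoc, ih, hh_top_mul hx, pow_succ' x n, ← mul_assoc,
        ← pow_succ x (m + 1), hx, zero_mul, add_zero, mul_assoc, ← pow_succ]
  have h2 : Commute x (hh3 x x y m) := Commute.sum_right _ _ _ fun _ _ =>
    (hh_commute (Commute.refl x) (Commute.refl x) _).mul_right (h.pow_right _)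
  rw [← (h2.pow_left _).eq, h1]

theorem hh_mul_add (h : Commute x y) (hx : x ^ (m + 2) = 0) (hy : y ^ (m + 2) = 0) :
    hh x y m * (x ^ (m + 1) + y ^ (m + 1)) = x ^ m * hh x y (m + 1) := by
  rw [pow_mul_hh hx, mul_add, ← ((hh_commute (Commute.refl x) h m).pow_left _).eq,
    ← ((hh_commute h.symm (Commute.refl y) m).pow_left _).eq, hh_top_mul hx, hh_comm h,
    hh_top_mul hy, (h.pow_pow m (m + 1)).eq, add_comm]

theorem sub_pow_odd [Algebra ℝ R] (h : Commute x y) (hx : x ^ (m + 2) = 0)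
    (hy : y ^ (m + 2) = 0) : (y - x) ^ (2 * m + 1) =
      ((-1 : ℝ) ^ m * ((2 * m + 1).choose m : ℕ)) •
        (x ^ m * y ^ (m + 1) - x ^ (m + 1) * y ^ m) := by
  have h1 : ∀ k : ℕ, (-x) ^ k = (-1 : ℝ) ^ k • x ^ k := fun k => by
    rw [← smul_pow, neg_one_smul]
  have h2 : ∀ (w : R) (k : ℕ), w * (k : R) = (k : ℝ) • w := fun w k => by
    rw [Nat.cast_smul_eq_nsmul, nsmul_eq_mul']
  rw [sub_eq_add_neg, h.symm.neg_right.add_pow, Finset.sum_eq_add_of_mem m (m + 1)
    (Finset.mem_range.2 (by omega)) (Finset.mem_range.2 (by omega)) (by omega)]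
  · rw [show 2 * m + 1 - m = m + 1 by omega, show 2 * m + 1 - (m + 1) = m by omega,
      Nat.choose_symm_half, h1, h1, h2, h2, mul_smul_comm, mul_smul_comm, smul_smul, smul_smul,
      (h.pow_pow m (m + 1)).eq, (h.pow_pow (m + 1) m).eq, pow_succ (-1 : ℝ)]
    module
  · rintro c - ⟨hc1, hc2⟩
    rcases lt_or_gt_of_ne hc1 with hc | hc
    · rw [h1, pow_eq_zero_of_le (by omega) hx, smul_zero, mul_zero, zero_mul]
    · rw [pow_eq_zero_of_le (by omega) hy, zero_mul, zero_mul]

end Vale.Agent.P231C
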