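import Vale.Agent.P231C.DifD
import Vale.Agent.P231C.Hh

/-! Transgression forms. -/

open scoped ContDiff Topology
open Filter Set

noncomputable section

namespace Vale.Agent.P231C

variable {Y Y' : Type*} {𝒟 : Dif Y} {𝒟' : Dif Y'} {m : ℕ} {α β γ K K' : RF 𝒟}

/-- `K` is a transgression form from `α` to `β`. -/
structure CS (m : ℕ) (α β K : RF 𝒟) : Prop where
  fa : Fm 2 α
  fb : Fm 2 β
  fk : Fm 1 K
  ca : dx α = 0
  cb : dx β = 0
  dk : dx K = β - α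
  na : α ^ (m + 2) = 0
  nb : β ^ (m + 2) = 0
  ex : ∃ Γ, Fm (2 * m + 2) Γ ∧ dx Γ = K * hh α β (m + 1)

theorem Fm.hh (h : Fm 2 α) (h' : Fm 2 β) (m : ℕ) : Fm (2 * m) (hh α β m) := by
  refine Fm.sum fun i hi => ((h.pow i).mul (h'.pow (m - i))).cast ?_
  have := Finset.mem_range.1 hi
  omega

theorem dx_hh (h : Fm 2 α) (h' : Fm 2 β) (c : dx α = 0) (c' : dx β = 0) (m : ℕ) :
    dx (hh α β m) = 0 := by
  unfold hh
  rw [dx_sum (k := 2 * m) fun i hi => ((h.pow i).mul (h'.pow (m - i))).cast (by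
    have := Finset.mem_range.1 hi
    omega)]
  refine Finset.sum_eq_zero fun i _ => ?_
  rw [dx_mul (h.pow i) (h'.pow (m - i)), dx_pow h c, dx_pow h' c', zero_mul, mul_zero, smul_zero,
    add_zero]

theorem Fm.hh3 (h : Fm 2 α) (h' : Fm 2 β) (h'' : Fm 2 γ) (m : ℕ) : Fm (2 * m) (hh3 α β γ m) := by
  refine Fm.sum fun i hi => ((h.hh h' i).mul (h''.pow (m - i))).cast ?_
  have := Finset.mem_range.1 hi
  omega

theorem dx_hh3 (h : Fm 2 α) (h' : Fm 2 β) (h'' : Fm 2 γ) (c : dx α = 0) (c' : dx β = 0)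
    (c'' : dx γ = 0) (m : ℕ) : dx (hh3 α β γ m) = 0 := by
  unfold hh3
  rw [dx_sum (k := 2 * m) fun i hi => ((h.hh h' i).mul (h''.pow (m - i))).cast (by
    have := Finset.mem_range.1 hi
    omega)]
  refine Finset.sum_eq_zero fun i _ => ?_
  rw [dx_mul (h.hh h' i) (h''.pow (m - i)), dx_hh h h' c c', dx_pow h'' c'', zero_mul, mul_zero,
    smul_zero, add_zero]

theorem CS.symm (h : CS m α β K) : CS m β α (-K) := by
  obtain ⟨Γ, h1, h2⟩ := h.ex
  refine ⟨h.fb, h.fa, h.fk.neg, h.cb, h.ca, by rw [dx_neg h.fk, h.dk, neg_sub], h.nb, h.na,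
    -Γ, h1.neg, ?_⟩
  rw [dx_neg h1, h2, neg_mul, hh_comm (show Commute α β from h.fa.comm_two h.fb)]

/-- `dx (K * K' * hh3 α β γ m) = (β - α) * K' * hh3 - K * (γ - β) * hh3`; `hh3_left`,
`hh3_right`, `Fm.comm_two`. -/
theorem CS.trans (h : CS m α β K) (h' : CS m β γ K') : CS m α γ (K + K') := by
  obtain ⟨Γ, h1, h2⟩ := h.ex
  obtain ⟨Γ', h1', h2'⟩ := h'.ex
  have h3 := h.fa.hh3 h.fb h'.fb m
  have h4 : Fm (2 * m + 2) (K * K' * hh3 α β γ m) := ((h.fk.mul h'.fk).mul h3).cast (by ring)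
  have cab : Commute α β := h.fa.comm_two h.fb
  have cac : Commute α γ := h.fa.comm_two h'.fb
  have cbc : Commute β γ := h.fb.comm_two h'.fb
  refine ⟨h.fa, h'.fb, h.fk.add h'.fk, h.ca, h'.cb, ?_, h.na, h'.nb,
    Γ + Γ' - K * K' * hh3 α β γ m, (h1.add h1').sub h4, ?_⟩
  · rw [dx_add h.fk h'.fk, h.dk, h'.dk]
    abel
  · rw [dx_sub (h1.add h1') h4, dx_add h1 h1', h2, h2', dx_mul (h.fk.mul h'.fk) h3,
      dx_hh3 h.fa h.fb h'.fb h.ca h.cb h'.cb, mul_zero, smul_zero, add_zero, dx_mul h.fk h'.fk,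
      h.dk, h'.dk, (h.fb.sub h.fa).comm_two h'.fk, pow_one, neg_one_smul, add_mul, neg_mul,
      mul_assoc, mul_assoc, hh3_left cab, hh3_right cab cac cbc]
    noncomm_ring

theorem core_hh {F : Y' → Y} (hF : Smo 𝒟' 𝒟 F) (α β : RF 𝒟) (m : ℕ) :
    pull hF (hh α β m) = hh (pull hF α) (pull hF β) m := by
  unfold hh
  simp only [map_sum, map_mul, map_pow]


theorem CS.pull (h : CS m α β K) {F : Y' → Y} (hF : Smo 𝒟' 𝒟 F) :
    CS m (pull hF α) (pull hF β) (pull hF K) := by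
  obtain ⟨Γ, h1, h2⟩ := h.ex
  refine ⟨h.fa.pull hF, h.fb.pull hF, h.fk.pull hF, by rw [dx_pull, h.ca, map_zero],
    by rw [dx_pull, h.cb, map_zero], by rw [dx_pull, h.dk, map_sub],
    by rw [← map_pow, h.na, map_zero], by rw [← map_pow, h.nb, map_zero],
    P231C.pull hF Γ, h1.pull hF, ?_⟩
  rw [dx_pull, h2, map_mul, core_hh]

/-- On `Y × ℝ` let `w = H^* η`, `α' = fst^* F^* η` and `L = rp w`. Then `dx L = w - α'` (`dx_rp`),
the slices of `L` at `0` and `b` are `0` and `fib 0 b w` (`slice_rp`), and `L * hh α' w (m + 1)` is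
closed (`sub_mul_hh`). Take `Γ = fib 0 b (L * hh α' w (m + 1))` and use `fib_dx`. -/
theorem cs_of_hom {η : RF 𝒟'} (hη : Fm 2 η) (hc : dx η = 0) (hn : η ^ (m + 2) = 0)
    {H : Y × ℝ → Y'} (hH : Smo 𝒟.ext 𝒟' H) {F G : Y → Y'} (hF : Smo 𝒟 𝒟' F) (hG : Smo 𝒟 𝒟' G)
    {b : ℝ} (h0 : ∀ y, H (y, 0) = F y) (h1 : ∀ y, H (y, b) = G y) :
    CS m (pull hF η) (pull hG η) (fib 0 b (pull hH η)) := by
  have hw : Fm 2 (pull hH η) := hη.pull hH
  have cw : dx (pull hH η) = 0 := by rw [dx_pull, hc, map_zero]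
  have s0 : pull (smo_slice 𝒟 0) (pull hH η) = pull hF η := by
    rw [pull_pull]
    exact pull_congr _ _ h0 η
  have s1 : pull (smo_slice 𝒟 b) (pull hH η) = pull hG η := by
    rw [pull_pull]
    exact pull_congr _ _ h1 η
  have ha : Fm 2 (pull (smo_fst 𝒟 (Dif.vec ℝ)) (pull hF η)) := (hη.pull hF).pull _
  have ca : dx (pull (smo_fst 𝒟 (Dif.vec ℝ)) (pull hF η)) = 0 := by
    rw [dx_pull, dx_pull, hc, map_zero, map_zero]
  have hL : Fm 1 (rp (pull hH η)) := hw.rp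
  have hhh := ha.hh hw (m + 1)
  have hM : Fm (2 * m + 2 + 1) (rp (pull hH η) *
      hh (pull (smo_fst 𝒟 (Dif.vec ℝ)) (pull hF η)) (pull hH η) (m + 1)) :=
    (hL.mul hhh).cast (by ring)
  have cM : dx (rp (pull hH η) *
      hh (pull (smo_fst 𝒟 (Dif.vec ℝ)) (pull hF η)) (pull hH η) (m + 1)) = 0 := by
    rw [dx_mul hL hhh, dx_hh ha hw ca cw, mul_zero, smul_zero, add_zero, dx_rp hw cw, s0,
      sub_mul_hh (show Commute _ _ from ha.comm_two hw), ← map_pow, ← map_pow, ← map_pow, hn,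
      map_zero, map_zero, map_zero, sub_zero]
  have z0 : fib 0 0 (pull hH η) = 0 := left_eq_add.1 (fib_concat hw 0 0 0).symm
  refine ⟨hη.pull hF, hη.pull hG, hw.fib 0 b, by rw [dx_pull, hc, map_zero],
    by rw [dx_pull, hc, map_zero], ?_, by rw [← map_pow, hn, map_zero],
    by rw [← map_pow, hn, map_zero], _, hM.fib 0 b, ?_⟩
  · have h2 := fib_dx hw 0 b
    rwa [cw, fib_zero, add_zero, s0, s1] at h2
  · have h2 := fib_dx hM 0 b
    rw [cM, fib_zero, add_zero, map_mul, map_mul, slice_rp hw, slice_rp hw, z0, zero_mul, sub_zero,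
      core_hh, s1] at h2
    exact h2

end Vale.Agent.P231C
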