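import Vale.Agent.P231C.IntG

/-! Definitions shared by the abstract part and the geometric part. -/

open scoped ContDiff Topology
open Filter Set MeasureTheory

noncomputable section

namespace Vale.Agent.P231C

/-- The unit sphere. -/
def Sp (n : ℕ) : Type := {v : FS.euc n // ‖v‖ = 1}

/-- Plots of the sphere. -/
def DS (n : ℕ) : Dif (Sp n) := (Dif.vec (FS.euc n)).ind fun v => v.1

open Classical in
/-- Radial projection. -/
def rad {n : ℕ} (o : Sp n) (v : FS.euc n) : Sp n :=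
  if h : v = 0 then o else ⟨‖v‖⁻¹ • v, norm_smul_inv_norm h⟩

/-- Cut off functions. -/
structure Cut (χ : ℝ → ℝ) (a b : ℝ) : Prop where
  sm : ContDiff ℝ ∞ χ
  pos : 0 < a
  zero : ∀ t ≤ a, χ t = 0
  one : ∀ t, b ≤ t → χ t = 1

/-- Integration on the sphere. -/
def IS {n : ℕ} (o : Sp n) (χ : ℝ → ℝ) : RF (DS n) → ℝ :=
  IG (FS.euc n) (volume : Measure (EuclideanSpace ℝ (Fin n))) (eb n)
    (fun v => io (fderiv ℝ (fun w : FS.euc n => χ ‖w‖) v)) (rad o)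

/-- A fibration of the sphere by oriented great circles. -/
structure GC {n : ℕ} (J : FS.euc n → FS.euc n) : Prop where
  sm : ∀ v, v ≠ 0 → ContDiffAt ℝ ∞ J v
  hom : ∀ c : ℝ, 0 < c → ∀ v, J (c • v) = c • J v
  norm : ∀ v, ‖J v‖ = ‖v‖
  orth : ∀ v, inner ℝ (J v) v = 0
  rot : ∀ v t, J (Real.cos t • v + Real.sin t • J v) = -Real.sin t • v + Real.cos t • J v

theorem GC.norm_rot {n : ℕ} {J : FS.euc n → FS.euc n} (h : GC J) (v : FS.euc n) (t : ℝ) :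
    ‖Real.cos t • v + Real.sin t • J v‖ = ‖v‖ := by
  have h1 : ‖Real.cos t • v + Real.sin t • J v‖ ^ 2 = ‖v‖ ^ 2 := by
    rw [norm_add_sq_real, inner_smul_left, inner_smul_right, real_inner_comm, h.orth, norm_smul,
      norm_smul, h.norm, mul_pow, mul_pow, Real.norm_eq_abs, Real.norm_eq_abs, sq_abs, sq_abs]
    have := Real.sin_sq_add_cos_sq t
    simp only [mul_zero, add_zero]
    linear_combination ‖v‖ ^ 2 * this
  exact (pow_left_inj₀ (norm_nonneg _) (norm_nonneg _) two_ne_zero).1 h1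

/-- The rotation along the great circles. -/
def GC.rho {n : ℕ} {J : FS.euc n → FS.euc n} (h : GC J) (p : Sp n × ℝ) : Sp n :=
  ⟨Real.cos p.2 • p.1.1 + Real.sin p.2 • J p.1.1, (h.norm_rot _ _).trans p.1.2⟩

/-- The connection form of the fibration. -/
def thJ {n : ℕ} (J : FS.euc n → FS.euc n) : RF (DS n) :=
  (2 * Real.pi)⁻¹ • ip (DS n) (fun v => J v.1) fun v => v.1

variable {X M : Type*}

/-- Integral of a form of degree two on a rectangle. -/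
def sgm {𝒟 : Dif M} (η : RF 𝒟) (G : ℝ × ℝ → M) (l b : ℝ) : ℝ :=
  ∫ s in (0 : ℝ)..l, ∫ t in (0 : ℝ)..b,
    evl (Z := FS.line.ext) [(0, 1), (1, 0)] (loc η FS.line.ext G (s, t))

/-- A connection form of a circle action. -/
structure Cir.Conn {𝒟 : Dif X} {a : X × ℝ → X} {l : ℝ} (h : Cir 𝒟 a l) (θ : RF 𝒟) : Prop where
  fm : Fm 1 θ
  push : h.push θ = 1
  bas : h.Bas (dx θ)

/-- Two circle actions on a space over `M`. -/
structure Lk (𝒟 : Dif X) (𝒟M : Dif M) (m : ℕ) (l : ℝ) (fl rot : X × ℝ → X) (ev : X → M)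
    (I : RF 𝒟 → ℝ) : Prop where
  integ : Integ 𝒟 (4 * m + 2) I
  rank : RankLe 𝒟M (2 * m + 2)
  lpos : 0 < l
  cfl : Cir 𝒟 fl l
  crot : Cir 𝒟 rot (2 * Real.pi)
  sev : Smo 𝒟 𝒟M ev
  ev_rot : ∀ v t, ev (rot (v, t)) = ev v
  q_rot : ∀ v t, ev (fl (rot (v, t), l / 2)) = ev (fl (v, l / 2))
  flip : ∀ v t, rot (fl (v, t), Real.pi) = fl (rot (v, Real.pi), -t)
  conn : ∀ g, Smo 𝒟 (Dif.vec ℝ) g → dx (fn 𝒟 g) = 0 → ∀ v w, g v = g w

/-- Minimizing chords of length less than `D`. -/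
structure Chord [MetricSpace M] (𝒟M : Dif M) (ch : M → M → ℝ → M) (D : ℝ) : Prop where
  cont : ∀ (Z : FS) (f : Z → M) (u : Z), 𝒟M.P ⟨Z, f, u⟩ → ContinuousAt f u
  sm : ∀ (Z : FS) (f g : Z → M) (s : Z → ℝ) (u : Z), 𝒟M.P ⟨Z, f, u⟩ → 𝒟M.P ⟨Z, g, u⟩ → Sg s u →
    dist (f u) (g u) < D → 𝒟M.P ⟨Z, fun z => ch (f z) (g z) (s z), u⟩
  zero : ∀ x y, ch x y 0 = x
  one : ∀ x y, dist x y < D → ch x y 1 = y
  self : ∀ x s, ch x x s = x
  dist : ∀ x y, dist x y < D → ∀ s ∈ Icc (0 : ℝ) 1, ∀ t ∈ Icc (0 : ℝ) 1,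
    dist (ch x y s) (ch x y t) = |s - t| * dist x y

end Vale.Agent.P231C
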