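import Vale.Agent.P231C.Push
import Vale.Agent.P231C.SphDef

/-! Orbit symmetry, Chern numbers. -/

open scoped ContDiff Topology
open Filter Set MeasureTheory

noncomputable section

namespace Vale.Agent.P231C

variable {Y : Type*} {𝒟 : Dif Y} {N : ℕ} {a : Y × ℝ → Y} {l : ℝ} {α β : RF 𝒟} {I : RF 𝒟 → ℝ}

theorem Integ.zero (hI : Integ 𝒟 N I) : I 0 = 0 := by
  have h := hI.smul 0 0 (fm_zero _)
  rwa [zero_smul, zero_mul] at h

theorem Integ.neg (hI : Integ 𝒟 N I) (h : Fm (N + 1) α) : I (-α) = -I α := by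
  have h1 := hI.smul (-1) α h
  rwa [neg_one_smul, neg_one_mul] at h1

theorem Integ.sub (hI : Integ 𝒟 N I) (h : Fm (N + 1) α) (h' : Fm (N + 1) β) :
    I (α - β) = I α - I β := by
  rw [sub_eq_add_neg, hI.add _ _ h h'.neg, hI.neg h', sub_eq_add_neg]

theorem pushb_slice (h : Cir 𝒟 a l) {t : ℝ} (ht : ∀ y, a (y, t) = y) (φ : RF 𝒟) :
    pull (smo_slice 𝒟 t) (pull h.sm φ) = φ := by
  rw [pull_pull, pull_congr _ (smo_id 𝒟) ht, pull_id]

theorem pushb_fst (t : ℝ) (φ : RF 𝒟) :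
    pull (smo_slice 𝒟 t) (pull (smo_fst 𝒟 (Dif.vec ℝ)) φ) = φ := rfl

theorem pushb_same (φ : RF 𝒟.ext) (t : ℝ) : fib t t φ = 0 :=
  funext fun _ => intervalIntegral.integral_same

theorem pushb_lin {k : ℕ} {φ : RF 𝒟.ext} (h : Fm k φ) (b c : ℝ) {Z : FS} {f : Z → Y} {u : Z}
    (hp : 𝒟.P ⟨Z, f, u⟩) (L : Lam Z →ₗ[ℝ] ℝ) : L (loc (fib b c φ) Z f u) =
      ∫ t in b..c, L (pb (Z := Z.ext) (ContinuousLinearMap.inl ℝ Z ℝ)
        (ct (Z := Z.ext) (0, 1) (loc φ Z.ext (fun w => (f w.1, w.2)) (u, t)))) := by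
  rw [loc_fib φ b c hp]
  refine ((LinearMap.toContinuousLinearMap L).intervalIntegral_comp_comm
    (Continuous.intervalIntegrable ?_ _ _)).symm
  refine (cont_lin (pb (Z := Z.ext) (ContinuousLinearMap.inl ℝ Z ℝ)).toLinearMap).comp
    ((cont_lin _).comp (continuous_iff_continuousAt.2 fun t => ?_))
  exact (h.sm _ _ _ (plot_ext hp t)).continuousAt.comp (f := fun t : ℝ => (u, t)) (by fun_prop)

/-- Orbit symmetry. Put `κ = a^* K - fst^* K`, a closed form with zero slice at `0`, and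
`u = rp κ`; then `dx u = κ` (`dx_rp`), the slices of `u` at `0` and `l` are `0` and `push K`
(`slice_rp`, `fib_pull_fst`). `K * w = 0` and `dx w = 0` by the rank condition, so
`0 = fib (a^* K * a^* w) = fib (fst^* K * a^* w) + fib (dx (u * a^* w))`; use `fib_pull_mul`,
`fib_dx` and `stokes`. -/
theorem Cir.sym (h : Cir 𝒟 a l) (hI : Integ 𝒟 N I) {K w : RF 𝒟} (hK : Fm 1 K)
    (hb : h.Bas (dx K)) (hw : Fm (N + 1) w) : I (K * h.push w) = I (h.push K * w) := by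
  have hAK := hK.pull h.sm
  have hPK := hK.pull (smo_fst 𝒟 (Dif.vec ℝ))
  have hAw := hw.pull h.sm
  set κ := pull h.sm K - pull (smo_fst 𝒟 (Dif.vec ℝ)) K with hκ
  have hκ1 : Fm 1 κ := hAK.sub hPK
  have hc : dx κ = 0 := by
    rw [hκ, dx_sub hAK hPK, dx_pull, dx_pull]
    exact sub_eq_zero.2 hb
  have h0 : pull (smo_slice 𝒟 0) κ = 0 := by
    rw [hκ, map_sub, pushb_slice h h.zero, pushb_fst, sub_self]
  have hu : Fm 0 (rp κ) := Fm.rp (k := 0) hκ1
  have hdu : dx (rp κ) = κ := by rw [dx_rp hκ1 hc, h0, map_zero, sub_zero]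
  have hs0 : pull (smo_slice 𝒟 0) (rp κ) = 0 := by rw [slice_rp hκ1, pushb_same]
  have hsl : pull (smo_slice 𝒟 l) (rp κ) = h.push K := by
    rw [slice_rp hκ1, hκ, fib_sub hAK hPK, fib_pull_fst hK, sub_zero]
    rfl
  have hKw : K * w = 0 := hI.rank.eq_zero (hK.mul hw) (by omega)
  have hdw : dx w = 0 := hI.rank.eq_zero hw.dx (by omega)
  have hv : Fm (N + 1) (rp κ * pull h.sm w) := (hu.mul hAw).cast (by omega)
  have e1 : dx (rp κ * pull h.sm w) = -(pull (smo_fst 𝒟 (Dif.vec ℝ)) K * pull h.sm w) := by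
    rw [dx_mul hu hAw, dx_pull, hdw, map_zero, mul_zero, smul_zero, add_zero, hdu, hκ, sub_mul,
      ← map_mul, hKw, map_zero, zero_sub]
  have e2 := fib_dx hv 0 l
  rw [e1, fib_neg, fib_pull_mul hAw hK, map_mul, map_mul, hs0, hsl, pushb_slice h h.per,
    zero_mul, sub_zero, pow_one, neg_one_smul, neg_neg] at e2
  have e3 : Fm (N + 1) (K * h.push w) := (hK.mul (h.fm_push hw)).cast (by omega)
  rw [← e2]
  exact ((hI.add _ _ (hv.fib 0 l).dx e3).trans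
    (by rw [hI.stokes _ (hv.fib 0 l), zero_add])).symm

theorem Cir.eq_zero (h : Cir 𝒟 a l) (hI : Integ 𝒟 N I) {K w : RF 𝒟} (hK : Fm 1 K)
    (hb : h.Bas (dx K)) {c : ℝ} (hc : c ≠ 0) (hp : h.push K = algebraMap ℝ _ c)
    (hw : Fm (N + 1) w) (h0 : h.push w = 0) : I w = 0 := by
  have h1 := h.sym hI hK hb hw
  rw [h0, mul_zero, hI.zero, hp, ← Algebra.smul_def, hI.smul _ _ hw] at h1
  exact (mul_eq_zero.1 h1.symm).resolve_left hc

/-- The Chern number does not depend on the connection. With `τ = K - c • θ`, `push τ = 0` and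
`dx τ` is basic, so `I (τ * B) = 0` (`Cir.eq_zero` with `θ`) and
`I (θ * (dx τ * B)) = I (dx θ * τ * B) = 0` for closed basic `B`; use `sub_mul_hh` like
identity `Commute.mul_geom_sum₂` or induction on the number of factors replaced. -/
theorem Cir.chern (h : Cir 𝒟 a l) {q : ℕ} (hI : Integ 𝒟 (2 * q) I) {K θ : RF 𝒟} (hK : Fm 1 K)
    (hb : h.Bas (dx K)) {c : ℝ} (hp : h.push K = algebraMap ℝ _ c) (hθ : h.Conn θ) :
    I (K * dx K ^ q) = c ^ (q + 1) * I (θ * dx θ ^ q) := by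
  have hθ1 := hθ.fm
  have hθc := hθ1.smul c
  set τ := K - c • θ with hτ
  have hτ1 : Fm 1 τ := hK.sub hθc
  have hτp : h.push τ = 0 := by
    rw [hτ, h.push_sub hK hθc, h.push_smul, hθ.push, hp, Algebra.algebraMap_eq_smul_one, sub_self]
  have c1 : ∀ B, Fm (2 * q) B → h.Bas B → I (τ * B) = 0 := fun B hB hB' =>
    h.eq_zero hI hθ1 hθ.bas one_ne_zero (hθ.push.trans (map_one _).symm)
      ((hτ1.mul hB).cast (by omega)) (by rw [h.push_mul_bas hτ1 hB hB', hτp, zero_mul])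
  have c2 : ∀ j B, q = j + 1 → Fm (2 * j) B → h.Bas B → dx B = 0 → I (θ * (dx τ * B)) = 0 := by
    intro j B hj hB hB' hd
    have h1 := hI.stokes _ ((hθ1.mul (hτ1.mul hB)).cast (by omega))
    rw [dx_mul hθ1 (hτ1.mul hB), dx_mul hτ1 hB, hd, mul_zero, smul_zero, add_zero, pow_one,
      neg_one_smul, ← sub_eq_add_neg, ← mul_assoc, hθ1.dx.comm_two hτ1, mul_assoc,
      hI.sub ((hτ1.mul (hθ1.dx.mul hB)).cast (by omega))
        ((hθ1.mul (hτ1.dx.mul hB)).cast (by omega)),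
      c1 _ ((hθ1.dx.mul hB).cast (by omega)) (hθ.bas.mul hB'), zero_sub] at h1
    exact neg_eq_zero.1 h1
  have hx : Fm 2 (dx K) := hK.dx
  have hy : Fm 2 (dx (c • θ)) := hθc.dx
  have hyb : h.Bas (dx (c • θ)) := by
    rw [dx_smul hθ1]
    exact hθ.bas.smul c
  have c3 : ∀ i j, i + j = q →
      I (θ * (dx K ^ i * dx (c • θ) ^ j)) = I (θ * dx (c • θ) ^ q) := by
    intro i
    induction i with
    | zero =>
      intro j hj
      rw [pow_zero, one_mul, ← hj, zero_add]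
    | succ i ih =>
      intro j hj
      have hB := (hx.pow i).mul (hy.pow j)
      have e : θ * (dx K ^ (i + 1) * dx (c • θ) ^ j) = θ * (dx τ * (dx K ^ i * dx (c • θ) ^ j)) +
          θ * (dx K ^ i * dx (c • θ) ^ (j + 1)) := by
        rw [← mul_add, hτ, dx_sub hK hθc, pow_succ' (dx (c • θ)), ← mul_assoc (dx K ^ i),
          ← hy.comm_two (hx.pow i), pow_succ', mul_assoc, mul_assoc, sub_mul, sub_add_cancel]
      rw [e, hI.add _ _ ((hθ1.mul (hτ1.dx.mul hB)).cast (by omega))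
        ((hθ1.mul ((hx.pow i).mul (hy.pow (j + 1)))).cast (by omega)), ih _ (by omega),
        c2 (i + j) _ (by omega) (hB.cast (by omega)) ((hb.pow i).mul (hyb.pow j)), zero_add]
      rw [dx_mul (hx.pow i) (hy.pow j), dx_pow hx (dx_dx hK), dx_pow hy (dx_dx hθc), zero_mul,
        mul_zero, smul_zero, add_zero]
  have c4 := c3 q 0 rfl
  rw [pow_zero, mul_one, dx_smul hθ1, smul_pow, mul_smul_comm,
    hI.smul _ _ ((hθ1.mul (hθ1.dx.pow q)).cast (by omega))] at c4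
  have e : K * dx K ^ q = τ * dx K ^ q + c • (θ * dx K ^ q) := by
    rw [hτ, sub_mul, smul_mul_assoc, sub_add_cancel]
  have hq : Fm (2 * q + 1) (θ * dx K ^ q) := (hθ1.mul (hx.pow q)).cast (by omega)
  rw [e, hI.add _ _ ((hτ1.mul (hx.pow q)).cast (by omega)) (hq.smul c), hI.smul _ _ hq, c4,
    c1 _ (hx.pow q) (hb.pow q)]
  ring

/-- A form with `a^* θ = θ + dt` is a multiple of a connection (`fib_dt`, `fib_pull_fst`). -/
theorem Cir.conn_of (h : Cir 𝒟 a l) (hl : 0 < l) {θ : RF 𝒟} (hθ : Fm 1 θ)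
    (he : pull h.sm θ = pull (smo_fst _ _) θ + dx (fn 𝒟.ext fun p => p.2)) :
    h.Conn (l⁻¹ • θ) := by
  have ht : Fm 0 (fn 𝒟.ext fun p => p.2) := fm_fn (smo_snd _ _)
  have hP := hθ.pull (smo_fst 𝒟 (Dif.vec ℝ))
  refine ⟨hθ.smul _, ?_, ?_⟩
  · rw [h.push_smul, Cir.push, he, fib_add hP ht.dx, fib_pull_fst hθ, fib_dt, zero_add, sub_zero,
      Algebra.algebraMap_eq_smul_one, smul_smul, inv_mul_cancel₀ hl.ne', one_smul]
  · rw [dx_smul hθ]
    refine Cir.Bas.smul _ ?_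
    rw [Cir.Bas, ← dx_pull, ← dx_pull, he, dx_add hP ht.dx, dx_dx ht, add_zero]

variable {M : Type*} {𝒟M : Dif M}

/-- Unfold with `loc_fib` twice. For the plot `(Z, f, u)` both sides are scalars; the local
expression of `η` along `(s, t) ↦ F (a (f u, s), t)` is the pull back by
`(s, t) ↦ ((u, s), t)` of the one along `((z, s), t) ↦ F (a (f z, s), t)` (`Fm.nat`); a form of
degree zero is determined by `sc`. -/
theorem Cir.push_fib (h : Cir 𝒟 a l) {η : RF 𝒟M} (hη : Fm 2 η) {F : Y × ℝ → M}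
    (hF : Smo 𝒟.ext 𝒟M F) (b : ℝ) : h.push (fib 0 b (pull hF η)) =
      fn 𝒟 fun v => sgm η (fun p => F (a (v, p.1), p.2)) l b := by
  have h1 : Fm 2 (pull hF η) := hη.pull hF
  have h2 : Fm 1 (fib 0 b (pull hF η)) := Fm.fib (k := 1) h1 0 b
  have h3 : Fm 0 (h.push (fib 0 b (pull hF η))) := h.fm_push (k := 0) h2
  refine rf_ext fun Z f u hp => ?_
  obtain ⟨r, hr⟩ := dg_zero_iff.1 (h3.loc_mem Z f u)
  rw [loc_fn _ hp, hr]
  congr 1
  rw [← sc_alg (Z := Z) r, ← hr]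
  refine (pushb_lin (h2.pull h.sm) 0 l hp sc.toLinearMap).trans ?_
  refine intervalIntegral.integral_congr fun s _ => ?_
  have hp1 := plot_ext hp s
  have hp2 := h.sm _ hp1
  rw [loc_pull h.sm _ hp1]
  refine (pushb_lin h1 0 b hp2 (sc.toLinearMap ∘ₗ
    (pb (Z := Z.ext) (ContinuousLinearMap.inl ℝ Z ℝ)).toLinearMap ∘ₗ
      ct (Z := Z.ext) (0, 1))).trans ?_
  refine intervalIntegral.integral_congr fun t _ => ?_
  have hp3 := plot_ext hp2 t
  have hp4 := hF _ hp3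
  rw [loc_pull hF _ hp3]
  set B : FS.line.ext →L[ℝ] Z.ext.ext :=
    (ContinuousLinearMap.inr ℝ Z ℝ).prodMap (ContinuousLinearMap.id ℝ ℝ) with hB
  have hg : HasFDerivAt (fun p : FS.line.ext => (((u, p.1), p.2) : Z.ext.ext)) B (s, t) :=
    (hasFDerivAt_prodMk_right u s).prodMap (p := (s, t)) (hasFDerivAt_id t)
  have hs : ContDiff ℝ ∞ fun p : ℝ × ℝ => (((u, p.1), p.2) : (Z × ℝ) × ℝ) := by fun_prop
  have e := hη.loc_comp (Z := Z.ext.ext) (f := fun w => F (a (f w.1.1, w.1.2), w.2))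
    (W := FS.line.ext) (g := fun p : ℝ × ℝ => (((u, p.1), p.2) : (Z × ℝ) × ℝ))
    (w := (s, t)) hp4 (sg_of_contDiff hs _)
  rw [hg.fderiv] at e
  refine Eq.trans ?_ (congrArg (evl (Z := FS.line.ext) [(0, 1), (1, 0)]) e).symm
  rw [evl_pb]
  simp only [LinearMap.comp_apply, AlgHom.toLinearMap_apply, sc_pb, ct_pb, List.map, evl]
  rfl

theorem Cir.smo_sgm (h : Cir 𝒟 a l) {η : RF 𝒟M} (hη : Fm 2 η) {F : Y × ℝ → M}
    (hF : Smo 𝒟.ext 𝒟M F) (b : ℝ) :
    Smo 𝒟 (Dif.vec ℝ) fun v => sgm η (fun p => F (a (v, p.1), p.2)) l b := by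
  have h3 : Fm 0 (h.push (fib 0 b (pull hF η))) :=
    h.fm_push (k := 0) (Fm.fib (k := 1) (hη.pull hF) 0 b)
  obtain ⟨g, hg, e⟩ := h3.exists_fn
  rw [h.push_fib hη hF] at e
  rwa [fn_inj e]

/-- The integral of a closed form on the spheres swept by the orbits is locally constant. -/
theorem Cir.sgm_closed {b : ℝ} (h : Cir 𝒟 a l) {η : RF 𝒟M} (hη : Fm 2 η)
    (hc : dx η = 0) {F : Y × ℝ → M} (hF : Smo 𝒟.ext 𝒟M F) (h0 : ∀ v s, F (a (v, s), 0) = F (v, 0))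
    (hb : ∀ v s, F (a (v, s), b) = F (v, b)) :
    Smo 𝒟 (Dif.vec ℝ) (fun v => sgm η (fun p => F (a (v, p.1), p.2)) l b) ∧
      dx (fn 𝒟 fun v => sgm η (fun p => F (a (v, p.1), p.2)) l b) = 0 := by
  refine ⟨h.smo_sgm hη hF b, ?_⟩
  have h1 : Fm 2 (pull hF η) := hη.pull hF
  have h2 : Fm 1 (fib 0 b (pull hF η)) := Fm.fib (k := 1) h1 0 b
  have e := fib_dx h1 0 b
  rw [dx_pull, hc, map_zero, fib_zero, add_zero, pull_pull, pull_pull] at e
  have e2 := h.push_dx h2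
  rw [e, h.push_sub (hη.pull _) (hη.pull _), h.push_bas (hη.pull _) (h.bas_pull _ hb η),
    h.push_bas (hη.pull _) (h.bas_pull _ h0 η), sub_zero, h.push_fib hη hF] at e2
  exact neg_eq_zero.1 e2.symm

end Vale.Agent.P231C
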