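import Vale.Agent.P231C.Core
import Vale.Agent.P231C.PushB

/-! The linking lemma. -/

open scoped ContDiff Topology
open Filter Set

noncomputable section

namespace Vale.Agent.P231C

variable {Y : Type*} {𝒟 : Dif Y} {m : ℕ} {α β K θ : RF 𝒟} {I : RF 𝒟 → ℝ} {a : Y × ℝ → Y}
  {l x y c : ℝ}

/-- `x` is the linking number of `α ^ (m + 1)` with itself, times `m + 2`. -/
def Lnk (I : RF 𝒟 → ℝ) (m : ℕ) (α : RF 𝒟) (x : ℝ) : Prop :=
  ∃ Ψ, Fm (2 * m + 1) Ψ ∧ dx Ψ = ((m : ℝ) + 2) • α ^ (m + 1) ∧ I (Ψ * α ^ (m + 1)) = x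

theorem coreb_smul (hI : Integ 𝒟 (4 * m + 2) I) {ζ ξ : RF 𝒟} (h : Fm (2 * m + 1) ζ) (h' : Fm 2 ξ)
    (r : ℝ) : I (ζ * r • ξ ^ (m + 1)) = r * I (ζ * ξ ^ (m + 1)) := by
  rw [mul_smul_comm, hI.smul _ _ ((h.mul (h'.pow _)).cast (by ring))]

theorem coreb_dx (h : CS m α β K) {ξ : RF 𝒟} {k : ℕ} (h1 : Fm k ξ) (h2 : dx ξ = 0) :
    dx (K * ξ) = (β - α) * ξ := by
  rw [dx_mul h.fk h1, h2, mul_zero, smul_zero, add_zero, h.dk]

theorem coreb_zero (hI : Integ 𝒟 (4 * m + 2) I) (h : CS m α β K) :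
    I (K * (α ^ m * hh α β (m + 1))) = 0 := by
  obtain ⟨Γ, h1, h2⟩ := h.ex
  have h3 : Commute α (hh α β (m + 1)) := h.fa.comm_two (h.fa.hh h.fb _)
  have h4 := hI.stokes _ ((h1.mul (h.fa.pow m)).cast (by ring))
  rwa [dx_mul h1 (h.fa.pow m), dx_pow h.fa h.ca, mul_zero, smul_zero, add_zero, h2, mul_assoc,
    ← (h3.pow_left m).eq] at h4

theorem coreb_fm (h : CS m α β K) : Fm (4 * m + 2 + 1) (K * (α ^ m * β ^ (m + 1))) ∧
    Fm (4 * m + 2 + 1) (K * (α ^ (m + 1) * β ^ m)) :=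
  ⟨(h.fk.mul ((h.fa.pow _).mul (h.fb.pow _))).cast (by ring),
    (h.fk.mul ((h.fa.pow _).mul (h.fb.pow _))).cast (by ring)⟩

/-- Integration by parts for two forms of odd degree. -/
theorem Integ.parts (hI : Integ 𝒟 (4 * m + 2) I) {ζ ζ' : RF 𝒟} (h : Fm (2 * m + 1) ζ)
    (h' : Fm (2 * m + 1) ζ') : I (ζ * dx ζ') = I (ζ' * dx ζ) := by
  have h1 := hI.stokes _ ((h.mul h').cast (by ring))
  rw [dx_mul h h', h.dx.comm h', Even.neg_one_pow ⟨(m + 1) * (2 * m + 1), by ring⟩,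
    Odd.neg_one_pow ⟨m, rfl⟩, one_smul, neg_one_smul, ← sub_eq_add_neg,
    hI.sub ((h'.mul h.dx).cast (by ring)) ((h.mul h'.dx).cast (by ring))] at h1
  exact (sub_eq_zero.1 h1).symm

theorem Lnk.unique (hI : Integ 𝒟 (4 * m + 2) I) (hα : Fm 2 α) (h : Lnk I m α x)
    (h' : Lnk I m α y) : x = y := by
  obtain ⟨Ψ, h1, h2, rfl⟩ := h
  obtain ⟨Ψ', h1', h2', rfl⟩ := h'
  have h3 := hI.parts h1 h1'
  rw [h2, h2', coreb_smul hI h1 hα, coreb_smul hI h1' hα] at h3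
  exact mul_left_cancel₀ (by positivity) h3

/-- With `T = K * hh α β m` one has `dx T = β ^ (m + 1) - α ^ (m + 1)`; take `Ψ + (m + 2) • T`. The
difference of the two integrals is `(m + 2) * I (T * (α ^ (m + 1) + β ^ (m + 1)))`
(`Integ.parts`), and this is the integral of `dx (Γ * α ^ m)` (`hh_mul_add`). -/
theorem CS.lnk (hI : Integ 𝒟 (4 * m + 2) I) (h : CS m α β K) (hx : Lnk I m α x) :
    Lnk I m β x := by
  obtain ⟨Ψ, h1, h2, rfl⟩ := hx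
  have hc : Commute α β := h.fa.comm_two h.fb
  have hT : Fm (2 * m + 1) (K * hh α β m) := (h.fk.mul (h.fa.hh h.fb m)).cast (by ring)
  have hd : dx (K * hh α β m) = β ^ (m + 1) - α ^ (m + 1) := by
    rw [coreb_dx h (h.fa.hh h.fb m) (dx_hh h.fa h.fb h.ca h.cb m), sub_mul_hh hc]
  have f : ∀ {ζ ξ : RF 𝒟}, Fm (2 * m + 1) ζ → Fm 2 ξ → Fm (4 * m + 2 + 1) (ζ * ξ ^ (m + 1)) :=
    fun a b => (a.mul (b.pow _)).cast (by ring)
  refine ⟨Ψ + ((m : ℝ) + 2) • (K * hh α β m), h1.add (hT.smul _), ?_, ?_⟩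
  · rw [dx_add h1 (hT.smul _), dx_smul hT, h2, hd, ← smul_add, add_sub_cancel]
  · have h3 := hI.parts h1 hT
    rw [hd, h2, mul_sub, hI.sub (f h1 h.fb) (f h1 h.fa), coreb_smul hI hT h.fa] at h3
    have h4 := coreb_zero hI h
    rw [← hh_mul_add hc h.na h.nb, ← mul_assoc, mul_add, hI.add _ _ (f hT h.fa) (f hT h.fb)] at h4
    rw [add_mul, smul_mul_assoc, hI.add _ _ (f h1 h.fb) ((f hT h.fb).smul _),
      hI.smul _ _ (f hT h.fb)]
    linear_combination h3 + ((m : ℝ) + 2) * h4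

/-- `pow_mul_hh` and the integral of `dx (Γ * α ^ m)`. -/
theorem CS.anti (hI : Integ 𝒟 (4 * m + 2) I) (h : CS m α β K) :
    I (K * (α ^ m * β ^ (m + 1))) = -I (K * (α ^ (m + 1) * β ^ m)) := by
  have h1 := coreb_zero hI h
  rw [pow_mul_hh h.na, mul_add, hI.add _ _ (coreb_fm h).1 (coreb_fm h).2] at h1
  exact eq_neg_of_add_eq_zero_left h1

/-- Apply `push` to `dx Γ = K * hh α β (m + 1)`: `c • hh α β (m + 1) = -dx (push Γ)`. Also
`hh α β (m + 1) = (m + 2) • α ^ (m + 1) + dx (K * hh3 α α β m)` (`hh3_right`, `hh_self`). Finally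
`push Γ * α ^ (m + 1) = push (Γ * α ^ (m + 1)) = 0` by the rank condition, and `hh3_mul_pow`. -/
theorem CS.prim (hI : Integ 𝒟 (4 * m + 2) I) (ha : Cir 𝒟 a l) (h : CS m α β K)
    (b1 : ha.Bas α) (b2 : ha.Bas β) (hc : c ≠ 0) (hp : ha.push K = algebraMap ℝ _ c) :
    ∃ Γ, Fm (2 * m + 2) Γ ∧ Fm (2 * m + 1) ((-c⁻¹) • ha.push Γ - K * hh3 α α β m) ∧
      dx ((-c⁻¹) • ha.push Γ - K * hh3 α α β m) = ((m : ℝ) + 2) • α ^ (m + 1) ∧
      I (((-c⁻¹) • ha.push Γ - K * hh3 α α β m) * α ^ (m + 1)) =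
        -I (K * (α ^ (m + 1) * β ^ m)) := by
  obtain ⟨Γ, h1, h2⟩ := h.ex
  have hc' : Commute α β := h.fa.comm_two h.fb
  have f1 : Fm (2 * m + 1) (ha.push Γ) := ha.fm_push h1
  have f2 : Fm (2 * m + 1) (K * hh3 α α β m) := (h.fk.mul (h.fa.hh3 h.fa h.fb m)).cast (by ring)
  refine ⟨Γ, h1, (f1.smul _).sub f2, ?_, ?_⟩
  · have h3 := ha.push_dx h1
    rw [h2, ha.push_mul_bas h.fk (h.fa.hh h.fb _) (b1.hh b2 _), hp, ← Algebra.smul_def] at h3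
    rw [dx_sub (f1.smul _) f2, dx_smul f1, neg_smul, ← smul_neg, ← h3, inv_smul_smul₀ hc,
      coreb_dx h (h.fa.hh3 h.fa h.fb m) (dx_hh3 h.fa h.fa h.fb h.ca h.ca h.cb m),
      hh3_right (Commute.refl α) hc' hc', sub_sub_cancel, hh_self, Algebra.smul_def, map_add,
      map_natCast, map_ofNat, Nat.cast_succ, add_assoc, one_add_one_eq_two]
  · rw [sub_mul, smul_mul_assoc, ← ha.push_mul_bas h1 (h.fa.pow _) (b1.pow _),
      hI.rank.eq_zero (h1.mul (h.fa.pow (m + 1))) (by omega), ha.push_zero, smul_zero, zero_sub,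
      mul_assoc, hh3_mul_pow hc' h.na, hI.neg (coreb_fm h).2]

/-- `sub_pow_odd`, `CS.anti`, `Cir.chern` with `q = 2 * m + 1`, and
`(2 m + 2).choose (m + 1) = 2 * (2 m + 1).choose m`. -/
theorem CS.chern (hI : Integ 𝒟 (4 * m + 2) I) (ha : Cir 𝒟 a l) (h : CS m α β K)
    (b1 : ha.Bas α) (b2 : ha.Bas β) (hp : ha.push K = algebraMap ℝ _ c) (hθ : ha.Conn θ) :
    c ^ (2 * m + 2) * |I (θ * dx θ ^ (2 * m + 1))| =
      ((2 * m + 2).choose (m + 1) : ℕ) * |I (K * (α ^ (m + 1) * β ^ m))| := by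
  have e : 4 * m + 2 = 2 * (2 * m + 1) := by ring
  have h1 := ha.chern (q := 2 * m + 1) (e ▸ hI) h.fk (h.dk ▸ b2.sub b1) hp hθ
  rw [h.dk, sub_pow_odd (h.fa.comm_two h.fb) h.na h.nb, mul_smul_comm, mul_sub,
    hI.smul _ _ ((coreb_fm h).1.sub (coreb_fm h).2), hI.sub (coreb_fm h).1 (coreb_fm h).2,
    h.anti hI] at h1
  have h2 : (0 : ℝ) ≤ c ^ (2 * m + 2) := Even.pow_nonneg ⟨m + 1, by ring⟩ c
  rw [← abs_of_nonneg h2, ← abs_mul, ← h1, Nat.choose_succ_succ' (2 * m + 1) m,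
    Nat.choose_symm_half, abs_mul, abs_mul, abs_pow, abs_neg, abs_one, one_pow, one_mul,
    Nat.abs_cast, ← neg_add', abs_neg, ← two_mul, abs_mul, abs_two, Nat.cast_add]
  ring

/-- The Chern number is bounded by the linking number. -/
theorem CS.core (hI : Integ 𝒟 (4 * m + 2) I) (ha : Cir 𝒟 a l) (h : CS m α β K)
    (b1 : ha.Bas α) (b2 : ha.Bas β) (hc : 1 ≤ |c|) (hp : ha.push K = algebraMap ℝ _ c)
    (hθ : ha.Conn θ) (hx : Lnk I m α x) :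
    |I (θ * dx θ ^ (2 * m + 1))| ≤ (2 * m + 2).choose (m + 1) * |x| := by
  obtain ⟨Γ, -, h1, h2, h3⟩ := h.prim hI ha b1 b2 (abs_pos.1 (one_pos.trans_le hc)) hp
  rw [hx.unique hI h.fa ⟨_, h1, h2, h3⟩, abs_neg, ← h.chern hI ha b1 b2 hp hθ]
  refine le_mul_of_one_le_left (abs_nonneg _) ?_
  rw [← Even.pow_abs ⟨m + 1, by ring⟩]
  exact one_le_pow₀ hc

end Vale.Agent.P231C
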