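import Vale.Agent.P231C.DifC

/-! The curvature form of a family of complex lines. -/

open scoped ContDiff Topology
open Filter Set

noncomputable section

namespace Vale.Agent.P231C

variable {V : Type*} [NormedAddCommGroup V] [InnerProductSpace ℝ V] {i : V →L[ℝ] V}

theorem Cx.orth (hi : Cx i) (a : V) : Inner.inner ℝ (i a) a = 0 := by
  have h := hi.inner (i a) a
  rw [hi.sq, inner_neg_left, real_inner_comm] at h
  linarith

theorem Cx.skew (hi : Cx i) (a b : V) : Inner.inner ℝ (i a) b = -Inner.inner ℝ a (i b) := by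
  rw [← hi.inner a (i b), hi.sq, inner_neg_right, neg_neg]

theorem curv_apply (i : V →L[ℝ] V) (s v : V) :
    prj i s v = Inner.inner ℝ s v • s + Inner.inner ℝ (i s) v • i s := rfl

theorem curv_one {s : V} (hs : ‖s‖ = 1) : Inner.inner ℝ s s = 1 := by
  rw [real_inner_self_eq_norm_sq, hs, one_pow]

theorem prj_fix (hi : Cx i) {s : V} (hs : ‖s‖ = 1) : prj i s s = s := by
  rw [curv_apply, curv_one hs, hi.orth, one_smul, zero_smul, add_zero]

theorem prj_prj (hi : Cx i) {s : V} (hs : ‖s‖ = 1) (v : V) : prj i s (prj i s v) = prj i s v := by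
  have h1 : prj i s (i s) = i s := by
    rw [curv_apply, real_inner_comm, hi.orth, hi.inner, curv_one hs, one_smul, zero_smul, zero_add]
  conv_lhs => rw [curv_apply i s v, map_add, map_smul, map_smul, prj_fix hi hs, h1]
  rfl

theorem curv_sq (hi : Cx i) {s : V} (hs : ‖s‖ = 1) {a b : ℝ} (h : ‖a • s + b • i s‖ = 1) :
    a ^ 2 + b ^ 2 = 1 := by
  have h1 := curv_one h
  have h2 := hi.orth s
  simp only [inner_add_left, inner_add_right, real_inner_smul_left, real_inner_smul_right,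
    hi.inner, curv_one hs, real_inner_comm (i s) s, h2] at h1
  linarith

/-- A unit vector of the line spans the line. -/
theorem prj_eq (hi : Cx i) {s s' : V} (hs : ‖s‖ = 1) (hs' : ‖s'‖ = 1) (h : prj i s s' = s') :
    prj i s = prj i s' := by
  rw [curv_apply] at h
  generalize Inner.inner ℝ s s' = a at h
  generalize Inner.inner ℝ (i s) s' = b at h
  subst h
  have h1 := curv_sq hi hs hs'
  ext v
  rw [curv_apply, curv_apply]
  simp only [map_add, map_smul, hi.sq, inner_add_left, real_inner_smul_left, inner_neg_left]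
  match_scalars
  · linear_combination (-Inner.inner ℝ s v) * h1
  · linear_combination (-Inner.inner ℝ (i s) v) * h1

/-- Local unit sections: normalize `P z s₀`. -/
theorem exists_section (hi : Cx i) {Z : Type*} [NormedAddCommGroup Z] [NormedSpace ℝ Z]
    {Q : Z → V →L[ℝ] V} {u : Z} (hQ : Sg Q u) (hl : ∀ z, ∃ s, ‖s‖ = 1 ∧ Q z = prj i s) :
    ∃ s : Z → V, Sg s u ∧ ∀ᶠ z in 𝓝 u, ‖s z‖ = 1 ∧ Q z (s z) = s z := by
  obtain ⟨s0, h0, e0⟩ := hl u
  have h1 : ∀ᶠ z in 𝓝 u, ContDiffAt ℝ ∞ (fun z => Q z s0) z :=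
    hQ.mono fun z hz => hz.clm_apply contDiffAt_const
  have h2 : Q u s0 ≠ 0 := by
    rw [e0, prj_fix hi h0, ← norm_ne_zero_iff, h0]
    exact one_ne_zero
  have h3 : ∀ᶠ z in 𝓝 u, Q z s0 ≠ 0 := h1.self_of_nhds.continuousAt.eventually_ne h2
  refine ⟨fun z => ‖Q z s0‖⁻¹ • Q z s0, ?_, ?_⟩
  · filter_upwards [h1, h3] with z a b
    exact ((a.norm ℝ b).inv (norm_ne_zero_iff.2 b)).smul a
  · filter_upwards [h3] with z b
    obtain ⟨s, h4, e⟩ := hl z
    refine ⟨norm_smul_inv_norm b, ?_⟩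
    rw [map_smul, e, prj_prj hi h4]

theorem curv_cd {Z : FS} {s : Z → V} {u : Z} (hs : ContDiffAt ℝ ∞ s u) : ContDiffAt ℝ ∞
    (fun z => (2 * Real.pi)⁻¹ • (innerSL ℝ (i (s z))).comp (fderiv ℝ s z)) u :=
  (((innerSL ℝ (E := V)).contDiff.contDiffAt.comp u (i.contDiff.contDiffAt.comp u hs)).clm_comp
    (hs.fderiv_right (by exact_mod_cast le_top))).const_smul _

theorem curv_evl (hi : Cx i) {Z : FS} {s : Z → V} {u : Z} (hs : ContDiffAt ℝ ∞ s u) (v w : Z) :
    evl [v, w] (dd (cn i s) u) =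
      2 * (2 * Real.pi)⁻¹ * Inner.inner ℝ (i (fderiv ℝ s u v)) (fderiv ℝ s u w) := by
  have hA := (curv_cd (i := i) hs).differentiableAt (by simp)
  have h1 : DifferentiableAt ℝ s u := hs.differentiableAt (by simp)
  have h2 : DifferentiableAt ℝ (fderiv ℝ s) u :=
    (hs.fderiv_right (m := ∞) (by exact_mod_cast le_top)).differentiableAt (by simp)
  have h3 : ∀ v w : Z, fderiv ℝ
      (fun z => (2 * Real.pi)⁻¹ • (innerSL ℝ (i (s z))).comp (fderiv ℝ s z)) u v w =
      (2 * Real.pi)⁻¹ * (Inner.inner ℝ (i (s u)) (fderiv ℝ (fderiv ℝ s) u v w) +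
        Inner.inner ℝ (i (fderiv ℝ s u v)) (fderiv ℝ s u w)) := fun v w => by
    have e1 := congrArg (fun A => A v) (fderiv_clm_apply hA (differentiableAt_const w))
    have e2 := congrArg (fun A => A v) (fderiv_clm_apply h2 (differentiableAt_const w))
    simp only [fderiv_fun_const, Pi.zero_apply, ContinuousLinearMap.comp_zero, zero_add,
      ContinuousLinearMap.flip_apply] at e1 e2
    have h4 : DifferentiableAt ℝ (fun z => i (s z)) u := i.differentiableAt.comp u h1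
    have h5 : DifferentiableAt ℝ (fun z => fderiv ℝ s z w) u :=
      h2.clm_apply (differentiableAt_const w)
    have e3 : fderiv ℝ (fun z => i (s z)) u v = i (fderiv ℝ s u v) :=
      congrArg (fun A => A v) (i.hasFDerivAt.comp u h1.hasFDerivAt).fderiv
    rw [← e1, ← e2, ← e3, ← fderiv_inner_apply ℝ h4 h5]
    exact congrArg (fun A => A v) (fderiv_const_mul (h4.inner ℝ h5) (2 * Real.pi)⁻¹)
  have h4 := (hs.isSymmSndFDerivAt (by simp; norm_cast)).eq v w
  have h5 := evl_dd_io hA v w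
  rw [h3, h3, h4, hi.skew (fderiv ℝ s u w), real_inner_comm (i (fderiv ℝ s u v))] at h5
  refine Eq.trans h5 ?_
  ring

theorem curv_alg (hi : Cx i) {s p q : V} {a b α β α' β' : ℝ} (hs : ‖s‖ = 1)
    (hp : Inner.inner ℝ s p = 0) (hq : Inner.inner ℝ s q = 0) (h1 : a ^ 2 + b ^ 2 = 1)
    (h2 : a * α + b * β = 0) (h3 : a * α' + b * β' = 0) :
    Inner.inner ℝ (i (a • p + α • s + (b • i p + β • i s))) (a • q + α' • s + (b • i q + β' • i s)) =
      Inner.inner ℝ (i p) q := by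
  have e1 := hi.orth s
  have e2 := hi.skew s q
  have e3 := hi.skew p s
  have e4 := hi.skew p q
  have e5 : Inner.inner ℝ p s = 0 := by rw [real_inner_comm, hp]
  have e6 : Inner.inner ℝ s (i s) = 0 := by rw [real_inner_comm, e1]
  simp only [map_add, map_smul, hi.sq, inner_add_left, inner_add_right, real_inner_smul_left,
    real_inner_smul_right, inner_neg_left, hi.inner, curv_one hs, e1, e2, e3, e4, e5, e6, hq]
  linear_combination (-Inner.inner ℝ p (i q) - (α * β' - β * α')) * h1 +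
    (-Inner.inner ℝ s (i q) + (a * β' - b * α')) * h2 +
    (-Inner.inner ℝ p (i s) + (b * α - a * β)) * h3

theorem curv_zero {Z : FS} {g : Z → ℝ} {u : Z} (h : ∀ᶠ z in 𝓝 u, g z = 1) (v : Z) :
    fderiv ℝ g u v = 0 := by
  rw [EventuallyEq.fderiv_eq (f := fun _ => (1 : ℝ)) h]
  simp

/-- Two unit sections of one family of lines: `s' = a • s + b • i s` with `a ^ 2 + b ^ 2 = 1`,
`cn s' = cn s + (2 π)⁻¹ • (a db - b da)`, and `da * db = 0` because `a da + b db = 0`. -/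
theorem dd_cn_eq (hi : Cx i) {Z : FS} {s s' : Z → V} {u : Z} (hs : Sg s u) (hs' : Sg s' u)
    (h : ∀ᶠ z in 𝓝 u, ‖s z‖ = 1 ∧ ‖s' z‖ = 1 ∧ prj i (s z) (s' z) = s' z) :
    dd (cn i s) u = dd (cn i s') u := by
  refine dg_ext_two (dd_mem (k := 1) (Eventually.of_forall fun _ => io_mem _))
    (dd_mem (k := 1) (Eventually.of_forall fun _ => io_mem _)) fun v w => ?_
  rw [curv_evl hi hs.self_of_nhds, curv_evl hi hs'.self_of_nhds]
  have d1 : DifferentiableAt ℝ s u := hs.self_of_nhds.differentiableAt (by simp)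
  have d2 : DifferentiableAt ℝ s' u := hs'.self_of_nhds.differentiableAt (by simp)
  have d3 : HasFDerivAt (fun z => i (s z)) (i.comp (fderiv ℝ s u)) u :=
    i.hasFDerivAt.comp u d1.hasFDerivAt
  have da : DifferentiableAt ℝ (fun z => Inner.inner ℝ (s z) (s' z)) u := d1.inner ℝ d2
  have db : DifferentiableAt ℝ (fun z => Inner.inner ℝ (i (s z)) (s' z)) u :=
    d3.differentiableAt.inner ℝ d2
  have hab : ∀ᶠ z in 𝓝 u, s' z = Inner.inner ℝ (s z) (s' z) • s z +
      Inner.inner ℝ (i (s z)) (s' z) • i (s z) := h.mono fun z hz => hz.2.2.symm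
  have hsq : ∀ᶠ z in 𝓝 u, Inner.inner ℝ (s z) (s' z) ^ 2 +
      Inner.inner ℝ (i (s z)) (s' z) ^ 2 = 1 :=
    h.mono fun z hz => curv_sq hi hz.1 ((congrArg norm hz.2.2).trans hz.2.1)
  obtain ⟨a, ha⟩ : ∃ a : Z → ℝ, a = fun z => Inner.inner ℝ (s z) (s' z) := ⟨_, rfl⟩
  obtain ⟨b, hb⟩ : ∃ b : Z → ℝ, b = fun z => Inner.inner ℝ (i (s z)) (s' z) := ⟨_, rfl⟩
  rw [← ha] at da
  rw [← hb] at db
  replace hab : s' =ᶠ[𝓝 u] fun z => a z • s z + b z • i (s z) := by
    rw [ha, hb]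
    exact hab
  replace hsq : ∀ᶠ z in 𝓝 u, a z * a z + b z * b z = 1 := by
    rw [ha, hb]
    exact hsq.mono fun z hz => by simpa only [sq] using hz
  have e1 : ∀ v, fderiv ℝ s' u v = a u • fderiv ℝ s u v + fderiv ℝ a u v • s u +
      (b u • i (fderiv ℝ s u v) + fderiv ℝ b u v • i (s u)) := fun v => by
    rw [hab.fderiv_eq]
    exact congrArg (fun A => A v)
      ((da.hasFDerivAt.fun_smul d1.hasFDerivAt).fun_add (db.hasFDerivAt.fun_smul d3)).fderiv
  have e2 : ∀ v, Inner.inner ℝ (s u) (fderiv ℝ s u v) = 0 := fun v => by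
    have h1 := curv_zero (h.mono fun z hz => curv_one hz.1) v
    rw [fderiv_inner_apply ℝ d1 d1, real_inner_comm (s u)] at h1
    linarith
  have e3 : ∀ v, a u * fderiv ℝ a u v + b u * fderiv ℝ b u v = 0 := fun v => by
    have h1 := curv_zero hsq v
    rw [((da.hasFDerivAt.fun_mul da.hasFDerivAt).fun_add
      (db.hasFDerivAt.fun_mul db.hasFDerivAt)).fderiv] at h1
    simp only [ContinuousLinearMap.add_apply, ContinuousLinearMap.smul_apply, smul_eq_mul] at h1
    linarith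
  rw [e1, e1, curv_alg hi h.self_of_nhds.1 (e2 v) (e2 w) (by rw [sq, sq]; exact hsq.self_of_nhds)
    (e3 v) (e3 w)]

theorem sg_cn {Z : FS} {s : Z → V} {u : Z} (hs : Sg s u) : Sg (cn i s) u := by
  exact hs.mono fun _ h => cd_io (curv_cd h)

theorem cn_comp {Z W : FS} {s : Z → V} {g : W → Z} {w : W} (hs : DifferentiableAt ℝ s (g w))
    (hg : DifferentiableAt ℝ g w) :
    cn i (fun w' => s (g w')) w = pb (fderiv ℝ g w) (cn i s (g w)) := by
  rw [cn, cn, pb_io, fderiv_fun_comp w hs hg]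
  rfl

variable {M : Type*} {𝒟M : Dif M} {P : M → V →L[ℝ] V}

/-- Define `η p = dd (cn i (σ p)) p.u` with a chosen local section `σ p`. -/
theorem exists_curv (hi : Cx i) (hP : Smo 𝒟M (Dif.vec (V →L[ℝ] V)) P)
    (hl : ∀ y, ∃ s, ‖s‖ = 1 ∧ P y = prj i s) : ∃ η, Curv 𝒟M i P η := by
  have h0 : ∀ p : {p : Plot M // 𝒟M.P p}, ∃ s : p.1.Z → V, Sg s p.1.u ∧
      ∀ᶠ z in 𝓝 p.1.u, ‖s z‖ = 1 ∧ P (p.1.f z) (s z) = s z := fun p =>
    exists_section hi (Q := fun z => P (p.1.f z)) (hP _ p.2) fun z => hl _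
  choose σ h1 h2 using h0
  let η : RF 𝒟M := fun p => dd (cn i (σ p)) p.1.u
  have h3 : ∀ (Z : FS) (f : Z → M) (u : Z) (s : Z → V), 𝒟M.P ⟨Z, f, u⟩ → Sg s u →
      (∀ᶠ z in 𝓝 u, ‖s z‖ = 1 ∧ P (f z) (s z) = s z) → loc η Z f u = dd (cn i s) u := by
    intro Z f u s h hs hs'
    rw [loc_eq _ h]
    refine dd_cn_eq hi (h1 ⟨_, h⟩) hs ?_
    filter_upwards [h2 ⟨_, h⟩, hs'] with z a b
    obtain ⟨s0, c, e⟩ := hl (f z)
    refine ⟨a.1, b.1, ?_⟩
    rw [← prj_eq hi c a.1 (e ▸ a.2), ← e, b.2]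
  have h4 : ∀ (Z : FS) (f : Z → M) (u : Z) (h : 𝒟M.P ⟨Z, f, u⟩),
      loc η Z f =ᶠ[𝓝 u] dd (cn i (σ ⟨_, h⟩)) := fun Z f u h => by
    filter_upwards [𝒟M.ev h, eventually_eventually_nhds.2 (h1 ⟨_, h⟩),
      eventually_eventually_nhds.2 (h2 ⟨_, h⟩)] with z a b c
    exact h3 Z f z _ a b c
  refine ⟨η, hi, hP, hl, ⟨fun p => dd_mem (k := 1) (Eventually.of_forall fun _ => io_mem _),
    fun Z f u h => ?_, fun Z W f g w f' h hg he => ?_⟩, rf_ext fun Z f u h => ?_, h3⟩
  · exact (cd_dd (sg_cn (h1 ⟨_, h⟩)).self_of_nhds).congr_of_eventuallyEq (h4 Z f u h)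
  · have hs : Sg (σ ⟨_, h⟩) (g w) := h1 ⟨_, h⟩
    have hc := hg.self_of_nhds.continuousAt
    rw [h3 W f' w (fun w' => σ ⟨_, h⟩ (g w')) (𝒟M.comp h hg he)
      (hs.comp' hg (Eventually.of_forall fun _ => rfl)) ?_, (h4 Z f _ h).self_of_nhds,
      ← dd_pb (hg.self_of_nhds.of_le (by norm_cast))
        ((sg_cn hs).self_of_nhds.differentiableAt (by simp))]
    · refine dd_congr ?_
      filter_upwards [hc.eventually hs, hg] with w' a b
      exact cn_comp (a.differentiableAt (by simp)) (b.differentiableAt (by simp))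
    · filter_upwards [hc.eventually (h2 ⟨_, h⟩), he] with w' a b
      rw [b]
      exact a
  · rw [loc_dx _ h, loc_zero, dd_congr (h4 Z f u h),
      dd_dd ((sg_cn (h1 ⟨_, h⟩)).self_of_nhds.of_le (by norm_cast))]

end Vale.Agent.P231C
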