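import Vale.Agent.P231C.LamA

/-! Values of forms on families of vectors. -/

noncomputable section

namespace Vale.Agent.P231C

variable {Z W U : FS} {k l n : ℕ} {a b : Lam Z}

theorem evl_add (L : List Z) (a b : Lam Z) : evl L (a + b) = evl L a + evl L b := by
  induction L generalizing a b with
  | nil => exact map_add sc a b
  | cons v L ih => simp only [evl, map_add, ih]

theorem evl_smul (L : List Z) (c : ℝ) (a : Lam Z) : evl L (c • a) = c * evl L a := by
  induction L generalizing a with
  | nil => exact map_smul sc c a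
  | cons v L ih => simp only [evl, map_smul, ih]

/-- `top v` as a linear map. -/
def topL (v : Fin n → Z) : Lam Z →ₗ[ℝ] ℝ where
  toFun := top v
  map_add' := evl_add _
  map_smul' := evl_smul _

theorem topL_apply (v : Fin n → Z) (a : Lam Z) : topL v a = top v a := rfl

theorem evl_pb (A : W →L[ℝ] Z) (L : List W) (a : Lam Z) :
    evl L (pb A a) = evl (L.map A) a := by
  induction L generalizing a with
  | nil => exact sc_pb A a
  | cons v L ih => simp only [evl, List.map_cons, ct_pb, ih]

theorem top_pb (A : W →L[ℝ] Z) (v : Fin n → W) (a : Lam Z) :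
    top v (pb A a) = top (fun i => A (v i)) a := by
  rw [top, top, evl_pb, List.map_ofFn]
  rfl

theorem lamt_zero (L : List Z) : evl L (0 : Lam Z) = 0 := by
  rw [← zero_smul ℝ (0 : Lam Z), evl_smul, zero_mul]

theorem lamt_neg (L : List Z) (a : Lam Z) : evl L (-a) = -evl L a := by
  rw [← neg_one_smul ℝ a, evl_smul, neg_one_mul]

theorem lamt_sub (L : List Z) (a b : Lam Z) : evl L (a - b) = evl L a - evl L b := by
  rw [sub_eq_add_neg, evl_add, lamt_neg, sub_eq_add_neg]

theorem evl_eq_zero (L : List Z) (ha : a ∈ Dg Z k) (h : L.length ≠ k) : evl L a = 0 := by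
  induction L generalizing a k with
  | nil =>
    obtain ⟨k, rfl⟩ := Nat.exists_eq_succ_of_ne_zero (Ne.symm h)
    exact sc_eq_zero ha
  | cons v L ih =>
    rcases k with _ | k
    · obtain ⟨c, rfl⟩ := dg_zero_iff.1 ha
      rw [evl, ct_alg, lamt_zero]
    · exact ih (ct_mem v ha) fun e => h (by rw [List.length_cons, e])

theorem evl_io (v : Z) (f : Z →L[ℝ] ℝ) : evl [v] (io f) = f v := by
  rw [evl, evl, ct_io, sc_alg]

theorem evl_io_io (u v : Z) (f g : Z →L[ℝ] ℝ) :
    evl [u, v] (io f * io g) = f u * g v - f v * g u := by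
  rw [evl, ct_io_mul, lamt_sub, evl_smul, evl_io, ct_io, ← Algebra.commutes, ← Algebra.smul_def,
    evl_smul, evl_io, mul_comm (g u)]

theorem lamt_succ (v : Fin (n + 1) → Z) (a : Lam Z) :
    top v a = top (Fin.tail v) (ct (v 0) a) := by
  rw [top, List.ofFn_succ]
  rfl

theorem lamt_upd_add (a : Lam Z) (v : Fin n → Z) (i : Fin n) (x y : Z) :
    top (Function.update v i (x + y)) a =
      top (Function.update v i x) a + top (Function.update v i y) a := by
  induction n generalizing a with
  | zero => exact i.elim0
  | succ n ih =>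
    simp only [lamt_succ]
    induction i using Fin.cases with
    | zero =>
      simp only [Fin.tail_update_zero, Function.update_self, ct_add]
      exact evl_add _ _ _
    | succ j =>
      simp only [Fin.tail_update_succ, Function.update_of_ne (Fin.succ_ne_zero j).symm]
      exact ih _ _ _

theorem lamt_upd_smul (a : Lam Z) (v : Fin n → Z) (i : Fin n) (c : ℝ) (x : Z) :
    top (Function.update v i (c • x)) a = c • top (Function.update v i x) a := by
  induction n generalizing a with
  | zero => exact i.elim0
  | succ n ih =>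
    simp only [lamt_succ]
    induction i using Fin.cases with
    | zero =>
      simp only [Fin.tail_update_zero, Function.update_self, ct_smul]
      exact evl_smul _ _ _
    | succ j =>
      simp only [Fin.tail_update_succ, Function.update_of_ne (Fin.succ_ne_zero j).symm]
      exact ih _ _ _

theorem lamt_mem (L : List Z) (x : Z) (a : Lam Z) (h : x ∈ L) : evl L (ct x a) = 0 := by
  induction L generalizing a with
  | nil => exact absurd h List.not_mem_nil
  | cons y L ih =>
    rw [evl]
    rcases List.mem_cons.1 h with rfl | h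
    · rw [ct_ct, lamt_zero]
    · rw [ct_anti, lamt_neg, ih _ h, neg_zero]

theorem lamt_nodup (L : List Z) (a : Lam Z) (h : ¬L.Nodup) : evl L a = 0 := by
  induction L generalizing a with
  | nil => exact absurd List.nodup_nil h
  | cons y L ih =>
    rw [evl]
    by_cases hy : y ∈ L
    · exact lamt_mem L y a hy
    · exact ih _ fun hn => h (List.nodup_cons.2 ⟨hy, hn⟩)

/-- `v ↦ top v a` is an alternating multilinear map (`ct_add`, `ct_smul`, `ct_ct`, `ct_anti`). -/
theorem exists_alternating (a : Lam Z) (n : ℕ) :
    ∃ f : AlternatingMap ℝ Z ℝ (Fin n), ∀ v, f v = top v a := by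
  refine ⟨⟨⟨fun v => top v a, fun {inst} v i x y => ?_, fun {inst} v i c x => ?_⟩,
    fun v i j h hij => lamt_nodup _ a fun hn => hij (List.nodup_ofFn.1 hn h)⟩, fun _ => rfl⟩
  · obtain rfl : inst = instDecidableEqFin n := Subsingleton.elim _ _
    exact lamt_upd_add a v i x y
  · obtain rfl : inst = instDecidableEqFin n := Subsingleton.elim _ _
    exact lamt_upd_smul a v i c x

/-- `AlternatingMap.eq_smul_basis_det`, `Module.Basis.det_comp`. -/
theorem top_det (v : Module.Basis (Fin n) ℝ Z) (A : Z →L[ℝ] Z) (a : Lam Z) :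
    top v (pb A a) = LinearMap.det A.toLinearMap * top v a := by
  obtain ⟨f, hf⟩ := exists_alternating a n
  have h1 := v.det_comp A.toLinearMap v
  have h2 := congrArg (fun g : AlternatingMap ℝ Z ℝ (Fin n) => g (A.toLinearMap ∘ v))
    (f.eq_smul_basis_det v)
  simp only [AlternatingMap.smul_apply, smul_eq_mul] at h2
  rw [h1, v.det_self, mul_one, mul_comm] at h2
  rw [top_pb, ← hf, ← hf]
  exact h2

theorem lamt_euler (ha : a ∈ Dg Z k) :
    ∑ i, io (LinearMap.toContinuousLinearMap ((Module.finBasis ℝ Z).coord i)) *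
      ct (Module.finBasis ℝ Z i) a = (k : ℝ) • a := by
  refine dg_induction (p := fun k a =>
    ∑ i, io (LinearMap.toContinuousLinearMap ((Module.finBasis ℝ Z).coord i)) *
      ct (Module.finBasis ℝ Z i) a = (k : ℝ) • a) (fun c => ?_)
    (fun j x y _ _ hx hy => ?_) (fun j f x _ hx => ?_) ha
  · simp only [ct_alg, mul_zero, Finset.sum_const_zero, Nat.cast_zero, zero_smul]
  · simp only [map_add, mul_add, Finset.sum_add_distrib, hx, hy, smul_add]
  · have h1 : ∑ i, f (Module.finBasis ℝ Z i) •
        LinearMap.toContinuousLinearMap ((Module.finBasis ℝ Z).coord i) = f := by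
      ext z
      have h3 := congrArg f ((Module.finBasis ℝ Z).sum_repr z)
      rw [map_sum] at h3
      simpa [mul_comm] using h3
    have h2 : ∀ g : Z →L[ℝ] ℝ, ∀ (r : ℝ) (y : Lam Z),
        io g * (r • x - io f * y) = io (r • g) * x + io f * (io g * y) := fun g r y => by
      rw [mul_sub, ← mul_assoc, lama_swap g f, neg_mul, sub_neg_eq_add, mul_assoc, map_smul,
        mul_smul_comm, smul_mul_assoc]
    simp only [ct_io_mul, h2]
    rw [Finset.sum_add_distrib, ← Finset.sum_mul, ← Finset.mul_sum, ← map_sum, h1, hx,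
      mul_smul_comm, Nat.cast_succ, add_smul, one_smul, add_comm]

theorem lamt_ext (ha : a ∈ Dg Z k) (h : ∀ L : List Z, L.length = k → evl L a = 0) : a = 0 := by
  induction k generalizing a with
  | zero =>
    obtain ⟨c, rfl⟩ := dg_zero_iff.1 ha
    have h1 : c = 0 := (sc_alg (Z := Z) c).symm.trans (h [] rfl)
    rw [h1, map_zero]
  | succ k ih =>
    have h1 : ∀ v, ct v a = 0 := fun v =>
      ih (ct_mem v ha) fun L hL => h (v :: L) (by rw [List.length_cons, hL])
    have h2 := lamt_euler ha
    simp only [h1, mul_zero, Finset.sum_const_zero] at h2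
    exact (smul_eq_zero.1 h2.symm).resolve_left (Nat.cast_ne_zero.2 k.succ_ne_zero)

/-- Forms are determined by their values. Induction on `k`: if all contractions of a form of
degree `k + 1` vanish, then it vanishes, because `∑ i, io (coord i) * ct (basis i) a = (k + 1) • a`
(prove this identity by `dg_induction`). -/
theorem dg_ext (ha : a ∈ Dg Z k) (hb : b ∈ Dg Z k)
    (h : ∀ L : List Z, L.length = k → evl L a = evl L b) : a = b :=   sub_eq_zero.1 (lamt_ext (sub_mem ha hb) fun L hL => by rw [lamt_sub, h L hL, sub_self])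

theorem dg_ext_two (ha : a ∈ Dg Z 2) (hb : b ∈ Dg Z 2)
    (h : ∀ u v : Z, evl [u, v] a = evl [u, v] b) : a = b := by
  refine dg_ext ha hb fun L hL => ?_
  obtain ⟨u, v, rfl⟩ := List.length_eq_two.1 hL
  exact h u v

theorem lamt_pb_zero (a : Lam Z) : pb (0 : W →L[ℝ] Z) a = algebraMap ℝ (Lam W) (sc a) := by
  induction a using lam_induction with
  | h0 c => rw [AlgHom.commutes, sc_alg]
  | hadd x y hx hy => simp only [map_add, hx, hy]
  | hmul f x hx =>
    rw [map_mul, map_mul, pb_io, sc_io, ContinuousLinearMap.comp_zero, map_zero, zero_mul,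
      zero_mul, map_zero]

theorem lamt_append (L : List Z) (M : List W) (ha : a ∈ Dg Z k) (h : L.length ≤ k)
    (c : Lam (Z.prod W)) :
    evl (Z := Z.prod W) (L.map (ContinuousLinearMap.inl ℝ Z W) ++
        M.map (ContinuousLinearMap.inr ℝ Z W))
        (pb (W := Z.prod W) (ContinuousLinearMap.fst ℝ Z W) a * c) =
      evl L a * evl M (pb (Z := Z.prod W) (ContinuousLinearMap.inr ℝ Z W) c) := by
  induction L generalizing a k c with
  | nil =>
    rw [List.map_nil, List.nil_append,
      ← evl_pb (Z := Z.prod W) (ContinuousLinearMap.inr ℝ Z W), map_mul, pb_pb,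
      ContinuousLinearMap.fst_comp_inr, lamt_pb_zero, ← Algebra.smul_def, evl_smul, evl]
  | cons u L ih =>
    rw [List.length_cons] at h
    obtain ⟨k, rfl⟩ := Nat.exists_eq_succ_of_ne_zero (show k ≠ 0 by omega)
    rw [List.map_cons, List.cons_append, evl, ct_mul _ (pb_mem _ ha), evl_add, evl_smul, ct_pb,
      ih (ct_mem _ ha) (by omega), ih ha (by omega), evl_eq_zero L ha (by omega), zero_mul,
      mul_zero, add_zero, evl]
    rfl

/-- Product formula. First show for lists: `evl (L.map inr) (pb fst x * y) = sc x * evl ..`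
(contractions with `(0, w)` commute up to sign with `pb fst x`), then induction on the first
list, for `x` of degree at least the length of the first list. -/
theorem top_append (v : Fin k → Z) (w : Fin l → W) (ha : a ∈ Dg Z k) (c : Lam (Z.prod W)) :
    top (Z := Z.prod W) (Fin.append (fun i => (v i, 0)) fun i => (0, w i))
        (pb (W := Z.prod W) (ContinuousLinearMap.fst ℝ Z W) a * c) =
      top v a * top w (pb (Z := Z.prod W) (ContinuousLinearMap.inr ℝ Z W) c) := by
  have h := lamt_append (List.ofFn v) (List.ofFn w) ha (List.length_ofFn).le c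
  rw [List.map_ofFn, List.map_ofFn] at h
  rw [top, List.ofFn_fin_append]
  exact h

/-- The standard basis. -/
theorem exists_eb (n : ℕ) : ∃ v : Module.Basis (Fin n) ℝ (FS.euc n), ∀ i, v i = eb n i :=   ⟨(EuclideanSpace.basisFun (Fin n) ℝ).toBasis, fun i => EuclideanSpace.basisFun_apply _ _ i⟩

theorem top_eb_det (A : FS.euc n →L[ℝ] FS.euc n) (a : Lam (FS.euc n)) :
    top (eb n) (pb A a) = LinearMap.det A.toLinearMap * top (eb n) a := by
  obtain ⟨v, hv⟩ := exists_eb n
  rw [← funext hv]
  exact top_det v A a

/-- A basis of the product (`Module.Basis.prod`, `finSumFinEquiv`), `LinearMap.det_prodMap`. -/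
theorem top_eb2_det (A B : FS.euc n →L[ℝ] FS.euc n) (a : Lam ((FS.euc n).prod (FS.euc n))) :
    top (eb2 n) (pb (W := (FS.euc n).prod (FS.euc n)) (A.prodMap B) a) =
      LinearMap.det A.toLinearMap * LinearMap.det B.toLinearMap * top (eb2 n) a := by
  obtain ⟨v, hv⟩ := exists_eb n
  have h1 : eb2 n = (v.prod v).reindex finSumFinEquiv := by
    funext i
    refine Fin.addCases (fun j => ?_) (fun j => ?_) i
    · rw [eb2, Fin.append_left, Module.Basis.reindex_apply, finSumFinEquiv_symm_apply_castAdd,
        Module.Basis.prod_apply, Sum.elim_inl, Function.comp_apply, hv]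
      rfl
    · rw [eb2, Fin.append_right, Module.Basis.reindex_apply, finSumFinEquiv_symm_apply_natAdd,
        Module.Basis.prod_apply, Sum.elim_inr, Function.comp_apply, hv]
      rfl
  rw [h1, ← LinearMap.det_prodMap]
  exact top_det (Z := (FS.euc n).prod (FS.euc n)) _ _ a

end Vale.Agent.P231C
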