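import Vale.Agent.P231C.LamD
import Vale.Agent.P231C.LamT

/-! The degree: existence of a real degree. -/

open scoped ContDiff Topology
open Filter Set MeasureTheory

noncomputable section

namespace Vale.Agent.P231C

variable {n : ℕ}

/-- Maps of Euclidean space that are smooth outside the origin and preserve the norm. -/
structure NP (F : FS.euc n → FS.euc n) : Prop where
  sm : ∀ v, v ≠ 0 → ContDiffAt ℝ ∞ F v
  norm : ∀ v, ‖F v‖ = ‖v‖

/-- Continuous functions supported in a shell. -/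
structure Sh (u : FS.euc n → ℝ) : Prop where
  cont : Continuous u
  supp : ∃ a b : ℝ, 0 < a ∧ ∀ v, u v ≠ 0 → a ≤ ‖v‖ ∧ ‖v‖ ≤ b

/-- Integral of the pull back of `u vol`. -/
def dL (F : FS.euc n → FS.euc n) (u : FS.euc n → ℝ) : ℝ :=
  ∫ v : EuclideanSpace ℝ (Fin n), (fderiv ℝ F v).det * u (F v)

variable {F : FS.euc n → FS.euc n} {u : FS.euc n → ℝ}

theorem dega_cont (h : NP F) : Continuous F := by
  refine continuous_iff_continuousAt.2 fun v => ?_
  rcases eq_or_ne v 0 with rfl | hv
  · have h0 : F 0 = 0 := norm_eq_zero.1 ((h.norm 0).trans norm_zero)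
    rw [ContinuousAt, h0, tendsto_zero_iff_norm_tendsto_zero]
    simp only [h.norm]
    exact tendsto_zero_iff_norm_tendsto_zero.1 tendsto_id
  · exact (h.sm v hv).continuousAt

theorem dega_det (h : NP F) {v : FS.euc n} (hv : v ≠ 0) :
    ContinuousAt (fun v => (fderiv ℝ F v).det) v :=
  ContinuousLinearMap.continuous_det.continuousAt.comp ((h.sm v hv).continuousAt_fderiv (by simp))

theorem dega_small {a : ℝ} (ha : 0 < a) : ∀ᶠ v : FS.euc n in 𝓝 0, ‖v‖ < a :=
  continuous_norm.continuousAt.eventually_lt continuousAt_const (by simpa using ha)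

theorem NP.continuous_integrand (h : NP F) (hu : Sh u) :
    Continuous (fun v => (fderiv ℝ F v).det * u (F v)) ∧
      HasCompactSupport fun v => (fderiv ℝ F v).det * u (F v) := by
  obtain ⟨a, b, ha, hs⟩ := hu.supp
  refine ⟨continuous_iff_continuousAt.2 fun v => ?_,
    HasCompactSupport.intro (isCompact_closedBall 0 b) fun v hv => ?_⟩
  · rcases eq_or_ne v 0 with rfl | hv
    · refine (continuousAt_const (y := (0 : ℝ))).congr ((dega_small ha).mono fun w hw => ?_)
      have : u (F w) = 0 := by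
        by_contra hc
        linarith [(hs _ hc).1, h.norm w]
      simp only [this, mul_zero]
    · exact (dega_det h hv).mul (hu.cont.comp (dega_cont h)).continuousAt
  · have : u (F v) = 0 := by
      by_contra hc
      exact hv (mem_closedBall_zero_iff.2 ((h.norm v).symm.trans_le (hs _ hc).2))
    rw [this, mul_zero]

theorem dega_ct {Z : FS} (x : Z) (L : List (Z →L[ℝ] ℝ)) (h : ∀ f ∈ L, f x = 0) :
    ct x (L.map io).prod = 0 := by
  induction L with
  | nil => exact (congrArg (ct x) (map_one (algebraMap ℝ (Lam Z))).symm).trans (ct_alg x 1)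
  | cons f L ih =>
    rw [List.map_cons, List.prod_cons, ct_io_mul, h f List.mem_cons_self, zero_smul,
      ih fun g hg => h g (List.mem_cons_of_mem _ hg), mul_zero, sub_zero]

theorem dega_mem {Z : FS} (L : List (Z →L[ℝ] ℝ)) : (L.map io).prod ∈ Dg Z L.length := by
  induction L with
  | nil => exact dg_one
  | cons f L ih =>
    rw [List.map_cons, List.prod_cons, List.length_cons, add_comm]
    exact dg_mul (io_mem f) ih

theorem dega_top {Z : FS} (k : ℕ) (v : Fin k → Z) (f : Fin k → Z →L[ℝ] ℝ)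
    (h1 : ∀ i, f i (v i) = 1) (h0 : ∀ i j, i ≠ j → f i (v j) = 0) :
    top v ((List.ofFn f).map io).prod = 1 := by
  induction k with
  | zero => exact map_one sc
  | succ k ih =>
    rw [lamt_succ, List.ofFn_succ, List.map_cons, List.prod_cons, ct_io_mul, h1, one_smul,
      dega_ct, mul_zero, sub_zero]
    · exact ih _ _ (fun i => h1 i.succ) fun i j hij => h0 _ _ ((Fin.succ_injective k).ne hij)
    · intro g hg
      obtain ⟨i, rfl⟩ := List.mem_ofFn.1 hg
      exact h0 _ _ (Fin.succ_ne_zero i)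

/-- A volume form. -/
theorem exists_vol (n : ℕ) : ∃ c ∈ Dg (FS.euc n) n, top (eb n) c = 1 := by
  refine ⟨((List.ofFn fun i => EuclideanSpace.proj i).map io).prod, ?_,
    dega_top n _ _ (fun i => ?_) fun i j hij => ?_⟩
  · have := dega_mem (Z := FS.euc n) (List.ofFn fun i => EuclideanSpace.proj i)
    rwa [List.length_ofFn] at this
  · simp [eb]
  · simp [eb, hij]

/-- With the volume form `c`, `dd (ψ • ct ξ c) = (fderiv ψ ξ) • c` (the product `io f * c` vanishes,
apply `ct ξ`); pull back by `F` (`dd_pb`, `top_eb_det`) and use `stokes_euc`. -/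
theorem NP.dL_fderiv (h : NP F) {ψ : FS.euc n → ℝ} (hψ : ContDiff ℝ ∞ ψ) (hs : Sh ψ)
    (ξ : FS.euc n) : dL F (fun v => fderiv ℝ ψ v ξ) = 0 := by
  obtain ⟨c, hc, h1⟩ := exists_vol n
  obtain ⟨a, b, ha, hz⟩ := hs.supp
  have z0 : ∀ w, ‖w‖ < a → ψ w = 0 := fun w hw => by
    by_contra hh
    linarith [(hz _ hh).1]
  have hd : ∀ w, dd (fun w => ψ w • ct ξ c) w = fderiv ℝ ψ w ξ • c := fun w => by
    have k := ct_io_mul ξ (fderiv ℝ ψ w) c
    rw [dg_eq_zero (dg_mul (io_mem (fderiv ℝ ψ w)) hc) (by simp), map_zero] at k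
    rw [dd_fun_smul (hψ.differentiable (by simp) w) (differentiableAt_const _), dd_const,
      smul_zero, add_zero]
    exact (sub_eq_zero.1 k.symm).symm
  have e0 : (fun w => pb (fderiv ℝ F w) (ψ (F w) • ct ξ c)) =ᶠ[𝓝 0] fun _ => 0 :=
    (dega_small ha).mono fun w hw => by
      simp only [z0 (F w) ((h.norm w).trans_lt hw), zero_smul, map_zero]
  have sm : ContDiff ℝ ∞ fun w => pb (fderiv ℝ F w) (ψ (F w) • ct ξ c) := by
    refine contDiff_iff_contDiffAt.2 fun v => ?_
    rcases eq_or_ne v 0 with rfl | hv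
    · exact contDiffAt_const.congr_of_eventuallyEq e0
    · exact cd_pb ((h.sm v hv).fderiv_right (by simp))
        ((hψ.contDiffAt.comp v (h.sm v hv)).smul_const _)
  have cs : HasCompactSupport fun w => pb (fderiv ℝ F w) (ψ (F w) • ct ξ c) := by
    refine HasCompactSupport.intro (isCompact_closedBall 0 b) fun v hv => ?_
    have : ψ (F v) = 0 := by
      by_contra hh
      exact hv (mem_closedBall_zero_iff.2 ((h.norm v).symm.trans_le (hz _ hh).2))
    simp only [this, zero_smul, map_zero]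
  have st := stokes_euc (Z := FS.euc n) (volume : Measure (EuclideanSpace ℝ (Fin n)))
    (topL (eb n)) sm cs
  refine Eq.trans (integral_congr_ae (Eventually.of_forall fun v => ?_)) st
  beta_reduce
  rcases eq_or_ne v 0 with rfl | hv
  · have h0 : F 0 = 0 := norm_eq_zero.1 ((h.norm 0).trans norm_zero)
    have e1 : ψ =ᶠ[𝓝 0] fun _ => 0 := (dega_small ha).mono z0
    rw [dd_congr e0, dd_const, map_zero, h0, e1.fderiv_eq]
    simp
  · rw [dd_pb (φ := fun w => ψ w • ct ξ c) ((h.sm v hv).of_le (WithTop.coe_le_coe.2 le_top))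
      ((hψ.differentiable (by simp) _).smul_const _), hd, topL_apply, top_eb_det, ← topL_apply,
      map_smul, topL_apply, h1, smul_eq_mul, mul_one]

theorem dega_conn (hn : 2 ≤ n) {ε : ℝ} (hε : 0 < ε) :
    IsPreconnected {y : FS.euc n | ε < ‖y‖} := by
  have hr : 1 < Module.rank ℝ (EuclideanSpace ℝ (Fin n)) := by
    rw [← Module.finrank_eq_rank, finrank_euclideanSpace_fin]
    exact_mod_cast hn
  have h1 := ((isPreconnected_sphere hr 0 1).prod (isPreconnected_Ioi (a := ε))).image
    (fun p : EuclideanSpace ℝ (Fin n) × ℝ => p.2 • p.1) (by fun_prop)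
  refine (Set.ext fun y => ⟨?_, fun hy => ?_⟩ : _ = {y : FS.euc n | ε < ‖y‖}) ▸ h1
  · rintro ⟨⟨x, t⟩, ⟨hx, ht⟩, rfl⟩
    have ht' : ε < t := ht
    change ε < ‖t • x‖
    rwa [norm_smul, mem_sphere_zero_iff_norm.1 hx, mul_one, Real.norm_of_nonneg (by linarith)]
  · have hy' : ε < ‖y‖ := hy
    have h0 : 0 < ‖y‖ := hε.trans hy'
    refine ⟨(‖y‖⁻¹ • y, ‖y‖), ⟨mem_sphere_zero_iff_norm.2 ?_, hy'⟩, smul_inv_smul₀ h0.ne' y⟩
    rw [norm_smul, norm_inv, norm_norm, inv_mul_cancel₀ h0.ne']

theorem dega_sh {φ : FS.euc n → ℝ} (hφ : Continuous φ) {ε : ℝ} (hs : ∀ v, ε ≤ ‖v‖ → φ v = 0)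
    {y : FS.euc n} (hy : ε < ‖y‖) : Sh fun v => φ (v - y) := by
  refine ⟨hφ.comp (continuous_id.sub continuous_const), ‖y‖ - ε, ‖y‖ + ε, by linarith,
    fun v hv => ?_⟩
  have h1 : ‖v - y‖ < ε := by
    by_contra hc
    exact hv (hs _ (not_lt.1 hc))
  have h2 := abs_le.1 (abs_norm_sub_norm_le v y)
  constructor <;> linarith [h2.1, h2.2]

theorem dega_deriv (h : NP F) {φ : FS.euc n → ℝ} (hφ : ContDiff ℝ ∞ φ) {ε : ℝ}
    (hs : ∀ v, ε ≤ ‖v‖ → φ v = 0) {y : FS.euc n} (hy : ε < ‖y‖) :
    HasFDerivAt (fun y => dL F fun v => φ (v - y)) (0 : FS.euc n →L[ℝ] ℝ) y := by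
  obtain ⟨η, hη⟩ : ∃ η, η = (‖y‖ - ε) / 2 := ⟨_, rfl⟩
  have η0 : 0 < η := by linarith
  have cF := dega_cont h
  have cφ : HasCompactSupport φ := HasCompactSupport.intro (isCompact_closedBall 0 ε)
    fun v hv => hs v (not_le.1 fun hc => hv (mem_closedBall_zero_iff.2 hc)).le
  have c1 := hφ.continuous_fderiv (by simp)
  obtain ⟨C, hC⟩ := c1.bounded_above_of_compact_support (cφ.fderiv ℝ)
  have md : AEStronglyMeasurable (fun v : EuclideanSpace ℝ (Fin n) => (fderiv ℝ F v).det) volume :=
    (ContinuousLinearMap.continuous_det.measurable.comp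
      (measurable_fderiv ℝ F)).aestronglyMeasurable
  obtain ⟨K, hK⟩ : ∃ K : Set (EuclideanSpace ℝ (Fin n)),
    K = Metric.closedBall 0 (‖y‖ + η + ε) \ Metric.ball 0 η := ⟨_, rfl⟩
  have cK : IsCompact K := hK ▸ (isCompact_closedBall _ _).diff Metric.isOpen_ball
  have bi : Integrable (K.indicator fun v => |(fderiv ℝ F v).det| * C) := by
    refine (integrable_indicator_iff cK.measurableSet).2 (ContinuousOn.integrableOn_compact cK
      fun v hv => ((dega_det h ?_).abs.mul continuousAt_const).continuousWithinAt)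
    rintro rfl
    rw [hK] at hv
    exact hv.2 (Metric.mem_ball_self η0)
  have hb : ∀ v : EuclideanSpace ℝ (Fin n), ∀ x ∈ Metric.ball y η,
      ‖-((fderiv ℝ F v).det • fderiv ℝ φ (F v - x))‖ ≤
        K.indicator (fun v => |(fderiv ℝ F v).det| * C) v := fun v x hx => by
    by_cases hv : v ∈ K
    · rw [indicator_of_mem hv, norm_neg, norm_smul]
      exact mul_le_mul_of_nonneg_left (hC _) (abs_nonneg _)
    · have a1 : ‖x - y‖ < η := mem_ball_iff_norm.1 hx
      have a2 := abs_le.1 (abs_norm_sub_norm_le x y)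
      have a3 := abs_le.1 (abs_norm_sub_norm_le (F v) x)
      have a4 := h.norm v
      have a5 : ε < ‖F v - x‖ := by
        by_contra hc
        refine hv (hK ▸ ⟨mem_closedBall_zero_iff.2 ?_, fun hh => ?_⟩)
        · linarith [a2.2, a3.2]
        · linarith [a2.1, a3.1, mem_ball_zero_iff.1 hh]
      have e1 : φ =ᶠ[𝓝 (F v - x)] fun _ => 0 :=
        (continuousAt_const.eventually_lt continuous_norm.continuousAt a5).mono
          fun w hw => hs w hw.le
      rw [indicator_of_notMem hv, e1.fderiv_eq]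
      simp
  have m1 : AEStronglyMeasurable (fun v : EuclideanSpace ℝ (Fin n) =>
      -((fderiv ℝ F v).det • fderiv ℝ φ (F v - y))) volume :=
    (md.smul (c1.comp (cF.sub continuous_const)).aestronglyMeasurable).neg
  have k := h.continuous_integrand (dega_sh hφ.continuous hs hy)
  have H := hasFDerivAt_integral_of_dominated_of_fderiv_le (𝕜 := ℝ) (μ := volume)
    (F := fun x (v : EuclideanSpace ℝ (Fin n)) => (fderiv ℝ F v).det * φ (F v - x))
    (F' := fun x v => -((fderiv ℝ F v).det • fderiv ℝ φ (F v - x))) (Metric.ball_mem_nhds y η0)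
    (Eventually.of_forall fun x => md.mul
      (hφ.continuous.comp (cF.sub continuous_const)).aestronglyMeasurable)
    (k.1.integrable_of_hasCompactSupport k.2) m1 (ae_of_all _ hb) bi
    (ae_of_all _ fun v x _ => by
      have d := ((hφ.differentiable (by simp) (F v - x)).hasFDerivAt.comp x
        ((hasFDerivAt_id x).const_sub (F v))).const_mul (fderiv ℝ F v).det
      refine d.congr_fderiv ?_
      ext ξ
      simp)
  refine H.congr_fderiv ?_
  ext ξ
  have z := h.dL_fderiv (hφ.comp (contDiff_id.sub contDiff_const)) (dega_sh hφ.continuous hs hy) ξ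
  rw [ContinuousLinearMap.integral_apply
    (bi.mono' m1 (ae_of_all _ fun v => hb v y (Metric.mem_ball_self η0)))]
  have e : ∀ w, fderiv ℝ (φ ∘ fun x => id x - y) w = fderiv ℝ φ (w - y) := fun w =>
    fderiv_comp_sub y
  simp only [dL, e] at z
  simp only [neg_apply, smul_apply, smul_eq_mul,
    integral_neg, z, neg_zero, zero_apply]

/-- The function `y ↦ dL F (φ (· - y))` has zero derivative on `{y | ε < ‖y‖}` (differentiate
under the integral sign, `NP.dL_fderiv`), and this set is connected for `2 ≤ n`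
(`isPathConnected_sphere`, or the image of `sphere ×ˢ Ioi ε`). -/
theorem NP.dL_translate (hn : 2 ≤ n) (h : NP F) {φ : FS.euc n → ℝ} (hφ : ContDiff ℝ ∞ φ) {ε : ℝ}
    (hε : 0 < ε) (hs : ∀ v, ε ≤ ‖v‖ → φ v = 0) {y y' : FS.euc n} (hy : ε < ‖y‖) (hy' : ε < ‖y'‖) :
    dL F (fun v => φ (v - y)) = dL F fun v => φ (v - y') :=
  (isOpen_lt continuous_const continuous_norm).is_const_of_fderiv_eq_zero (𝕜 := ℝ)
    (f := fun y => dL F fun v => φ (v - y)) (dega_conn hn hε)
    (fun _ hx => (dega_deriv h hφ hs hx).differentiableAt.differentiableWithinAt)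
    (fun _ hx => (dega_deriv h hφ hs hx).fderiv) hy hy'

end Vale.Agent.P231C
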