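import Vale.Agent.P231C.DegA

/-! The degree is an integer. -/

open scoped ContDiff Topology
open Filter Set MeasureTheory

noncomputable section

namespace Vale.Agent.P231C

variable {n : ℕ} {F : FS.euc n → FS.euc n} {u : FS.euc n → ℝ}

/-- `MeasureTheory.addHaar_image_eq_zero_of_det_fderivWithin_eq_zero` gives a regular value
`y ≠ 0`. -/
theorem NP.exists_regular (hn : 1 ≤ n) (h : NP F) :
    ∃ y : FS.euc n, y ≠ 0 ∧ ∀ v, F v = y → (fderiv ℝ F v).det ≠ 0 := by
  have : Nonempty (Fin n) := ⟨⟨0, hn⟩⟩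
  have h1 := addHaar_image_eq_zero_of_det_fderivWithin_eq_zero
    (volume : Measure (EuclideanSpace ℝ (Fin n))) (f := F) (f' := fderiv ℝ F)
    (s := {v | v ≠ 0 ∧ (fderiv ℝ F v).det = 0})
    (fun v hv => ((h.sm v hv.1).differentiableAt (by simp)).hasFDerivAt.hasFDerivWithinAt)
    fun v hv => hv.2
  have h2 := measure_union_null h1
    (measure_singleton (μ := (volume : Measure (EuclideanSpace ℝ (Fin n)))) 0)
  obtain ⟨y, hy⟩ := (measure_eq_zero_iff_ae_notMem.1 h2).exists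
  rw [mem_union, not_or] at hy
  refine ⟨y, hy.2, fun v hv h0 => hy.1 ⟨v, ⟨?_, h0⟩, hv⟩⟩
  rintro rfl
  exact hy.2 (hv ▸ norm_eq_zero.1 ((h.norm 0).trans norm_zero))

theorem degb_loc (h : NP F) {v : FS.euc n} (hv : v ≠ 0) (hd : (fderiv ℝ F v).det ≠ 0) :
    map F (𝓝 v) = 𝓝 (F v) ∧ ∃ (O : Set (FS.euc n)) (σ : ℤ), IsOpen O ∧ v ∈ O ∧ InjOn F O ∧
      ∀ w ∈ O, w ≠ 0 ∧ (fderiv ℝ F w).det = σ * |(fderiv ℝ F w).det| := by
  have h1 : HasStrictFDerivAt F (((fderiv ℝ F v).toContinuousLinearEquivOfDetNeZero hd :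
      FS.euc n →L[ℝ] FS.euc n)) v := by
    rw [ContinuousLinearMap.coe_toContinuousLinearEquivOfDetNeZero]
    exact (h.sm v hv).hasStrictFDerivAt (by simp)
  refine ⟨h1.map_nhds_eq_of_equiv, ?_⟩
  have h2 : ∃ σ : ℤ, ∀ᶠ w in 𝓝 v, (fderiv ℝ F w).det = σ * |(fderiv ℝ F w).det| := by
    rcases hd.lt_or_gt with k | k
    · refine ⟨-1, ((dega_det h hv).eventually_lt continuousAt_const k).mono fun w hw => ?_⟩
      rw [abs_of_neg hw]
      simp
    · refine ⟨1, (continuousAt_const.eventually_lt (dega_det h hv) k).mono fun w hw => ?_⟩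
      rw [abs_of_pos hw]
      simp
  obtain ⟨σ, h2⟩ := h2
  obtain ⟨O, h3, h4, h5⟩ := eventually_nhds_iff.1
    (h1.eventually_left_inverse.and ((eventually_ne_nhds hv).and h2))
  exact ⟨O, σ, h4, h5, fun a ha b hb e => by rw [← (h3 a ha).1, e, (h3 b hb).1],
    fun w hw => (h3 w hw).2⟩

/-- The fibre is compact and discrete (inverse function theorem), hence finite; choose disjoint
open neighbourhoods `O v` of its points where `F` is injective with determinant of constant sign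
and such that `F '' O v` is a neighbourhood of `y`; for small `δ` the preimage of `ball y δ` lies in
the union (compactness). Then `integral_image_eq_integral_abs_det_fderiv_smul` on each `O v`. -/
theorem NP.dL_regular (h : NP F) {y : FS.euc n} (hy : y ≠ 0)
    (hr : ∀ v, F v = y → (fderiv ℝ F v).det ≠ 0) : ∃ (d : ℤ) (δ : ℝ), 0 < δ ∧
      ∀ u : FS.euc n → ℝ, Continuous u → (∀ v, δ ≤ ‖v - y‖ → u v = 0) →
        dL F u = d * ∫ v : EuclideanSpace ℝ (Fin n), u v := by
  classical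
  have cF := dega_cont h
  have n0 : ∀ v, F v = y → v ≠ 0 := by
    rintro v hv rfl
    exact hy (hv ▸ norm_eq_zero.1 ((h.norm 0).trans norm_zero))
  have k : ∀ v : FS.euc n, ∃ (O : Set (FS.euc n)) (σ : ℤ), F v = y → IsOpen O ∧ v ∈ O ∧
      InjOn F O ∧ ∀ w ∈ O, w ≠ 0 ∧ (fderiv ℝ F w).det = σ * |(fderiv ℝ F w).det| := fun v => by
    by_cases hv : F v = y
    · obtain ⟨O, σ, hO⟩ := (degb_loc h (n0 v hv) (hr v hv)).2
      exact ⟨O, σ, fun _ => hO⟩
    · exact ⟨∅, 0, fun hc => absurd hc hv⟩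
  choose O σ hO using k
  have cS : IsCompact (F ⁻¹' {y}) := (isCompact_closedBall 0 ‖y‖).of_isClosed_subset
    (isClosed_singleton.preimage cF) fun v hv =>
      mem_closedBall_zero_iff.2 ((h.norm v).symm.trans (congrArg Norm.norm hv)).le
  have fS : (F ⁻¹' {y}).Finite := by
    obtain ⟨t, ht, hc⟩ := cS.elim_nhds_subcover O fun v hv => (hO v hv).1.mem_nhds (hO v hv).2.1
    refine t.finite_toSet.subset fun v hv => ?_
    obtain ⟨w, hw, hvw⟩ := mem_iUnion₂.1 (hc hv)
    have e : v = w := (hO w (ht w hw)).2.2.1 hvw (hO w (ht w hw)).2.1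
      ((show F v = y from hv).trans (show F w = y from ht w hw).symm)
    exact e ▸ hw
  obtain ⟨U, hU, dU⟩ := fS.t2_separation
  have mS : ∀ v, v ∈ fS.toFinset ↔ F v = y := fun v => fS.mem_toFinset
  have oV : ∀ v, F v = y → IsOpen (O v ∩ U v) := fun v hv => (hO v hv).1.inter (hU v).2
  have cC : IsCompact (Metric.closedBall 0 (‖y‖ + 1) \ ⋃ v ∈ fS.toFinset, O v ∩ U v) :=
    (isCompact_closedBall _ _).diff (isOpen_biUnion fun v hv => oV v ((mS v).1 hv))
  have N1 : (F '' (Metric.closedBall 0 (‖y‖ + 1) \ ⋃ v ∈ fS.toFinset, O v ∩ U v))ᶜ ∈ 𝓝 y := by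
    refine (cC.image cF).isClosed.isOpen_compl.mem_nhds ?_
    rintro ⟨v, hv, e⟩
    exact hv.2 (mem_iUnion₂.2 ⟨v, (mS v).2 e, (hO v e).2.1, (hU v).1⟩)
  have N2 : ⋂ v ∈ fS.toFinset, F '' (O v ∩ U v) ∈ 𝓝 y := by
    refine (biInter_finset_mem _).2 fun v hv => ?_
    have e := (mS v).1 hv
    rw [← e, ← (degb_loc h (n0 v e) (hr v e)).1]
    exact image_mem_map ((oV v e).mem_nhds ⟨(hO v e).2.1, (hU v).1⟩)
  obtain ⟨δ, δ0, hδ⟩ := Metric.mem_nhds_iff.1
    (inter_mem (inter_mem N1 N2) (Metric.ball_mem_nhds y one_pos))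
  refine ⟨∑ v ∈ fS.toFinset, σ v, δ, δ0, fun u hu hz => ?_⟩
  have z : ∀ w, w ∉ Metric.ball y δ → u w = 0 := fun w hw =>
    hz w (not_lt.1 fun hc => hw (mem_ball_iff_norm.2 hc))
  have iu : Integrable u (volume : Measure (EuclideanSpace ℝ (Fin n))) :=
    hu.integrable_of_hasCompactSupport (HasCompactSupport.intro (isCompact_closedBall y δ)
      fun w hw => z w fun hc => hw (Metric.ball_subset_closedBall hc))
  have dV : ∀ v, F v = y → ∀ w ∈ O v ∩ U v, HasFDerivWithinAt F (fderiv ℝ F w) (O v ∩ U v) w :=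
    fun v hv w hw => ((h.sm w ((hO v hv).2.2.2 w hw.1).1).differentiableAt
      (by simp)).hasFDerivAt.hasFDerivWithinAt
  have iV : ∀ v, F v = y → InjOn F (O v ∩ U v) := fun v hv =>
    (hO v hv).2.2.1.mono inter_subset_left
  have eV : ∀ v, F v = y → EqOn (fun w => (σ v : ℝ) * (|(fderiv ℝ F w).det| • u (F w)))
      (fun w => (fderiv ℝ F w).det * u (F w)) (O v ∩ U v) := fun v hv w hw => by
    beta_reduce
    rw [smul_eq_mul, ← mul_assoc, ← ((hO v hv).2.2.2 w hw.1).2]
  have e1 : dL F u = ∫ w : EuclideanSpace ℝ (Fin n) in ⋃ v ∈ fS.toFinset, O v ∩ U v,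
      (fderiv ℝ F w).det * u (F w) := by
    refine (setIntegral_eq_integral_of_forall_compl_eq_zero fun w hw => ?_).symm
    rw [z (F w) fun hc => ?_, mul_zero]
    obtain ⟨⟨a, -⟩, b⟩ := hδ hc
    refine a ⟨w, ⟨mem_closedBall_zero_iff.2 ?_, hw⟩, rfl⟩
    have := abs_le.1 (abs_norm_sub_norm_le (F w) y)
    linarith [this.2, mem_ball_iff_norm.1 b, h.norm w]
  rw [e1, integral_biUnion_finset _ (fun v hv => (oV v ((mS v).1 hv)).measurableSet)
    (fun v hv w hw hvw => (dU ((mS v).1 hv) ((mS w).1 hw) hvw).mono inter_subset_right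
      inter_subset_right) fun v hv => ?_, Int.cast_sum, Finset.sum_mul]
  · refine Finset.sum_congr rfl fun v hv => ?_
    have e := (mS v).1 hv
    rw [← setIntegral_congr_fun (oV v e).measurableSet (eV v e), integral_const_mul,
      ← integral_image_eq_integral_abs_det_fderiv_smul volume (oV v e).measurableSet (dV v e)
        (iV v e), setIntegral_eq_integral_of_forall_compl_eq_zero fun w hw => z w fun hc => ?_]
    exact hw (mem_iInter₂.1 (hδ hc).1.2 v hv)
  · have e := (mS v).1 hv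
    exact IntegrableOn.congr_fun (((integrableOn_image_iff_integrableOn_abs_det_fderiv_smul volume
      (oV v e).measurableSet (dV v e) (iV v e) u).1 iu.integrableOn).const_mul _) (eV v e)
      (oV v e).measurableSet

end Vale.Agent.P231C
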