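import Vale.Agent.P231C.SphDef

/-! Integration on the sphere, concatenation of homotopies. -/

open scoped ContDiff Topology
open Filter Set MeasureTheory

noncomputable section

namespace Vale.Agent.P231C

theorem spha_rad {n : ℕ} (o : Sp n) {v : FS.euc n} (hv : v ≠ 0) : (rad o v).1 = ‖v‖⁻¹ • v :=
  congrArg Subtype.val (show rad o v = ⟨‖v‖⁻¹ • v, norm_smul_inv_norm hv⟩ from dif_neg hv)

theorem spha_ne {n : ℕ} (s : Sp n) : s.1 ≠ 0 := fun h => by
  have h1 := s.2
  rw [h, norm_zero] at h1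
  exact zero_ne_one h1

theorem plot_rad {n : ℕ} (o : Sp n) {v : FS.euc n} (hv : v ≠ 0) :
    (DS n).P ⟨FS.euc n, rad o, v⟩ := by
  refine sg_of_open (g := fun z : FS.euc n => (rad o z).1) (O := {z | z ≠ 0}) isOpen_ne
    (fun a ha => ?_) hv
  have h : ContDiffAt ℝ ∞ (fun z : FS.euc n => ‖z‖⁻¹ • z) a :=
    ((contDiffAt_norm ℝ ha).inv (norm_ne_zero_iff.2 ha)).smul contDiffAt_id
  refine h.congr_of_eventuallyEq ?_
  filter_upwards [isOpen_ne.mem_nhds ha] with z hz
  exact spha_rad o hz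

theorem rad_val {n : ℕ} (o s : Sp n) : rad o s.1 = s := by
  refine Subtype.ext ?_
  rw [spha_rad o (spha_ne s), s.2, inv_one, one_smul]

/-- Factor the plot as `rad ∘ val ∘ f`; the range of the derivative of `val ∘ f` is orthogonal to
`f u`. -/
theorem rankLe_DS (n : ℕ) : RankLe (DS (n + 1)) n := by
  intro Z f u hp
  have hg : Sg (fun z => (f z).1) u := hp
  refine ⟨FS.euc (n + 1), rad (f u), fun z => (f z).1, plot_rad _ (spha_ne _), hg,
    Eventually.of_forall fun z => (rad_val _ _).symm, ?_⟩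
  have hd := (hg.self_of_nhds.differentiableAt (by simp)).hasFDerivAt
  have h1 := hd.norm_sq
  have h2 : (fun z => ‖(f z).1‖ ^ 2) = fun _ => (1 : ℝ) := funext fun z => by
    rw [(f z).2, one_pow]
  rw [h2] at h1
  have h3 := h1.unique (hasFDerivAt_const (1 : ℝ) u)
  have h4 : LinearMap.range (fderiv ℝ (fun z => (f z).1) u).toLinearMap ≤ (ℝ ∙ (f u).1)ᗮ := by
    rintro _ ⟨v, rfl⟩
    rw [Submodule.mem_orthogonal_singleton_iff_inner_right]
    have h5 := congrArg (fun T : Z →L[ℝ] ℝ => T v) h3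
    simpa using h5
  have : Fact (Module.finrank ℝ (FS.euc (n + 1)) = n + 1) := ⟨finrank_euclideanSpace_fin⟩
  exact (Submodule.finrank_mono h4).trans
    (Submodule.finrank_orthogonal_span_singleton (spha_ne (f u))).le

theorem spha_small {n : ℕ} {χ : ℝ → ℝ} {a b : ℝ} (hχ : Cut χ a b) {z : FS.euc n} (hz : ‖z‖ < a) :
    (fun w : FS.euc n => χ ‖w‖) =ᶠ[𝓝 z] fun _ => 0 := by
  filter_upwards [continuous_norm.continuousAt.eventually_lt continuousAt_const hz] with w hw
  exact hχ.zero _ hw.le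

theorem spha_large {n : ℕ} {χ : ℝ → ℝ} {a b : ℝ} (hχ : Cut χ a b) {z : FS.euc n} (hz : b < ‖z‖) :
    (fun w : FS.euc n => χ ‖w‖) =ᶠ[𝓝 z] fun _ => 1 := by
  filter_upwards [continuousAt_const.eventually_lt continuous_norm.continuousAt hz] with w hw
  exact hχ.one _ hw.le

theorem spha_zero {n : ℕ} {χ : ℝ → ℝ} {a b : ℝ} (hχ : Cut χ a b) :
    (fun w : FS.euc n => χ ‖w‖) =ᶠ[𝓝 0] fun _ => 0 :=
  spha_small hχ (by rw [norm_zero]; exact hχ.pos)

theorem Cut.contDiff {n : ℕ} {χ : ℝ → ℝ} {a b : ℝ} (hχ : Cut χ a b) :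
    ContDiff ℝ ∞ fun w : FS.euc n => χ ‖w‖ := by
  refine contDiff_iff_contDiffAt.2 fun z => ?_
  by_cases hz : z = 0
  · rw [hz]
    exact contDiffAt_const.congr_of_eventuallyEq (spha_zero hχ)
  · exact hχ.sm.contDiffAt.comp z (contDiffAt_norm ℝ hz)

theorem spha_io {Z : FS} {g : Z → ℝ} {c : ℝ} {z : Z} (h : g =ᶠ[𝓝 z] fun _ => c) :
    io (fderiv ℝ g z) = 0 := by
  rw [h.fderiv_eq, fderiv_fun_const, Pi.zero_apply, map_zero]

theorem Cut.win {n : ℕ} (o : Sp n) {χ : ℝ → ℝ} {a b : ℝ} (hχ : Cut χ a b) (N : ℕ) :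
    Win (DS n) (FS.euc n) (fun v => io (fderiv ℝ (fun w : FS.euc n => χ ‖w‖) v)) (rad o) 1 N
      (Metric.closedBall 0 b) := by
  refine ⟨contDiff_iff_contDiffAt.2 fun z => cd_io ?_, fun z => io_mem _, fun z => dd_dfun ?_,
    fun z hz => plot_rad o ?_, fun z hz j w _ _ => ?_⟩
  · exact hχ.contDiff.contDiffAt.fderiv_right (by exact_mod_cast le_top)
  · exact hχ.contDiff.contDiffAt.of_le (WithTop.coe_le_coe.2 (le_top (a := (2 : ℕ∞))))
  · rintro rfl
    refine notMem_tsupport_iff_eventuallyEq.2 ?_ hz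
    filter_upwards [(spha_zero hχ).eventuallyEq_nhds] with w hw
    exact spha_io hw
  · rw [mem_closedBall_zero_iff, not_le] at hz
    rw [spha_io (spha_large hχ hz), zero_mul]

theorem integ_IS {N : ℕ} (o : Sp (N + 2)) {χ : ℝ → ℝ} {a b : ℝ} (hχ : Cut χ a b) :
    Integ (DS (N + 2)) N (IS o χ) :=
  (hχ.win o N).integ (volume : Measure (EuclideanSpace ℝ (Fin (N + 2))))
    (isCompact_closedBall _ _) (rankLe_DS (N + 1)) (eb (N + 2))

/-- `(χ - χ') ‖v‖ • loc w` is a smooth form with compact support, and `dx w = 0`;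
`stokes_euc`. -/
theorem IS_indep {N : ℕ} (o o' : Sp (N + 1)) {χ χ' : ℝ → ℝ} {a b a' b' : ℝ} (hχ : Cut χ a b)
    (hχ' : Cut χ' a' b') {w : RF (DS (N + 1))} (hw : Fm N w) : IS o χ w = IS o' χ' w := by
  have hd : dx w = 0 := (rankLe_DS N).eq_zero hw.dx (Nat.lt_succ_self N)
  have hs : ContDiff ℝ ∞ fun z : FS.euc (N + 1) => χ ‖z‖ - χ' ‖z‖ := hχ.contDiff.sub hχ'.contDiff
  have h0 : (fun z : FS.euc (N + 1) => (χ ‖z‖ - χ' ‖z‖) • loc w (FS.euc (N + 1)) (rad o) z)
      =ᶠ[𝓝 0] fun _ => 0 := by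
    filter_upwards [spha_zero hχ, spha_zero hχ'] with z h1 h2
    rw [h1, h2, sub_zero, zero_smul]
  have h1 : ContDiff ℝ ∞ fun z : FS.euc (N + 1) =>
      (χ ‖z‖ - χ' ‖z‖) • loc w (FS.euc (N + 1)) (rad o) z := by
    refine contDiff_iff_contDiffAt.2 fun z => ?_
    by_cases hz : z = 0
    · rw [hz]
      exact contDiffAt_const.congr_of_eventuallyEq h0
    · exact hs.contDiffAt.smul (hw.sm _ _ _ (plot_rad o hz))
  have h2 : HasCompactSupport fun z : FS.euc (N + 1) =>
      (χ ‖z‖ - χ' ‖z‖) • loc w (FS.euc (N + 1)) (rad o) z := by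
    refine HasCompactSupport.intro (isCompact_closedBall 0 (max b b')) fun z hz => ?_
    rw [mem_closedBall_zero_iff, not_le, max_lt_iff] at hz
    rw [hχ.one _ hz.1.le, hχ'.one _ hz.2.le, sub_self, zero_smul]
  have h3 := stokes_euc (Z := FS.euc (N + 1)) (volume : Measure (EuclideanSpace ℝ (Fin (N + 1))))
    (topL (eb (N + 1))) h1 h2
  have h4 : ∀ z : FS.euc (N + 1), dd (fun z : FS.euc (N + 1) =>
      (χ ‖z‖ - χ' ‖z‖) • loc w (FS.euc (N + 1)) (rad o) z) z =
      io (fderiv ℝ (fun v : FS.euc (N + 1) => χ ‖v‖) z) * loc w (FS.euc (N + 1)) (rad o) z -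
      io (fderiv ℝ (fun v : FS.euc (N + 1) => χ' ‖v‖) z) * loc w (FS.euc (N + 1)) (rad o') z := by
    intro z
    by_cases hz : z = 0
    · rw [hz, dd_congr h0, dd_const, spha_io (spha_zero hχ), spha_io (spha_zero hχ'), zero_mul,
        zero_mul, sub_zero]
    · have e : loc w (FS.euc (N + 1)) (rad o') z = loc w (FS.euc (N + 1)) (rad o) z := by
        refine hw.loc_congr (plot_rad o hz) ?_
        filter_upwards [isOpen_ne.mem_nhds hz] with y hy
        exact Subtype.ext ((spha_rad o' hy).trans (spha_rad o hy).symm)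
      rw [dd_fun_smul (hs.differentiable (by simp) z) (difc_diff hw (plot_rad o hz)),
        ← loc_dx w (plot_rad o hz), hd, loc_zero, smul_zero, add_zero, e,
        fderiv_fun_sub (hχ.contDiff.differentiable (by simp) z)
          (hχ'.contDiff.differentiable (by simp) z), map_sub, sub_mul]
  simp only [h4, map_sub, topL_apply] at h3
  rw [integral_sub
    ((hχ.win o N).integrable (volume : Measure (EuclideanSpace ℝ (Fin (N + 1))))
      (isCompact_closedBall _ _) hw le_rfl (eb (N + 1)))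
    ((hχ'.win o' N).integrable (volume : Measure (EuclideanSpace ℝ (Fin (N + 1))))
      (isCompact_closedBall _ _) hw le_rfl (eb (N + 1)))] at h3
  exact sub_eq_zero.1 h3

theorem spha_rep {X : Type*} (𝒟 : Dif X) (c d : ℝ) :
    Smo 𝒟.ext 𝒟.ext fun p => (p.1, Real.smoothTransition (c * p.2 - d)) :=
  (smo_fst _ _).pair ((smo_snd 𝒟 (Dif.vec ℝ)).contDiff_comp
    (g := fun t => Real.smoothTransition (c * t - d))
    (Real.smoothTransition.contDiff.comp ((contDiff_const.mul contDiff_id).sub contDiff_const)))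

/-- `H (y, t) = if t ≤ 1 / 2 then H₁ (y, smoothTransition (3 * t)) else
H₂ (y, smoothTransition (3 * t - 2))`; near a point of a plot one of the two formulas holds
(`Dif.congr`). -/
theorem SH.trans {X M : Type*} {𝒟 : Dif X} {𝒟M : Dif M} {F G K : X → M} (h : SH 𝒟 𝒟M F G)
    (h' : SH 𝒟 𝒟M G K) : SH 𝒟 𝒟M F K := by
  obtain ⟨H₁, s₁, a₁, b₁⟩ := h
  obtain ⟨H₂, s₂, a₂, b₂⟩ := h'
  refine ⟨fun p => if p.2 ≤ 1 / 2 then H₁ (p.1, Real.smoothTransition (3 * p.2 - 0))
    else H₂ (p.1, Real.smoothTransition (3 * p.2 - 2)), ?_, fun y => ?_, fun y => ?_⟩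
  · rintro ⟨Z, f, u⟩ hp
    have hc : ContinuousAt (fun z => (f z).2) u :=
      (show Sg (fun z => (f z).2) u from hp.2).self_of_nhds.continuousAt
    rcases lt_or_ge (f u).2 (2 / 3) with hu | hu
    · refine Dif.congr ((s₁.comp (spha_rep 𝒟 3 0)) _ hp) ?_
      filter_upwards [hc.eventually_lt continuousAt_const hu] with z hz
      by_cases e : (f z).2 ≤ 1 / 2
      · exact if_pos e
      · refine (if_neg e).trans ?_
        rw [Real.smoothTransition.zero_of_nonpos (by linarith), a₂,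
          Real.smoothTransition.one_of_one_le (by linarith), b₁]
    · refine Dif.congr ((s₂.comp (spha_rep 𝒟 3 2)) _ hp) ?_
      have hu' : (1 / 2 : ℝ) < (f u).2 := by linarith
      filter_upwards [continuousAt_const.eventually_lt hc hu'] with z hz
      exact if_neg (not_le.2 hz)
  · refine (if_pos (by norm_num)).trans ?_
    rw [Real.smoothTransition.zero_of_nonpos (by norm_num), a₁]
  · refine (if_neg (by norm_num)).trans ?_
    rw [Real.smoothTransition.one_of_one_le (by norm_num), b₂]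

theorem SH.refl {X M : Type*} {𝒟 : Dif X} {𝒟M : Dif M} {F : X → M} (h : Smo 𝒟 𝒟M F) :
    SH 𝒟 𝒟M F F :=
  ⟨fun p => F p.1, h.comp (smo_fst _ _), fun _ => rfl, fun _ => rfl⟩

end Vale.Agent.P231C
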