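import Vale.Agent.P231C.DegB
import Vale.Agent.P231C.SphA

/-! The degree of a map of the sphere. -/

open scoped ContDiff Topology
open Filter Set MeasureTheory

noncomputable section

namespace Vale.Agent.P231C

variable {n : ℕ} {F : FS.euc n → FS.euc n} {u : FS.euc n → ℝ}

theorem degc_core {E : Type} [NormedAddCommGroup E] [NormedSpace ℝ E] [FiniteDimensional ℝ E]
    [MeasurableSpace E] [BorelSpace E] (μ : Measure E) [μ.IsAddHaarMeasure] {F : E → E}
    {g u : E → ℝ} {d : ℝ} (hF : Continuous F) (hg : Integrable g μ) (hu : Continuous u)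
    (hs : HasCompactSupport u) (h : ∀ ε > 0, ∃ φ : ContDiffBump (0 : E), φ.rOut ≤ ε ∧
      ∀ y, u y ≠ 0 → ∫ v, g v * φ.normed μ (F v - y) ∂μ = d) :
    ∫ v, g v * u (F v) ∂μ = d * ∫ y, u y ∂μ := by
  have h0 : 0 ≤ ∫ v, ‖g v‖ ∂μ := integral_nonneg fun _ => norm_nonneg _
  refine eq_of_forall_dist_le fun η hη => ?_
  have hη' : 0 < η / (∫ v, ‖g v‖ ∂μ + 1) := by positivity
  obtain ⟨ε, hε, he⟩ := Metric.uniformContinuous_iff.1 (hs.uniformContinuous_of_continuous hu) _ hη'
  obtain ⟨φ, h1, h2⟩ := h ε hε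
  obtain ⟨C, hC⟩ := φ.continuous_normed.bounded_above_of_compact_support
    (φ.hasCompactSupport_normed (μ := μ))
  obtain ⟨C', hC'⟩ := hu.bounded_above_of_compact_support hs
  have hi := (hg.mul_prod (hu.integrable_of_hasCompactSupport (μ := μ) hs)).mul_bdd
    (φ.continuous_normed.comp ((hF.comp continuous_fst).sub continuous_snd)).aestronglyMeasurable
    (Eventually.of_forall fun q => hC _)
  have e1 : d * ∫ y, u y ∂μ = ∫ y, ∫ v, g v * u y * φ.normed μ (F v - y) ∂μ ∂μ := by
    rw [← integral_const_mul]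
    refine integral_congr_ae (Eventually.of_forall fun y => ?_)
    by_cases hy : u y = 0
    · simp [hy]
    · simp only [mul_right_comm _ (u y), integral_mul_const, h2 y hy]
  rw [e1, ← integral_integral_swap (f := fun v y => g v * u y * φ.normed μ (F v - y)) hi,
    dist_eq_norm, ← integral_sub (f := fun v => g v * u (F v)) (hg.mul_bdd
      (hu.comp hF).aestronglyMeasurable (Eventually.of_forall fun v => hC' _))
      (g := fun v => ∫ y, g v * u y * φ.normed μ (F v - y) ∂μ) hi.integral_prod_left]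
  refine (norm_integral_le_of_norm_le (hg.norm.mul_const (η / (∫ v, ‖g v‖ ∂μ + 1)))
    (Eventually.of_forall fun v => ?_)).trans ?_
  · have h3 := φ.dist_normed_convolution_le (μ := μ) (x₀ := F v) hu.aestronglyMeasurable
      fun x hx => (he (hx.trans_le h1)).le
    rw [convolution_lsmul_swap, dist_comm, dist_eq_norm] at h3
    simp only [mul_assoc, integral_const_mul, ← mul_sub, norm_mul, mul_comm (u _)]
    exact mul_le_mul_of_nonneg_left h3 (norm_nonneg _)
  · rw [integral_mul_const, ← mul_div_assoc, div_le_iff₀ (by positivity)]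
    linarith

theorem degc_cont (h : NP F) : Continuous F := by
  refine continuous_iff_continuousAt.2 fun v => ?_
  rcases eq_or_ne v 0 with rfl | hv
  · rw [ContinuousAt, norm_eq_zero.1 ((h.norm 0).trans norm_zero), tendsto_zero_iff_norm_tendsto_zero]
    simp only [h.norm]
    exact tendsto_norm_zero
  · exact (h.sm v hv).continuousAt

theorem NP.exists_deg (hn : 2 ≤ n) (h : NP F) : ∃ d : ℤ, ∀ u : FS.euc n → ℝ, Sh u →
    dL F u = d * ∫ v : EuclideanSpace ℝ (Fin n), u v := by
  obtain ⟨y₀, hy₀, hr⟩ := h.exists_regular (by omega)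
  obtain ⟨d, δ, hδ, hd⟩ := h.dL_regular hy₀ hr
  refine ⟨d, fun u ⟨hu, a, b, ha, hab⟩ => ?_⟩
  let m : FS.euc n → ℝ := fun v => max 0 (min 1 (min (4 * ‖v‖ / a - 1) (b + a + 1 - ‖v‖)))
  have hm : Sh m := ⟨by fun_prop, a / 4, b + a + 1, by positivity, fun v hv => by
    have h1 := lt_min_iff.1 (lt_min_iff.1 (not_le.1 fun h => hv (max_eq_left h))).2
    have h2 := (one_lt_div ha).1 (sub_pos.1 h1.1)
    constructor <;> linarith [h1.2]⟩
  have key : ∀ w : FS.euc n → ℝ, (∀ v, w v ≠ 0 → a / 2 ≤ ‖v‖ ∧ ‖v‖ ≤ b + a) → dL F w =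
      ∫ v : EuclideanSpace ℝ (Fin n), (fderiv ℝ F v).det * m (F v) * w (F v) := fun w hw => by
    refine integral_congr_ae (Eventually.of_forall fun v => ?_)
    by_cases h0 : w (F v) = 0
    · simp only [h0, mul_zero]
    · have h1 := hw _ h0
      have h2 : 2 ≤ 4 * ‖F v‖ / a := by rw [le_div_iff₀ ha]; linarith [h1.1]
      have h3 : m (F v) = 1 := by
        simp only [m]
        rw [min_eq_left (le_min (by linarith) (by linarith [h1.2])), max_eq_right zero_le_one]
      simp only [h3, mul_one]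
  rw [key u fun v hv => ⟨by linarith [(hab v hv).1], by linarith [(hab v hv).2]⟩]
  have hi := h.continuous_integrand hm
  refine degc_core (E := EuclideanSpace ℝ (Fin n)) volume (degc_cont h)
    (hi.1.integrable_of_hasCompactSupport hi.2) hu (HasCompactSupport.intro
      (isCompact_closedBall 0 b) fun v hv => by_contra fun h0 =>
        hv (mem_closedBall_zero_iff.2 (hab v h0).2)) fun ε hε => ?_
  have h0 := norm_pos_iff.2 hy₀
  obtain ⟨r, hr, r1, r2, r3, r4⟩ : ∃ r > 0, r ≤ ε ∧ r ≤ δ ∧ r ≤ a / 2 ∧ r ≤ ‖y₀‖ / 2 :=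
    ⟨min (min ε δ) (min (a / 2) (‖y₀‖ / 2)), by positivity, (min_le_left _ _).trans
      (min_le_left _ _), (min_le_left _ _).trans (min_le_right _ _), (min_le_right _ _).trans
      (min_le_left _ _), (min_le_right _ _).trans (min_le_right _ _)⟩
  let φ : ContDiffBump (0 : EuclideanSpace ℝ (Fin n)) := ⟨r / 2, r, half_pos hr, half_lt_self hr⟩
  have hz : ∀ v, r ≤ ‖v‖ → φ.normed volume v = 0 := fun v hv => by_contra fun h1 => by
    have h2 : v ∈ Function.support (φ.normed volume) := h1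
    rw [φ.support_normed_eq, mem_ball_zero_iff] at h2
    exact h2.not_ge hv
  refine ⟨φ, r1, fun y hy => ?_⟩
  have h1 := hab y hy
  rw [← key (fun v => φ.normed volume (v - y)) fun v hv => ?_,
    h.dL_translate hn φ.contDiff_normed hr hz (y' := y₀) (by linarith [h1.1]) (by linarith),
    hd (fun v => φ.normed volume (v - y₀))
      (φ.continuous_normed.comp (continuous_id.sub continuous_const)) fun v hv => hz _ (r2.trans hv), integral_sub_right_eq_self (φ.normed volume),
    φ.integral_normed, mul_one]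
  have h2 := abs_le.1 ((abs_norm_sub_norm_le v y).trans (not_le.1 fun h => hv (hz _ h)).le)
  constructor <;> linarith [h1.1, h1.2, h2.1, h2.2]

theorem exists_deg_IS {N : ℕ} {G : Sp (N + 2) → Sp (N + 2)} (hG : Smo (DS _) (DS _) G)
    (o : Sp (N + 2)) {χ : ℝ → ℝ} {a b : ℝ} (hχ : Cut χ a b) : ∃ d : ℤ,
      ∀ w : RF (DS (N + 2)), Fm (N + 1) w → IS o χ (pull hG w) = d * IS o χ w := by
  let F : FS.euc (N + 2) → FS.euc (N + 2) := fun v => ‖v‖ • (G (rad o v)).1
  have hF : NP F := ⟨fun v hv => (contDiffAt_norm ℝ hv).smul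
    (hG _ (plot_rad o hv)).self_of_nhds, fun v => by
      rw [norm_smul, (G _).2, norm_norm, mul_one]⟩
  obtain ⟨d, hd⟩ := hF.exists_deg (Nat.le_add_left 2 N)
  refine ⟨d, fun w hw => ?_⟩
  have hc : ∀ v : FS.euc (N + 2), ¬(a ≤ ‖v‖ ∧ ‖v‖ ≤ b) →
      io (fderiv ℝ (fun w : FS.euc (N + 2) => χ ‖w‖) v) = 0 := fun v hv => by
    rcases not_and_or.1 hv with h | h
    · rw [EventuallyEq.fderiv_eq (f := fun _ => 0) ((continuous_norm.continuousAt.eventually
        (gt_mem_nhds (not_le.1 h))).mono fun z hz => hχ.zero _ hz.le), fderiv_fun_const]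
      exact map_zero _
    · rw [EventuallyEq.fderiv_eq (f := fun _ => 1) ((continuous_norm.continuousAt.eventually
        (lt_mem_nhds (not_le.1 h))).mono fun z hz => hχ.one _ hz.le), fderiv_fun_const]
      exact map_zero _
  refine Eq.trans (integral_congr_ae (Eventually.of_forall fun v => ?_)) (hd (fun y => top (eb _)
    (io (fderiv ℝ (fun w : FS.euc (N + 2) => χ ‖w‖) y) * loc w _ (rad o) y))
    ⟨(cont_lin (topL _)).comp ((hχ.win o (N + 1)).contDiff hw).continuous, a, b, hχ.pos,
      fun v hv => by_contra fun h => hv (by rw [hc v h, zero_mul]; exact lamt_zero _)⟩)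
  rcases eq_or_ne v 0 with rfl | hv
  · have h0 := hχ.pos
    simp only
    rw [hc 0 fun h => by simp [h0.not_ge] at h, hc (F 0) fun h => by
      simp [hF.norm, h0.not_ge] at h, zero_mul, zero_mul, top, lamt_zero, mul_zero]
  have hne : ∀ᶠ z in 𝓝 v, z ≠ 0 := isOpen_ne.mem_nhds hv
  have h1 := hw.nat _ _ (rad o) F v (fun z => G (rad o z))
    (plot_rad o (norm_ne_zero_iff.1 ((hF.norm v).symm ▸ norm_ne_zero_iff.2 hv)))
    (hne.mono fun z hz => hF.sm z hz) (hne.mono fun z hz => Subtype.ext (by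
      have h2 := norm_ne_zero_iff.2 hz
      have h3 : F z ≠ 0 := norm_ne_zero_iff.1 ((hF.norm z).symm ▸ h2)
      have h4 : (rad o (F z)).1 = ‖F z‖⁻¹ • F z := congrArg Subtype.val (dif_neg h3)
      rw [hF.norm] at h4
      exact (h4.trans (inv_smul_smul₀ h2 _)).symm))
  have h2 := fderiv_comp v (hχ.contDiff.differentiable (by simp) (F v))
    ((hF.sm v hv).differentiableAt (by simp))
  simp only [Function.comp_def, hF.norm] at h2
  simp only
  rw [loc_pull hG w (plot_rad o hv), h1, h2]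
  refine Eq.trans (congrArg _ ?_) (top_eb_det _ _)
  rw [map_mul, pb_io]

end Vale.Agent.P231C
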