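import Vale.Agent.P231C.Lam

/-! Differential forms on spaces with a class of plots. -/

open scoped ContDiff Topology
open Filter Set

noncomputable section

namespace Vale.Agent.P231C

/-- Smooth near a point. -/
def Sg {A B : Type*} [NormedAddCommGroup A] [NormedSpace ℝ A] [NormedAddCommGroup B]
    [NormedSpace ℝ B] (g : A → B) (a : A) : Prop := ∀ᶠ a' in 𝓝 a, ContDiffAt ℝ ∞ g a'

/-- A pointed map from a finite dimensional space. -/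
structure Plot (Y : Type*) where
  Z : FS
  f : Z → Y
  u : Z

/-- A class of plots. -/
structure Dif (Y : Type*) where
  P : Plot Y → Prop
  ev : ∀ {Z : FS} {f : Z → Y} {u : Z}, P ⟨Z, f, u⟩ → ∀ᶠ u' in 𝓝 u, P ⟨Z, f, u'⟩
  comp : ∀ {Z W : FS} {f : Z → Y} {g : W → Z} {w : W} {f' : W → Y}, P ⟨Z, f, g w⟩ → Sg g w →
    f' =ᶠ[𝓝 w] f ∘ g → P ⟨W, f', w⟩
  const : ∀ (Z : FS) (y : Y) (u : Z), P ⟨Z, fun _ => y, u⟩

variable {Y Y' Y'' : Type*}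

theorem Sg.comp' {A B C : Type*} [NormedAddCommGroup A] [NormedSpace ℝ A] [NormedAddCommGroup B]
    [NormedSpace ℝ B] [NormedAddCommGroup C] [NormedSpace ℝ C] {f : B → C} {g : A → B} {a : A}
    {f' : A → C} (hf : Sg f (g a)) (hg : Sg g a) (he : f' =ᶠ[𝓝 a] f ∘ g) : Sg f' a := by
  filter_upwards [hg, hg.self_of_nhds.continuousAt.eventually hf, he.eventuallyEq_nhds]
    with a' h1 h2 h3
  exact (h2.comp a' h1).congr_of_eventuallyEq h3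

/-- Normed spaces. -/
def Dif.vec (V : Type*) [NormedAddCommGroup V] [NormedSpace ℝ V] : Dif V where
  P p := Sg p.f p.u
  ev h := eventually_eventually_nhds.2 h
  comp h hg he := h.comp' hg he
  const _ _ _ := Eventually.of_forall fun _ => contDiffAt_const

/-- Induced class of plots. -/
def Dif.ind (𝒟 : Dif Y) (j : Y' → Y) : Dif Y' where
  P p := 𝒟.P ⟨p.Z, fun z => j (p.f z), p.u⟩
  ev h := 𝒟.ev h
  comp h hg he := 𝒟.comp h hg (he.mono fun _ hw => congrArg j hw)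
  const Z y u := 𝒟.const Z (j y) u

/-- Product. -/
def Dif.prod (𝒟 : Dif Y) (𝒟' : Dif Y') : Dif (Y × Y') where
  P p := 𝒟.P ⟨p.Z, fun z => (p.f z).1, p.u⟩ ∧ 𝒟'.P ⟨p.Z, fun z => (p.f z).2, p.u⟩
  ev h := (𝒟.ev h.1).and (𝒟'.ev h.2)
  comp h hg he := ⟨𝒟.comp h.1 hg (he.mono fun _ hw => congrArg Prod.fst hw),
    𝒟'.comp h.2 hg (he.mono fun _ hw => congrArg Prod.snd hw)⟩
  const Z y u := ⟨𝒟.const Z y.1 u, 𝒟'.const Z y.2 u⟩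

/-- Product with the line. -/
abbrev Dif.ext (𝒟 : Dif Y) : Dif (Y × ℝ) := 𝒟.prod (Dif.vec ℝ)

/-- Smooth maps. -/
def Smo (𝒟' : Dif Y') (𝒟 : Dif Y) (F : Y' → Y) : Prop :=
  ∀ p : Plot Y', 𝒟'.P p → 𝒟.P ⟨p.Z, fun z => F (p.f z), p.u⟩

theorem smo_fst (𝒟 : Dif Y) (𝒟' : Dif Y') : Smo (𝒟.prod 𝒟') 𝒟 Prod.fst := fun _ h => h.1

theorem smo_snd (𝒟 : Dif Y) (𝒟' : Dif Y') : Smo (𝒟.prod 𝒟') 𝒟' Prod.snd := fun _ h => h.2

theorem smo_id (𝒟 : Dif Y) : Smo 𝒟 𝒟 fun y => y := fun _ h => h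

theorem smo_const (𝒟' : Dif Y') (𝒟 : Dif Y) (y : Y) : Smo 𝒟' 𝒟 fun _ => y :=
  fun p _ => 𝒟.const p.Z y p.u

theorem Smo.comp {𝒟 : Dif Y} {𝒟' : Dif Y'} {𝒟'' : Dif Y''} {F : Y' → Y} {G : Y'' → Y'}
    (hF : Smo 𝒟' 𝒟 F) (hG : Smo 𝒟'' 𝒟' G) : Smo 𝒟'' 𝒟 fun y => F (G y) :=
  fun p h => hF _ (hG p h)

theorem Smo.pair {𝒟 : Dif Y} {𝒟' : Dif Y'} {𝒟'' : Dif Y''} {F : Y'' → Y} {G : Y'' → Y'}
    (hF : Smo 𝒟'' 𝒟 F) (hG : Smo 𝒟'' 𝒟' G) : Smo 𝒟'' (𝒟.prod 𝒟') fun y => (F y, G y) :=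
  fun p h => ⟨hF p h, hG p h⟩

theorem smo_slice (𝒟 : Dif Y) (t : ℝ) : Smo 𝒟 𝒟.ext fun y => (y, t) :=
  (smo_id 𝒟).pair (smo_const _ _ t)

theorem Smo.ext {𝒟 : Dif Y} {𝒟' : Dif Y'} {F : Y' → Y} (hF : Smo 𝒟' 𝒟 F) :
    Smo 𝒟'.ext 𝒟.ext fun w => (F w.1, w.2) :=
  (hF.comp (smo_fst _ _)).pair (smo_snd _ _)

/-- Raw forms. -/
def RF (𝒟 : Dif Y) : Type _ := (p : {p : Plot Y // 𝒟.P p}) → Lam p.1.Z

variable {𝒟 : Dif Y} {𝒟' : Dif Y'}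

instance : Ring (RF 𝒟) := inferInstanceAs (Ring ((p : {p : Plot Y // 𝒟.P p}) → Lam p.1.Z))

instance : Algebra ℝ (RF 𝒟) :=
  inferInstanceAs (Algebra ℝ ((p : {p : Plot Y // 𝒟.P p}) → Lam p.1.Z))

open Classical in
/-- The local expression of a form along a map. -/
def loc (φ : RF 𝒟) (Z : FS) (f : Z → Y) (u : Z) : Lam Z :=
  if h : 𝒟.P ⟨Z, f, u⟩ then φ ⟨⟨Z, f, u⟩, h⟩ else 0

/-- Differential forms of degree `k`. -/
structure Fm (k : ℕ) (φ : RF 𝒟) : Prop where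
  deg : ∀ p, φ p ∈ Dg p.1.Z k
  sm : ∀ (Z : FS) (f : Z → Y) (u : Z), 𝒟.P ⟨Z, f, u⟩ → ContDiffAt ℝ ∞ (loc φ Z f) u
  nat : ∀ (Z W : FS) (f : Z → Y) (g : W → Z) (w : W) (f' : W → Y), 𝒟.P ⟨Z, f, g w⟩ → Sg g w →
    f' =ᶠ[𝓝 w] f ∘ g → loc φ W f' w = pb (fderiv ℝ g w) (loc φ Z f (g w))

/-- Exterior derivative. -/
def dx (φ : RF 𝒟) : RF 𝒟 := fun p => dd (loc φ p.1.Z p.1.f) p.1.u

/-- Functions as forms of degree zero. -/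
def fn (𝒟 : Dif Y) (g : Y → ℝ) : RF 𝒟 := fun p => algebraMap ℝ _ (g (p.1.f p.1.u))

/-- The form `⟪a, d b⟫`. -/
def ip (𝒟 : Dif Y) {V : Type*} [NormedAddCommGroup V] [InnerProductSpace ℝ V] (a b : Y → V) :
    RF 𝒟 := fun p =>
  io ((innerSL ℝ (a (p.1.f p.1.u))).comp (fderiv ℝ (fun z => b (p.1.f z)) p.1.u))

/-- Pull back. -/
def pull {F : Y' → Y} (hF : Smo 𝒟' 𝒟 F) : RF 𝒟 →ₐ[ℝ] RF 𝒟' where
  toFun φ p := φ ⟨⟨p.1.Z, fun z => F (p.1.f z), p.1.u⟩, hF p.1 p.2⟩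
  map_one' := rfl
  map_mul' _ _ := rfl
  map_zero' := rfl
  map_add' _ _ := rfl
  commutes' _ := rfl

/-- Integration along the line. -/
def fib (a b : ℝ) (φ : RF 𝒟.ext) : RF 𝒟 := fun p => ∫ t in a..b,
  pb (Z := p.1.Z.ext) (ContinuousLinearMap.inl ℝ p.1.Z ℝ)
    (ct (Z := p.1.Z.ext) (0, 1) (loc φ p.1.Z.ext (fun w => (p.1.f w.1, w.2)) (p.1.u, t)))

/-- Every plot factors through a plot by a map of rank at most `N`. -/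
def RankLe (𝒟 : Dif Y) (N : ℕ) : Prop :=
  ∀ (Z : FS) (f : Z → Y) (u : Z), 𝒟.P ⟨Z, f, u⟩ → ∃ (W : FS) (f' : W → Y) (g : Z → W),
    𝒟.P ⟨W, f', g u⟩ ∧ Sg g u ∧ f =ᶠ[𝓝 u] f' ∘ g ∧
      Module.finrank ℝ (LinearMap.range (fderiv ℝ g u).toLinearMap) ≤ N

/-- An integration functional on forms of top degree `N + 1`. -/
structure Integ (𝒟 : Dif Y) (N : ℕ) (I : RF 𝒟 → ℝ) : Prop where
  rank : RankLe 𝒟 (N + 1)
  add : ∀ a b, Fm (N + 1) a → Fm (N + 1) b → I (a + b) = I a + I b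
  smul : ∀ (c : ℝ) a, Fm (N + 1) a → I (c • a) = c * I a
  stokes : ∀ a, Fm N a → I (dx a) = 0

/-- A smooth circle action of period `l`. -/
structure Cir (𝒟 : Dif Y) (a : Y × ℝ → Y) (l : ℝ) : Prop where
  sm : Smo 𝒟.ext 𝒟 a
  zero : ∀ y, a (y, 0) = y
  add : ∀ y s t, a (a (y, s), t) = a (y, s + t)
  per : ∀ y, a (y, l) = y

variable {a : Y × ℝ → Y} {l : ℝ}

/-- Basic forms. -/
def Cir.Bas (h : Cir 𝒟 a l) (φ : RF 𝒟) : Prop := pull h.sm φ = pull (smo_fst _ _) φ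

/-- Integration along the orbits. -/
def Cir.push (h : Cir 𝒟 a l) (φ : RF 𝒟) : RF 𝒟 := fib 0 l (pull h.sm φ)

/-- Smoothly homotopic maps. -/
def SH (𝒟' : Dif Y') (𝒟 : Dif Y) (F G : Y' → Y) : Prop :=
  ∃ H : Y' × ℝ → Y, Smo 𝒟'.ext 𝒟 H ∧ (∀ y, H (y, 0) = F y) ∧ ∀ y, H (y, 1) = G y

/-- Complete homogeneous polynomial. -/
def hh {R : Type*} [Ring R] (α β : R) (m : ℕ) : R :=
  ∑ i ∈ Finset.range (m + 1), α ^ i * β ^ (m - i)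

section Curv

variable {V : Type*} [NormedAddCommGroup V] [InnerProductSpace ℝ V]

/-- An orthogonal complex structure. -/
structure Cx (i : V →L[ℝ] V) : Prop where
  inner : ∀ a b, inner ℝ (i a) (i b) = inner ℝ a b
  sq : ∀ a, i (i a) = -a

/-- Projection on the complex line of a unit vector. -/
def prj (i : V →L[ℝ] V) (s : V) : V →L[ℝ] V :=
  (innerSL ℝ s).smulRight s + (innerSL ℝ (i s)).smulRight (i s)

/-- Connection form of a unit section. -/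
def cn (i : V →L[ℝ] V) {Z : FS} (s : Z → V) (u : Z) : Lam Z :=
  io ((2 * Real.pi)⁻¹ • (innerSL ℝ (i (s u))).comp (fderiv ℝ s u))

/-- A smooth family of complex lines with its curvature form. -/
structure Curv (𝒟 : Dif Y) (i : V →L[ℝ] V) (P : Y → V →L[ℝ] V) (η : RF 𝒟) : Prop where
  cx : Cx i
  sm : Smo 𝒟 (Dif.vec (V →L[ℝ] V)) P
  line : ∀ y, ∃ s, ‖s‖ = 1 ∧ P y = prj i s
  fm : Fm 2 η
  closed : dx η = 0
  eq : ∀ (Z : FS) (f : Z → Y) (u : Z) (s : Z → V), 𝒟.P ⟨Z, f, u⟩ → Sg s u →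
    (∀ᶠ z in 𝓝 u, ‖s z‖ = 1 ∧ P (f z) (s z) = s z) → loc η Z f u = dd (cn i s) u

/-- `x` represents the holonomy along the loop `c` of period `l`. -/
def Hl (i : V →L[ℝ] V) (P : Y → V →L[ℝ] V) (c : ℝ → Y) (l x : ℝ) : Prop :=
  ∃ s : ℝ → V, ContDiff ℝ ∞ s ∧ Function.Periodic s l ∧ (∀ t, ‖s t‖ = 1 ∧ P (c t) (s t) = s t) ∧
    x = ∫ t in (0 : ℝ)..l, (2 * Real.pi)⁻¹ * inner ℝ (i (s t)) (deriv s t)

end Curv

end Vale.Agent.P231C
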