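import Vale.Agent.P231C.LamB

/-! The exterior derivative. -/

open scoped ContDiff Topology
open Filter Set

noncomputable section

namespace Vale.Agent.P231C

variable {Z W : FS} {φ ψ : Z → Lam Z} {u : Z} {k : ℕ}

/-- Antisymmetrisation of the derivative. -/
def lamcW (Z : FS) : (Z →L[ℝ] Lam Z) →ₗ[ℝ] Lam Z where
  toFun T := ∑ i, io (LinearMap.toContinuousLinearMap ((Module.finBasis ℝ Z).coord i)) *
    T (Module.finBasis ℝ Z i)
  map_add' S T := by
    simp only [add_apply, mul_add, Finset.sum_add_distrib]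
  map_smul' c T := by
    simp only [smul_apply, mul_smul_comm, RingHom.id_apply, Finset.smul_sum]

theorem lamc_dd (φ : Z → Lam Z) (u : Z) : dd φ u = lamcW Z (fderiv ℝ φ u) := rfl

theorem lamc_apply (T : Z →L[ℝ] Lam Z) : lamcW Z T =
    ∑ i, io (LinearMap.toContinuousLinearMap ((Module.finBasis ℝ Z).coord i)) *
      T (Module.finBasis ℝ Z i) := rfl

theorem lamc_exp {F : Type} [NormedAddCommGroup F] [NormedSpace ℝ F] {ι : Type} [Fintype ι]
    (v : Module.Basis ι ℝ Z) (T : Z →L[ℝ] F) (x : Z) :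
    ∑ i, v.coord i x • T (v i) = T x := by
  conv_rhs => rw [← v.sum_repr x, map_sum]
  simp only [map_smul, Module.Basis.coord_apply]

theorem lamc_rank (f : Z →L[ℝ] ℝ) (c : Lam Z) : lamcW Z (f.smulRight c) = io f * c := by
  have h : f = ∑ i, f (Module.finBasis ℝ Z i) •
      LinearMap.toContinuousLinearMap ((Module.finBasis ℝ Z).coord i) := by
    ext x
    rw [← lamc_exp (Module.finBasis ℝ Z) f x, sum_apply]
    exact Finset.sum_congr rfl fun i _ => mul_comm _ _
  rw [lamc_apply]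
  conv_rhs => rw [h, map_sum, Finset.sum_mul]
  refine Finset.sum_congr rfl fun i _ => ?_
  rw [map_smul, ContinuousLinearMap.smulRight_apply, mul_smul_comm, smul_mul_assoc]

theorem lamc_anti (f g : Z →L[ℝ] ℝ) : io f * io g = -(io g * io f) := by
  have := dg_comm (io_mem f) (io_mem g)
  rwa [mul_one, pow_one, neg_one_smul] at this

theorem lamc_sum {ι : Type} (s : Finset ι) {φ : ι → Z → Lam Z}
    (h : ∀ i ∈ s, DifferentiableAt ℝ (φ i) u) :
    dd (fun z => ∑ i ∈ s, φ i z) u = ∑ i ∈ s, dd (φ i) u := by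
  rw [lamc_dd, fderiv_fun_sum h, map_sum]
  rfl

theorem dd_const (c : Lam Z) (u : Z) : dd (fun _ => c) u = 0 := by
  rw [lamc_dd, fderiv_fun_const, Pi.zero_apply, map_zero]

theorem dd_congr (h : φ =ᶠ[𝓝 u] ψ) : dd φ u = dd ψ u := by
  rw [lamc_dd, lamc_dd, h.fderiv_eq]

theorem dd_add (h : DifferentiableAt ℝ φ u) (h' : DifferentiableAt ℝ ψ u) :
    dd (fun z => φ z + ψ z) u = dd φ u + dd ψ u := by
  rw [lamc_dd, fderiv_fun_add h h', map_add]
  rfl

theorem dd_smul (c : ℝ) (h : DifferentiableAt ℝ φ u) : dd (fun z => c • φ z) u = c • dd φ u :=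
  by
  rw [lamc_dd, fderiv_fun_const_smul h, map_smul]
  rfl

theorem dd_fun {f : Z → ℝ} (h : DifferentiableAt ℝ f u) :
    dd (fun z => algebraMap ℝ (Lam Z) (f z)) u = io (fderiv ℝ f u) := by
  simp only [Algebra.algebraMap_eq_smul_one]
  rw [lamc_dd, fderiv_smul_const h, lamc_rank, mul_one]

theorem dd_fun_smul {f : Z → ℝ} (hf : DifferentiableAt ℝ f u) (h : DifferentiableAt ℝ φ u) :
    dd (fun z => f z • φ z) u = io (fderiv ℝ f u) * φ u + f u • dd φ u := by
  rw [lamc_dd, fderiv_fun_smul hf h, map_add, map_smul, lamc_rank, add_comm]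
  rfl

theorem dd_mem (h : ∀ᶠ z in 𝓝 u, φ z ∈ Dg Z k) : dd φ u ∈ Dg Z (k + 1) := by
  rw [add_comm]
  exact Submodule.sum_mem _ fun i _ => dg_mul (io_mem _) (fderiv_mem_dg h _)

theorem dd_mul (h : DifferentiableAt ℝ φ u) (h' : DifferentiableAt ℝ ψ u) (hk : φ u ∈ Dg Z k) :
    dd (fun z => φ z * ψ z) u = dd φ u * ψ u + (-1 : ℝ) ^ k • (φ u * dd ψ u) := by
  simp only [dd, Finset.sum_mul, Finset.mul_sum, Finset.smul_sum, ← Finset.sum_add_distrib]
  refine Finset.sum_congr rfl fun i _ => ?_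
  rw [fderiv_lmul h h', mul_add, ← mul_assoc, ← mul_assoc, dg_comm (io_mem _) hk, one_mul,
    smul_mul_assoc, mul_assoc (φ u)]

/-- Symmetry of the second derivative (`ContDiffAt.isSymmSndFDerivAt`) and `io f * io g =
-(io g * io f)`. -/
theorem dd_dd (h : ContDiffAt ℝ 2 φ u) : dd (dd φ) u = 0 := by
  have h1 : DifferentiableAt ℝ (fderiv ℝ φ) u :=
    (h.fderiv_right (m := 1) le_rfl).differentiableAt one_ne_zero
  have h2 : fderiv ℝ (dd φ) u =
      (LinearMap.toContinuousLinearMap (lamcW Z)).comp (fderiv ℝ (fderiv ℝ φ) u) :=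
    ((LinearMap.toContinuousLinearMap (lamcW Z)).hasFDerivAt.comp u h1.hasFDerivAt).fderiv
  have h3 := h.isSymmSndFDerivAt (by simp)
  obtain ⟨e, he⟩ : ∃ e : Fin (Module.finrank ℝ Z) → Lam Z, ∀ i, e i =
    io (LinearMap.toContinuousLinearMap ((Module.finBasis ℝ Z).coord i)) := ⟨_, fun _ => rfl⟩
  have h4 : dd (dd φ) u = ∑ i, ∑ j, e i * e j *
      fderiv ℝ (fderiv ℝ φ) u (Module.finBasis ℝ Z i) (Module.finBasis ℝ Z j) := by
    rw [lamc_dd, h2, lamc_apply]
    refine Finset.sum_congr rfl fun i _ => ?_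
    rw [ContinuousLinearMap.comp_apply, LinearMap.coe_toContinuousLinearMap', lamc_apply,
      Finset.mul_sum]
    simp only [he, mul_assoc]
  have h5 : dd (dd φ) u = -dd (dd φ) u := by
    conv_lhs => rw [h4, Finset.sum_comm]
    rw [h4, ← Finset.sum_neg_distrib]
    refine Finset.sum_congr rfl fun i _ => ?_
    rw [← Finset.sum_neg_distrib]
    refine Finset.sum_congr rfl fun j _ => ?_
    rw [he, he, lamc_anti, neg_mul, h3]
  have h6 : (2 : ℝ) • dd (dd φ) u = 0 := by
    rw [two_smul]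
    exact add_eq_zero_iff_eq_neg.2 h5
  exact (smul_eq_zero.1 h6).resolve_left two_ne_zero

theorem dd_dfun {f : Z → ℝ} (h : ContDiffAt ℝ 2 f u) : dd (fun z => io (fderiv ℝ f z)) u = 0 :=
  by
  rw [← dd_dd (Z := Z) (cd_alg h)]
  refine dd_congr ?_
  filter_upwards [h.eventually (by simp)] with z hz
  exact (dd_fun (hz.differentiableAt two_ne_zero)).symm

/-- The formula holds in any basis: `dd φ u` is the image of `fderiv ℝ φ u` by a linear map. -/
theorem dd_eq_sum {ι : Type} [Fintype ι] (v : Module.Basis ι ℝ Z) (φ : Z → Lam Z) (u : Z) :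
    dd φ u = ∑ i, io (LinearMap.toContinuousLinearMap (v.coord i)) * fderiv ℝ φ u (v i) := by
  have h : fderiv ℝ φ u = ∑ i, (LinearMap.toContinuousLinearMap (v.coord i)).smulRight
      (fderiv ℝ φ u (v i)) := by
    ext x
    rw [← lamc_exp v (fderiv ℝ φ u) x, sum_apply]
    rfl
  conv_lhs => rw [lamc_dd, h, map_sum]
  exact Finset.sum_congr rfl fun i _ => lamc_rank _ _

/-- Naturality. Expand `φ z = ∑ f j z • c j` in a basis of `Lam Z`; use `dd_fun_smul` and show
for a constant form `c` that `w' ↦ pb (fderiv ℝ g w') c` is closed by `dg_induction` or by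
`ExteriorAlgebra.induction` (closedness of `io (f.comp (fderiv ℝ g w'))` is `dd_dfun`; for the
product with `io` use `dd_mul` with `k = 1`). -/
theorem dd_pb {g : W → Z} {w : W} (hg : ContDiffAt ℝ 2 g w) (h : DifferentiableAt ℝ φ (g w)) :
    dd (fun w' => pb (fderiv ℝ g w') (φ (g w'))) w = pb (fderiv ℝ g w) (dd φ (g w)) := by
  have hA : ContDiffAt ℝ 1 (fderiv ℝ g) w := hg.fderiv_right (m := 1) le_rfl
  have hg1 : DifferentiableAt ℝ g w := hg.differentiableAt two_ne_zero
  have hd : ∀ c : Lam Z, DifferentiableAt ℝ (fun w' => pb (fderiv ℝ g w') c) w := fun c =>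
    (cd_pb hA contDiffAt_const).differentiableAt one_ne_zero
  have hc : ∀ c : Lam Z, dd (fun w' => pb (fderiv ℝ g w') c) w = 0 := by
    intro c
    induction c using lam_induction with
    | h0 c =>
      simp only [AlgHom.commutes]
      exact dd_const _ _
    | hadd x y hx hy =>
      simp only [map_add]
      rw [dd_add (hd x) (hd y), hx, hy, add_zero]
    | hmul f x hx =>
      have h1 : dd (fun w' => pb (fderiv ℝ g w') (io f)) w = 0 := by
        rw [← dd_dfun (f := fun w' => f (g w')) (f.contDiff.contDiffAt.comp w hg)]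
        refine dd_congr ?_
        filter_upwards [hg.eventually (by simp)] with z hz
        rw [pb_io]
        exact congrArg io
          (f.hasFDerivAt.comp z (hz.differentiableAt two_ne_zero).hasFDerivAt).fderiv.symm
      simp only [map_mul]
      rw [dd_mul (hd _) (hd x) (pb_mem _ (io_mem f)), h1, hx, zero_mul, mul_zero, smul_zero,
        add_zero]
  obtain ⟨B⟩ : Nonempty (Module.Basis (Fin (Module.finrank ℝ (Lam Z))) ℝ (Lam Z)) :=
    ⟨Module.finBasis ℝ (Lam Z)⟩
  have hf : ∀ j, DifferentiableAt ℝ (fun z => B.coord j (φ z)) (g w) := fun j =>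
    (LinearMap.toContinuousLinearMap (B.coord j)).differentiableAt.comp _ h
  have e1 : φ = fun z => ∑ j, B.coord j (φ z) • B j := funext fun z => (B.sum_repr (φ z)).symm
  have e2 : (fun w' => pb (fderiv ℝ g w') (φ (g w'))) =
      fun w' => ∑ j, B.coord j (φ (g w')) • pb (fderiv ℝ g w') (B j) := by
    funext w'
    conv_lhs => rw [← B.sum_repr (φ (g w')), map_sum]
    simp only [map_smul, Module.Basis.coord_apply]
  have e3 : dd φ (g w) = ∑ j, io (fderiv ℝ (fun z => B.coord j (φ z)) (g w)) * B j := by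
    conv_lhs => rw [e1]
    rw [lamc_sum _ fun j _ => (hf j).smul_const (B j)]
    refine Finset.sum_congr rfl fun j _ => ?_
    rw [dd_fun_smul (hf j) (differentiableAt_const _), dd_const, smul_zero, add_zero]
  have hf' : ∀ j, DifferentiableAt ℝ (fun w' => B.coord j (φ (g w'))) w := fun j =>
    (hf j).comp w hg1
  rw [e2, e3, map_sum, lamc_sum _ fun j _ => (hf' j).fun_smul (hd (B j))]
  refine Finset.sum_congr rfl fun j _ => ?_
  rw [dd_fun_smul (hf' j) (hd _), hc, smul_zero, add_zero, map_mul, pb_io]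
  exact congrArg (fun A => io A * _) (fderiv_comp w (hf j) hg1)

theorem evl_dd_io {A : Z → Z →L[ℝ] ℝ} (h : DifferentiableAt ℝ A u) (v w : Z) :
    evl [v, w] (dd (fun z => io (A z)) u) = fderiv ℝ A u v w - fderiv ℝ A u w v := by
  have h1 : ∀ f g : Z →L[ℝ] ℝ, sc (ct w (ct v (io f * io g))) = f v * g w - f w * g v := by
    intro f g
    rw [ct_io_mul, ct_io, map_sub, map_smul, ct_io, ct_io_mul, ct_alg, mul_zero, sub_zero, map_sub,
      map_smul, map_smul, sc_alg, sc_alg, smul_eq_mul, smul_eq_mul]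
  show sc (ct w (ct v (dd (fun z => io (A z)) u))) = _
  rw [dd, map_sum, map_sum, map_sum, ← lamc_exp (Module.finBasis ℝ Z) (fderiv ℝ A u) v,
    ← lamc_exp (Module.finBasis ℝ Z) (fderiv ℝ A u) w, sum_apply,
    sum_apply, ← Finset.sum_sub_distrib]
  refine Finset.sum_congr rfl fun i _ => ?_
  rw [fderiv_io h, h1]
  rfl

/-- Formula of Cartan for the translation in the last variable: use `dd_eq_sum` with the
product basis, `ct_io_mul`. -/
theorem cartan_ext {φ : Z.ext → Lam Z.ext} {z : Z} {t : ℝ} (h : DifferentiableAt ℝ φ (z, t)) :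
    HasDerivAt (fun s => pb (Z := Z.ext) (ContinuousLinearMap.inl ℝ Z ℝ) (φ (z, s)))
      (pb (Z := Z.ext) (ContinuousLinearMap.inl ℝ Z ℝ) (ct (Z := Z.ext) (0, 1) (dd φ (z, t))) +
        dd (fun z' => pb (Z := Z.ext) (ContinuousLinearMap.inl ℝ Z ℝ)
          (ct (Z := Z.ext) (0, 1) (φ (z', t)))) z) t := by
  obtain ⟨T, hT⟩ : ∃ T, T = fderiv ℝ φ (z, t) := ⟨_, rfl⟩
  have hF : HasFDerivAt φ T (z, t) := hT ▸ h.hasFDerivAt
  have h1 : HasDerivAt (fun s => φ (z, s)) (T (0, 1)) t :=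
    hF.comp_hasDerivAt t ((hasDerivAt_const t z).prodMk (hasDerivAt_id t))
  have h2 : HasFDerivAt (fun z' => φ (z', t)) (T.comp (ContinuousLinearMap.inl ℝ Z ℝ)) z :=
    hF.comp z (hasFDerivAt_prodMk_left z t)
  have h3 := (LinearMap.toContinuousLinearMap
    (pb (Z := Z.ext) (ContinuousLinearMap.inl ℝ Z ℝ)).toLinearMap).hasFDerivAt.comp_hasDerivAt t h1
  refine h3.congr_deriv ?_
  obtain ⟨e, he⟩ : ∃ e : Fin (Module.finrank ℝ Z) → Z →L[ℝ] ℝ, ∀ i, e i =
    LinearMap.toContinuousLinearMap ((Module.finBasis ℝ Z).coord i) := ⟨_, fun _ => rfl⟩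
  have h4 : T = ∑ i, ((e i).comp (ContinuousLinearMap.fst ℝ Z ℝ)).smulRight
      (T (Module.finBasis ℝ Z i, 0)) + (ContinuousLinearMap.snd ℝ Z ℝ).smulRight (T (0, 1)) := by
    refine ContinuousLinearMap.ext fun x => ?_
    have h5 := lamc_exp (Module.finBasis ℝ Z) (T.comp (ContinuousLinearMap.inl ℝ Z ℝ)) x.1
    have h6 : x = (x.1, 0) + x.2 • ((0, 1) : Z × ℝ) := by simp
    rw [add_apply, sum_apply]
    conv_lhs => rw [h6, map_add, map_smul]
    simp only [he]
    exact congrArg (· + _) h5.symm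
  have h7 : dd φ (z, t) = ∑ i, io (Z := Z.ext) ((e i).comp (ContinuousLinearMap.fst ℝ Z ℝ)) *
      T (Module.finBasis ℝ Z i, 0) +
        io (Z := Z.ext) (ContinuousLinearMap.snd ℝ Z ℝ) * T (0, 1) := by
    rw [lamc_dd, ← hT]
    conv_lhs => rw [h4, map_add, map_sum, lamc_rank]
    exact congrArg (· + _) (Finset.sum_congr rfl fun i _ => lamc_rank (Z := Z.ext) _ _)
  have h8 : dd (fun z' => pb (Z := Z.ext) (ContinuousLinearMap.inl ℝ Z ℝ)
      (ct (Z := Z.ext) (0, 1) (φ (z', t)))) z = ∑ i, io (e i) *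
        pb (Z := Z.ext) (ContinuousLinearMap.inl ℝ Z ℝ)
          (ct (Z := Z.ext) (0, 1) (T (Module.finBasis ℝ Z i, 0))) := by
    refine Finset.sum_congr rfl fun i _ => ?_
    have h9 := fderiv_lin ((pb (Z := Z.ext) (ContinuousLinearMap.inl ℝ Z ℝ)).toLinearMap ∘ₗ
      ct (Z := Z.ext) (0, 1)) h2.differentiableAt (Module.finBasis ℝ Z i)
    rw [h2.fderiv] at h9
    rw [he]
    exact congrArg (_ * ·) h9
  have h10 : ∀ i, ((e i).comp (ContinuousLinearMap.fst ℝ Z ℝ)).comp
      (ContinuousLinearMap.inl ℝ Z ℝ) = e i := fun i => by ext x; simp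
  have h11 : (ContinuousLinearMap.snd ℝ Z ℝ).comp (ContinuousLinearMap.inl ℝ Z ℝ) = 0 := by
    ext x; simp
  have k1 : ∀ (f : Z.ext →L[ℝ] ℝ) (c : Lam Z.ext),
      pb (Z := Z.ext) (ContinuousLinearMap.inl ℝ Z ℝ) (ct (Z := Z.ext) (0, 1) (io f * c)) =
        f (0, 1) • pb (Z := Z.ext) (ContinuousLinearMap.inl ℝ Z ℝ) c -
          io (f.comp (ContinuousLinearMap.inl ℝ Z ℝ)) *
            pb (Z := Z.ext) (ContinuousLinearMap.inl ℝ Z ℝ) (ct (Z := Z.ext) (0, 1) c) := by
    intro f c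
    rw [ct_io_mul, map_sub, map_smul, map_mul, pb_io]
  rw [h7, h8, map_add, map_add, map_sum, map_sum, add_right_comm, ← Finset.sum_add_distrib,
    Finset.sum_eq_zero, zero_add, k1, h11, map_zero, zero_mul, sub_zero]
  · exact (one_smul ℝ _).symm
  · intro i _
    rw [k1, h10, sub_add_cancel]
    have : ((e i).comp (ContinuousLinearMap.fst ℝ Z ℝ)) (0, 1) = 0 := by simp
    exact (congrArg (· • _) this).trans (zero_smul ℝ _)

end Vale.Agent.P231C
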