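import Vale.Agent.P231C.Dif
import Vale.Agent.P231C.LamC

/-! Local expressions, closure properties of forms. -/

open scoped ContDiff Topology
open Filter Set

noncomputable section

namespace Vale.Agent.P231C

variable {Y Y' Y'' : Type*} {𝒟 : Dif Y} {𝒟' : Dif Y'} {𝒟'' : Dif Y''} {φ ψ : RF 𝒟} {k l : ℕ}
  {Z : FS} {f : Z → Y} {u : Z}

theorem loc_eq (φ : RF 𝒟) (h : 𝒟.P ⟨Z, f, u⟩) : loc φ Z f u = φ ⟨⟨Z, f, u⟩, h⟩ := dif_pos h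

theorem loc_not (φ : RF 𝒟) (h : ¬𝒟.P ⟨Z, f, u⟩) : loc φ Z f u = 0 := dif_neg h

theorem rf_ext (h : ∀ (Z : FS) (f : Z → Y) (u : Z), 𝒟.P ⟨Z, f, u⟩ → loc φ Z f u = loc ψ Z f u) :
    φ = ψ := funext fun ⟨⟨Z, f, u⟩, hp⟩ => by
  rw [← loc_eq φ hp, ← loc_eq ψ hp, h Z f u hp]

theorem loc_zero : loc (0 : RF 𝒟) Z f u = 0 := by
  unfold loc
  split_ifs <;> rfl

theorem loc_add (φ ψ : RF 𝒟) : loc (φ + ψ) Z f u = loc φ Z f u + loc ψ Z f u := by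
  unfold loc
  split_ifs
  exacts [rfl, (add_zero _).symm]

theorem loc_neg (φ : RF 𝒟) : loc (-φ) Z f u = -loc φ Z f u := by
  unfold loc
  split_ifs
  exacts [rfl, neg_zero.symm]

theorem loc_sub (φ ψ : RF 𝒟) : loc (φ - ψ) Z f u = loc φ Z f u - loc ψ Z f u := by
  unfold loc
  split_ifs
  exacts [rfl, (sub_zero _).symm]

theorem loc_smul (c : ℝ) (φ : RF 𝒟) : loc (c • φ) Z f u = c • loc φ Z f u := by
  unfold loc
  split_ifs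
  exacts [rfl, (smul_zero _).symm]

theorem loc_mul (φ ψ : RF 𝒟) : loc (φ * ψ) Z f u = loc φ Z f u * loc ψ Z f u := by
  unfold loc
  split_ifs
  exacts [rfl, (mul_zero _).symm]

theorem loc_one (h : 𝒟.P ⟨Z, f, u⟩) : loc (1 : RF 𝒟) Z f u = 1 := loc_eq _ h

theorem loc_pow (φ : RF 𝒟) (j : ℕ) (h : 𝒟.P ⟨Z, f, u⟩) : loc (φ ^ j) Z f u = loc φ Z f u ^ j := by
  rw [loc_eq _ h, loc_eq _ h]
  rfl

theorem loc_dx (φ : RF 𝒟) (h : 𝒟.P ⟨Z, f, u⟩) : loc (dx φ) Z f u = dd (loc φ Z f) u := loc_eq _ h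

theorem loc_fn (g : Y → ℝ) (h : 𝒟.P ⟨Z, f, u⟩) :
    loc (fn 𝒟 g) Z f u = algebraMap ℝ (Lam Z) (g (f u)) := loc_eq _ h

theorem loc_ip {V : Type*} [NormedAddCommGroup V] [InnerProductSpace ℝ V] (a b : Y → V)
    (h : 𝒟.P ⟨Z, f, u⟩) : loc (ip 𝒟 a b) Z f u =
      io ((innerSL ℝ (a (f u))).comp (fderiv ℝ (fun z => b (f z)) u)) := loc_eq _ h

theorem loc_pull {F : Y' → Y} (hF : Smo 𝒟' 𝒟 F) (φ : RF 𝒟) {f : Z → Y'} (h : 𝒟'.P ⟨Z, f, u⟩) :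
    loc (pull hF φ) Z f u = loc φ Z (fun z => F (f z)) u := by
  rw [loc_eq _ h, loc_eq _ (hF _ h)]
  rfl

theorem Dif.congr {f' : Z → Y} (h : 𝒟.P ⟨Z, f, u⟩) (he : f' =ᶠ[𝓝 u] f) : 𝒟.P ⟨Z, f', u⟩ :=
  𝒟.comp (g := fun z => z) h (Eventually.of_forall fun _ => contDiffAt_id) he

theorem Fm.loc_congr (hφ : Fm k φ) {f' : Z → Y} (h : 𝒟.P ⟨Z, f, u⟩) (he : f' =ᶠ[𝓝 u] f) :
    loc φ Z f' u = loc φ Z f u := by
  rw [hφ.nat Z Z f (fun z => z) u f' h (Eventually.of_forall fun _ => contDiffAt_id) he,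
    fderiv_fun_id, pb_id]

theorem Fm.loc_mem (hφ : Fm k φ) (Z : FS) (f : Z → Y) (u : Z) : loc φ Z f u ∈ Dg Z k := by
  by_cases h : 𝒟.P ⟨Z, f, u⟩
  · rw [loc_eq _ h]
    exact hφ.deg ⟨⟨Z, f, u⟩, h⟩
  · rw [loc_not _ h]
    exact zero_mem _

theorem Fm.loc_comp (hφ : Fm k φ) {W : FS} {g : W → Z} {w : W} (h : 𝒟.P ⟨Z, f, g w⟩)
    (hg : Sg g w) : loc φ W (fun w' => f (g w')) w = pb (fderiv ℝ g w) (loc φ Z f (g w)) :=
  hφ.nat Z W f g w _ h hg EventuallyEq.rfl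

theorem Fm.cast (hφ : Fm k φ) (h : k = l) : Fm l φ := h ▸ hφ

theorem difa_sm {G : Z → Lam Z} (h : 𝒟.P ⟨Z, f, u⟩)
    (he : ∀ u', 𝒟.P ⟨Z, f, u'⟩ → loc φ Z f u' = G u') (hG : ContDiffAt ℝ ∞ G u) :
    ContDiffAt ℝ ∞ (loc φ Z f) u :=
  hG.congr_of_eventuallyEq ((𝒟.ev h).mono he)

theorem fm_zero (k : ℕ) : Fm k (0 : RF 𝒟) :=
  ⟨fun _ => zero_mem _, fun _ _ _ h => difa_sm h (fun _ _ => loc_zero) contDiffAt_const,
    fun _ _ _ _ _ _ _ _ _ => by rw [loc_zero, loc_zero, map_zero]⟩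

theorem fm_one : Fm 0 (1 : RF 𝒟) :=
  ⟨fun _ => dg_one, fun _ _ _ h => difa_sm h (fun _ h' => loc_one h') contDiffAt_const,
    fun _ _ _ _ _ _ h hg he => by rw [loc_one h, loc_one (𝒟.comp h hg he), map_one]⟩

theorem Fm.add (hφ : Fm k φ) (hψ : Fm k ψ) : Fm k (φ + ψ) :=
  ⟨fun p => add_mem (hφ.deg p) (hψ.deg p),
    fun Z f u h => difa_sm h (fun _ _ => loc_add φ ψ) ((hφ.sm Z f u h).add (hψ.sm Z f u h)),
    fun Z W f g w f' h hg he => by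
      rw [loc_add, loc_add, map_add, hφ.nat Z W f g w f' h hg he, hψ.nat Z W f g w f' h hg he]⟩

theorem Fm.smul (hφ : Fm k φ) (c : ℝ) : Fm k (c • φ) :=
  ⟨fun p => Submodule.smul_mem _ c (hφ.deg p),
    fun Z f u h => difa_sm h (fun _ _ => loc_smul c φ) ((hφ.sm Z f u h).const_smul c),
    fun Z W f g w f' h hg he => by
      rw [loc_smul, loc_smul, map_smul, hφ.nat Z W f g w f' h hg he]⟩

theorem Fm.neg (hφ : Fm k φ) : Fm k (-φ) := by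
  rw [← neg_one_smul ℝ φ]
  exact hφ.smul _

theorem Fm.sub (hφ : Fm k φ) (hψ : Fm k ψ) : Fm k (φ - ψ) := by
  rw [sub_eq_add_neg]
  exact hφ.add hψ.neg

theorem Fm.sum {ι : Type*} {s : Finset ι} {φ : ι → RF 𝒟} (h : ∀ i ∈ s, Fm k (φ i)) :
    Fm k (∑ i ∈ s, φ i) :=
  Finset.sum_induction φ (Fm k) (fun _ _ => Fm.add) (fm_zero k) h

theorem Fm.mul (hφ : Fm k φ) (hψ : Fm l ψ) : Fm (k + l) (φ * ψ) :=
  ⟨fun p => dg_mul (hφ.deg p) (hψ.deg p),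
    fun Z f u h => difa_sm h (fun _ _ => loc_mul φ ψ) (cd_mul (hφ.sm Z f u h) (hψ.sm Z f u h)),
    fun Z W f g w f' h hg he => by
      rw [loc_mul, loc_mul, map_mul, hφ.nat Z W f g w f' h hg he, hψ.nat Z W f g w f' h hg he]⟩

theorem Fm.pow (hφ : Fm k φ) (j : ℕ) : Fm (k * j) (φ ^ j) := by
  induction j with
  | zero =>
    rw [pow_zero]
    exact fm_one
  | succ j ih =>
    rw [pow_succ]
    exact ih.mul hφ

theorem Fm.dx (hφ : Fm k φ) : Fm (k + 1) (dx φ) := by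
  refine ⟨fun p => dd_mem (Eventually.of_forall fun z => hφ.loc_mem _ _ z),
    fun Z f u h => difa_sm h (fun _ h' => loc_dx φ h') (cd_dd (hφ.sm Z f u h)),
    fun Z W f g w f' h hg he => ?_⟩
  rw [loc_dx φ h, loc_dx φ (𝒟.comp h hg he), ← dd_pb (hg.self_of_nhds.of_le
    (WithTop.coe_le_coe.2 (le_top : (2 : ℕ∞) ≤ ⊤))) ((hφ.sm Z f _ h).differentiableAt (by simp))]
  refine dd_congr ?_
  filter_upwards [eventually_eventually_nhds.2 hg,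
    hg.self_of_nhds.continuousAt.eventually (𝒟.ev h), he.eventuallyEq_nhds] with w' h1 h2 h3
  exact hφ.nat Z W f g w' f' h2 h1 h3

theorem Fm.pull (hφ : Fm k φ) {F : Y' → Y} (hF : Smo 𝒟' 𝒟 F) : Fm k (pull hF φ) :=
  ⟨fun p => hφ.deg ⟨⟨p.1.Z, fun z => F (p.1.f z), p.1.u⟩, hF p.1 p.2⟩,
    fun Z f u h => difa_sm h (fun _ h' => loc_pull hF φ h') (hφ.sm Z _ u (hF _ h)),
    fun Z W f g w f' h hg he => by
      rw [loc_pull hF φ h, loc_pull hF φ (𝒟'.comp h hg he)]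
      exact hφ.nat Z W _ g w _ (hF _ h) hg (he.mono fun _ hw => congrArg F hw)⟩

theorem fm_fn {g : Y → ℝ} (hg : Smo 𝒟 (Dif.vec ℝ) g) : Fm 0 (fn 𝒟 g) :=
  ⟨fun _ => dg_alg _,
    fun _ _ _ h => difa_sm h (fun _ h' => loc_fn g h') (cd_alg (hg _ h).self_of_nhds),
    fun _ _ _ _ _ _ h hs he => by
      rw [loc_fn g h, loc_fn g (𝒟.comp h hs he), AlgHom.commutes, he.self_of_nhds]
      rfl⟩

theorem fm_ip {V : Type*} [NormedAddCommGroup V] [InnerProductSpace ℝ V] {a b : Y → V}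
    (ha : Smo 𝒟 (Dif.vec V) a) (hb : Smo 𝒟 (Dif.vec V) b) : Fm 1 (ip 𝒟 a b) := by
  refine ⟨fun _ => io_mem _, fun Z f u h => difa_sm h (fun _ h' => loc_ip a b h') (cd_io ?_),
    fun Z W f g w f' h hg he => ?_⟩
  · have h1 : ContDiffAt ℝ ∞ (fun z => a (f z)) u := (ha _ h).self_of_nhds
    have h2 : ContDiffAt ℝ ∞ (fun z => b (f z)) u := (hb _ h).self_of_nhds
    exact ((innerSL ℝ (E := V)).contDiff.contDiffAt.comp u h1).clm_comp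
      (h2.fderiv_right (by exact_mod_cast le_top))
  · have h2 : ContDiffAt ℝ ∞ (fun z => b (f z)) (g w) := (hb _ h).self_of_nhds
    have h3 : (fun z => b (f' z)) =ᶠ[𝓝 w] (fun z => b (f z)) ∘ g :=
      he.mono fun _ hw => congrArg b hw
    rw [loc_ip a b h, loc_ip a b (𝒟.comp h hg he), pb_io, h3.fderiv_eq, he.self_of_nhds,
      fderiv_comp w (h2.differentiableAt (by simp)) (hg.self_of_nhds.differentiableAt (by simp))]
    rfl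

theorem Fm.comm (hφ : Fm k φ) (hψ : Fm l ψ) : φ * ψ = (-1 : ℝ) ^ (k * l) • (ψ * φ) :=
  funext fun p => dg_comm (hφ.deg p) (hψ.deg p)

theorem Fm.comm_two (hφ : Fm 2 φ) (hψ : Fm l ψ) : φ * ψ = ψ * φ := by
  rw [hφ.comm hψ, pow_mul, neg_one_sq, one_pow, one_smul]

end Vale.Agent.P231C
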