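import Mathlib

/-! Smoothness of parametric interval integrals. -/

open scoped ContDiff Topology
open Filter Set

namespace Vale.Agent.P231C

variable {X F : Type*} [NormedAddCommGroup X] [NormedSpace ℝ X] [FiniteDimensional ℝ X]
  [NormedAddCommGroup F] [NormedSpace ℝ F] [CompleteSpace F]

omit [CompleteSpace F] [FiniteDimensional ℝ X] in
theorem par_tube (n : ℕ) {f : X × ℝ → F} {x : X} {a b : ℝ}
    (h : ∀ t ∈ uIcc a b, ContDiffAt ℝ n f (x, t)) :
    ∀ᶠ y in 𝓝 x, ∀ t ∈ uIcc a b, ContDiffAt ℝ n f (y, t) :=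
  isCompact_uIcc.eventually_forall_of_forall_eventually
    (P := fun y t => ContDiffAt ℝ n f (y, t)) fun t ht => (h t ht).eventually (by simp)

omit [CompleteSpace F] [NormedSpace ℝ F] in
theorem par_bound {g : X × ℝ → F} {x : X} {a b : ℝ}
    (h : ∀ᶠ y in 𝓝 x, ∀ t ∈ uIcc a b, ContinuousAt g (y, t)) :
    ∃ C : ℝ, ∀ᶠ y in 𝓝 x, ∀ t ∈ uIcc a b, ‖g (y, t)‖ ≤ C := by
  have := FiniteDimensional.proper ℝ X
  obtain ⟨ε, hε, h1⟩ := Metric.nhds_basis_closedBall.eventually_iff.1 h
  obtain ⟨C, hC⟩ := ((isCompact_closedBall x ε).prod (isCompact_uIcc (a := a)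
    (b := b))).exists_bound_of_continuousOn (f := g)
    fun p hp => (h1 hp.1 p.2 hp.2).continuousWithinAt
  refine ⟨C, ?_⟩
  filter_upwards [Metric.closedBall_mem_nhds x hε] with y hy t ht
  exact hC (y, t) ⟨hy, ht⟩

omit [CompleteSpace F] [NormedSpace ℝ F] [NormedSpace ℝ X] [FiniteDimensional ℝ X] in
theorem par_cont {g : X × ℝ → F} {x : X} {a b : ℝ}
    (h : ∀ t ∈ uIcc a b, ContinuousAt g (x, t)) : ContinuousOn (fun t => g (x, t)) (uIcc a b) :=
  fun t ht => ((h t ht).comp (f := fun t => (x, t)) (by fun_prop)).continuousWithinAt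

omit [CompleteSpace F] [FiniteDimensional ℝ X] in
theorem par_fd {f : X × ℝ → F} {x : X} {t : ℝ} (h : ContDiffAt ℝ 1 f (x, t)) :
    HasFDerivAt (fun y => f (y, t))
      ((fderiv ℝ f (x, t)).comp (ContinuousLinearMap.inl ℝ X ℝ)) x :=
  (h.differentiableAt one_ne_zero).hasFDerivAt.comp x (hasFDerivAt_prodMk_left x t)

theorem par_main {f : X × ℝ → F} {x : X} {a b : ℝ}
    (h : ∀ t ∈ uIcc a b, ContDiffAt ℝ 1 f (x, t)) :
    HasFDerivAt (fun y => ∫ t in a..b, f (y, t))
      (∫ t in a..b, (fderiv ℝ f (x, t)).comp (ContinuousLinearMap.inl ℝ X ℝ)) x := by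
  have h1 := par_tube 1 h
  have h2 : ∀ᶠ y in 𝓝 x, ∀ t ∈ uIcc a b, ContinuousAt
      (fun p => (fderiv ℝ f p).comp (ContinuousLinearMap.inl ℝ X ℝ)) (y, t) :=
    h1.mono fun y hy t ht => ((hy t ht).continuousAt_fderiv (by simp)).clm_comp continuousAt_const
  obtain ⟨C, hC⟩ := par_bound h2
  refine intervalIntegral.hasFDerivAt_integral_of_dominated_of_fderiv_le
    (F := fun y t => f (y, t))
    (F' := fun y t => (fderiv ℝ f (y, t)).comp (ContinuousLinearMap.inl ℝ X ℝ))
    (bound := fun _ => C) (h1.and hC) ?_ ?_ ?_ ?_ intervalIntegrable_const ?_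
  · exact h1.mono fun y hy => ((par_cont fun t ht => (hy t ht).continuousAt).mono
      uIoc_subset_uIcc).aestronglyMeasurable measurableSet_uIoc
  · exact (par_cont fun t ht => (h t ht).continuousAt).intervalIntegrable
  · exact ((par_cont h2.self_of_nhds).mono uIoc_subset_uIcc).aestronglyMeasurable
      measurableSet_uIoc
  · exact Eventually.of_forall fun t ht y hy => hy.2 t (uIoc_subset_uIcc ht)
  · exact Eventually.of_forall fun t ht y hy => par_fd (hy.1 t (uIoc_subset_uIcc ht))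

theorem hasFDerivAt_par {f : X × ℝ → F} {x : X} {a b : ℝ}
    (h : ∀ t ∈ uIcc a b, ContDiffAt ℝ 1 f (x, t)) :
    HasFDerivAt (fun y => ∫ t in a..b, f (y, t))
      (∫ t in a..b, fderiv ℝ (fun y => f (y, t)) x) x := by
  rw [intervalIntegral.integral_congr fun t ht => (par_fd (h t ht)).fderiv]
  exact par_main h

theorem par_on (n : ℕ) {U : Set X} (hU : IsOpen U) {a b : ℝ} : ∀ {f : X × ℝ → F},
    (∀ y ∈ U, ∀ t ∈ uIcc a b, ContDiffAt ℝ n f (y, t)) →
    ContDiffOn ℝ n (fun y => ∫ t in a..b, f (y, t)) U := by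
  induction n with
  | zero =>
    intro f h
    rw [Nat.cast_zero, contDiffOn_zero]
    intro x hx
    have h1 : ∀ᶠ y in 𝓝 x, ∀ t ∈ uIcc a b, ContinuousAt f (y, t) :=
      mem_of_superset (hU.mem_nhds hx) fun y hy t ht => (h y hy t ht).continuousAt
    obtain ⟨C, hC⟩ := par_bound h1
    refine (intervalIntegral.continuousAt_of_dominated_interval (F := fun y t => f (y, t))
      (bound := fun _ => C) ?_ ?_ intervalIntegrable_const ?_).continuousWithinAt
    · exact h1.mono fun y hy => ((par_cont hy).mono uIoc_subset_uIcc).aestronglyMeasurable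
        measurableSet_uIoc
    · exact hC.mono fun y hy => Eventually.of_forall fun t ht => hy t (uIoc_subset_uIcc ht)
    · exact Eventually.of_forall fun t ht => (h1.self_of_nhds t (uIoc_subset_uIcc ht)).comp
        (f := fun y => (y, t)) (by fun_prop)
  | succ n ih =>
    intro f h
    have h1 : ∀ y ∈ U, ∀ t ∈ uIcc a b, ContDiffAt ℝ 1 f (y, t) := fun y hy t ht =>
      (h y hy t ht).of_le (by exact_mod_cast Nat.le_add_left 1 n)
    rw [Nat.cast_succ, contDiffOn_succ_iff_fderiv_of_isOpen hU]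
    refine ⟨fun y hy => (par_main (h1 y hy)).differentiableAt.differentiableWithinAt,
      fun hn => by simp at hn, contDiffOn_clm_apply.2 fun v => ?_⟩
    refine (ih (f := fun p => fderiv ℝ f p (v, 0)) fun y hy t ht =>
      ((h y hy t ht).fderiv_right (by simp)).clm_apply contDiffAt_const).congr fun y hy => ?_
    rw [(par_main (h1 y hy)).fderiv, ContinuousLinearMap.intervalIntegral_apply]
    · rfl
    · exact (par_cont (g := fun p => (fderiv ℝ f p).comp (ContinuousLinearMap.inl ℝ X ℝ))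
        fun t ht => ((h1 y hy t ht).continuousAt_fderiv (by simp)).clm_comp
          continuousAt_const).intervalIntegrable

theorem contDiffAt_par_nat (n : ℕ) {f : X × ℝ → F} {x : X} {a b : ℝ}
    (h : ∀ t ∈ uIcc a b, ContDiffAt ℝ n f (x, t)) :
    ContDiffAt ℝ n (fun y => ∫ t in a..b, f (y, t)) x := by
  obtain ⟨U, hU, h1, h2⟩ := eventually_nhds_iff.1 (par_tube n h)
  exact (par_on n h1 hU).contDiffAt (h1.mem_nhds h2)

theorem contDiffAt_par {f : X × ℝ → F} {x : X} {a b : ℝ}
    (h : ∀ t ∈ uIcc a b, ContDiffAt ℝ ∞ f (x, t)) :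
    ContDiffAt ℝ ∞ (fun y => ∫ t in a..b, f (y, t)) x :=
  contDiffAt_infty.2 fun n => contDiffAt_par_nat n fun t ht => contDiffAt_infty.1 (h t ht) n

end Vale.Agent.P231C
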