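import Vale.Agent.P231C.LamC
import Vale.Agent.P231C.Par

/-! The theorem of Stokes in a vector space. -/

open scoped ContDiff Topology
open Filter Set MeasureTheory

noncomputable section

namespace Vale.Agent.P231C

/-- The exterior derivative as a function of the differential. -/
def lamd_L (Z : FS) : (Z →L[ℝ] Lam Z) →L[ℝ] Lam Z :=
  ∑ i, (mulL Z (io (LinearMap.toContinuousLinearMap ((Module.finBasis ℝ Z).coord i)))).comp
    (ContinuousLinearMap.apply ℝ (Lam Z) (Module.finBasis ℝ Z i))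

theorem lamd_L_eq {Z : FS} (φ : Z → Lam Z) (u : Z) : dd φ u = lamd_L Z (fderiv ℝ φ u) := by
  rw [lamd_L, sum_apply]
  rfl

theorem lamd_int {Z : FS} {φ : Z × ℝ → Lam Z} {u : Z} {a b : ℝ}
    (h : ∀ t ∈ uIcc a b, ContDiffAt ℝ ∞ φ (u, t)) :
    dd (fun z => ∫ t in a..b, φ (z, t)) u = ∫ t in a..b, dd (fun z => φ (z, t)) u := by
  have h1 := hasFDerivAt_par (f := φ) (x := u) fun t ht => (h t ht).of_le (by simp)
  have h2 : ContinuousOn (fun t => fderiv ℝ (fun y => φ (y, t)) u) (uIcc a b) := by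
    have h3 : ContinuousOn (fun t => (fderiv ℝ φ (u, t)).comp (ContinuousLinearMap.inl ℝ Z ℝ))
        (uIcc a b) := fun t ht =>
      (ContinuousAt.clm_comp (ContinuousAt.comp (f := fun t => (u, t))
        ((h t ht).continuousAt_fderiv (by simp)) (by fun_prop))
        continuousAt_const).continuousWithinAt
    refine h3.congr fun t ht => ?_
    exact (HasFDerivAt.comp u (f := fun y : Z => (y, t))
      ((h t ht).differentiableAt (by simp)).hasFDerivAt (hasFDerivAt_prodMk_left u t)).fderiv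
  simp only [lamd_L_eq]
  rw [h1.fderiv, (lamd_L Z).intervalIntegral_comp_comm h2.intervalIntegrable]

variable {Z : FS} [MeasurableSpace Z] [BorelSpace Z] (μ : Measure Z) [μ.IsAddHaarMeasure]

theorem lamd_zero {g : Z → ℝ} (hs : ContDiff ℝ ∞ g) (hc : HasCompactSupport g) (v : Z) :
    Integrable (fun z => fderiv ℝ g z v) μ ∧ ∫ z, fderiv ℝ g z v ∂μ = 0 := by
  have h1 : Integrable (fun z => fderiv ℝ g z v) μ :=
    ((hs.continuous_fderiv (by simp)).clm_apply continuous_const).integrable_of_hasCompactSupport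
      (hc.fderiv_apply ℝ v)
  have h2 := integral_mul_fderiv_eq_neg_fderiv_mul_of_integrable (μ := μ) (f := fun _ => (1 : ℝ))
    (g := g) (v := v) (by simp) (by simpa using h1)
    (by simpa using hs.continuous.integrable_of_hasCompactSupport hc)
    (fun _ _ => differentiableAt_const _) fun x _ => hs.differentiable (by simp) x
  exact ⟨h1, by simpa using h2⟩

/-- Each summand is a directional derivative of a compactly supported function
(`integral_bilinear_hasLineDerivAt_right_eq_neg_left_of_integrable` with the constant `1`, or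
`integral_mul_fderiv_eq_neg_fderiv_mul_of_integrable`). -/
theorem stokes_euc (f : Lam Z →ₗ[ℝ] ℝ) {φ : Z → Lam Z} (hs : ContDiff ℝ ∞ φ)
    (hc : HasCompactSupport φ) : ∫ z, f (dd φ z) ∂μ = 0 := by
  have h1 := fun (a : Lam Z) (v : Z) => lamd_zero μ
    (g := fun y => (f ∘ₗ LinearMap.mulLeft ℝ a) (φ y))
    (contDiff_iff_contDiffAt.2 fun x => cd_lin _ hs.contDiffAt)
    (hc.comp_left (g := f ∘ₗ LinearMap.mulLeft ℝ a) (map_zero _)) v
  have h2 : ∀ (a : Lam Z) (v z : Z), fderiv ℝ (fun y => (f ∘ₗ LinearMap.mulLeft ℝ a) (φ y)) z v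
      = f (a * fderiv ℝ φ z v) := fun a v z => fderiv_lin _ (hs.differentiable (by simp) z) v
  simp only [h2] at h1
  simp only [dd, map_sum]
  rw [integral_finsetSum _ fun i _ => (h1 _ _).1]
  exact Finset.sum_eq_zero fun i _ => (h1 _ _).2

/-- `cartan_ext`, the fundamental theorem of calculus in `s`, Fubini and `stokes_euc` for each
`s` (or `stokes_euc` for the form `∫ s in 0..1, ...`, using `hasFDerivAt_par`). -/
theorem homotopy_euc (f : Lam Z →ₗ[ℝ] ℝ) {φ : Z.ext → Lam Z.ext} (hs : ContDiff ℝ ∞ φ)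
    (hd : ∀ z, ∀ s ∈ Icc (0 : ℝ) 1, dd φ (z, s) = 0) {K : Set Z} (hK : IsCompact K)
    (h0 : ∀ z ∉ K, ∀ s ∈ Icc (0 : ℝ) 1, φ (z, s) = 0) :
    ∫ z, f (pb (Z := Z.ext) (ContinuousLinearMap.inl ℝ Z ℝ) (φ (z, 0))) ∂μ =
      ∫ z, f (pb (Z := Z.ext) (ContinuousLinearMap.inl ℝ Z ℝ) (φ (z, 1))) ∂μ := by
  have h1 : ContDiff ℝ ∞ fun p : Z × ℝ => pb (Z := Z.ext) (ContinuousLinearMap.inl ℝ Z ℝ)
      (ct (Z := Z.ext) (0, 1) (φ p)) := contDiff_iff_contDiffAt.2 fun p =>
    cd_lin ((pb (Z := Z.ext) (ContinuousLinearMap.inl ℝ Z ℝ)).toLinearMap ∘ₗ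
      ct (Z := Z.ext) (0, 1)) hs.contDiffAt
  have h2 := stokes_euc μ f (φ := fun z => ∫ s in (0 : ℝ)..1, pb (Z := Z.ext)
      (ContinuousLinearMap.inl ℝ Z ℝ) (ct (Z := Z.ext) (0, 1) (φ (z, s))))
    (contDiff_iff_contDiffAt.2 fun z => contDiffAt_par fun t _ => h1.contDiffAt)
    (HasCompactSupport.intro hK fun z hz => by
      rw [intervalIntegral.integral_congr (g := fun _ => 0) fun s hs => ?_]
      · simp
      · rw [uIcc_of_le zero_le_one] at hs
        simp only [h0 z hz s hs, map_zero])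
  have h3 : ∀ z, dd (fun z => ∫ s in (0 : ℝ)..1, pb (Z := Z.ext)
      (ContinuousLinearMap.inl ℝ Z ℝ) (ct (Z := Z.ext) (0, 1) (φ (z, s)))) z =
      pb (Z := Z.ext) (ContinuousLinearMap.inl ℝ Z ℝ) (φ (z, 1)) -
        pb (Z := Z.ext) (ContinuousLinearMap.inl ℝ Z ℝ) (φ (z, 0)) := fun z => by
    rw [lamd_int fun t _ => h1.contDiffAt]
    refine intervalIntegral.integral_eq_sub_of_hasDerivAt
      (f := fun s => pb (Z := Z.ext) (ContinuousLinearMap.inl ℝ Z ℝ) (φ (z, s)))
      (fun s hs' => ?_) (Continuous.intervalIntegrable ?_ _ _)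
    · rw [uIcc_of_le zero_le_one] at hs'
      have h4 := cartan_ext (z := z) (t := s) (hs.differentiable (by simp) _)
      rwa [hd z s hs', map_zero, map_zero, zero_add] at h4
    · exact continuous_iff_continuousAt.2 fun s => ContinuousAt.comp (f := fun s : ℝ => (z, s))
        (cd_dd_par (u := z) (x := s) h1.contDiffAt).continuousAt (by fun_prop)
  have h4 : ∀ s ∈ Icc (0 : ℝ) 1, Integrable
      (fun z => f (pb (Z := Z.ext) (ContinuousLinearMap.inl ℝ Z ℝ) (φ (z, s)))) μ := fun s hs' =>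
    Continuous.integrable_of_hasCompactSupport ((cont_lin (f ∘ₗ (pb (Z := Z.ext)
      (ContinuousLinearMap.inl ℝ Z ℝ)).toLinearMap)).comp (hs.continuous.comp (by fun_prop)))
      (HasCompactSupport.intro hK fun z hz => by rw [h0 z hz s hs', map_zero, map_zero])
  simp only [h3, map_sub] at h2
  rw [integral_sub (h4 1 (by simp)) (h4 0 (by simp)), sub_eq_zero] at h2
  exact h2.symm

omit [MeasurableSpace Z] [BorelSpace Z] in
/-- The exterior derivative commutes with parametric integrals. -/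
theorem dd_integral {φ : Z × ℝ → Lam Z} {u : Z} {a b : ℝ}
    (h : ∀ t ∈ uIcc a b, ContDiffAt ℝ ∞ φ (u, t)) :
    dd (fun z => ∫ t in a..b, φ (z, t)) u = ∫ t in a..b, dd (fun z => φ (z, t)) u := by
  exact lamd_int h

end Vale.Agent.P231C
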