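import Vale.Agent.P231C.DifC
import Vale.Agent.P231C.LamD

/-! Integration along the line. -/

open scoped ContDiff Topology
open Filter Set

noncomputable section

namespace Vale.Agent.P231C

variable {Y Y' : Type*} {𝒟 : Dif Y} {𝒟' : Dif Y'} {k j : ℕ} {φ ψ : RF 𝒟.ext} {a b : ℝ}

theorem plot_ext {Z : FS} {f : Z → Y} {u : Z} (h : 𝒟.P ⟨Z, f, u⟩) (t : ℝ) :
    𝒟.ext.P ⟨Z.ext, fun w => (f w.1, w.2), (u, t)⟩ := by
  exact ⟨𝒟.comp (Z := Z) (W := Z.ext) (f := f) (g := Prod.fst) h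
    (Eventually.of_forall fun _ => contDiffAt_fst) (EventuallyEq.refl _ _),
    Eventually.of_forall fun _ => contDiffAt_snd⟩

theorem loc_fib (φ : RF 𝒟.ext) (a b : ℝ) {Z : FS} {f : Z → Y} {u : Z} (h : 𝒟.P ⟨Z, f, u⟩) :
    loc (fib a b φ) Z f u = ∫ t in a..b, pb (Z := Z.ext) (ContinuousLinearMap.inl ℝ Z ℝ)
      (ct (Z := Z.ext) (0, 1) (loc φ Z.ext (fun w => (f w.1, w.2)) (u, t))) := by
  exact loc_eq _ h

/-- the fibre component -/
def difbL (Z : FS) : Lam Z.ext →ₗ[ℝ] Lam Z :=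
  (pb (Z := Z.ext) (ContinuousLinearMap.inl ℝ Z ℝ)).toLinearMap ∘ₗ ct (Z := Z.ext) (0, 1)

theorem difb_loc (φ : RF 𝒟.ext) (a b : ℝ) {Z : FS} {f : Z → Y} {u : Z} (h : 𝒟.P ⟨Z, f, u⟩) :
    loc (fib a b φ) Z f u = ∫ t in a..b, difbL Z (loc φ Z.ext (fun w => (f w.1, w.2)) (u, t)) :=
  loc_eq _ h

theorem difb_int (h : Fm k φ) {Z : FS} {f : Z → Y} {u : Z} (hp : 𝒟.P ⟨Z, f, u⟩) (a b : ℝ) :
    IntervalIntegrable (fun t => difbL Z (loc φ Z.ext (fun w => (f w.1, w.2)) (u, t)))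
      MeasureTheory.volume a b :=
  (par_cont (g := fun q => difbL Z (loc φ Z.ext (fun w => (f w.1, w.2)) q))
    fun t _ => (cd_lin _ (h.sm _ _ _ (plot_ext hp t))).continuousAt).intervalIntegrable

theorem difb_pb' {Z W : FS} (A : W →L[ℝ] Z) (c : ℝ) (x : Lam Z.ext) :
    difbL W (pb (W := W.ext) (Z := Z.ext) (A.prodMap (c • ContinuousLinearMap.id ℝ ℝ)) x) =
      c • pb A (difbL Z x) := by
  have h1 : A.prodMap (c • ContinuousLinearMap.id ℝ ℝ) (0, 1) = c • ((0, 1) : Z × ℝ) := by simp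
  have h2 : (A.prodMap (c • ContinuousLinearMap.id ℝ ℝ)).comp (ContinuousLinearMap.inl ℝ W ℝ) =
      (ContinuousLinearMap.inl ℝ Z ℝ).comp A := by
    ext <;> simp
  simp only [difbL, LinearMap.comp_apply, AlgHom.toLinearMap_apply]
  rw [ct_pb, pb_pb, pb_pb, h1, h2, ct_smul, map_smul]

theorem difb_pb {Z W : FS} (A : W →L[ℝ] Z) (x : Lam Z.ext) :
    difbL W (pb (W := W.ext) (Z := Z.ext) (A.prodMap (ContinuousLinearMap.id ℝ ℝ)) x) =
      (1 : ℝ) • pb A (difbL Z x) := by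
  rw [← difb_pb', one_smul]

/-- Smoothness: `loc_fib` holds near `u` (`Dif.ev`), `contDiffAt_par`, `cd_lin`. Naturality:
`Fm.nat` with the map `(g, id)`, `ct_pb`, `pb_pb`, and `pb (fderiv g w)` is a continuous linear map
that commutes with the integral. -/
theorem Fm.fib (h : Fm (k + 1) φ) (a b : ℝ) : Fm k (fib a b φ) := by
  refine ⟨fun p => integral_mem_dg fun t => pb_mem _ (ct_mem _ (h.loc_mem _ _ _)),
    fun Z f u hp => difa_sm hp (fun u' hu' => difb_loc φ a b hu') (contDiffAt_par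
      (f := fun q => difbL Z (loc φ Z.ext (fun w => (f w.1, w.2)) q))
      fun t _ => cd_lin _ (h.sm _ _ _ (plot_ext hp t))), fun Z W f g w f' hp hg he => ?_⟩
  rw [difb_loc φ a b hp, difb_loc φ a b (𝒟.comp hp hg he)]
  refine Eq.trans (intervalIntegral.integral_congr fun t _ => ?_)
    ((LinearMap.toContinuousLinearMap (pb (fderiv ℝ g w)).toLinearMap).intervalIntegral_comp_comm
      (difb_int h hp a b))
  have h1 : HasFDerivAt (Prod.map g id : W × ℝ → Z × ℝ)
      ((fderiv ℝ g w).prodMap (ContinuousLinearMap.id ℝ ℝ)) (w, t) :=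
    HasFDerivAt.prodMap (w, t) (hg.self_of_nhds.differentiableAt (by simp)).hasFDerivAt
      (hasFDerivAt_id t)
  have h2 := h.nat Z.ext W.ext (fun z => (f z.1, z.2)) (Prod.map g id) (w, t)
    (fun z => (f' z.1, z.2)) (plot_ext hp t)
    (((continuousAt_fst (p := (w, t))).eventually hg).mono fun q hq =>
      hq.prodMap' contDiffAt_id)
    (((continuousAt_fst (p := (w, t))).eventually he).mono fun q hq => Prod.ext hq rfl)
  rw [h1.fderiv] at h2
  rw [h2, difb_pb, one_smul]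
  rfl

theorem fib_deg_zero (h : Fm 0 φ) (a b : ℝ) : fib a b φ = 0 := by
  refine rf_ext fun Z f u hp => ?_
  rw [loc_fib φ a b hp, loc_zero]
  refine (intervalIntegral.integral_congr fun t _ => ?_).trans intervalIntegral.integral_zero
  obtain ⟨c, hc⟩ := dg_zero_iff.1 (h.loc_mem Z.ext (fun w => (f w.1, w.2)) (u, t))
  rw [hc, ct_alg, map_zero]

theorem fib_zero (a b : ℝ) : fib a b (0 : RF 𝒟.ext) = 0 := by
  exact fib_deg_zero (fm_zero 0) a b

theorem fib_add (h : Fm k φ) (h' : Fm j ψ) (a b : ℝ) :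
    fib a b (φ + ψ) = fib a b φ + fib a b ψ := by
  refine rf_ext fun Z f u hp => ?_
  rw [loc_add, difb_loc _ a b hp, difb_loc _ a b hp, difb_loc _ a b hp,
    ← intervalIntegral.integral_add (difb_int h hp a b) (difb_int h' hp a b)]
  simp only [loc_add, map_add]

theorem fib_smul (c : ℝ) (φ : RF 𝒟.ext) (a b : ℝ) : fib a b (c • φ) = c • fib a b φ := by
  refine rf_ext fun Z f u hp => ?_
  rw [loc_smul, difb_loc _ a b hp, difb_loc _ a b hp, ← intervalIntegral.integral_smul]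
  simp only [loc_smul, map_smul]

theorem fib_neg (φ : RF 𝒟.ext) (a b : ℝ) : fib a b (-φ) = -fib a b φ := by
  rw [← neg_one_smul ℝ φ, fib_smul, neg_one_smul]

theorem fib_sub (h : Fm k φ) (h' : Fm j ψ) (a b : ℝ) :
    fib a b (φ - ψ) = fib a b φ - fib a b ψ := by
  rw [sub_eq_add_neg, fib_add h h'.neg, fib_neg, sub_eq_add_neg]

theorem fib_concat (h : Fm k φ) (a b c : ℝ) : fib a b φ + fib b c φ = fib a c φ := by
  refine rf_ext fun Z f u hp => ?_
  rw [loc_add, difb_loc _ a b hp, difb_loc _ b c hp, difb_loc _ a c hp,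
    intervalIntegral.integral_add_adjacent_intervals (difb_int h hp a b) (difb_int h hp b c)]

theorem pull_fib {F : Y' → Y} (hF : Smo 𝒟' 𝒟 F) (φ : RF 𝒟.ext) (a b : ℝ) :
    pull hF (fib a b φ) = fib a b (pull hF.ext φ) := by
  refine rf_ext fun Z f u hp => ?_
  rw [loc_pull hF _ hp, difb_loc _ a b (hF _ hp), difb_loc _ a b hp]
  refine intervalIntegral.integral_congr fun t _ => ?_
  rw [loc_pull hF.ext φ (plot_ext hp t)]

/-- Affine change of the variable of integration. -/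
theorem fib_affine (h : Fm k φ) (c d : ℝ)
    (hA : Smo 𝒟.ext 𝒟.ext fun w => (w.1, c * w.2 + d)) (a b : ℝ) :
    fib a b (pull hA φ) = fib (c * a + d) (c * b + d) φ := by
  refine rf_ext fun Z f u hp => ?_
  rw [difb_loc _ _ _ hp, difb_loc _ _ _ hp, ← intervalIntegral.smul_integral_comp_mul_add,
    ← intervalIntegral.integral_smul]
  refine intervalIntegral.integral_congr fun t _ => ?_
  have h1 : HasFDerivAt (fun w : Z × ℝ => (w.1, c * w.2 + d))
      ((ContinuousLinearMap.id ℝ Z).prodMap (c • ContinuousLinearMap.id ℝ ℝ)) (u, t) :=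
    HasFDerivAt.prodMap (f := id) (f₂ := fun s => c * s + d) (u, t) (hasFDerivAt_id u)
      (((hasFDerivAt_id t).const_mul c).add_const d)
  have h2 := h.loc_comp (Z := Z.ext) (W := Z.ext) (f := fun w => (f w.1, w.2))
    (g := fun w : Z × ℝ => (w.1, c * w.2 + d)) (w := (u, t)) (plot_ext hp _)
    (Eventually.of_forall fun _ => by fun_prop)
  rw [h1.fderiv] at h2
  rw [loc_pull hA φ (plot_ext hp t), h2, difb_pb', pb_id]

theorem smo_affine (𝒟 : Dif Y) (c d : ℝ) : Smo 𝒟.ext 𝒟.ext fun w => (w.1, c * w.2 + d) := by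
  exact fun p hp => ⟨hp.1, hp.2.mono fun _ hq => (contDiffAt_const.mul hq).add contDiffAt_const⟩

theorem fib_symm (φ : RF 𝒟.ext) (a b : ℝ) : fib a b φ = -fib b a φ := by
  exact funext fun p => intervalIntegral.integral_symm b a

end Vale.Agent.P231C
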