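import Vale.Agent.P231C.DifA

/-! Rules for the exterior derivative and pull backs; ranks; smooth maps. -/

open scoped ContDiff Topology
open Filter Set

noncomputable section

namespace Vale.Agent.P231C

variable {Y Y' Y'' : Type*} {𝒟 : Dif Y} {𝒟' : Dif Y'} {𝒟'' : Dif Y''} {φ ψ : RF 𝒟} {k l : ℕ}

theorem difc_diff (hφ : Fm k φ) {Z : FS} {f : Z → Y} {u : Z} (h : 𝒟.P ⟨Z, f, u⟩) :
    DifferentiableAt ℝ (loc φ Z f) u := (hφ.sm Z f u h).differentiableAt (by simp)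

theorem dx_zero : dx (0 : RF 𝒟) = 0 := by
  refine rf_ext fun Z f u h => ?_
  have e : loc (0 : RF 𝒟) Z f = fun _ => 0 := funext fun _ => loc_zero
  rw [loc_dx _ h, loc_zero, e, dd_const]

theorem dx_one : dx (1 : RF 𝒟) = 0 := by
  refine rf_ext fun Z f u h => ?_
  have e : loc (1 : RF 𝒟) Z f =ᶠ[𝓝 u] fun _ => 1 := (𝒟.ev h).mono fun _ h' => loc_one h'
  rw [loc_dx _ h, loc_zero, dd_congr e, dd_const]

theorem dx_add (hφ : Fm k φ) (hψ : Fm l ψ) : dx (φ + ψ) = dx φ + dx ψ := by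
  refine rf_ext fun Z f u h => ?_
  have e : loc (φ + ψ) Z f = fun z => loc φ Z f z + loc ψ Z f z := funext fun _ => loc_add _ _
  rw [loc_add, loc_dx _ h, loc_dx _ h, loc_dx _ h, e, dd_add (difc_diff hφ h) (difc_diff hψ h)]

theorem dx_smul (hφ : Fm k φ) (c : ℝ) : dx (c • φ) = c • dx φ := by
  refine rf_ext fun Z f u h => ?_
  have e : loc (c • φ) Z f = fun z => c • loc φ Z f z := funext fun _ => loc_smul _ _
  rw [loc_smul, loc_dx _ h, loc_dx _ h, e, dd_smul c (difc_diff hφ h)]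

theorem dx_neg (hφ : Fm k φ) : dx (-φ) = -dx φ := by
  rw [← neg_one_smul ℝ φ, dx_smul hφ, neg_one_smul]

theorem dx_sub (hφ : Fm k φ) (hψ : Fm l ψ) : dx (φ - ψ) = dx φ - dx ψ := by
  rw [sub_eq_add_neg, dx_add hφ hψ.neg, dx_neg hψ, sub_eq_add_neg]

theorem dx_sum {ι : Type*} {s : Finset ι} {φ : ι → RF 𝒟} (h : ∀ i ∈ s, Fm k (φ i)) :
    dx (∑ i ∈ s, φ i) = ∑ i ∈ s, dx (φ i) := by
  classical
  induction s using Finset.induction_on with
  | empty => rw [Finset.sum_empty, Finset.sum_empty, dx_zero]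
  | insert i s hi ih =>
    have h1 : ∀ j ∈ s, Fm k (φ j) := fun j hj => h j (Finset.mem_insert_of_mem hj)
    rw [Finset.sum_insert hi, Finset.sum_insert hi,
      dx_add (h i (Finset.mem_insert_self i s)) (Fm.sum h1), ih h1]

theorem dx_mul (hφ : Fm k φ) (hψ : Fm l ψ) :
    dx (φ * ψ) = dx φ * ψ + (-1 : ℝ) ^ k • (φ * dx ψ) := by
  refine rf_ext fun Z f u h => ?_
  have e : loc (φ * ψ) Z f = fun z => loc φ Z f z * loc ψ Z f z := funext fun _ => loc_mul _ _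
  rw [loc_add, loc_smul, loc_mul, loc_mul, loc_dx _ h, loc_dx _ h, loc_dx _ h, e,
    dd_mul (difc_diff hφ h) (difc_diff hψ h) (hφ.loc_mem Z f u)]

theorem dx_dx (hφ : Fm k φ) : dx (dx φ) = 0 := by
  refine rf_ext fun Z f u h => ?_
  have e : loc (dx φ) Z f =ᶠ[𝓝 u] dd (loc φ Z f) := (𝒟.ev h).mono fun _ h' => loc_dx _ h'
  rw [loc_dx _ h, loc_zero, dd_congr e,
    dd_dd ((hφ.sm Z f u h).of_le (by norm_cast))]

theorem dx_pow (hφ : Fm k φ) (h : dx φ = 0) (j : ℕ) : dx (φ ^ j) = 0 := by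
  induction j with
  | zero => rw [pow_zero, dx_one]
  | succ j ih => rw [pow_succ, dx_mul (hφ.pow j) hφ, ih, h, zero_mul, mul_zero, smul_zero, add_zero]

theorem dx_pull {F : Y' → Y} (hF : Smo 𝒟' 𝒟 F) (φ : RF 𝒟) : dx (pull hF φ) = pull hF (dx φ) := by
  refine rf_ext fun Z f u h => ?_
  have e : loc (pull hF φ) Z f =ᶠ[𝓝 u] loc φ Z fun z => F (f z) :=
    (𝒟'.ev h).mono fun _ h' => loc_pull hF φ h'
  rw [loc_dx _ h, loc_pull hF _ h, loc_dx _ (hF _ h), dd_congr e]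

theorem dx_fn_const (c : ℝ) : dx (fn 𝒟 fun _ => c) = 0 := by
  have e : (fn 𝒟 fun _ => c) = algebraMap ℝ (RF 𝒟) c := rfl
  rw [e, Algebra.algebraMap_eq_smul_one, dx_smul fm_one, dx_one, smul_zero]

theorem fn_const (c : ℝ) : (fn 𝒟 fun _ => c) = algebraMap ℝ (RF 𝒟) c := by
  rfl

theorem fn_const_mul (c : ℝ) (φ : RF 𝒟) : (fn 𝒟 fun _ => c) * φ = c • φ := by
  rw [fn_const, Algebra.smul_def]

theorem fn_add (g g' : Y → ℝ) : (fn 𝒟 fun y => g y + g' y) = fn 𝒟 g + fn 𝒟 g' := by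
  funext p
  exact map_add (algebraMap ℝ (Lam p.1.Z)) _ _

theorem fn_mul (g g' : Y → ℝ) : (fn 𝒟 fun y => g y * g' y) = fn 𝒟 g * fn 𝒟 g' := by
  funext p
  exact map_mul (algebraMap ℝ (Lam p.1.Z)) _ _

theorem fn_inj {g g' : Y → ℝ} (h : fn 𝒟 g = fn 𝒟 g') : g = g' := by
  funext y
  have h1 : algebraMap ℝ (Lam FS.line) (g y) = algebraMap ℝ (Lam FS.line) (g' y) :=
    congrFun h ⟨⟨FS.line, fun _ => y, (0 : ℝ)⟩, 𝒟.const _ _ _⟩
  have h2 := congrArg sc h1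
  rwa [sc_alg, sc_alg] at h2

theorem pull_pull {F : Y' → Y} {G : Y'' → Y'} (hF : Smo 𝒟' 𝒟 F) (hG : Smo 𝒟'' 𝒟' G) (φ : RF 𝒟) :
    pull hG (pull hF φ) = pull (hF.comp hG) φ := rfl

theorem pull_congr {F G : Y' → Y} (hF : Smo 𝒟' 𝒟 F) (hG : Smo 𝒟' 𝒟 G) (h : ∀ y, F y = G y)
    (φ : RF 𝒟) : pull hF φ = pull hG φ := by
  obtain rfl : F = G := funext h
  rfl

theorem pull_id (φ : RF 𝒟) : pull (smo_id 𝒟) φ = φ := rfl

theorem pull_fn {F : Y' → Y} (hF : Smo 𝒟' 𝒟 F) (g : Y → ℝ) :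
    pull hF (fn 𝒟 g) = fn 𝒟' fun y => g (F y) := rfl

theorem pull_ip {V : Type*} [NormedAddCommGroup V] [InnerProductSpace ℝ V] {F : Y' → Y}
    (hF : Smo 𝒟' 𝒟 F) (a b : Y → V) :
    pull hF (ip 𝒟 a b) = ip 𝒟' (fun y => a (F y)) fun y => b (F y) := rfl

theorem difc_sg_const {A B : Type*} [NormedAddCommGroup A] [NormedSpace ℝ A]
    [NormedAddCommGroup B] [NormedSpace ℝ B] (b : B) (a : A) : Sg (fun _ => b) a :=
  Eventually.of_forall fun _ => contDiffAt_const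

theorem pull_const (hφ : Fm (k + 1) φ) {F : Y' → Y} (hF : Smo 𝒟' 𝒟 F) {y : Y} (h : ∀ z, F z = y) :
    pull hF φ = 0 := by
  refine rf_ext fun Z f u hp => ?_
  rw [loc_pull hF _ hp, loc_zero, hφ.nat FS.line Z (fun _ => y) (fun _ => (0 : ℝ)) u _
    (𝒟.const _ _ _) (difc_sg_const _ _) (Eventually.of_forall fun z => h (f z))]
  refine pb_eq_zero _ (hφ.loc_mem _ _ _) ?_
  rw [fderiv_fun_const, Pi.zero_apply, ContinuousLinearMap.toLinearMap_zero, LinearMap.range_zero,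
    finrank_bot]
  exact Nat.succ_pos k

/-- Take `g y = sc (loc φ FS.line (fun _ => y) 0)` and use naturality for constant maps. -/
theorem Fm.exists_fn (hφ : Fm 0 φ) : ∃ g, Smo 𝒟 (Dif.vec ℝ) g ∧ φ = fn 𝒟 g := by
  have h1 : ∀ (Z : FS) (f : Z → Y) (u : Z), 𝒟.P ⟨Z, f, u⟩ →
      sc (loc φ FS.line (fun _ => f u) (0 : ℝ)) = sc (loc φ Z f u) := fun Z f u h => by
    rw [hφ.nat Z FS.line f (fun _ => u) (0 : ℝ) (fun _ => f u) h (difc_sg_const _ _)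
      (Eventually.of_forall fun _ => rfl), sc_pb]
  refine ⟨fun y => sc (loc φ FS.line (fun _ => y) (0 : ℝ)), fun p hp => ?_,
    rf_ext fun Z f u h => ?_⟩
  · obtain ⟨Z, f, u⟩ := p
    refine (𝒟.ev hp).mono fun u' h' => ?_
    exact (cd_lin sc.toLinearMap (hφ.sm Z f u' h')).congr_of_eventuallyEq
      ((𝒟.ev h').mono fun z hz => h1 Z f z hz)
  · rw [loc_fn _ h, h1 Z f u h]
    obtain ⟨c, hc⟩ := dg_zero_iff.1 (hφ.loc_mem Z f u)
    rw [hc, sc_alg]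

theorem fderiv_eq_zero_of_dx {g : Y → ℝ} (hg : Smo 𝒟 (Dif.vec ℝ) g) (h : dx (fn 𝒟 g) = 0)
    {Z : FS} {f : Z → Y} {u : Z} (hf : 𝒟.P ⟨Z, f, u⟩) : fderiv ℝ (fun z => g (f z)) u = 0 := by
  have e : loc (fn 𝒟 g) Z f =ᶠ[𝓝 u] fun z => algebraMap ℝ (Lam Z) (g (f z)) :=
    (𝒟.ev hf).mono fun _ h' => loc_fn g h'
  have h1 : DifferentiableAt ℝ (fun z => g (f z)) u :=
    (Eventually.self_of_nhds (hg _ hf)).differentiableAt (by simp)
  have h2 := loc_dx (fn 𝒟 g) hf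
  rw [h, loc_zero, dd_congr e, dd_fun h1] at h2
  ext v
  have h3 := congrArg (fun a => sc (ct v a)) h2
  simp only [ct_io, sc_alg, map_zero] at h3
  exact h3.symm

theorem eventually_const_of_dx {g : Y → ℝ} (hg : Smo 𝒟 (Dif.vec ℝ) g) (h : dx (fn 𝒟 g) = 0)
    {Z : FS} {f : Z → Y} {u : Z} (hf : 𝒟.P ⟨Z, f, u⟩) : ∀ᶠ z in 𝓝 u, g (f z) = g (f u) := by
  obtain ⟨r, hr, h1⟩ := Metric.eventually_nhds_iff_ball.1 (𝒟.ev hf)
  filter_upwards [Metric.ball_mem_nhds u hr] with z hz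
  refine Metric.isOpen_ball.is_const_of_fderiv_eq_zero (𝕜 := ℝ) (f := fun z => g (f z))
    (convex_ball u r).isPreconnected (fun w hw => ?_)
    (fun w hw => fderiv_eq_zero_of_dx hg h (h1 w hw)) hz (Metric.mem_ball_self hr)
  exact ((Eventually.self_of_nhds (hg _ (h1 w hw))).differentiableAt
    (by simp)).differentiableWithinAt

theorem const_of_dx {g : Y → ℝ} (hg : Smo 𝒟 (Dif.vec ℝ) g) (h : dx (fn 𝒟 g) = 0) {c : ℝ → Y}
    (hc : Smo (Dif.vec ℝ) 𝒟 c) (s t : ℝ) : g (c s) = g (c t) := by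
  have h1 : ∀ u : ℝ, 𝒟.P ⟨FS.line, c, u⟩ := fun u =>
    hc ⟨FS.line, fun z => z, u⟩ (Eventually.of_forall fun _ => contDiffAt_id)
  exact is_const_of_fderiv_eq_zero (𝕜 := ℝ) (f := fun z => g (c z))
    (fun u => (Eventually.self_of_nhds (hg _ (h1 u))).differentiableAt (by simp))
    (fun u => fderiv_eq_zero_of_dx hg h (h1 u)) s t

theorem RankLe.eq_zero {N : ℕ} (h : RankLe 𝒟 N) (hφ : Fm k φ) (hk : N < k) : φ = 0 := by
  refine rf_ext fun Z f u hp => ?_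
  obtain ⟨W, f', g, h1, h2, h3, h4⟩ := h Z f u hp
  rw [loc_zero, hφ.nat W Z f' g u f h1 h2 h3]
  exact pb_eq_zero _ (hφ.loc_mem _ _ _) (h4.trans_lt hk)

theorem RankLe.mono {N N' : ℕ} (h : RankLe 𝒟 N) (hN : N ≤ N') : RankLe 𝒟 N' := by
  intro Z f u hp
  obtain ⟨W, f', g, h1, h2, h3, h4⟩ := h Z f u hp
  exact ⟨W, f', g, h1, h2, h3, h4.trans hN⟩

theorem difc_rank {Z W : FS} (A : Z →L[ℝ] W) (B : Z →L[ℝ] ℝ) :
    Module.finrank ℝ (LinearMap.range (A.prod B).toLinearMap) ≤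
      Module.finrank ℝ (LinearMap.range A.toLinearMap) + 1 := by
  have h1 : LinearMap.range (A.prod B).toLinearMap ≤
      (LinearMap.range A.toLinearMap).map (LinearMap.inl ℝ W ℝ) ⊔
        LinearMap.range (LinearMap.inr ℝ W ℝ) := by
    rintro _ ⟨z, rfl⟩
    refine Submodule.mem_sup.2 ⟨_, ⟨A z, ⟨z, rfl⟩, rfl⟩, _, ⟨B z, rfl⟩, ?_⟩
    simp
  refine (Submodule.finrank_mono h1).trans
    ((Submodule.finrank_add_le_finrank_add_finrank _ _).trans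
      (add_le_add (Submodule.finrank_map_le _ _) ?_))
  exact (LinearMap.finrank_range_le _).trans (Module.finrank_self ℝ).le

/-- Factor through `W.ext` by `z ↦ (g z, t z)`. -/
theorem RankLe.ext {N : ℕ} (h : RankLe 𝒟 N) : RankLe 𝒟.ext (N + 1) := by
  intro Z F u hp
  obtain ⟨W, f', g, h1, h2, h3, h4⟩ := h Z (fun z => (F z).1) u hp.1
  have h5 : Sg (fun z => (F z).2) u := hp.2
  refine ⟨W.ext, fun w => (f' w.1, w.2), fun z => (g z, (F z).2), ⟨?_, ?_⟩, ?_, ?_, ?_⟩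
  · exact 𝒟.comp (W := W.ext) (g := Prod.fst) (w := (g u, (F u).2)) h1
      (Eventually.of_forall fun _ => contDiffAt_fst) (Eventually.of_forall fun _ => rfl)
  · exact Eventually.of_forall fun _ => contDiffAt_snd
  · filter_upwards [h2, h5] with z a b
    exact a.prodMk b
  · exact h3.mono fun z hz => Prod.ext hz rfl
  · rw [DifferentiableAt.fderiv_prodMk (h2.self_of_nhds.differentiableAt (by simp))
      (h5.self_of_nhds.differentiableAt (by simp))]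
    exact (difc_rank _ _).trans (Nat.add_le_add_right h4 1)

theorem smo_vec_iff {Z : FS} {f : Z → Y} : Smo (Dif.vec Z) 𝒟 f ↔ ∀ u, 𝒟.P ⟨Z, f, u⟩ := by
  refine ⟨fun h u => h ⟨Z, fun z => z, u⟩ (Eventually.of_forall fun _ => contDiffAt_id),
    fun h p hp => ?_⟩
  exact 𝒟.comp (h (p.f p.u)) hp (Eventually.of_forall fun _ => rfl)

theorem smo_line_iff {f : ℝ → Y} : Smo (Dif.vec ℝ) 𝒟 f ↔ ∀ u : ℝ, 𝒟.P ⟨FS.line, f, u⟩ := by
  exact smo_vec_iff (Z := FS.line)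

section Vec

variable {A B : Type*} [NormedAddCommGroup A] [NormedSpace ℝ A] [NormedAddCommGroup B]
  [NormedSpace ℝ B]

theorem sg_of_contDiff {g : A → B} (hg : ContDiff ℝ ∞ g) (a : A) : Sg g a := by
  exact Eventually.of_forall fun _ => hg.contDiffAt

theorem sg_of_open {g : A → B} {O : Set A} (hO : IsOpen O) (hg : ∀ a ∈ O, ContDiffAt ℝ ∞ g a)
    {a : A} (ha : a ∈ O) : Sg g a := by
  exact Filter.mem_of_superset (hO.mem_nhds ha) hg

theorem smo_of_contDiff {g : A → B} (hg : ContDiff ℝ ∞ g) : Smo (Dif.vec A) (Dif.vec B) g := by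
  exact fun p hp => (sg_of_contDiff hg _).comp' hp (Eventually.of_forall fun _ => rfl)

theorem Smo.contDiff_comp {F : Y → A} (hF : Smo 𝒟 (Dif.vec A) F) {g : A → B}
    (hg : ContDiff ℝ ∞ g) : Smo 𝒟 (Dif.vec B) fun y => g (F y) := by
  exact (smo_of_contDiff hg).comp hF

theorem Smo.sg_comp {F : Y → A} (hF : Smo 𝒟 (Dif.vec A) F) {g : A → B}
    (hg : ∀ y, Sg g (F y)) : Smo 𝒟 (Dif.vec B) fun y => g (F y) := by
  exact fun p hp => Sg.comp' (g := fun z => F (p.f z)) (hg _) (hF p hp)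
    (Eventually.of_forall fun _ => rfl)

theorem Smo.prodMk {F : Y → A} {G : Y → B} (hF : Smo 𝒟 (Dif.vec A) F)
    (hG : Smo 𝒟 (Dif.vec B) G) : Smo 𝒟 (Dif.vec (A × B)) fun y => (F y, G y) := by
  intro p hp
  have h1 : Sg (fun z => F (p.f z)) p.u := hF p hp
  have h2 : Sg (fun z => G (p.f z)) p.u := hG p hp
  exact (h1.and h2).mono fun _ h => h.1.prodMk h.2

theorem smo_vec_prod : Smo (Dif.vec (A × B)) ((Dif.vec A).prod (Dif.vec B)) fun y => y := by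
  exact (smo_of_contDiff contDiff_fst).pair (smo_of_contDiff contDiff_snd)

end Vec

theorem smo_ind {j : Y' → Y} {F : Y'' → Y'} :
    Smo 𝒟'' (𝒟.ind j) F ↔ Smo 𝒟'' 𝒟 fun y => j (F y) := Iff.rfl

theorem smo_ind_val (𝒟 : Dif Y) (j : Y' → Y) : Smo (𝒟.ind j) 𝒟 j := fun _ h => h

end Vale.Agent.P231C
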