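import Vale.Agent.P231C.DifB

/-! The homotopy formula. -/

open scoped ContDiff Topology
open Filter Set

noncomputable section

namespace Vale.Agent.P231C

variable {Y : Type*} {𝒟 : Dif Y} {k j : ℕ} {φ : RF 𝒟.ext}

theorem difd_slice (h : Fm k φ) {Z : FS} {f : Z → Y} {u : Z} (hp : 𝒟.P ⟨Z, f, u⟩) (t : ℝ) :
    loc (pull (smo_slice 𝒟 t) φ) Z f u = pb (Z := Z.ext) (ContinuousLinearMap.inl ℝ Z ℝ)
      (loc φ Z.ext (fun w => (f w.1, w.2)) (u, t)) := by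
  have h1 := h.loc_comp (Z := Z.ext) (f := fun w => (f w.1, w.2)) (W := Z)
    (g := fun z => (z, t)) (w := u) (plot_ext hp t)
    (sg_of_contDiff (contDiff_id.prodMk contDiff_const) u)
  rw [(hasFDerivAt_prodMk_left u t).fderiv] at h1
  rw [loc_pull _ _ hp]
  exact h1

theorem difd_fst {β : RF 𝒟} (h' : Fm j β) {Z : FS} {f : Z → Y} {u : Z} (hp : 𝒟.P ⟨Z, f, u⟩)
    (t : ℝ) : loc (pull (smo_fst 𝒟 (Dif.vec ℝ)) β) Z.ext (fun w => (f w.1, w.2)) (u, t) =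
      pb (W := Z.ext) (ContinuousLinearMap.fst ℝ Z ℝ) (loc β Z f u) := by
  have h1 := h'.loc_comp (Z := Z) (f := f) (W := Z.ext) (g := Prod.fst) (w := (u, t)) hp
    (sg_of_contDiff contDiff_fst _)
  rw [fderiv_fst] at h1
  rw [loc_pull _ _ (plot_ext hp t)]
  exact h1

theorem difd_pb {Z : FS} (x : Lam Z) : pb (Z := Z.ext) (ContinuousLinearMap.inl ℝ Z ℝ)
    (pb (W := Z.ext) (ContinuousLinearMap.fst ℝ Z ℝ) x) = x := by
  rw [pb_pb]
  exact pb_id x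

theorem difd_ct {Z : FS} (x : Lam Z) :
    ct (Z := Z.ext) (0, 1) (pb (W := Z.ext) (ContinuousLinearMap.fst ℝ Z ℝ) x) = 0 := by
  rw [ct_pb]
  exact (congrArg _ (ct_zero x)).trans (map_zero _)

theorem difd_sm (h : Fm k φ) {Z : FS} {f : Z → Y} {u : Z} (hp : 𝒟.P ⟨Z, f, u⟩) (t : ℝ) :
    ContDiffAt ℝ ∞ (fun p : Z × ℝ => pb (Z := Z.ext) (ContinuousLinearMap.inl ℝ Z ℝ)
      (ct (Z := Z.ext) (0, 1) (loc φ Z.ext (fun w => (f w.1, w.2)) p))) (u, t) :=
  cd_lin ((pb (Z := Z.ext) (ContinuousLinearMap.inl ℝ Z ℝ)).toLinearMap ∘ₗ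
    ct (Z := Z.ext) (0, 1)) (h.sm Z.ext _ (u, t) (plot_ext hp t))

theorem difd_int (h : Fm k φ) {Z : FS} {f : Z → Y} {u : Z} (hp : 𝒟.P ⟨Z, f, u⟩) (a b : ℝ) :
    IntervalIntegrable (fun t : ℝ => pb (Z := Z.ext) (ContinuousLinearMap.inl ℝ Z ℝ)
      (ct (Z := Z.ext) (0, 1) (loc φ Z.ext (fun w => (f w.1, w.2)) (u, t))))
      MeasureTheory.volume a b :=
  (par_cont (g := fun p : Z × ℝ => pb (Z := Z.ext) (ContinuousLinearMap.inl ℝ Z ℝ)
      (ct (Z := Z.ext) (0, 1) (loc φ Z.ext (fun w => (f w.1, w.2)) p)))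
    fun t _ => (difd_sm h hp t).continuousAt).intervalIntegrable

/-- The homotopy formula: `cartan_ext`, `dd_integral`, the fundamental theorem of calculus, and
`Fm.nat` for the slices `z ↦ (z, t)`. -/
theorem fib_dx (h : Fm k φ) (a b : ℝ) :
    dx (fib a b φ) + fib a b (dx φ) = pull (smo_slice 𝒟 b) φ - pull (smo_slice 𝒟 a) φ := by
  refine rf_ext fun Z f u hp => ?_
  have e : loc (fib a b φ) Z f =ᶠ[𝓝 u] fun z => ∫ t in a..b,
      pb (Z := Z.ext) (ContinuousLinearMap.inl ℝ Z ℝ)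
        (ct (Z := Z.ext) (0, 1) (loc φ Z.ext (fun w => (f w.1, w.2)) (z, t))) :=
    (𝒟.ev hp).mono fun _ h' => loc_fib φ a b h'
  have i1 := difd_int h.dx hp a b
  have i2 : IntervalIntegrable (fun t : ℝ => dd (fun z => pb (Z := Z.ext)
      (ContinuousLinearMap.inl ℝ Z ℝ) (ct (Z := Z.ext) (0, 1)
        (loc φ Z.ext (fun w => (f w.1, w.2)) (z, t)))) u) MeasureTheory.volume a b :=
    (par_cont (g := fun p : Z × ℝ => dd (fun z => pb (Z := Z.ext)
      (ContinuousLinearMap.inl ℝ Z ℝ) (ct (Z := Z.ext) (0, 1)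
        (loc φ Z.ext (fun w => (f w.1, w.2)) (z, p.2)))) p.1)
      fun t _ => (cd_dd_par (difd_sm h hp t)).continuousAt).intervalIntegrable
  rw [loc_add, loc_sub, loc_dx _ hp, dd_congr e, dd_integral fun t _ => difd_sm h hp t,
    loc_fib _ a b hp, add_comm, ← intervalIntegral.integral_add i1 i2, difd_slice h hp,
    difd_slice h hp]
  refine intervalIntegral.integral_eq_sub_of_hasDerivAt
    (f := fun s => pb (Z := Z.ext) (ContinuousLinearMap.inl ℝ Z ℝ)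
      (loc φ Z.ext (fun w => (f w.1, w.2)) (u, s))) (fun s _ => ?_) (i1.add i2)
  rw [loc_dx _ (plot_ext hp s)]
  exact cartan_ext (difc_diff h (plot_ext hp s))

/-- The local expression of `fst^* β` is `pb fst` of the local expression of `β`; `ct_mul`,
`ct_pb`. -/
theorem fib_mul_pull {β : RF 𝒟} (h : Fm k φ) (h' : Fm j β) (a b : ℝ) :
    fib a b (φ * pull (smo_fst 𝒟 (Dif.vec ℝ)) β) = fib a b φ * β := by
  refine rf_ext fun Z f u hp => ?_
  rw [loc_mul, loc_fib _ a b hp, loc_fib _ a b hp]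
  refine Eq.trans (intervalIntegral.integral_congr fun t _ => ?_)
    (((mulL Z).flip (loc β Z f u)).intervalIntegral_comp_comm (difd_int h hp a b))
  rw [loc_mul, difd_fst h' hp, ct_mul _ (h.loc_mem _ _ _), difd_ct, mul_zero, smul_zero, add_zero,
    map_mul, difd_pb]
  rfl

theorem fib_pull_mul {β : RF 𝒟} (h : Fm k φ) (h' : Fm j β) (a b : ℝ) :
    fib a b (pull (smo_fst 𝒟 (Dif.vec ℝ)) β * φ) = (-1 : ℝ) ^ j • (β * fib a b φ) := by
  refine rf_ext fun Z f u hp => ?_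
  rw [loc_smul, loc_mul, loc_fib _ a b hp, loc_fib _ a b hp]
  refine Eq.trans (intervalIntegral.integral_congr fun t _ => ?_)
    (((-1 : ℝ) ^ j • mulL Z (loc β Z f u)).intervalIntegral_comp_comm (difd_int h hp a b))
  rw [loc_mul, difd_fst h' hp, ct_mul _ (pb_mem _ (h'.loc_mem _ _ _)), difd_ct, zero_mul,
    zero_add, map_smul, map_mul, difd_pb]
  rfl

theorem fib_pull_fst {β : RF 𝒟} (h' : Fm j β) (a b : ℝ) :
    fib a b (pull (smo_fst 𝒟 (Dif.vec ℝ)) β) = 0 := by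
  refine rf_ext fun Z f u hp => ?_
  rw [loc_fib _ a b hp, loc_zero]
  refine Eq.trans (intervalIntegral.integral_congr (g := fun _ => 0) fun t _ => ?_)
    intervalIntegral.integral_zero
  beta_reduce
  rw [difd_fst h' hp, difd_ct, map_zero]

theorem fib_dt (𝒟 : Dif Y) (a b : ℝ) :
    fib a b (dx (fn 𝒟.ext fun p => p.2)) = algebraMap ℝ (RF 𝒟) (b - a) := by
  refine rf_ext fun Z f u hp => ?_
  rw [loc_fib _ a b hp, ← fn_const, loc_fn _ hp]
  refine Eq.trans (intervalIntegral.integral_congr (g := fun _ => 1) fun t _ => ?_) ?_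
  · have e : loc (fn 𝒟.ext fun p => p.2) Z.ext (fun w => (f w.1, w.2)) =ᶠ[𝓝 (u, t)]
        fun w : Z.ext => algebraMap ℝ (Lam Z.ext) w.2 :=
      (𝒟.ext.ev (plot_ext hp t)).mono fun _ h' => loc_fn _ h'
    beta_reduce
    rw [loc_dx _ (plot_ext hp t), dd_congr e,
      dd_fun (Z := Z.ext) (f := Prod.snd) differentiableAt_snd, ct_io, AlgHom.commutes, fderiv_snd]
    exact map_one _
  · rw [intervalIntegral.integral_const, Algebra.algebraMap_eq_smul_one]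

theorem smo_scale (𝒟 : Dif Y) :
    Smo 𝒟.ext.ext 𝒟.ext fun w : (Y × ℝ) × ℝ => (w.1.1, w.2 * w.1.2) :=
  ((smo_fst _ _).comp (smo_fst _ _)).pair
    (((smo_snd _ _).prodMk ((smo_snd _ _).comp (smo_fst _ _))).contDiff_comp
      (g := fun p : ℝ × ℝ => p.1 * p.2) (contDiff_fst.mul contDiff_snd))

/-- The radial primitive on `Y × ℝ`. -/
def rp (φ : RF 𝒟.ext) : RF 𝒟.ext := fib 0 1 (pull (smo_scale 𝒟) φ)

theorem Fm.rp (h : Fm (k + 1) φ) : Fm k (rp φ) := (h.pull (smo_scale 𝒟)).fib 0 1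

theorem dx_rp (h : Fm k φ) (hc : dx φ = 0) :
    dx (rp φ) = φ - pull (smo_fst 𝒟 (Dif.vec ℝ)) (pull (smo_slice 𝒟 0) φ) := by
  have h1 := fib_dx (h.pull (smo_scale 𝒟)) 0 1
  have e1 : pull (smo_slice 𝒟.ext 1) (pull (smo_scale 𝒟) φ) = φ :=
    pull_congr ((smo_scale 𝒟).comp (smo_slice 𝒟.ext 1)) (smo_id _)
      (fun y => Prod.ext rfl (one_mul y.2)) φ
  have e0 : pull (smo_slice 𝒟.ext 0) (pull (smo_scale 𝒟) φ) =
      pull (smo_fst 𝒟 (Dif.vec ℝ)) (pull (smo_slice 𝒟 0) φ) :=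
    pull_congr ((smo_scale 𝒟).comp (smo_slice 𝒟.ext 0))
      ((smo_slice 𝒟 0).comp (smo_fst 𝒟 (Dif.vec ℝ))) (fun y => Prod.ext rfl (zero_mul y.2)) φ
  rw [dx_pull, hc, map_zero, fib_zero, add_zero, e1, e0] at h1
  exact h1

/-- `pull_fib`, `pull_pull`, `fib_affine` (for `b = 0` the map factors through `fst`). -/
theorem slice_rp (h : Fm k φ) (b : ℝ) : pull (smo_slice 𝒟 b) (rp φ) = fib 0 b φ := by
  have h1 := fib_affine h b 0 (smo_affine 𝒟 b 0) 0 1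
  have e : pull (smo_slice 𝒟 b).ext (pull (smo_scale 𝒟) φ) = pull (smo_affine 𝒟 b 0) φ :=
    pull_congr ((smo_scale 𝒟).comp (smo_slice 𝒟 b).ext) (smo_affine 𝒟 b 0)
      (fun y => Prod.ext rfl ((mul_comm y.2 b).trans (add_zero _).symm)) φ
  rw [mul_zero, mul_one, add_zero, add_zero] at h1
  rw [rp, pull_fib, e, h1]

end Vale.Agent.P231C
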