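import Vale.Agent.P231C.WinB

/-! Integration along the fibres. -/

open scoped ContDiff Topology
open Filter Set MeasureTheory

noncomputable section

namespace Vale.Agent.P231C

open Vale.Agent.P234 Vale.Agent.P231

variable {M : Type*} [MetricSpace M] [CompactSpace M] {n : ℕ} {e : M → Eu n → M} {D : ℝ}

/-- The integral on the fibre over `x`. -/
def BC.GG (h : BC e D) (p₀ : M) (z₀ : XT M D) (w : RF h.DX) (x : M) : ℝ :=
  ∫ b : Eu n, top (eb n) (loc (h.OmX z₀ w) (FS.euc n) (fun b => (x, EE e D p₀ b)) b)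

theorem fuba_rank {Z A B : Type*} [AddCommGroup Z] [Module ℝ Z] [AddCommGroup A] [Module ℝ A]
    [AddCommGroup B] [Module ℝ B] [FiniteDimensional ℝ A] [FiniteDimensional ℝ B]
    (f : Z →ₗ[ℝ] A) (g : Z →ₗ[ℝ] B) :
    Module.finrank ℝ (LinearMap.range (f.prod g)) ≤
      Module.finrank ℝ (LinearMap.range f) + Module.finrank ℝ (LinearMap.range g) := by
  have h1 : LinearMap.range (f.prod g) ≤ (LinearMap.range f).map (LinearMap.inl ℝ A B) ⊔
      (LinearMap.range g).map (LinearMap.inr ℝ A B) := by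
    rintro _ ⟨z, rfl⟩
    exact Submodule.mem_sup.2 ⟨_, ⟨f z, ⟨z, rfl⟩, rfl⟩, _, ⟨g z, ⟨z, rfl⟩, rfl⟩, by simp⟩
  exact (Submodule.finrank_mono h1).trans
    ((Submodule.finrank_add_le_finrank_add_finrank _ _).trans
      (add_le_add (Submodule.finrank_map_le _ _) (Submodule.finrank_map_le _ _)))

theorem fuba_comp {Z W A : Type*} [AddCommGroup Z] [Module ℝ Z] [AddCommGroup W] [Module ℝ W]
    [AddCommGroup A] [Module ℝ A] [FiniteDimensional ℝ A] (f : W →ₗ[ℝ] A) (g : Z →ₗ[ℝ] W) :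
    Module.finrank ℝ (LinearMap.range (f.comp g)) ≤ Module.finrank ℝ (LinearMap.range f) :=
  Submodule.finrank_mono (LinearMap.range_comp_le_range _ _)

theorem fuba_ray (h : BC e D) (p : M) (v : Eu n) (z : Eu n × ℝ) :
    h.DM.P ⟨(FS.euc n).ext, fun q => e p (q.2 • v), z⟩ :=
  h.smo_exp0 p ⟨(FS.euc n).ext, fun q => q.2 • v, z⟩
    (sg_of_contDiff (contDiff_snd.smul contDiff_const) _)

theorem fuba_rank_ray (h : BC e D) (p : M) (v : Eu n) (z : Eu n × ℝ) :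
    Module.finrank ℝ (LinearMap.range
      (Tm e (fun q : Eu n × ℝ => e p (q.2 • v)) z).toLinearMap) ≤ 1 := by
  have h1 : Sm e (fun s : ℝ => e p (s • v)) z.2 :=
    Sm.comp (k := fun s : ℝ => s • v) (sm_exp h.toGeo p _) (contDiffAt_id.smul contDiffAt_const)
  rw [Tm_comp (f := fun s : ℝ => e p (s • v)) (k := Prod.snd) h1 differentiableAt_snd]
  exact (fuba_comp _ _).trans ((LinearMap.finrank_range_le _).trans_eq (Module.finrank_self ℝ))

theorem fuba_EE (h : BC e D) (p₀ : M) {W : FS} {g : W → Eu n} {w : W} (hg : Sg g w) :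
    h.DM.P ⟨W, fun z => EE e D p₀ (g z), w⟩ :=
  h.DM.comp (Z := FS.euc n) (g := g) (h.plot_EE p₀ (g w)) hg EventuallyEq.rfl

theorem fuba_win (h : BC e D) (p₀ : M) (v : Eu n) :
    Win (h.DM.prod h.DM) (FS.euc n).ext (fun _ => 1)
      (fun q => (e p₀ (q.2 • v), EE e D p₀ q.1)) 0 n (Metric.closedBall 0 D ×ˢ univ) := by
  refine ⟨contDiff_const, fun _ => dg_one, fun z => dd_const _ z,
    fun z _ => ⟨fuba_ray h p₀ v z, fuba_EE h p₀ (sg_of_contDiff contDiff_fst _)⟩,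
    fun z hz j w hj hw => ?_⟩
  have h1 : D < ‖z.1‖ := by
    by_contra h2
    exact hz ⟨mem_closedBall_zero_iff.2 (not_lt.1 h2), mem_univ _⟩
  rw [one_mul, h.loc_chart2 (fuba_ray h p₀ v z)
    (fuba_EE h p₀ (W := (FS.euc n).ext) (sg_of_contDiff contDiff_fst _)) hw]
  refine pb_eq_zero (Z := (FS.euc n).prod (FS.euc n)) _ (hw.loc_mem _ _ _) ?_
  have h2 := h.rank_EE p₀ h1
  have h3 := fuba_rank_ray h p₀ v z
  have h4 : Module.finrank ℝ (LinearMap.range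
      (Tm e (fun q : Eu n × ℝ => EE e D p₀ q.1) z).toLinearMap) ≤
      Module.finrank ℝ (LinearMap.range (Tm e (EE e D p₀) z.1).toLinearMap) := by
    rw [Tm_comp (f := EE e D p₀) (k := Prod.fst) (h.sm_EE p₀ _) differentiableAt_fst]
    exact fuba_comp _ _
  have h5 := fuba_rank (Tm e (fun q : Eu n × ℝ => e p₀ (q.2 • v)) z).toLinearMap
    (Tm e (fun q : Eu n × ℝ => EE e D p₀ q.1) z).toLinearMap
  exact h5.trans_lt (by omega)

theorem fuba_dx {N : ℕ} {e : M → Eu (N + 1) → M} (h : BC e D) (p₀ : M) (z₀ : XT M D)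
    {φ : RF h.DM} (hφ : Fm (N + 1) φ) {Ψ : RF h.DX} (hΨ : Fm N Ψ) {c : ℝ}
    (hd : dx Ψ = c • pull h.smo_ev φ) (v : Eu (N + 1)) (z : Eu (N + 1) × ℝ) :
    loc (dx (h.OmX z₀ Ψ)) (FS.euc (N + 1)).ext
      (fun q => (e p₀ (q.2 • v), EE e D p₀ q.1)) z = 0 := by
  have h2 := h.three
  have h3 : pull h.smo_ev φ = pull h.smo_ev φ * 1 := (mul_one _).symm
  have h4 : (h.DM.prod h.DM).P ⟨(FS.euc (N + 1)).ext,
      fun q => (e p₀ (q.2 • v), EE e D p₀ q.1), z⟩ :=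
    ⟨fuba_ray h p₀ v z, fuba_EE h p₀ (sg_of_contDiff contDiff_fst _)⟩
  have h5 : loc φ (FS.euc (N + 1)).ext (fun q => e p₀ (q.2 • v)) z = 0 :=
    h.loc_eq_zero hφ ((fuba_rank_ray h p₀ v z).trans_lt (by omega))
  rw [h.dx_OmX z₀ hΨ, hd, h.OmX_smul, h3, h.OmX_mul z₀ hφ, loc_neg, loc_smul, loc_smul,
    loc_mul, loc_pull _ _ h4, h5, zero_mul, smul_zero, smul_zero, neg_zero]

/-- `Win.homotopy` for `DM.prod DM`, `c = 1`, `F (b, s) = (e p₀ (s • lg p₀ x), EE b)`, `N = n`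
(`loc_chart2`, `rank_EE`: the rank is at most `n - 1` for `D < ‖b‖`); `dx_OmX`, `OmX_mul` with
`w = 1`, and `φ` pulled back along a curve vanishes (`BC.loc_eq_zero`). -/
theorem BC.GG_const {N : ℕ} {e : M → Eu (N + 1) → M} (h : BC e D) (p₀ : M) (z₀ : XT M D)
    {φ : RF h.DM} (hφ : Fm (N + 1) φ) {Ψ : RF h.DX} (hΨ : Fm N Ψ) {c : ℝ}
    (hd : dx Ψ = c • pull h.smo_ev φ) (x : M) : h.GG p₀ z₀ Ψ x = h.GG p₀ z₀ Ψ p₀ := by
  have h1 := (fuba_win h p₀ (lg e p₀ x)).homotopy (volume : Measure (Eu (N + 1)))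
    (K := Metric.closedBall 0 D) (isCompact_closedBall _ _) (fun z hz s _ hs => hz hs.1)
    (h.fm_OmX z₀ hΨ) le_rfl
    (fun z s _ => by rw [fuba_dx h p₀ z₀ hφ hΨ hd, mul_zero]) (eb (N + 1))
  simp only [IG, map_one, one_mul, zero_smul, one_smul, h.zero, h.toGeo.exp_lg] at h1
  exact h1.symm

theorem fuba_cut (h : BC e D) (p₀ : M) (a : Eu n) :
    cut D (dist p₀ (EE e D p₀ a)) = cut D ‖a‖ := by
  have h0 := h.dpos
  rw [EE, h.min p₀ _ (norm_Th_le h0 a)]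
  rcases le_total ‖a‖ (D / 2) with h1 | h1
  · rw [Th_near h0 h1]
  · rw [(cut_cut h0).one _ (by linarith [le_norm_Th h0 h1]), (cut_cut h0).one _ (by linarith)]

theorem fuba_radv (o : Sp n) {b : Eu n} (hb : b ≠ 0) : (rad o b).1 = ‖b‖⁻¹ • b :=
  congrArg Subtype.val (dif_neg hb)

theorem fuba_rad (o : Sp n) {b : Eu n} (hb : b ≠ 0) : (DS n).P ⟨FS.euc n, rad o, b⟩ := by
  filter_upwards [isOpen_ne.mem_nhds hb] with z hz
  have h1 : ContDiffAt ℝ ∞ (fun y : Eu n => ‖y‖⁻¹ • y) z :=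
    ((contDiffAt_id.norm ℝ hz).inv (norm_ne_zero_iff.2 hz)).smul contDiffAt_id
  refine h1.congr_of_eventuallyEq ?_
  filter_upwards [isOpen_ne.mem_nhds hz] with y hy
  exact fuba_radv o hy

theorem fuba_kp (h : BC e D) (p₀ : M) (z₀ : XT M D) (o : Sp n) {b : Eu n} (hb : b ≠ 0)
    (h1 : ‖b‖ < D) : h.kp z₀ (p₀, EE e D p₀ b) = h.i0 p₀ (rad o b) := by
  obtain ⟨c, hc, he⟩ := exists_Th_smul h.dpos b
  have h2 := norm_Th_lt h.dpos h1
  have h3 := norm_pos_iff.2 hb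
  have h4 : Th D b = (c * ‖b‖) • ‖b‖⁻¹ • b := by
    rw [smul_smul, mul_assoc, mul_inv_cancel₀ h3.ne', mul_one, he]
  rw [he, norm_smul, Real.norm_of_nonneg hc.le] at h2
  rw [EE, h4, ← fuba_radv o hb]
  exact h.kp_exp z₀ p₀ (rad o b).2 (by positivity) h2

/-- `cut (dist p₀ (EE b)) = cut ‖b‖` for all `b`, and `kp (p₀, EE b) = i0 (rad o b)` for
`0 < ‖b‖ < D`. -/
theorem BC.GG_base (h : BC e D) (p₀ : M) (z₀ : XT M D) {Ψ : RF h.DX} {k : ℕ} (hΨ : Fm k Ψ)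
    (o : Sp n) : h.GG p₀ z₀ Ψ p₀ = IS o (cut D) (pull (h.smo_i0 p₀) Ψ) := by
  have h0 := h.dpos
  refine integral_congr_ae (Eventually.of_forall fun b => ?_)
  simp only
  rw [h.loc_OmX z₀ Ψ (h.DM.const (FS.euc n) p₀ b) (h.plot_EE p₀ b), cX]
  simp only [fuba_cut h]
  congr 1
  by_cases h1 : b ≠ 0 ∧ ‖b‖ < D
  · have h2 := fuba_rad o h1.1
    rw [loc_pull _ _ h2]
    congr 1
    refine hΨ.loc_congr (h.smo_i0 p₀ ⟨FS.euc n, rad o, b⟩ h2) ?_
    filter_upwards [isOpen_ne.mem_nhds h1.1,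
      continuous_norm.continuousAt.eventually_lt continuousAt_const h1.2] with z a1 a2
    exact fuba_kp h p₀ z₀ o a1 a2
  · have h2 : fderiv ℝ (fun w : Eu n => cut D ‖w‖) b = 0 := by
      rcases eq_or_ne b 0 with h3 | h3
      · have h4 : (fun w : Eu n => cut D ‖w‖) =ᶠ[𝓝 b] fun _ => 0 := by
          filter_upwards [continuous_norm.continuousAt.eventually_lt continuousAt_const
            (show ‖b‖ < D / 8 by rw [h3, norm_zero]; linarith)] with z hz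
          exact (cut_cut h0).zero _ hz.le
        rw [h4.fderiv_eq, fderiv_fun_const, Pi.zero_apply]
      · have h4 : (fun w : Eu n => cut D ‖w‖) =ᶠ[𝓝 b] fun _ => 1 := by
          filter_upwards [continuousAt_const.eventually_lt continuous_norm.continuousAt
            (show D / 4 < ‖b‖ by linarith [not_lt.1 fun h5 => h1 ⟨h3, h5⟩])] with z hz
          exact (cut_cut h0).one _ hz.le
        rw [h4.fderiv_eq, fderiv_fun_const, Pi.zero_apply]
    rw [h2, map_zero, zero_mul, zero_mul]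

/-- `IX_eq`, `OmX_mul`, `top_append`, Fubini (`integral_prod`; the integrand is continuous with
compact support, `Win.integrable`). -/
theorem BC.fubini {N : ℕ} {e : M → Eu (N + 1) → M} (h : BC e D) (p₀ : M) (z₀ : XT M D)
    {φ : RF h.DM} (hφ : Fm (N + 1) φ) {Ψ : RF h.DX} (hΨ : Fm N Ψ) {c : ℝ}
    (hd : dx Ψ = c • pull h.smo_ev φ) (o : Sp (N + 1)) :
    |h.IX p₀ z₀ (pull h.smo_ev φ * Ψ)| =
      |h.IM p₀ φ| * |IS o (cut D) (pull (h.smo_i0 p₀) Ψ)| := by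
  have h1 := (h.win_X p₀ z₀).integrable ((volume : Measure (Eu (N + 1))).prod volume)
    ((isCompact_closedBall _ _).prod (isCompact_closedBall _ _)) ((hφ.pull h.smo_ev).mul hΨ)
    (by omega) (eb2 (N + 1))
  have h2 : ∀ a : Eu (N + 1) × Eu (N + 1), top (eb2 (N + 1))
      (cX D (Z := (FS.euc (N + 1)).prod (FS.euc (N + 1))) (fun a => EE e D p₀ a.1)
        (fun a => EE e D p₀ a.2) a * loc (pull h.smo_ev φ * Ψ)
          ((FS.euc (N + 1)).prod (FS.euc (N + 1)))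
          (fun a => h.kp z₀ (EE e D p₀ a.1, EE e D p₀ a.2)) a) =
      (-1 : ℝ) ^ (N + 1) * top (eb (N + 1)) (loc φ (FS.euc (N + 1)) (EE e D p₀) a.1) *
        top (eb (N + 1)) (loc (h.OmX z₀ Ψ) (FS.euc (N + 1))
          (fun b => (EE e D p₀ a.1, EE e D p₀ b)) a.2) := by
    intro a
    have a1 := fuba_EE h p₀ (W := (FS.euc (N + 1)).prod (FS.euc (N + 1))) (g := Prod.fst) (w := a)
      (sg_of_contDiff contDiff_fst _)
    have a2 := fuba_EE h p₀ (W := (FS.euc (N + 1)).prod (FS.euc (N + 1))) (g := Prod.snd) (w := a)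
      (sg_of_contDiff contDiff_snd _)
    have a3 : (h.DM.prod h.DM).P ⟨(FS.euc (N + 1)).prod (FS.euc (N + 1)),
        fun a => (EE e D p₀ a.1, EE e D p₀ a.2), a⟩ := ⟨a1, a2⟩
    have a4 := hφ.loc_comp (W := (FS.euc (N + 1)).prod (FS.euc (N + 1))) (g := Prod.fst) (w := a)
      (h.plot_EE p₀ a.1) (sg_of_contDiff contDiff_fst _)
    have a5 := (h.fm_OmX z₀ hΨ).loc_comp (Z := (FS.euc (N + 1)).prod (FS.euc (N + 1)))
      (W := FS.euc (N + 1)) (g := fun b => (a.1, b)) (w := a.2) a3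
      (sg_of_contDiff (contDiff_prodMk_right a.1) _)
    rw [fderiv_fst] at a4
    rw [(hasFDerivAt_prodMk_right a.1 a.2).fderiv] at a5
    rw [← h.loc_OmX z₀ _ a1 a2, h.OmX_mul z₀ hφ, loc_smul, loc_mul, loc_pull _ _ a3, a4, a5,
      top, evl_smul, mul_assoc]
    congr 1
    exact top_append (eb (N + 1)) (eb (N + 1)) (hφ.loc_mem _ _ _) _
  have h3 : h.IX p₀ z₀ (pull h.smo_ev φ * Ψ) = (-1 : ℝ) ^ (N + 1) * h.IM p₀ φ *
      IS o (cut D) (pull (h.smo_i0 p₀) Ψ) := by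
    rw [BC.IX, IG, Measure.volume_eq_prod, integral_prod _ h1]
    simp only [h2, integral_const_mul]
    have h4 : ∀ x : Eu (N + 1), ∫ b : Eu (N + 1), top (eb (N + 1)) (loc (h.OmX z₀ Ψ)
        (FS.euc (N + 1)) (fun b => (EE e D p₀ x, EE e D p₀ b)) b) =
        IS o (cut D) (pull (h.smo_i0 p₀) Ψ) := fun x =>
      (h.GG_const p₀ z₀ hφ hΨ hd _).trans (h.GG_base p₀ z₀ hΨ o)
    simp only [h4, integral_mul_const, integral_const_mul, BC.IM, IG, one_mul]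
  rw [h3, abs_mul, abs_mul, abs_pow, abs_neg, abs_one, one_pow, one_mul]

end Vale.Agent.P231C
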