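import Vale.Agent.P231C.XB

/-! Ranks and connectedness. -/

open scoped ContDiff Topology
open Filter Set MeasureTheory

noncomputable section

namespace Vale.Agent.P231C

open Vale.Agent.P234 Vale.Agent.P231

variable {M : Type*} [MetricSpace M] [CompactSpace M] {n : ℕ} {e : M → Eu n → M} {D : ℝ}

theorem xc_sg (h : BC e D) {Z : FS} {f : Z → M} {u : Z} (hf : h.DM.P ⟨Z, f, u⟩) :
    Sg (fun z => lg e (f u) (f z)) u := h.sg_lg hf (by rw [dist_self]; exact h.dpos)

theorem xc_exp (h : BC e D) (x : M) (a : Eu n) : h.DM.P ⟨FS.euc n, e x, a⟩ :=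
  (smo_vec_iff (Z := FS.euc n)).1 (h.smo_exp0 x) a

theorem xc_prod (h : BC e D) {Z : FS} {f g : Z → M} {u : Z} (hf : h.DM.P ⟨Z, f, u⟩)
    (hg : h.DM.P ⟨Z, g, u⟩) : fderiv ℝ (fun z => (lg e (f u) (f z), lg e (g u) (g z))) u =
      (Tm e f u).prod (Tm e g u) :=
  DifferentiableAt.fderiv_prodMk ((xc_sg h hf).self_of_nhds.differentiableAt (by simp))
    ((xc_sg h hg).self_of_nhds.differentiableAt (by simp))

theorem BC.loc_chart (h : BC e D) {Z : FS} {f : Z → M} {u : Z} (hf : h.DM.P ⟨Z, f, u⟩) {k : ℕ}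
    {w : RF h.DM} (hw : Fm k w) :
    loc w Z f u = pb (Z := FS.euc n) (Tm e f u) (loc w (FS.euc n) (e (f u)) 0) := by
  have h1 := hw.nat (FS.euc n) Z (e (f u)) (fun z => lg e (f u) (f z)) u f (xc_exp h _ _)
    (xc_sg h hf) (Eventually.of_forall fun z => (h.toGeo.exp_lg _ _).symm)
  rw [h.toGeo.lg_self] at h1
  exact h1

/-- A form of degree larger than the rank vanishes: `f = e (f u) ∘ lg (f u) ∘ f`. -/
theorem BC.loc_eq_zero (h : BC e D) {Z : FS} {f : Z → M} {u : Z} {k : ℕ} {w : RF h.DM}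
    (hw : Fm k w) (hk : Module.finrank ℝ (LinearMap.range (Tm e f u).toLinearMap) < k) :
    loc w Z f u = 0 := by
  by_cases hf : h.DM.P ⟨Z, f, u⟩
  · rw [h.loc_chart hf hw]
    exact pb_eq_zero (Z := FS.euc n) _ (hw.loc_mem _ _ _) hk
  · exact loc_not w hf

theorem BC.loc_chart2 (h : BC e D) {Z : FS} {f g : Z → M} {u : Z} (hf : h.DM.P ⟨Z, f, u⟩)
    (hg : h.DM.P ⟨Z, g, u⟩) {k : ℕ} {w : RF (h.DM.prod h.DM)} (hw : Fm k w) :
    loc w Z (fun z => (f z, g z)) u =
      pb (Z := (FS.euc n).prod (FS.euc n)) ((Tm e f u).prod (Tm e g u))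
        (loc w ((FS.euc n).prod (FS.euc n)) (fun a => (e (f u) a.1, e (g u) a.2)) 0) := by
  have h1 := hw.nat ((FS.euc n).prod (FS.euc n)) Z (fun a => (e (f u) a.1, e (g u) a.2))
    (fun z => (lg e (f u) (f z), lg e (g u) (g z))) u (fun z => (f z, g z))
    ⟨h.DM.comp (W := (FS.euc n).prod (FS.euc n)) (g := Prod.fst) (xc_exp h _ _)
        (sg_of_contDiff contDiff_fst _) EventuallyEq.rfl,
      h.DM.comp (W := (FS.euc n).prod (FS.euc n)) (g := Prod.snd) (xc_exp h _ _)
        (sg_of_contDiff contDiff_snd _) EventuallyEq.rfl⟩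
    (((xc_sg h hf).and (xc_sg h hg)).mono fun _ k => k.1.prodMk k.2)
    (Eventually.of_forall fun z => Prod.ext (h.toGeo.exp_lg _ _).symm (h.toGeo.exp_lg _ _).symm)
  rw [xc_prod h hf hg, h.toGeo.lg_self, h.toGeo.lg_self] at h1
  exact h1

theorem BC.rank_DM (h : BC e D) : RankLe h.DM n := fun _ f u hf =>
  ⟨FS.euc n, e (f u), fun z => lg e (f u) (f z), xc_exp h _ _, xc_sg h hf,
    Eventually.of_forall fun _ => (h.toGeo.exp_lg _ _).symm,
    (Submodule.finrank_le _).trans_eq finrank_euclideanSpace_fin⟩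

/-- Factor through `psi` and `chi`. The function `dist (e x a) (e y b)` is constant along
`chi ∘ f` and has a nonzero differential at `0` (`BC.fderiv_dist`). -/
theorem BC.rank_DX (h : BC e D) : RankLe h.DX (2 * n - 1) := by
  intro Z f u hf
  refine ⟨(FS.euc n).prod (FS.euc n), h.psi (f u), fun z => chi e (f u) (f z), ?_, h.sg_chi hf,
    Eventually.of_forall fun z => (h.psi_chi _ _).symm, ?_⟩
  · simp only [h.chi_self]
    exact h.plot_psi _
  have h0 := h.dpos
  have hd : ∀ z : XT M D, dist (ev z) (ev2 z) = D / 2 := fun z => z.2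
  have h1 : fderiv ℝ (fun z => chi e (f u) (f z)) u = _ := xc_prod h hf.1 hf.2
  have h2 : LinearMap.range (fderiv ℝ (fun z => chi e (f u) (f z)) u).toLinearMap ≠ ⊤ := by
    intro ht
    obtain ⟨w, hw⟩ := LinearMap.range_eq_top.1 ht (lg e (ev (f u)) (ev2 (f u)), 0)
    rw [h1] at hw
    have a1 : Tm e (fun z => ev (f z)) u w = lg e (ev (f u)) (ev2 (f u)) := congrArg Prod.fst hw
    have a2 : Tm e (fun z => ev2 (f z)) u w = 0 := congrArg Prod.snd hw
    have a3 := h.fderiv_dist (f := fun z => ev (f z)) (g := fun z => ev2 (f z))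
      hf.1.self_of_nhds hf.2.self_of_nhds (by rw [hd]; linarith) (by rw [hd]; linarith) w
    rw [a1, a2, inner_zero_right, real_inner_self_eq_norm_sq, h.toGeo.norm_lg] at a3
    simp only [hd, fderiv_fun_const, Pi.zero_apply, zero_apply] at a3
    have a4 : 0 < (D / 2)⁻¹ * ((D / 2) ^ 2 + 0) := by positivity
    linarith
  have h3 := Submodule.finrank_lt h2
  rw [Module.finrank_prod, finrank_euclideanSpace_fin, ← two_mul] at h3
  exact Nat.le_sub_one_of_lt h3

theorem xc_fl (h : BC e D) (z : XT M D) : Continuous fun t : ℝ => h.fl (z, t) :=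
  continuous_iff_continuousAt.2 fun t => h.plotX_cont (Z := FS.line)
    (h.cir_fl.sm ⟨FS.line, fun t => (z, t), t⟩
      ⟨h.DX.const FS.line z t, sg_of_contDiff contDiff_id _⟩)

/-- A function which is eventually constant along all plots is constant: it is locally constant
(`plot_psi`, `psi_chi`, `continuousAt_chi`), constant on the fibres (the sphere is connected,
`isConnected_sphere`, and `v ↦ mk' x v` is continuous) and along the flow. -/
theorem BC.const_of_plot (h : BC e D) {α : Type*} {g : XT M D → α}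
    (hg : ∀ (Z : FS) (f : Z → XT M D) (u : Z), h.DX.P ⟨Z, f, u⟩ → ∀ᶠ z in 𝓝 u, g (f z) = g (f u))
    (v w : XT M D) : g v = g w := by
  have hl : IsLocallyConstant g := (IsLocallyConstant.iff_eventually_eq g).2 fun z => by
    have h1 := hg _ _ _ (h.plot_psi z)
    have h2 : Tendsto (chi e z) (𝓝 z) (𝓝 0) := h.chi_self z ▸ (h.continuousAt_chi z).tendsto
    filter_upwards [h2.eventually h1] with z' hz
    rwa [h.psi_chi, h.psi_zero] at hz
  have hf : ∀ v w : XT M D, ev v = ev w → g v = g w := fun v w hvw => by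
    have h1 : Continuous (e (ev v)) :=
      continuous_iff_continuousAt.2 fun a => h.plot_cont (xc_exp h _ a)
    have h2 : Continuous fun s : Metric.sphere (0 : Eu n) 1 =>
        h.mk' (ev v) s.1 (mem_sphere_zero_iff_norm.1 s.2) :=
      Continuous.subtype_mk (continuous_const.prodMk
        (h1.comp (continuous_subtype_val.const_smul (D / 2)))) _
    have h3 : 1 < Module.rank ℝ (Eu n) := by
      rw [← Module.finrank_eq_rank, finrank_euclideanSpace_fin]
      exact_mod_cast lt_of_lt_of_le (by norm_num) h.three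
    have h4 := Subtype.preconnectedSpace (isPreconnected_sphere h3 (0 : Eu n) 1)
    have h5 := (hl.comp_continuous h2).apply_eq_of_preconnectedSpace
      ⟨vel e v, mem_sphere_zero_iff_norm.2 (h.norm_vel v)⟩
      ⟨vel e w, mem_sphere_zero_iff_norm.2 (h.norm_vel w)⟩
    rw [← h.mk_vel v, ← h.mk_vel w, ← h.mk_congr (h.norm_vel w) (h.norm_vel w) hvw rfl]
    exact h5
  rcases eq_or_ne (ev v) (ev w) with h1 | h1
  · exact hf v w h1
  have h2 := dist_pos.2 h1
  have h3 := (hl.comp_continuous (xc_fl h (h.kp v (ev v, ev w)))).apply_eq_of_preconnectedSpace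
    0 (dist (ev v) (ev w))
  simp only [Function.comp_apply, h.fl_zero] at h3
  rw [hf v _ (h.ev_kp v h2).symm, h3]
  refine hf _ _ ?_
  rw [ev_fl, geo, h.ev_kp v h2, h.vel_kp v h2, smul_inv_smul₀ h2.ne', h.toGeo.exp_lg]

theorem BC.conn (h : BC e D) (g : XT M D → ℝ) (hg : Smo h.DX (Dif.vec ℝ) g)
    (hd : dx (fn h.DX g) = 0) (v w : XT M D) : g v = g w :=
  h.const_of_plot (fun _ _ _ hf => eventually_const_of_dx hg hd hf) v w

/-- Smooth functions are continuous. -/
theorem BC.continuous_of_smo (h : BC e D) {V : Type*} [NormedAddCommGroup V] [NormedSpace ℝ V]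
    {g : XT M D → V} (hg : Smo h.DX (Dif.vec V) g) : Continuous g := by
  refine continuous_iff_continuousAt.2 fun z => ?_
  have h1 : ContinuousAt (fun a => g (h.psi z a)) (chi e z z) := by
    rw [h.chi_self]
    exact (hg _ (h.plot_psi z)).self_of_nhds.continuousAt
  exact (h1.comp (h.continuousAt_chi z)).congr
    (Eventually.of_forall fun z' => congrArg g (h.psi_chi z z'))

theorem xc_bump (h : BC e D) (x : M) :
    Smo h.DM (Dif.vec ℝ) fun y => expNegInvGlue ((D / 4) ^ 2 / 2 - cost x y) := by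
  rintro ⟨Z, f, u⟩ hp
  filter_upwards [h.DM.ev hp] with z hz
  have h0 := h.dpos
  rcases lt_or_ge (dist x (f z)) D with h1 | h1
  · exact expNegInvGlue.contDiff.contDiffAt.comp z (contDiffAt_const.sub
      (Sm.cost h.toGeo (sm_const h.toGeo x z) hz.self_of_nhds (h.toBl.sp h1)))
  · have h2 : ∀ᶠ z' in 𝓝 z, D / 4 < dist x (f z') :=
      (continuousAt_const.dist (h.plot_cont hz)).eventually (lt_mem_nhds (by linarith))
    refine (contDiffAt_const (c := (0 : ℝ))).congr_of_eventuallyEq (h2.mono fun z' h3 => ?_)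
    refine expNegInvGlue.zero_of_nonpos (sub_nonpos.2 ?_)
    exact div_le_div_of_nonneg_right (pow_le_pow_left₀ (by linarith) h3.le 2) zero_le_two

theorem xc_one (h : BC e D) (z₀ : XT M D) : ∃ s : XT M D → ℂ, Smo h.DX (Dif.vec ℂ) s ∧
    (∀ v t, s (h.fl (v, t)) = Complex.exp (2 * Real.pi * t / (2 * D : ℝ) * Complex.I) * s v) ∧
    s z₀ ≠ 0 := by
  have h0 := h.dpos
  have hD : ((2 * D : ℝ) : ℂ) ≠ 0 := Complex.ofReal_ne_zero.2 (by positivity)
  let c : ℝ × ℝ → ℂ := fun p =>
    Complex.exp (-(2 * Real.pi * p.1 / (2 * D : ℝ) * Complex.I)) * p.2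
  have hc : ContDiff ℝ ∞ c :=
    (((contDiff_const.mul (Complex.ofRealCLM.contDiff.comp contDiff_fst)).div_const _).mul
      contDiff_const).neg.cexp.mul (Complex.ofRealCLM.contDiff.comp contDiff_snd)
  let G : XT M D × ℝ → ℂ := fun p =>
    c (p.2, expNegInvGlue ((D / 4) ^ 2 / 2 - cost (ev z₀) (geo e p.1 p.2)))
  have hG : Smo h.DX.ext (Dif.vec ℂ) G :=
    ((smo_snd _ _).prodMk ((xc_bump h (ev z₀)).comp h.smo_geo)).contDiff_comp hc
  have hp : ∀ v, Function.Periodic (fun t => G (v, t)) (2 * D) := fun v t => by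
    simp only [G, c, h.geo_per]
    congr 1
    rw [← Complex.exp_periodic, Complex.ofReal_add]
    congr 1
    field_simp
    ring
  refine ⟨fun v => ∫ t in (0 : ℝ)..2 * D, G (v, t), hG.integral _ _, fun v τ => ?_, ?_⟩
  · have h1 := (hp v).intervalIntegral_add_eq τ 0
    have h2 := intervalIntegral.integral_comp_add_left (a := 0) (b := 2 * D)
      (fun t => G (v, t)) τ
    rw [zero_add] at h1
    rw [add_zero, h1] at h2
    simp only
    rw [← h2, ← intervalIntegral.integral_const_mul]
    refine intervalIntegral.integral_congr fun t _ => ?_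
    simp only [G, c, geo_fl]
    rw [← mul_assoc, ← Complex.exp_add, Complex.ofReal_add]
    congr 2
    ring
  · have h1 := (hp z₀).intervalIntegral_add_eq 0 (-D)
    rw [zero_add, show -D + 2 * D = D by ring] at h1
    have h2 : ∫ t in -D..D, G (z₀, t) =
        ∫ t in -D..D, c (t, expNegInvGlue ((D / 4) ^ 2 / 2 - t ^ 2 / 2)) := by
      refine intervalIntegral.integral_congr fun t ht => ?_
      rw [uIcc_of_le (by linarith)] at ht
      have h3 := h.dist_geo z₀ (s := 0) (t := t) (by
        rw [zero_sub, abs_neg]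
        exact abs_le.2 ht)
      rw [h.geo_zero, zero_sub, abs_neg] at h3
      simp only [G, cost, h3, sq_abs]
    have h3 : Continuous fun t : ℝ => c (t, expNegInvGlue ((D / 4) ^ 2 / 2 - t ^ 2 / 2)) :=
      hc.continuous.comp (continuous_id.prodMk
        ((expNegInvGlue.contDiff (n := 0)).continuous.comp (by fun_prop)))
    have h4 := Complex.reCLM.intervalIntegral_comp_comm (μ := volume) (h3.intervalIntegrable (-D) D)
    have h5 : ∀ t b : ℝ, Complex.reCLM (c (t, b)) = Real.cos (Real.pi * (t / D)) * b := by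
      intro t b
      have h6 : -(2 * Real.pi * t / (2 * D : ℝ) * Complex.I) =
          ((-(Real.pi * (t / D)) : ℝ) : ℂ) * Complex.I := by
        push_cast
        field_simp
      simp only [c, h6, Complex.reCLM_apply, Complex.re_mul_ofReal, Complex.exp_ofReal_mul_I_re,
        Real.cos_neg]
    have h6 := intervalIntegral.integral_pos (a := -D) (b := D) (by linarith)
      (Complex.reCLM.continuous.comp h3).continuousOn (fun t _ => by
        rw [Function.comp_apply, h5]
        rcases le_or_gt ((D / 4) ^ 2 / 2 - t ^ 2 / 2) 0 with h7 | h7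
        · rw [expNegInvGlue.zero_of_nonpos h7, mul_zero]
        · have h8 := abs_lt.1 (abs_lt_of_sq_lt_sq (show t ^ 2 < (D / 4) ^ 2 by linarith)
            (by linarith))
          have h9 : t / D < 1 / 4 := by
            rw [div_lt_iff₀ h0]
            linarith
          have h10 : -(1 / 4) < t / D := by
            rw [lt_div_iff₀ h0]
            linarith
          have := Real.pi_pos
          exact mul_nonneg (Real.cos_nonneg_of_neg_pi_div_two_le_of_le (by nlinarith)
            (by nlinarith)) (expNegInvGlue.nonneg _))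
      ⟨0, ⟨by linarith, h0.le⟩, by
        rw [Function.comp_apply, h5, zero_div, mul_zero, Real.cos_zero, one_mul]
        exact expNegInvGlue.pos_of_pos (by simp; positivity)⟩
    intro h7
    simp only at h7
    rw [← h2, ← h1, h7, map_zero] at h4
    exact h6.ne' h4

/-- Equivariant functions. For `z₀` take a smooth `b ≥ 0` with `b 0 > 0`, `b x = 0` for
`x ≥ (D / 4) ^ 2 / 2`, put `f z = b (cost (ev z₀) (ev z))` (smooth: near the cut locus it
vanishes, `Sm.cost`) and
`s z = ∫ t in 0..2 * D, exp (-(2 π t / (2 D)) I) * f (fl (z, t))` (`Smo.integral`, periodicity).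
The real part of `s z₀` is positive. Scale and use compactness. -/
theorem BC.exists_phase (h : BC e D) : ∃ (N : ℕ) (s : Fin N → XT M D → ℂ),
    (∀ i, Smo h.DX (Dif.vec ℂ) (s i)) ∧
    (∀ i v t, s i (h.fl (v, t)) =
      Complex.exp (2 * Real.pi * t / (2 * D : ℝ) * Complex.I) * s i v) ∧
    ∀ v, ∃ i, 1 ≤ ‖s i v‖ := by
  choose s h1 h2 h3 using xc_one h
  have hc := compact_XT (M := M) D
  have h4 : ∀ z, Smo h.DX (Dif.vec ℂ) fun v => 2 / s z z * s z v := fun z =>
    (h1 z).contDiff_comp (g := fun x => 2 / s z z * x) (contDiff_const.mul contDiff_id)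
  obtain ⟨T, hT⟩ := isCompact_univ.elim_finite_subcover
    (fun z => {v | 1 < ‖2 / s z z * s z v‖})
    (fun z => isOpen_lt continuous_const (h.continuous_of_smo (h4 z)).norm)
    fun z _ => mem_iUnion.2 ⟨z, by
      rw [mem_ofPred_eq, div_mul_cancel₀ _ (h3 z)]
      simp⟩
  refine ⟨T.card, fun i v => 2 / s (T.equivFin.symm i) (T.equivFin.symm i) *
    s (T.equivFin.symm i) v, fun i => h4 _, fun i v t => ?_, fun v => ?_⟩
  · simp only
    rw [h2, mul_left_comm]
  obtain ⟨z, hz, hv⟩ := mem_iUnion₂.1 (hT (mem_univ v))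
  refine ⟨T.equivFin ⟨z, hz⟩, ?_⟩
  simp only [Equiv.symm_apply_apply]
  exact le_of_lt hv

end Vale.Agent.P231C
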