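import Vale.Agent.P231C.VecB
import Vale.Agent.P231C.XC

/-! The global plot of `M`. -/

open scoped ContDiff Topology
open Filter Set MeasureTheory

noncomputable section

namespace Vale.Agent.P231C

open Vale.Agent.P234 Vale.Agent.P231

variable {M : Type*} [MetricSpace M] [CompactSpace M] {n : ℕ} {e : M → Eu n → M} {D : ℝ}

theorem cut_cut (hD : 0 < D) : Cut (cut D) (D / 8) (D / 4) := by
  refine ⟨?_, by positivity, fun t ht => ?_, fun t ht => ?_⟩
  · exact Real.smoothTransition.contDiff.comp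
      (((contDiff_const.mul contDiff_id).div_const D).sub contDiff_const)
  · refine Real.smoothTransition.zero_of_nonpos ?_
    rw [sub_nonpos, div_le_one hD]
    linarith
  · refine Real.smoothTransition.one_of_one_le ?_
    rw [le_sub_iff_add_le, le_div_iff₀ hD]
    linarith

/-- The transition function. -/
def wina_S (D t : ℝ) : ℝ := Real.smoothTransition (2 * t / D - 1)

/-- The radial factor. -/
def wina_p (D t : ℝ) : ℝ := 1 - wina_S D t + wina_S D t * (D / t)

/-- The radial profile. -/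
def wina_g (D t : ℝ) : ℝ := D - (1 - wina_S D t) * (D - t)

theorem wina_Th (D : ℝ) (a : Eu n) : Th D a = wina_p D ‖a‖ • a := rfl

theorem wina_S_zero (hD : 0 < D) {t : ℝ} (ht : t ≤ D / 2) : wina_S D t = 0 := by
  refine Real.smoothTransition.zero_of_nonpos ?_
  rw [sub_nonpos, div_le_one hD]
  linarith

theorem wina_S_one (hD : 0 < D) {t : ℝ} (ht : D ≤ t) : wina_S D t = 1 := by
  refine Real.smoothTransition.one_of_one_le ?_
  rw [le_sub_iff_add_le, le_div_iff₀ hD]
  linarith

theorem wina_S_lt (hD : 0 < D) {t : ℝ} (ht : t < D) : wina_S D t < 1 := by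
  refine Real.smoothTransition.lt_one_of_lt_one ?_
  rw [sub_lt_iff_lt_add, div_lt_iff₀ hD]
  linarith

theorem wina_S_nonneg (D t : ℝ) : 0 ≤ wina_S D t := Real.smoothTransition.nonneg _

theorem wina_S_le (D t : ℝ) : wina_S D t ≤ 1 := Real.smoothTransition.le_one _

theorem wina_S_mono (hD : 0 < D) {s t : ℝ} (h : s ≤ t) : wina_S D s ≤ wina_S D t := by
  refine Real.smoothTransition.monotone ?_
  gcongr

theorem wina_S_sm (D : ℝ) : ContDiff ℝ ∞ (wina_S D) :=
  Real.smoothTransition.contDiff.comp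
    (((contDiff_const.mul contDiff_id).div_const D).sub contDiff_const)

theorem wina_p_near (hD : 0 < D) {t : ℝ} (ht : t ≤ D / 2) : wina_p D t = 1 := by
  rw [wina_p, wina_S_zero hD ht]
  ring

theorem wina_p_pos (hD : 0 < D) {t : ℝ} (ht : 0 ≤ t) : 0 < wina_p D t := by
  rcases le_or_gt t (D / 2) with h | h
  · have _ := ht
    rw [wina_p_near hD h]
    exact one_pos
  · have h0 : 0 < t := by linarith
    have h1 := wina_S_nonneg D t
    have h2 := wina_S_le D t
    have h3 : 0 < D / t := div_pos hD h0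
    rw [wina_p]
    rcases h1.eq_or_lt with h4 | h4
    · rw [← h4]
      norm_num
    · have := mul_pos h4 h3
      linarith

theorem wina_p_mul (hD : 0 < D) {t : ℝ} (ht : 0 ≤ t) : wina_p D t * t = wina_g D t := by
  rcases ht.eq_or_lt with h | h
  · rw [← h, wina_g, wina_S_zero hD (by linarith)]
    ring
  · rw [wina_p, wina_g]
    field_simp
    ring

theorem wina_norm (hD : 0 < D) (a : Eu n) : ‖Th D a‖ = wina_g D ‖a‖ := by
  rw [wina_Th, norm_smul, Real.norm_of_nonneg (wina_p_pos hD (norm_nonneg a)).le,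
    wina_p_mul hD (norm_nonneg a)]

theorem wina_g_far (hD : 0 < D) {t : ℝ} (ht : D ≤ t) : wina_g D t = D := by
  rw [wina_g, wina_S_one hD ht]
  ring

theorem wina_g_lt (hD : 0 < D) {t : ℝ} (ht : t < D) : wina_g D t < D := by
  have := mul_pos (sub_pos.2 (wina_S_lt hD ht)) (sub_pos.2 ht)
  rw [wina_g]
  linarith

theorem wina_g_le (hD : 0 < D) (t : ℝ) : wina_g D t ≤ D := by
  rcases le_or_gt D t with h | h
  · exact (wina_g_far hD h).le
  · exact (wina_g_lt hD h).le

theorem wina_g_strict (hD : 0 < D) {s t : ℝ} (h : s < t) (ht : t < D) :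
    wina_g D s < wina_g D t := by
  have h1 := sub_pos.2 (wina_S_lt hD ht)
  have h2 := wina_S_mono hD h.le
  have h3 : (1 - wina_S D t) * (D - t) < (1 - wina_S D s) * (D - s) :=
    calc (1 - wina_S D t) * (D - t) < (1 - wina_S D t) * (D - s) :=
          mul_lt_mul_of_pos_left (by linarith) h1
      _ ≤ (1 - wina_S D s) * (D - s) :=
          mul_le_mul_of_nonneg_right (by linarith) (by linarith)
  rw [wina_g, wina_g]
  linarith

theorem wina_g_mono (hD : 0 < D) : Monotone (wina_g D) := by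
  intro s t h
  rcases h.eq_or_lt with h | h
  · rw [h]
  · rcases le_or_gt D t with h1 | h1
    · rw [wina_g_far hD h1]
      exact wina_g_le hD s
    · exact (wina_g_strict hD h h1).le

theorem exists_Th (hD : 0 < D) : ∃ φ : ℝ → ℝ, ContDiff ℝ ∞ φ ∧
    ∀ a : Eu n, Th D a = φ (inner ℝ a a) • a := by
  refine ⟨fun s => wina_p D (√s), contDiff_iff_contDiffAt.2 fun s => ?_, fun a => ?_⟩
  · rcases le_or_gt s 0 with h | h
    · refine (contDiffAt_const (c := (1 : ℝ))).congr_of_eventuallyEq ?_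
      have h1 : s < (D / 2) ^ 2 := lt_of_le_of_lt h (by positivity)
      filter_upwards [Iio_mem_nhds h1] with u hu
      exact wina_p_near hD (Real.sqrt_le_iff.2 ⟨by positivity, le_of_lt hu⟩)
    · have h1 : ContDiffAt ℝ ∞ (fun u : ℝ => √u) s := Real.contDiffAt_sqrt h.ne'
      have h2 : ContDiffAt ℝ ∞ (fun u : ℝ => wina_S D (√u)) s :=
        (wina_S_sm D).contDiffAt.comp s h1
      exact (contDiffAt_const.sub h2).add
        (h2.mul (contDiffAt_const.div h1 (Real.sqrt_pos.2 h).ne'))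
  · simp only [real_inner_self_eq_norm_sq, Real.sqrt_sq (norm_nonneg a)]
    exact wina_Th D a

theorem contDiff_Th (hD : 0 < D) : ContDiff ℝ ∞ (Th (n := n) D) := by
  obtain ⟨φ, h1, h2⟩ := exists_Th (n := n) hD
  rw [funext h2]
  exact (h1.comp (contDiff_id.inner ℝ contDiff_id)).smul contDiff_id

theorem Th_near (hD : 0 < D) {a : Eu n} (ha : ‖a‖ ≤ D / 2) : Th D a = a := by
  rw [wina_Th, wina_p_near hD ha, one_smul]

theorem Th_far (hD : 0 < D) {a : Eu n} (ha : D ≤ ‖a‖) : Th D a = (D / ‖a‖) • a := by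
  rw [wina_Th, wina_p, wina_S_one hD ha, sub_self, zero_add, one_mul]

theorem norm_Th_le (hD : 0 < D) (a : Eu n) : ‖Th D a‖ ≤ D := by
  rw [wina_norm hD]
  exact wina_g_le hD _

theorem norm_Th_lt (hD : 0 < D) {a : Eu n} (ha : ‖a‖ < D) : ‖Th D a‖ < D := by
  rw [wina_norm hD]
  exact wina_g_lt hD ha

theorem le_norm_Th (hD : 0 < D) {a : Eu n} (ha : D / 2 ≤ ‖a‖) : D / 2 ≤ ‖Th D a‖ := by
  rw [wina_norm hD]
  refine le_trans (le_of_eq ?_) (wina_g_mono hD ha)
  rw [wina_g, wina_S_zero hD le_rfl]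
  ring

theorem exists_Th_smul (hD : 0 < D) (a : Eu n) : ∃ c : ℝ, 0 < c ∧ Th D a = c • a :=
  ⟨_, wina_p_pos hD (norm_nonneg a), wina_Th D a⟩

theorem wina_det {L : Eu n →L[ℝ] Eu n} (h : ∀ v, 0 ≤ inner ℝ (L v) v) : 0 ≤ L.det := by
  by_contra h0
  rw [not_le] at h0
  have hc : Continuous fun s : ℝ => ((1 - s) • ContinuousLinearMap.id ℝ (Eu n) + s • L).det :=
    ContinuousLinearMap.continuous_det.comp (by fun_prop)
  have h1 := intermediate_value_Icc' zero_le_one hc.continuousOn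
  have e0 : ((1 - (0 : ℝ)) • ContinuousLinearMap.id ℝ (Eu n) + (0 : ℝ) • L).det = 1 := by
    simp [ContinuousLinearMap.det]
  have e1 : ((1 - (1 : ℝ)) • ContinuousLinearMap.id ℝ (Eu n) + (1 : ℝ) • L).det = L.det := by
    rw [sub_self, zero_smul ℝ (ContinuousLinearMap.id ℝ (Eu n)), zero_add, one_smul]
  rw [e0, e1] at h1
  obtain ⟨s, hs, h2⟩ := h1 ⟨h0.le, zero_le_one⟩
  have hs1 : s < 1 := by
    refine lt_of_le_of_ne hs.2 fun e => ?_
    rw [e] at h2
    exact h0.ne (e1.symm.trans h2)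
  obtain ⟨v, hv, hv0⟩ := (Submodule.ne_bot_iff _).1 (LinearMap.det_eq_zero_iff_ker_ne_bot.1 h2)
  have h3 : (1 - s) • v + s • L v = 0 := hv
  have h4 := congrArg (fun w => inner ℝ w v) h3
  simp only [inner_add_left, real_inner_smul_left, inner_zero_left,
    real_inner_self_eq_norm_sq] at h4
  have h5 := mul_pos (sub_pos.2 hs1) (pow_pos (norm_pos_iff.2 hv0) 2)
  have h6 := mul_nonneg hs.1 (h v)
  linarith

theorem wina_monot (hD : 0 < D) (x y : Eu n) : 0 ≤ inner ℝ (Th D x - Th D y) (x - y) := by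
  have h1 := wina_p_pos hD (norm_nonneg x)
  have h2 := wina_p_pos hD (norm_nonneg y)
  have h3 := real_inner_le_norm x y
  have h4 : 0 ≤ (wina_g D ‖x‖ - wina_g D ‖y‖) * (‖x‖ - ‖y‖) := by
    rcases le_total ‖x‖ ‖y‖ with h | h
    · exact mul_nonneg_of_nonpos_of_nonpos (sub_nonpos.2 (wina_g_mono hD h)) (sub_nonpos.2 h)
    · exact mul_nonneg (sub_nonneg.2 (wina_g_mono hD h)) (sub_nonneg.2 h)
  rw [← wina_p_mul hD (norm_nonneg x), ← wina_p_mul hD (norm_nonneg y)] at h4
  rw [wina_Th, wina_Th]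
  simp only [inner_sub_left, inner_sub_right, real_inner_smul_left, real_inner_self_eq_norm_sq,
    real_inner_comm x y]
  have h5 := mul_le_mul_of_nonneg_left h3 (add_pos h1 h2).le
  nlinarith

theorem wina_pos (hD : 0 < D) (a v : Eu n) : 0 ≤ inner ℝ (fderiv ℝ (Th (n := n) D) a v) v := by
  have hd : HasFDerivAt (Th (n := n) D) (fderiv ℝ (Th (n := n) D) a) (a + (0 : ℝ) • v) := by
    rw [zero_smul, add_zero]
    exact ((contDiff_Th hD).differentiable (by simp) a).hasFDerivAt
  have h1 : HasDerivAt (fun t : ℝ => a + t • v) v 0 := by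
    simpa using ((hasDerivAt_id (0 : ℝ)).smul_const v).const_add a
  have h2 := (hd.comp_hasDerivAt (0 : ℝ) h1).inner ℝ (hasDerivAt_const (0 : ℝ) v)
  rw [inner_zero_right, zero_add] at h2
  refine h2.nonneg_of_monotone fun s t hst => ?_
  rcases hst.eq_or_lt with h | h
  · rw [h]
  · have h3 := wina_monot hD (a + t • v) (a + s • v)
    rw [add_sub_add_left_eq_sub, ← sub_smul, real_inner_smul_right, inner_sub_left] at h3
    have h4 := nonneg_of_mul_nonneg_right h3 (sub_pos.2 h)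
    simp only [Function.comp_apply]
    linarith

theorem wina_inj (hD : 0 < D) : InjOn (Th (n := n) D) (Metric.ball 0 D) := by
  intro a ha b hb h
  rw [mem_ball_zero_iff] at ha hb
  have h1 : wina_g D ‖a‖ = wina_g D ‖b‖ := by rw [← wina_norm hD, ← wina_norm hD, h]
  have h2 : ‖a‖ = ‖b‖ := by
    rcases lt_trichotomy ‖a‖ ‖b‖ with h2 | h2 | h2
    · exact absurd h1 (wina_g_strict hD h2 hb).ne
    · exact h2
    · exact absurd h1 (wina_g_strict hD h2 ha).ne'
  rw [wina_Th, wina_Th, h2] at h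
  exact smul_right_injective _ (wina_p_pos hD (norm_nonneg b)).ne' h

theorem wina_image (hD : 0 < D) : Th (n := n) D '' Metric.ball 0 D = Metric.ball 0 D := by
  ext y
  simp only [mem_image, mem_ball_zero_iff]
  constructor
  · rintro ⟨a, ha, rfl⟩
    exact norm_Th_lt hD ha
  · intro hy
    rcases eq_or_ne y 0 with rfl | hy0
    · exact ⟨0, hy, Th_near hD (by rw [norm_zero]; positivity)⟩
    have hr := norm_pos_iff.2 hy0
    have hc : Continuous (wina_g D) :=
      continuous_const.sub ((continuous_const.sub (wina_S_sm D).continuous).mul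
        (continuous_const.sub continuous_id))
    have h1 := intermediate_value_Icc hD.le hc.continuousOn
    rw [wina_g_far hD le_rfl, ← wina_p_mul hD le_rfl, mul_zero] at h1
    obtain ⟨t, ht, h2⟩ := h1 ⟨hr.le, hy.le⟩
    have h3 : ‖(t / ‖y‖) • y‖ = t := by
      rw [norm_smul, Real.norm_of_nonneg (div_nonneg ht.1 hr.le), div_mul_cancel₀ _ hr.ne']
    refine ⟨(t / ‖y‖) • y, ?_, ?_⟩
    · rw [h3]
      refine lt_of_le_of_ne ht.2 fun e => ?_
      rw [e, wina_g_far hD le_rfl] at h2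
      exact hy.ne' h2
    · rw [wina_Th, h3, smul_smul, ← mul_div_assoc, wina_p_mul hD ht.1, h2, div_self hr.ne',
        one_smul]

theorem integral_Th (hD : 0 < D) (f : Eu n → ℝ) :
    ∫ a in Metric.ball (0 : Eu n) D,
        LinearMap.det (fderiv ℝ (Th (n := n) D) a).toLinearMap * f (Th D a) =
      ∫ a in Metric.ball (0 : Eu n) D, f a := by
  have h1 := integral_image_eq_integral_abs_det_fderiv_smul (volume : Measure (Eu n))
    (s := Metric.ball 0 D) (f := Th (n := n) D) (f' := fun a => fderiv ℝ (Th (n := n) D) a)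
    measurableSet_ball
    (fun a _ => ((contDiff_Th hD).differentiable (by simp) a).hasFDerivAt.hasFDerivWithinAt)
    (wina_inj hD) f
  rw [wina_image hD] at h1
  rw [h1]
  refine integral_congr_ae (Eventually.of_forall fun a => ?_)
  beta_reduce
  rw [abs_of_nonneg (wina_det (wina_pos hD a)), smul_eq_mul]

theorem BC.sm_EE (h : BC e D) (p₀ : M) (a : Eu n) : Sm e (EE e D p₀) a :=
  Sm.comp (f := e p₀) (k := Th D) (sm_exp h.toGeo p₀ (Th D a)) (contDiff_Th h.dpos).contDiffAt

theorem BC.plot_EE (h : BC e D) (p₀ : M) (a : Eu n) : h.DM.P ⟨FS.euc n, EE e D p₀, a⟩ :=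
  Eventually.of_forall fun z => h.sm_EE p₀ z

theorem BC.Tm_EE (h : BC e D) (p₀ : M) (a : Eu n) : Tm e (EE e D p₀) a =
    (Lmap e p₀ (Th D a) (EE e D p₀ a)).comp (fderiv ℝ (Th (n := n) D) a) :=
  Tm_comp (f := e p₀) (k := Th D) (sm_exp h.toGeo p₀ (Th D a))
    ((contDiff_Th h.dpos).differentiable (by simp) a)

theorem wina_orth (hD : 0 < D) {a : Eu n} (ha : D < ‖a‖) (v : Eu n) :
    inner ℝ a (fderiv ℝ (Th (n := n) D) a v) = 0 := by
  have hd : HasFDerivAt (Th (n := n) D) (fderiv ℝ (Th (n := n) D) a) a :=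
    ((contDiff_Th hD).differentiable (by simp) a).hasFDerivAt
  have h1 := hd.inner ℝ hd
  have h2 : (fun x : Eu n => inner ℝ (Th D x) (Th D x)) =ᶠ[𝓝 a] fun _ => D ^ 2 := by
    filter_upwards [(isOpen_lt continuous_const continuous_norm).mem_nhds ha] with x hx
    rw [real_inner_self_eq_norm_sq, wina_norm hD, wina_g_far hD (le_of_lt hx)]
  have h3 := h1.unique ((hasFDerivAt_const (D ^ 2) a).congr_of_eventuallyEq h2)
  have h4 := congrArg (fun L : Eu n →L[ℝ] ℝ => L v) h3
  simp only [ContinuousLinearMap.comp_apply, ContinuousLinearMap.prod_apply, fderivInnerCLM_apply,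
    zero_apply] at h4
  obtain ⟨c, hc, h5⟩ := exists_Th_smul hD a
  rw [real_inner_comm (Th D a), h5, real_inner_smul_left] at h4
  have h6 : c * inner ℝ a (fderiv ℝ (Th (n := n) D) a v) = 0 := by linarith
  exact (mul_eq_zero.1 h6).resolve_left hc.ne'

theorem wina_rank {L : Eu n →ₗ[ℝ] Eu n} {a : Eu n} (ha : a ≠ 0)
    (h1 : Module.finrank ℝ (LinearMap.ker L) = 1) (h2 : ∀ w, L w = 0 → inner ℝ a w = 0) :
    Module.finrank ℝ ((ℝ ∙ a)ᗮ.map L) + 2 = n := by
  have h3 : LinearMap.ker L ≤ (ℝ ∙ a)ᗮ := fun w hw =>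
    Submodule.mem_orthogonal_singleton_iff_inner_right.2 (h2 w hw)
  have h4 := LinearMap.finrank_range_add_finrank_ker (L.domRestrict (ℝ ∙ a)ᗮ)
  rw [LinearMap.range_domRestrict, LinearMap.ker_domRestrict,
    (Submodule.comapSubtypeEquivOfLe h3).finrank_eq, h1] at h4
  have h5 := Submodule.finrank_add_finrank_orthogonal (ℝ ∙ a)
  rw [finrank_span_singleton ha, finrank_euclideanSpace_fin] at h5
  omega

/-- The kernel contains `a` and the kernel of `Lmap` at `Th a`, which has dimension one and is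
orthogonal to `a` (`Bl.gauss`). -/
theorem BC.rank_EE (h : BC e D) (p₀ : M) {a : Eu n} (ha : D < ‖a‖) :
    Module.finrank ℝ (LinearMap.range (Tm e (EE e D p₀) a).toLinearMap) + 2 ≤ n := by
  have hD := h.dpos
  have hr : 0 < ‖a‖ := hD.trans ha
  have ha0 : a ≠ 0 := norm_pos_iff.1 hr
  have hu : ‖‖a‖⁻¹ • a‖ = 1 := norm_smul_inv_norm ha0
  have hT : Th D a = D • ‖a‖⁻¹ • a := by
    rw [Th_far hD ha.le, smul_smul, div_eq_mul_inv]
  have h1 : Module.finrank ℝ
      (LinearMap.ker (Lmap e p₀ (Th D a) (EE e D p₀ a)).toLinearMap) = 1 :=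
    h.kap1 p₀ (Th D a) (by rw [wina_norm hD, wina_g_far hD ha.le])
  have h2 : ∀ w, (Lmap e p₀ (Th D a) (EE e D p₀ a)).toLinearMap w = 0 → inner ℝ a w = 0 := by
    intro w hw
    have h3 := Bl.gauss h.toBl (h.line (h.mk' p₀ _ hu)) 0 D w
    rw [h.fl_zero, vel_mk, geo_mk, geo_mk, zero_smul, h.zero, sub_zero, ← hT] at h3
    have h4 : Lmap e p₀ (Th D a) (e p₀ (Th D a)) w = 0 := hw
    rw [h4, inner_zero_left, real_inner_smul_right, real_inner_comm] at h3
    exact (mul_eq_zero.1 h3.symm).resolve_left (inv_ne_zero hr.ne')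
  refine le_trans (Nat.add_le_add_right (Submodule.finrank_mono ?_) 2) (wina_rank ha0 h1 h2).le
  rintro _ ⟨v, rfl⟩
  refine ⟨fderiv ℝ (Th (n := n) D) a v,
    Submodule.mem_orthogonal_singleton_iff_inner_right.2 (wina_orth hD ha v), ?_⟩
  rw [h.Tm_EE]
  rfl

theorem BC.win_M (h : BC e D) (p₀ : M) :
    Win h.DM (FS.euc n) (fun _ => 1) (EE e D p₀) 0 (n - 1) (Metric.closedBall 0 D) := by
  refine ⟨contDiff_const, fun _ => dg_one, fun z => dd_const _ z, fun z _ => h.plot_EE p₀ z,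
    fun z hz j w hj hw => ?_⟩
  rw [mem_closedBall_zero_iff, not_le] at hz
  have h1 := h.rank_EE p₀ hz
  rw [h.loc_eq_zero hw (by omega), mul_zero]

end Vale.Agent.P231C
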