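import Vale.Agent.P231C.KapA
import Vale.Agent.P231C.WinA

/-! The top power of the curvature form. -/

open scoped ContDiff Topology
open Filter Set MeasureTheory

noncomputable section

namespace Vale.Agent.P231C

open Vale.Agent.P234 Vale.Agent.P231

variable {M : Type*} [MetricSpace M] [CompactSpace M] {n : ℕ} {e : M → Eu n → M} {D : ℝ}

theorem kapb_closed {Z : FS} {κ : Z → Lam Z} (hκ : ContDiff ℝ ∞ κ) (h1 : ∀ z, κ z ∈ Dg Z 1)
    (m : ℕ) (u : Z) : dd (fun z => dd κ z ^ m) u = 0 := by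
  induction m with
  | zero => simpa only [pow_zero] using dd_const 1 u
  | succ m ih =>
    simp only [pow_succ']
    rw [dd_mul ((cd_dd hκ.contDiffAt).differentiableAt (by simp))
      ((cd_pow (cd_dd hκ.contDiffAt) m).differentiableAt (by simp))
      (dd_mem (Eventually.of_forall h1)), ih,
      dd_dd (hκ.contDiffAt.of_le (WithTop.coe_le_coe.2 (le_top : (2 : ℕ∞) ≤ ⊤))), zero_mul,
      mul_zero, smul_zero, add_zero]

theorem kapb_near {χ : ℝ → ℝ} {a b : ℝ} (hχ : Cut χ a b) {z : FS.euc n} (hz : ‖z‖ < a) :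
    fderiv ℝ (fun w : FS.euc n => χ ‖w‖) z = 0 := by
  have h : (fun w : FS.euc n => χ ‖w‖) =ᶠ[𝓝 z] fun _ => 0 :=
    ((isOpen_lt continuous_norm continuous_const).eventually_mem hz).mono fun w hw =>
      hχ.zero _ (le_of_lt hw)
  rw [h.fderiv_eq, fderiv_fun_const, Pi.zero_apply]

theorem kapb_far {χ : ℝ → ℝ} {a b : ℝ} (hχ : Cut χ a b) {z : FS.euc n} (hz : b < ‖z‖) :
    fderiv ℝ (fun w : FS.euc n => χ ‖w‖) z = 0 := by
  have h : (fun w : FS.euc n => χ ‖w‖) =ᶠ[𝓝 z] fun _ => 1 :=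
    ((isOpen_lt continuous_const continuous_norm).eventually_mem hz).mono fun w hw =>
      hχ.one _ (le_of_lt hw)
  rw [h.fderiv_eq, fderiv_fun_const, Pi.zero_apply]

theorem kapb_stokes {κ : FS.euc n → Lam (FS.euc n)} (hκ : ContDiff ℝ ∞ κ)
    (h1 : ∀ z, κ z ∈ Dg _ 1) {m : ℕ} {χ : ℝ → ℝ} {a b : ℝ} (hχ : Cut χ a b)
    (h2 : ∀ z, a < ‖z‖ → dd κ z ^ (m + 1) = 0) :
    ∫ z : EuclideanSpace ℝ (Fin n), top (eb n) (dd κ z ^ (m + 1)) =
      ∫ z : EuclideanSpace ℝ (Fin n), top (eb n)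
        (io (fderiv ℝ (fun w : FS.euc n => χ ‖w‖) z) * (κ z * dd κ z ^ m)) := by
  have h3 : ∀ j, ContDiff ℝ ∞ fun z => dd κ z ^ j := fun j =>
    contDiff_iff_contDiffAt.2 fun z => cd_pow (cd_dd hκ.contDiffAt) j
  have h4 : ContDiff ℝ ∞ fun z => κ z * dd κ z ^ m :=
    contDiff_iff_contDiffAt.2 fun z => cd_mul hκ.contDiffAt (h3 m).contDiffAt
  have h5 : ContDiff ℝ ∞ fun w : FS.euc n => 1 - χ ‖w‖ := contDiff_const.sub hχ.contDiff
  have h6 := stokes_euc (Z := FS.euc n) (volume : Measure (EuclideanSpace ℝ (Fin n))) (topL (eb n))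
    (h5.smul h4) (HasCompactSupport.intro (isCompact_closedBall 0 b) fun z hz => by
      rw [mem_closedBall_zero_iff, not_le] at hz
      simp [hχ.one _ hz.le])
  have h7 : ∀ z, dd (fun w : FS.euc n => (1 - χ ‖w‖) • (κ w * dd κ w ^ m)) z =
      dd κ z ^ (m + 1) - io (fderiv ℝ (fun w : FS.euc n => χ ‖w‖) z) * (κ z * dd κ z ^ m) := by
    intro z
    rw [dd_fun_smul (h5.differentiable (by simp) z) (h4.differentiable (by simp) z),
      dd_mul (hκ.differentiable (by simp) z) ((h3 m).differentiable (by simp) z) (h1 z),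
      kapb_closed hκ h1, mul_zero, smul_zero, add_zero, ← pow_succ', fderiv_const_sub, map_neg,
      neg_mul, neg_add_eq_sub]
    rcases le_or_gt ‖z‖ a with hz | hz
    · rw [hχ.zero _ hz, sub_zero, one_smul]
    · rw [h2 z hz, smul_zero]
  have h8 : Integrable fun z : EuclideanSpace ℝ (Fin n) => topL (eb n) (dd κ z ^ (m + 1)) :=
    ((cont_lin _).comp (h3 _).continuous).integrable_of_hasCompactSupport
      (HasCompactSupport.intro (isCompact_closedBall 0 a) fun z hz => by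
        rw [mem_closedBall_zero_iff, not_le] at hz
        simp [h2 z hz])
  have h9 : Integrable fun z : EuclideanSpace ℝ (Fin n) => topL (eb n)
      (io (fderiv ℝ (fun w : FS.euc n => χ ‖w‖) z) * (κ z * dd κ z ^ m)) :=
    ((cont_lin _).comp (contDiff_iff_contDiffAt.2 fun z => cd_mul (N := ∞) (cd_io
      (hχ.contDiff.contDiffAt.fderiv_right (by simp))) h4.contDiffAt).continuous)
      |>.integrable_of_hasCompactSupport
      (HasCompactSupport.intro (isCompact_closedBall 0 b) fun z hz => by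
        rw [mem_closedBall_zero_iff, not_le] at hz
        simp [kapb_far hχ hz])
  have h10 : ∫ z : EuclideanSpace ℝ (Fin n), topL (eb n)
      (dd (fun w : FS.euc n => (1 - χ ‖w‖) • (κ w * dd κ w ^ m)) z) = 0 := h6
  simp only [h7, map_sub] at h10
  rw [integral_sub h8 h9, sub_eq_zero] at h10
  exact h10

theorem kapb_cut (hD : 0 < D) :
    Cut (fun t => Real.smoothTransition (t / D - 2)) (2 * D) (3 * D) :=
  ⟨Real.smoothTransition.contDiff.comp ((contDiff_id.div_const D).sub contDiff_const),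
    by positivity,
    fun t ht => Real.smoothTransition.zero_of_nonpos (by rw [sub_nonpos, div_le_iff₀ hD]; exact ht),
    fun t ht => Real.smoothTransition.one_of_one_le
      (by rw [le_sub_iff_add_le, le_div_iff₀ hD]; linarith)⟩

theorem kapb_cn {J₀ : Eu n → Eu n} (hJ : GC (n := n) J₀) (hD : 0 < D) (o : Eu n) (o' : Sp n)
    {z : FS.euc n} (hz : D < ‖z‖) :
    loc (thJ (n := n) J₀) (FS.euc n) (rad o') z =
      cn (Z := FS.euc n) (ii n) (fun w => sec D o J₀ (Th D w)) z := by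
  have h0 : ∀ w : FS.euc n, D < ‖w‖ → w ≠ 0 := fun w hw h => by
    rw [h, norm_zero] at hw
    exact lt_asymm hD hw
  have h1 := plot_rad o' (h0 z hz)
  have h2 : (fun w : FS.euc n => sec D o J₀ (Th D w)) =ᶠ[𝓝 z]
      fun w => sec D o J₀ (D • (rad o' w).1) := by
    filter_upwards [(isOpen_lt continuous_const continuous_norm).eventually_mem hz] with w hw
    have h2 : (rad o' w).1 = ‖w‖⁻¹ • w := congrArg Subtype.val (dif_neg (h0 w hw))
    rw [Th_far hD (le_of_lt hw), h2, smul_smul, div_eq_mul_inv]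
  have h3 := hJ.cn_sec hD o (Z := FS.euc n) (t := fun _ => D) (v := fun w => (rad o' w).1)
    (u := z) (differentiableAt_const _) (h1.self_of_nhds.differentiableAt (by simp)) hD
    (Eventually.of_forall fun w => (rad o' w).2)
  have h4 : ang D D = Real.pi / 2 := by
    rw [ang, Real.smoothTransition.one_of_one_le, mul_one]
    rw [mul_div_assoc, div_self hD.ne']
    norm_num
  rw [h4, Real.sin_pi_div_two, one_pow, mul_one, map_smul] at h3
  have h5 : sec D o J₀ (Th D z) = sec D o J₀ (D • (rad o' z).1) := h2.self_of_nhds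
  rw [thJ, loc_smul, loc_ip _ _ h1, ← h3, cn, cn, h2.fderiv_eq, h5]

/-- Let `κ = cn (sec ∘ Th)`, a smooth form on the whole space with `dd κ = loc η EE`
(`loc_eta`), equal to `loc (thJ J₀) (rad o')` for `D < ‖a‖` (`cn_sec`, `Th_far`). By `IS_indep`
take `χ` with `Cut χ (2 D) (3 D)`. With `ϱ = κ * (dd κ) ^ m`, `dd ϱ = (dd κ) ^ (m + 1)` vanishes
for `D < ‖a‖` (`BC.win_M`). Apply `stokes_euc` to `(1 - χ ‖a‖) • ϱ a`. -/
theorem Base.IM_pow {m : ℕ} {e : M → Eu (2 * m + 2) → M} {p₀ : M}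
    {J₀ : Eu (2 * m + 2) → Eu (2 * m + 2)} {o : Eu (2 * m + 2)} {h : BC e D} {η : RF h.DM}
    (hB : Base e D p₀ J₀) (ho : ‖o‖ = 1)
    (hη : Curv h.DM (ii (2 * m + 2)) (PP e D p₀ o J₀) η) (o' : Sp (2 * m + 2)) {χ : ℝ → ℝ}
    {a b : ℝ} (hχ : Cut χ a b) :
    h.IM p₀ (η ^ (m + 1)) = IS o' χ (thJ (n := 2 * m + 2) J₀ * dx (thJ (n := 2 * m + 2) J₀) ^ m) := by
  have hD := h.dpos
  have h1 : Fm 1 (thJ (n := 2 * m + 2) J₀) := hB.toGC.conn.fm
  have h2 := (hB.toGC.contDiff_sec hD o).comp (contDiff_Th hD)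
  have h3 : ContDiff ℝ ∞ (cn (Z := FS.euc (2 * m + 2)) (ii (2 * m + 2))
      fun w => sec D o J₀ (Th D w)) :=
    contDiff_iff_contDiffAt.2 fun z => cd_io (ContDiffAt.const_smul _
      ((((innerSL ℝ (E := VV (2 * m + 2))).contDiff.comp
        ((ii _).contDiff.comp h2)).contDiffAt).clm_comp (h2.contDiffAt.fderiv_right (by simp))))
  have h4 : ∀ z, loc (η ^ (m + 1)) (FS.euc (2 * m + 2)) (EE e D p₀) z =
      dd (cn (Z := FS.euc (2 * m + 2)) (ii (2 * m + 2)) fun w => sec D o J₀ (Th D w)) z ^ (m + 1) :=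
    fun z => by
      rw [loc_pow _ _ (h.plot_EE p₀ z), ← hB.loc_eta ho hη (sg_of_contDiff (contDiff_Th hD) z)
        (Eventually.of_forall (norm_Th_le hD))]
      rfl
  have h5 := kapb_stokes h3 (fun _ => io_mem _) (m := m) (kapb_cut hD) fun z hz => by
    have h6 := (h.win_M p₀).out z (by rw [mem_closedBall_zero_iff, not_le]; linarith) _ _
      (by omega) (hη.fm.pow (m + 1))
    rwa [one_mul, h4] at h6
  rw [IS_indep (N := 2 * m + 1) o' o' hχ (kapb_cut hD) ((h1.mul (h1.dx.pow m)).cast (by omega)),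
    BC.IM, IS, IG, IG]
  simp only [one_mul, h4]
  refine h5.trans (integral_congr_ae (Eventually.of_forall fun z => ?_))
  rcases le_or_gt ‖z‖ D with hz | hz
  · simp only [kapb_near (kapb_cut hD) (z := z) (by linarith), map_zero, zero_mul]
  · have h6 := plot_rad o' (v := z) fun h6 => by
      rw [h6, norm_zero] at hz
      exact lt_asymm hD hz
    have h7 : loc (thJ (n := 2 * m + 2) J₀) (FS.euc (2 * m + 2)) (rad o') =ᶠ[𝓝 z] _ :=
      ((isOpen_lt continuous_const continuous_norm).eventually_mem hz).mono fun w hw =>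
        kapb_cn hB.toGC hD o o' hw
    simp only [loc_mul, loc_pow _ _ h6, loc_dx _ h6, dd_congr (Z := FS.euc _) h7,
      h7.self_of_nhds]

end Vale.Agent.P231C
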