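import Vale.Agent.P231C.GeoDef

/-! Reduction to constant tangent spaces and `r = D`. -/

open scoped ContDiff Topology
open Filter Set MeasureTheory

noncomputable section

namespace Vale.Agent.P231C

open Vale.Agent.P234 Vale.Agent.P231

variable {M : Type*} [MetricSpace M] [CompactSpace M] {n : ℕ} {e : M → Eu n → M} {D : ℝ}

omit [CompactSpace M] in
/-- Transport along isometries `A x : Eu n ≃ₗᵢ T x` (`stdOrthonormalBasis`, `reindex`, `repr`). -/
theorem loc_transport {T : M → Type*} [∀ x, NormedAddCommGroup (T x)]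
    [∀ x, InnerProductSpace ℝ (T x)] {e : ∀ x, T x → M} {r D : ℝ} (h : Bl e r D)
    (A : ∀ x, Eu n ≃ₗᵢ[ℝ] T x) : Bl (T := fun _ => Eu n) (fun x v => e x (A x v)) r D where
  pos := h.pos
  zero x := by rw [map_zero, h.zero]
  ray x v hv s t h0 h1 h2 := by
    rw [map_smul, map_smul, h.ray x _ (by rwa [(A x).norm_map]) s t h0 h1 h2, (A x).norm_map]
  surj x y hd := by
    obtain ⟨v, h1, h2⟩ := h.surj x y hd
    exact ⟨(A x).symm v, by rw [(A x).symm.norm_map, h1], by rw [(A x).apply_symm_apply, h2]⟩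
  smooth x y a b ha hb hd :=
    ContDiffAt.comp (f := fun z : Eu n × Eu n => (A x z.1, A y z.2))
      (g := fun z : T x × T y => cost (e x z.1) (e y z.2)) (a, b)
      (h.smooth x y (A x a) (A y b) (by rwa [(A x).norm_map]) (by rwa [(A y).norm_map]) hd)
      (((A x).contDiff.comp contDiff_fst).prodMk ((A y).contDiff.comp contDiff_snd)).contDiffAt
  mid := h.mid
  rank _ _ := rfl
  ugeo x v := by
    simp only [map_smul]
    rw [← (A x).norm_map v]
    exact h.ugeo x (A x v)
  dpos := h.dpos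
  le := h.le
  min x v hv := by rw [h.min x _ (by rwa [(A x).norm_map]), (A x).norm_map]

theorem red0_ugeo {T : M → Type*} [∀ x, NormedAddCommGroup (T x)]
    [∀ x, InnerProductSpace ℝ (T x)] [∀ x, FiniteDimensional ℝ (T x)] {e : ∀ x, T x → M} {r D : ℝ}
    (h : Bl e r D) (x : M) (v : T x) : UGeo (fun s : ℝ => e x (s • v)) ‖v‖ D := by
  intro s t hst
  obtain ⟨ρ, h1, h2⟩ := h.toGeo.flow (x := x) (v := v) (θ := s) rfl
  have h3 : e x (t • v) = e (e x (s • v)) ((t - s) • ρ) := by rw [← h2, add_sub_cancel]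
  have h4 : ‖(t - s) • ρ‖ = |s - t| * ‖v‖ := by
    rw [norm_smul, h1, Real.norm_eq_abs, abs_sub_comm]
  beta_reduce
  rw [h3, h.min _ _ (h4.trans_le hst.le), h4]

/-- `ray`, `ugeo`: `Geo.flow`, `Bl.min`; `smooth`: `Geo.contDiffAt_cost` and `Bl.sp`. -/
theorem bl_self {T : M → Type*} [∀ x, NormedAddCommGroup (T x)]
    [∀ x, InnerProductSpace ℝ (T x)] [∀ x, FiniteDimensional ℝ (T x)] {e : ∀ x, T x → M} {r D : ℝ}
    (h : Bl e r D) : Bl e D D where
  pos := h.dpos
  zero := h.zero
  ray x v hv s t h0 h1 h2 := by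
    have h3 : |s - t| = t - s := by rw [abs_sub_comm, abs_of_nonneg (sub_nonneg.2 h1)]
    have h4 := red0_ugeo h x v s t (by
      rw [h3]
      nlinarith [norm_nonneg v])
    rwa [h3] at h4
  surj x y _ := ⟨lg e x y, h.toGeo.norm_lg x y, h.toGeo.exp_lg x y⟩
  smooth _ _ _ _ _ _ hd := h.toGeo.contDiffAt_cost (h.sp hd) rfl rfl
  mid := h.mid
  rank := h.rank
  ugeo := red0_ugeo h
  dpos := h.dpos
  le := h.le
  min := h.min

/-- For `kap`: near `p = e x a` one has `lg e' p y = (A p).symm (lg e p y)` (`Geo.unique_min`,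
`Bl.lg_mem_inj`), so `Lmap` is conjugated by isometries. -/
theorem exists_BC {T : M → Type*} [∀ x, NormedAddCommGroup (T x)]
    [∀ x, InnerProductSpace ℝ (T x)] [∀ x, FiniteDimensional ℝ (T x)] {e : ∀ x, T x → M} {r D : ℝ}
    (h : Bl e r D) (hn : ∀ x, Module.finrank ℝ (T x) = n) (h3 : 3 ≤ n)
    (hk : ∀ x (v : T x), ‖v‖ = D → kap e x v = 1) : ∃ e' : M → Eu n → M, BC e' D := by
  have hA : ∀ x, Nonempty (Eu n ≃ₗᵢ[ℝ] T x) := fun x =>
    ⟨((stdOrthonormalBasis ℝ (T x)).reindex (finCongr (hn x))).repr.symm⟩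
  let A : ∀ x, Eu n ≃ₗᵢ[ℝ] T x := fun x => (hA x).some
  have h' := loc_transport (bl_self h) A
  refine ⟨fun x v => e x (A x v), h', h3, fun x v hv => ?_⟩
  rw [← hk x (A x v) (by rwa [(A x).norm_map])]
  set p := e x (A x v) with hp
  have h1 : ∀ y, dist p y < D →
      lg (T := fun _ => Eu n) (fun x v => e x (A x v)) p y = (A p).symm (lg e p y) := by
    intro y hy
    have h2 := h'.lg_exp' (x := p) (v := (A p).symm (lg e p y))
      (by rwa [(A p).symm.norm_map, h.toGeo.norm_lg])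
    simpa only [(A p).apply_symm_apply, h.toGeo.exp_lg] using h2
  have h2 : ∀ᶠ a in 𝓝 v, dist p (e x (A x a)) < D := by
    have hc : Continuous fun a : Eu n => dist p (e x (A x a)) :=
      continuous_const.dist ((h.toGeo.continuous_exp x).comp (A x).continuous)
    exact hc.continuousAt.eventually_lt continuousAt_const (by simpa [hp] using h.dpos)
  have h4 : Lmap (T := fun _ => Eu n) (fun x v => e x (A x v)) x v p =
      ((A p).symm.toContinuousLinearEquiv : T p →L[ℝ] Eu n).comp ((Lmap e x (A x v) p).comp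
        ((A x).toContinuousLinearEquiv : Eu n →L[ℝ] T x)) := by
    unfold Lmap
    rw [Filter.EventuallyEq.fderiv_eq (h2.mono fun a ha => h1 _ ha)]
    have h5 := (A p).symm.toContinuousLinearEquiv.comp_fderiv
      (f := (fun a' => lg e p (e x a')) ∘ (A x).toContinuousLinearEquiv) (x := v)
    rw [ContinuousLinearEquiv.comp_right_fderiv] at h5
    exact h5
  unfold kap
  rw [← hp, h4]
  refine LinearEquiv.finrank_eq ((A x).toLinearEquiv.ofSubmodules _ _ ?_)
  ext w
  simp only [Submodule.mem_map, LinearMap.mem_ker]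
  constructor
  · rintro ⟨u, hu, rfl⟩
    simpa using hu
  · intro hw
    exact ⟨(A x).symm w, by simpa using hw, by simp⟩

end Vale.Agent.P231C
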