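import Vale.Agent.P231C.SecA

/-! The family of complex lines is smooth across the cut locus. -/

open scoped ContDiff Topology
open Filter Set MeasureTheory

noncomputable section

namespace Vale.Agent.P231C

open Vale.Agent.P234 Vale.Agent.P231

variable {M : Type*} [MetricSpace M] [CompactSpace M] {n : ℕ} {e : M → Eu n → M} {D : ℝ}
variable {p₀ : M} {J₀ : Eu n → Eu n} {o : Eu n}

/-- First variation: the tangent space of the cut locus of `p₀` at `q` is orthogonal to the link.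
With `x = e q ((D / 2) • w)` one has `dist (f z) x ≥ D - dist x p₀ = D / 2`, with equality at
`z₀`; use `BC.fderiv_dist`. -/
theorem BC.cut_orth (h : BC e D) {Z : Type*} [NormedAddCommGroup Z] [NormedSpace ℝ Z] {f : Z → M}
    {z₀ : Z} (hf : Sm e f z₀) (hd : ∀ᶠ z in 𝓝 z₀, dist p₀ (f z) = D) {w : Eu n} (hw : ‖w‖ = 1)
    (he : e (f z₀) (D • w) = p₀) (ξ : Z) : inner ℝ w (Tm e f z₀ ξ) = 0 := by
  have h0 := h.dpos
  have h1 := h.dist_half (f z₀) hw
  have h2 : dist (e (f z₀) ((D / 2) • w)) p₀ = D / 2 := by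
    have a1 : |D / 2 - D| = D / 2 := by
      rw [abs_of_neg (by linarith)]
      ring
    have a2 := h.ugeo (f z₀) w (D / 2) D (by rw [a1, hw]; linarith)
    rw [a1, hw, mul_one] at a2
    exact he ▸ a2
  have h3 : IsLocalMin (fun z => dist (f z) (e (f z₀) ((D / 2) • w))) z₀ := by
    filter_upwards [hd] with z hz
    have := dist_triangle_right p₀ (f z) (e (f z₀) ((D / 2) • w))
    rw [dist_comm p₀ (e _ _)] at this
    linarith
  have h4 := h.fderiv_dist hf (sm_const h.toGeo (e (f z₀) ((D / 2) • w)) z₀)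
    (by rw [h1]; linarith) (by rw [h1]; linarith) ξ
  have h5 : ‖(D / 2) • w‖ < D := by
    rw [norm_smul, hw, mul_one, Real.norm_of_nonneg (by linarith)]
    linarith
  rw [h3.fderiv_eq_zero, h.Tm_const, h.toBl.lg_exp' h5, h1, ContinuousLinearMap.zero_apply,
    ContinuousLinearMap.zero_apply, inner_zero_right, add_zero, real_inner_smul_left,
    ← mul_assoc, neg_mul, inv_mul_cancel₀ (by linarith)] at h4
  linarith

theorem tuba_ift {V : Type*} [NormedAddCommGroup V] [NormedSpace ℝ V] [FiniteDimensional ℝ V]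
    {Φ : V → V} (hΦ : Sg Φ 0) (h0 : Φ 0 = 0) (hi : Function.Injective (fderiv ℝ Φ 0)) :
    ∃ Ψ : V → V, Sg Ψ 0 ∧ Ψ 0 = 0 ∧ ∀ᶠ b in 𝓝 (0 : V), Φ (Ψ b) = b := by
  have := FiniteDimensional.complete ℝ V
  have hc := hΦ.self_of_nhds
  have hd : HasFDerivAt Φ ((LinearEquiv.ofInjectiveEndo (fderiv ℝ Φ 0).toLinearMap
      hi).toContinuousLinearEquiv : V →L[ℝ] V) 0 := (hc.differentiableAt (by simp)).hasFDerivAt
  set P := hc.toOpenPartialHomeomorph Φ hd (by simp)
  have h1 : (0 : V) ∈ P.source := hc.mem_toOpenPartialHomeomorph_source hd (by simp)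
  have h2 : (0 : V) ∈ P.target := h0 ▸ hc.image_mem_toOpenPartialHomeomorph_target hd (by simp)
  have h3 : P.symm 0 = 0 := (congrArg P.symm h0.symm).trans (P.left_inv h1)
  have h4 : Tendsto P.symm (𝓝 0) (𝓝 0) := by
    have := (P.continuousAt_symm h2).tendsto
    rwa [h3] at this
  have h5 : ∀ᶠ a in 𝓝 (0 : V), fderiv ℝ Φ a ∈ range ((↑) : (V ≃L[ℝ] V) → V →L[ℝ] V) :=
    (hc.continuousAt_fderiv (by simp)).eventually (hd.fderiv ▸ ContinuousLinearEquiv.nhds _)
  refine ⟨P.symm, ?_, h3, ?_⟩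
  · filter_upwards [P.open_target.mem_nhds h2, h4.eventually hΦ, h4.eventually h5] with b b1 b2 b3
    obtain ⟨L, hL⟩ := b3
    exact P.contDiffAt_symm b1 (hL ▸ (b2.differentiableAt (by simp)).hasFDerivAt) b2
  · filter_upwards [P.open_target.mem_nhds h2] with b hb
    exact P.right_inv hb

theorem tuba_geo (h : BC e D) {q : M} {v ν : Eu n} (hν : Nrm e D q v ν) (hv : ‖v‖ = 1)
    (he : e q (D • v) = p₀) {s t : ℝ} (hs : ‖s • v + t • ν‖ ≤ D / 3) :
    ∃ (a' : Eu n) (t' : ℝ), ‖a'‖ = 1 ∧ 2 * D / 3 ≤ t' ∧ t' ≤ D ∧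
      e q (s • v + t • ν) = e p₀ (t' • a') ∧ e p₀ (D • a') = q := by
  obtain ⟨w, hw, h1, h2⟩ : ∃ w : Eu n, ‖w‖ = 1 ∧ e q (D • w) = p₀ ∧
      s • v + t • ν = ‖s • v + t • ν‖ • w := by
    by_cases h0 : s • v + t • ν = 0
    · exact ⟨v, hv, he, by rw [h0, norm_zero, zero_smul]⟩
    · have h1 : ‖‖s • v + t • ν‖⁻¹ • (s • v + t • ν)‖ = 1 := norm_smul_inv_norm (𝕜 := ℝ) h0
      exact ⟨_, h1, ((hν.link_iff h hv h1).2 ⟨_, _, by rw [smul_add, smul_smul, smul_smul]⟩).trans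
        he, (smul_inv_smul₀ (norm_ne_zero_iff.2 h0) _).symm⟩
  obtain ⟨ρ, hρ, hf⟩ := h.toGeo.flow h1
  refine ⟨-ρ, D - ‖s • v + t • ν‖, by rw [norm_neg, hρ, hw], by linarith,
    by linarith [norm_nonneg (s • v + t • ν)], ?_, ?_⟩
  · rw [smul_neg, ← neg_smul, ← hf, neg_sub, add_sub_cancel, ← h2]
  · rw [smul_neg, ← neg_smul, ← hf, add_neg_cancel, zero_smul, h.zero]

/-- The projection on the orthogonal complement of `v` and `u`. -/
def tubaC (v u : Eu n) : Eu n →L[ℝ] Eu n :=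
  ContinuousLinearMap.id ℝ _ - (innerSL ℝ v).smulRight v - (innerSL ℝ u).smulRight u

theorem tubaC_apply (v u b : Eu n) : tubaC v u b = b - inner ℝ v b • v - inner ℝ u b • u := rfl

/-- The unit vector with coordinates `b`. -/
def tubaA (v u b : Eu n) : Eu n := ‖v + tubaC v u b‖⁻¹ • (v + tubaC v u b)

section Alg

variable {v u : Eu n} (hv : ‖v‖ = 1) (hu : ‖u‖ = 1) (huv : inner ℝ u v = 0)

include hv hu huv

theorem tuba_inner (b : Eu n) : inner ℝ v (tubaC v u b) = 0 ∧ inner ℝ u (tubaC v u b) = 0 := by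
  simp only [tubaC_apply, inner_sub_right, real_inner_smul_right, real_inner_self_eq_norm_sq, hv,
    hu, huv, real_inner_comm u v]
  constructor <;> ring

theorem tuba_cc (b : Eu n) : tubaC v u (tubaC v u b) = tubaC v u b := by
  rw [tubaC_apply v u (tubaC v u b), (tuba_inner hv hu huv b).1, (tuba_inner hv hu huv b).2,
    zero_smul, zero_smul, sub_zero, sub_zero]

theorem tuba_cv : tubaC v u v = 0 ∧ tubaC v u u = 0 := by
  simp only [tubaC_apply, real_inner_self_eq_norm_sq, hv, hu, huv, real_inner_comm u v]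
  simp

theorem tuba_ne (b : Eu n) : v + tubaC v u b ≠ 0 := fun h0 => by
  have := congrArg (inner ℝ v) h0
  rw [inner_add_right, (tuba_inner hv hu huv b).1, real_inner_self_eq_norm_sq, hv,
    inner_zero_right] at this
  norm_num at this

theorem tuba_norm (b : Eu n) : ‖tubaA v u b‖ = 1 := norm_smul_inv_norm (tuba_ne hv hu huv b)

theorem tuba_rho : ContDiff ℝ ∞ fun b => ‖v + tubaC v u b‖⁻¹ :=
  ((contDiff_const.add (tubaC v u).contDiff).norm ℝ (tuba_ne hv hu huv)).inv fun b =>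
    norm_ne_zero_iff.2 (tuba_ne hv hu huv b)

theorem tuba_sm : ContDiff ℝ ∞ (tubaA v u) :=
  (tuba_rho hv hu huv).smul (contDiff_const.add (tubaC v u).contDiff)

omit hu huv in
theorem tuba_zero : tubaA v u 0 = v := by rw [tubaA, map_zero, add_zero, hv, inv_one, one_smul]

theorem tuba_fd (b : Eu n) : tubaC v u (fderiv ℝ (tubaA v u) 0 b) = tubaC v u b := by
  have h1 := (((tuba_rho hv hu huv).differentiable (by simp)) 0).hasFDerivAt.fun_smul
    ((tubaC v u).hasFDerivAt.const_add v)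
  have h2 : fderiv ℝ (tubaA v u) 0 = _ := h1.fderiv
  rw [h2]
  simp [hv, tuba_cc hv hu huv, (tuba_cv hv hu huv).1]

end Alg

/-- The differential of the tubular coordinates is injective. -/
theorem tuba_inj (h : BC e D) {v u : Eu n} (hv : ‖v‖ = 1) (hu : Nrm e D p₀ v u) {q : M}
    (hq : e p₀ (D • v) = q) {v' u' : Eu n} (hv' : ‖v'‖ = 1) (hu' : Nrm e D q v' u')
    (he : e q (D • v') = p₀) {Φ : Eu n → Eu n} (hΦ : DifferentiableAt ℝ Φ 0)
    (h1 : ∀ b, Φ (tubaC v u b) = lg e q (e p₀ (D • tubaA v u b)))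
    (h2 : ∀ b, Φ (b - tubaC v u b) = lg e q (e q (inner ℝ v b • v' + inner ℝ u b • u'))) :
    Function.Injective (fderiv ℝ Φ 0) := by
  have hD := h.dpos
  have ha : ContDiffAt ℝ ∞ (fun b => D • tubaA v u b) 0 :=
    (tuba_sm hv hu.norm hu.orth).contDiffAt.const_smul D
  have hf : Sm e (fun b => e p₀ (D • tubaA v u b)) 0 :=
    Sm.comp (k := fun b => D • tubaA v u b) (sm_exp h.toGeo p₀ _) ha
  have hq0 : e p₀ (D • tubaA v u 0) = q := by rw [tuba_zero hv, hq]
  have hd : ∀ᶠ b in 𝓝 (0 : Eu n), dist p₀ (e p₀ (D • tubaA v u b)) = D :=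
    Eventually.of_forall fun b => by
      have : ‖D • tubaA v u b‖ = D := by
        rw [norm_smul, tuba_norm hv hu.norm hu.orth, mul_one, Real.norm_of_nonneg hD.le]
      rw [h.min _ _ this.le, this]
  have c1 := h.cut_orth hf hd hv' (by rw [hq0, he])
  have c2 := h.cut_orth hf hd hu'.norm (by rw [hq0, hu'.link, he])
  have hL : ∀ L : Eu n →L[ℝ] Eu n, HasFDerivAt (fun b => Φ (L b)) ((fderiv ℝ Φ 0).comp L) 0 :=
    fun L => HasFDerivAt.comp 0 (by rw [map_zero]; exact hΦ.hasFDerivAt) L.hasFDerivAt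
  have d1 : (fderiv ℝ Φ 0).comp (tubaC v u) = Tm e (fun b => e p₀ (D • tubaA v u b)) 0 := by
    rw [← (hL _).fderiv, Tm, hq0]
    exact congrArg (fderiv ℝ · 0) (funext h1)
  have d2 : (fderiv ℝ Φ 0).comp (ContinuousLinearMap.id ℝ _ - tubaC v u) =
      (innerSL ℝ v).smulRight v' + (innerSL ℝ u).smulRight u' := by
    refine (hL _).unique (HasFDerivAt.congr_of_eventuallyEq (ContinuousLinearMap.hasFDerivAt _) ?_)
    filter_upwards [(((innerSL ℝ v).smulRight v' + (innerSL ℝ u).smulRight u').continuous.tendsto'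
      0 0 (map_zero _)).eventually (h.toGeo.smooth_ev_lg q)] with b hb
    exact (h2 b).trans hb
  refine (injective_iff_map_eq_zero _).2 fun b hb => ?_
  have e1 : fderiv ℝ Φ 0 (tubaC v u b) = Tm e (fun b => e p₀ (D • tubaA v u b)) 0 b :=
    congrArg (fun L : Eu n →L[ℝ] Eu n => L b) d1
  have e2 : fderiv ℝ Φ 0 (b - tubaC v u b) = inner ℝ v b • v' + inner ℝ u b • u' :=
    congrArg (fun L : Eu n →L[ℝ] Eu n => L b) d2
  rw [map_sub, hb, e1, zero_sub] at e2
  have e3 := congrArg (inner ℝ v') e2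
  have e4 := congrArg (inner ℝ u') e2
  simp only [inner_neg_right, c1, c2, inner_add_right, real_inner_smul_right,
    real_inner_self_eq_norm_sq, hv', hu'.norm, hu'.orth, real_inner_comm u' v', neg_zero, one_pow,
    mul_one, mul_zero, add_zero, zero_add] at e3 e4
  rw [← e3, ← e4, zero_smul, zero_smul, add_zero, neg_eq_zero,
    Tm_comp (k := fun b => D • tubaA v u b) (sm_exp h.toGeo p₀ _) (ha.differentiableAt (by simp)),
    Tm_exp, tuba_zero hv, ContinuousLinearMap.comp_apply, hu.ker_iff h hv] at e2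
  obtain ⟨k, hk⟩ := e2
  have e5 := congrArg (tubaC v u) hk
  rw [fderiv_fun_const_smul ((tuba_sm hv hu.norm hu.orth).differentiable (by simp) 0),
    smul_apply, map_smul, map_smul, tuba_fd hv hu.norm hu.orth,
    (tuba_cv hv hu.norm hu.orth).2, smul_zero, smul_eq_zero_iff_right hD.ne', tubaC_apply, ← e3,
    ← e4, zero_smul, zero_smul, sub_zero, sub_zero] at e5
  exact e5

/-- Tubular coordinates. For `b` near `0` let `c b = b - ⟪v, b⟫ • v - ⟪J₀ v, b⟫ • J₀ v`,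
`a b = ‖v + c b‖⁻¹ • (v + c b)`, `z b = fl (mk' p₀ (a b), D)`, `n₁ b = vel (z b)`, `n₂ b` a local
section along `z` (`exists_sect`), `Ξ b = e (ev (z b)) (⟪v, b⟫ • n₁ b + ⟪J₀ v, b⟫ • n₂ b)`. The
derivative of `lg q ∘ Ξ` at `0` is `b ↦ D • Lmap (c b) + ⟪v, b⟫ • n₁ + ⟪J₀ v, b⟫ • n₂`
(compute it on `c b` and on the span of `v, J₀ v` separately); it is injective by `cut_orth`
(note `e q (D • n₁) = e q (D • n₂) = p₀`) and `Nrm.ker_iff`. By the inverse function theorem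
there is a smooth local inverse; take `A = a ∘ inverse`. A point `Ξ b = e q' (ρ • w)` with
`q' = ev (z b)`, `w` a unit vector in the link of `p₀` at `q'`, `0 ≤ ρ` small, lies on a
minimizing geodesic from `p₀` to `q'`: it is `e p₀ ((D - ρ) • a')` with `e p₀ (D • a') = q'`. -/
theorem Base.tube (hB : Base e D p₀ J₀) (h : BC e D) {v : Eu n} (hv : ‖v‖ = 1) :
    ∃ A : Eu n → Eu n, Sg A 0 ∧ ∀ᶠ b in 𝓝 (0 : Eu n), ‖A b‖ = 1 ∧ ∃ (a' : Eu n) (t : ℝ),
      ‖a'‖ = 1 ∧ 2 * D / 3 ≤ t ∧ t ≤ D ∧ e (e p₀ (D • v)) b = e p₀ (t • a') ∧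
        e p₀ (D • a') = e p₀ (D • A b) := by
  have hD := h.dpos
  have hu := hB.nrm hv
  set u := J₀ v
  have hn := tuba_norm hv hu.norm hu.orth
  have hcc := tuba_cc hv hu.norm hu.orth
  obtain ⟨z, hz⟩ : ∃ z : Eu n → XT M D, z = fun b => h.fl (h.mk' p₀ (tubaA v u b) (hn b), D) :=
    ⟨_, rfl⟩
  have hP : h.DX.P ⟨FS.euc n, z, 0⟩ := hz ▸ smo_vec_iff.1 (h.cir_fl.sm.comp
    ((h.smo_mk (smo_const _ _ p₀) (h.smoV_const p₀ (smo_of_contDiff
      (tuba_sm hv hu.norm hu.orth))) hn).pair (smo_const _ _ D))) 0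
  have z1 : ∀ b, ev (z b) = e p₀ (D • tubaA v u b) := fun b => by rw [hz, ev_fl, geo_mk]
  have z2 : ∀ b, e (ev (z b)) (D • vel e (z b)) = p₀ := fun b => by
    change geo e (z b) D = p₀
    rw [hz, geo_fl, ← two_mul, ← zero_add (2 * D), h.geo_per, h.geo_zero, ev_mk]
  have z3 : ∀ b b', tubaC v u b = tubaC v u b' → z b = z b' := fun b b' hb => by
    rw [hz]
    exact congrArg (fun y => h.fl (y, D)) (h.mk_congr _ _ rfl (by rw [tubaA, tubaA, hb]))
  have z4 : ∀ b, z (tubaC v u b) = z b := fun b => z3 _ _ (hcc b)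
  have hq : ev (z 0) = e p₀ (D • v) := by rw [z1, tuba_zero hv]
  obtain ⟨ν₀, h0⟩ := h.exists_nrm (ev (z 0)) (h.norm_vel (z 0))
  obtain ⟨ν, h1, h2⟩ := h.exists_sect hP h0
  have h3 := ((tubaC v u).continuous.tendsto' 0 0 (map_zero _)).eventually h2
  obtain ⟨Ξ, hΞ⟩ : ∃ Ξ : Eu n → M, Ξ = fun b =>
    e (ev (z b)) (inner ℝ v b • vel e (z b) + inner ℝ u b • ν (tubaC v u b)) := ⟨_, rfl⟩
  have hΞ0 : Ξ 0 = ev (z 0) := by
    rw [hΞ]
    simp only [inner_zero_right, zero_smul, add_zero, h.zero]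
  have hS : h.DM.P ⟨FS.euc n, Ξ, 0⟩ := by
    refine h.plot_iff.2 ?_
    filter_upwards [h.DX.ev hP, h3] with b b1 b2
    have b3 := SmV.comp (k := tubaC v u) b2.1 (tubaC v u).contDiff.contDiffAt
    simp only [z4] at b3
    exact hΞ ▸ (((h.smoV_vel _ _ _ b1).smul (innerSL ℝ v).contDiff.contDiffAt).add
      (b3.smul (innerSL ℝ u).contDiff.contDiffAt)).exp h (h.plot_iff.1 b1.1).self_of_nhds
  have hΦ := h.sg_lg hS (p := ev (z 0)) (by rw [hΞ0, dist_self]; exact hD)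
  obtain ⟨Ψ, g1, g2, g3⟩ := tuba_ift hΦ (by rw [hΞ0, h.toGeo.lg_self])
    (tuba_inj h hv hu hq.symm (h.norm_vel _) h0 (z2 0)
      (hΦ.self_of_nhds.differentiableAt (by simp)) (fun b => by
        rw [hΞ]
        simp only [(tuba_inner hv hu.norm hu.orth b).1, (tuba_inner hv hu.norm hu.orth b).2,
          zero_smul, add_zero, h.zero, z4, z1 b]) fun b => by
        have b1 : tubaC v u (b - tubaC v u b) = 0 := by rw [map_sub, hcc, sub_self]
        rw [hΞ]
        simp only [b1, h1, z3 _ 0 (b1.trans (map_zero _).symm), inner_sub_right,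
          (tuba_inner hv hu.norm hu.orth b).1, (tuba_inner hv hu.norm hu.orth b).2, sub_zero])
  have g4 : Tendsto Ψ (𝓝 0) (𝓝 0) := by
    have := g1.self_of_nhds.continuousAt.tendsto
    rwa [g2] at this
  refine ⟨fun b => tubaA v u (Ψ b),
    (sg_of_contDiff (tuba_sm hv hu.norm hu.orth) _).comp' g1 EventuallyEq.rfl, ?_⟩
  filter_upwards [g3, g4.eventually h3, g4.eventually (Metric.ball_mem_nhds 0
    (by positivity : 0 < D / 6))] with b b1 b2 b3
  refine ⟨hn _, ?_⟩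
  have b4 := b2.2
  rw [z4] at b4
  rw [← hq, ← z1, ← congrArg (e (ev (z 0))) b1, h.toGeo.exp_lg, hΞ]
  refine tuba_geo h b4 (h.norm_vel _) (z2 _) ((norm_add_le _ _).trans ?_)
  have b5 := abs_real_inner_le_norm v (Ψ b)
  have b6 := abs_real_inner_le_norm u (Ψ b)
  have b7 := mem_ball_zero_iff.1 b3
  rw [hv] at b5
  rw [hu.norm] at b6
  rw [norm_smul, norm_smul, h.norm_vel, b4.norm, Real.norm_eq_abs, Real.norm_eq_abs]
  linarith

/-- At points at distance less than `D` from `p₀` use `BC.sg_lg`; at the other points `tube`,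
`PP_exp`, `sec_far`. -/
theorem Base.smo_PP (hB : Base e D p₀ J₀) (h : BC e D) (o : Eu n) :
    Smo h.DM (Dif.vec (VV n →L[ℝ] VV n)) (PP e D p₀ o J₀) := by
  rintro ⟨Z, f, u⟩ hf
  have hD := h.dpos
  have hs : ContDiff ℝ ∞ fun a => prj (ii n) (sec D o J₀ a) :=
    (contDiff_prj (ii n)).comp (hB.toGC.contDiff_sec hD o)
  change Sg (fun z => PP e D p₀ o J₀ (f z)) u
  rcases (h.le p₀ (f u)).lt_or_eq with hd | hd
  · exact (sg_of_contDiff hs _).comp' (h.sg_lg hf hd) EventuallyEq.rfl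
  have hv : ‖D⁻¹ • lg e p₀ (f u)‖ = 1 := by
    rw [norm_smul, h.toGeo.norm_lg, hd, Real.norm_of_nonneg (by positivity),
      inv_mul_cancel₀ hD.ne']
  obtain ⟨A, hA, h1⟩ := hB.tube h hv
  rw [smul_inv_smul₀ hD.ne', h.toGeo.exp_lg] at h1
  have h2 := h.sg_lg hf (p := f u) (by rw [dist_self]; exact hD)
  have h3 : Tendsto (fun z => lg e (f u) (f z)) (𝓝 u) (𝓝 0) :=
    h.toGeo.lg_self (f u) ▸ h2.self_of_nhds.continuousAt.tendsto
  have h4 : Sg (fun z => A (lg e (f u) (f z))) u :=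
    Sg.comp' (f := A) (by rw [h.toGeo.lg_self]; exact hA) h2 EventuallyEq.rfl
  refine (sg_of_contDiff (hs.comp (contDiff_const_smul D)) _).comp' h4 ?_
  have h5 : ∀ {w : Eu n} {t : ℝ}, ‖w‖ = 1 → 2 * D / 3 ≤ t → t ≤ D → ‖t • w‖ ≤ D :=
    fun h1 h2 h3 => by rwa [norm_smul, h1, mul_one, Real.norm_of_nonneg (by linarith)]
  filter_upwards [h3.eventually h1] with z hz
  obtain ⟨b1, a', t, b2, b3, b4, b5, b6⟩ := hz
  rw [h.toGeo.exp_lg] at b5
  rw [b5, hB.PP_exp h o (h5 b2 b3 b4), hB.toGC.sec_far hD o b2 b3,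
    ← hB.toGC.sec_far hD o b2 (t := D) (by linarith), ← hB.PP_exp h o (h5 b2 (by linarith) le_rfl),
    b6, hB.PP_exp h o (h5 b1 (by linarith) le_rfl)]
  rfl

end Vale.Agent.P231C
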