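import Vale.Agent.P231C.IntG

/-! Partial evaluation of a form on a product. -/

open scoped ContDiff Topology
open Filter Set

noncomputable section

namespace Vale.Agent.P231C

variable {Y Y' : Type*} {𝒟 : Dif Y} {𝒟' : Dif Y'}

/-- Contraction with a list of vectors. -/
def ctl {Z : FS} : List Z → Lam Z → Lam Z
  | [], c => c
  | v :: l, c => ctl l (ct v c)

/-- The form on the second factor obtained by evaluation on vectors tangent to the first one. -/
def sl (φ : RF (𝒟.prod 𝒟')) {Z : FS} (f : Z → Y) (a : Z) {k : ℕ} (v : Fin k → Z) : RF 𝒟' :=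
  fun p => pb (Z := Z.prod p.1.Z) (ContinuousLinearMap.inr ℝ Z p.1.Z)
    (ctl (Z := Z.prod p.1.Z) (List.ofFn fun i => (v i, 0))
      (loc φ (Z.prod p.1.Z) (fun w => (f w.1, p.1.f w.2)) (a, p.1.u)))

theorem plot_prod {Z W : FS} {f : Z → Y} {g : W → Y'} {a : Z} {b : W} (hf : 𝒟.P ⟨Z, f, a⟩)
    (hg : 𝒟'.P ⟨W, g, b⟩) : (𝒟.prod 𝒟').P ⟨Z.prod W, fun w => (f w.1, g w.2), (a, b)⟩ :=
  ⟨𝒟.comp (W := Z.prod W) (g := Prod.fst) hf (Eventually.of_forall fun _ => contDiffAt_fst)
      EventuallyEq.rfl,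
    𝒟'.comp (W := Z.prod W) (g := Prod.snd) hg (Eventually.of_forall fun _ => contDiffAt_snd)
      EventuallyEq.rfl⟩

theorem slice_mem {Z : FS} {l : ℕ} (L : List Z) {c : Lam Z} (h : c ∈ Dg Z (L.length + l)) :
    ctl L c ∈ Dg Z l := by
  induction L generalizing c with
  | nil => rwa [List.length_nil, zero_add] at h
  | cons v L ih =>
    rw [List.length_cons, add_right_comm] at h
    exact ih (ct_mem v h)

theorem slice_cd {Z : FS} {X : Type*} [NormedAddCommGroup X] [NormedSpace ℝ X] (L : List Z)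
    {φ : X → Lam Z} {x : X} (h : ContDiffAt ℝ ∞ φ x) :
    ContDiffAt ℝ ∞ (fun y => ctl L (φ y)) x := by
  induction L generalizing φ with
  | nil => exact h
  | cons v L ih => exact ih (cd_lin (ct v) h)

theorem slice_pb {Z W : FS} (A : W →L[ℝ] Z) (L : List W) (c : Lam Z) :
    ctl L (pb A c) = pb A (ctl (L.map A) c) := by
  induction L generalizing c with
  | nil => rfl
  | cons v L ih => rw [ctl, ct_pb, ih, List.map_cons, ctl]

theorem slice_evl {Z : FS} (L M : List Z) (c : Lam Z) : evl M (ctl L c) = evl (L ++ M) c := by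
  induction L generalizing c with
  | nil => rfl
  | cons v L ih => rw [ctl, ih, List.cons_append, evl]

theorem slice_loc (φ : RF (𝒟.prod 𝒟')) {Z W : FS} (f : Z → Y) (a : Z) {g : W → Y'} {b : W}
    (hg : 𝒟'.P ⟨W, g, b⟩) {k : ℕ} (v : Fin k → Z) :
    loc (sl φ f a v) W g b = pb (Z := Z.prod W) (ContinuousLinearMap.inr ℝ Z W)
      (ctl (Z := Z.prod W) (List.ofFn fun i => (v i, 0))
        (loc φ (Z.prod W) (fun w => (f w.1, g w.2)) (a, b))) := loc_eq _ hg

/-- Naturality: `Fm.nat` for the map `Prod.map id g`, and `ct_pb`. -/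
theorem fm_sl {φ : RF (𝒟.prod 𝒟')} {k l : ℕ} (hφ : Fm (k + l) φ) {Z : FS} {f : Z → Y} {a : Z}
    (hf : 𝒟.P ⟨Z, f, a⟩) (v : Fin k → Z) : Fm l (sl φ f a v) := by
  refine ⟨fun p => pb_mem _ (slice_mem _ ?_), fun W g b hg => difa_sm hg
    (fun _ h' => slice_loc φ f a h' v) ?_, fun W U g m u g' hg hm he => ?_⟩
  · rw [List.length_ofFn]
    exact hφ.loc_mem _ _ _
  · refine cd_lin (pb (Z := Z.prod W) (ContinuousLinearMap.inr ℝ Z W)).toLinearMap
      (slice_cd _ ?_)
    exact (hφ.sm _ _ _ (plot_prod hf hg)).comp b (contDiffAt_const.prodMk contDiffAt_id)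
  · have h1 : Sg (Prod.map (id : Z → Z) m) (a, u) :=
      ((continuous_snd.tendsto (a, u)).eventually hm).mono fun w hw =>
        contDiffAt_fst.prodMk (hw.comp w contDiffAt_snd)
    have h2 : HasFDerivAt (Prod.map (id : Z → Z) m)
        ((ContinuousLinearMap.id ℝ Z).prodMap (fderiv ℝ m u)) (a, u) :=
      (hasFDerivAt_id a).prodMap (a, u)
        (hm.self_of_nhds.differentiableAt (by simp)).hasFDerivAt
    have h3 := hφ.nat (Z.prod W) (Z.prod U) (fun w => (f w.1, g w.2)) (Prod.map id m) (a, u)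
      (fun w => (f w.1, g' w.2)) (plot_prod hf hg) h1
      (((continuous_snd.tendsto (a, u)).eventually he).mono fun w hw => Prod.ext rfl hw)
    have h4 : (List.ofFn fun i => ((v i, 0) : Z × U)).map
        ((ContinuousLinearMap.id ℝ Z).prodMap (fderiv ℝ m u)) =
          List.ofFn fun i => ((v i, 0) : Z × W) := by
      rw [List.map_ofFn]
      exact congrArg List.ofFn (funext fun i => by simp)
    have h5 : ((ContinuousLinearMap.id ℝ Z).prodMap (fderiv ℝ m u)).comp
        (ContinuousLinearMap.inr ℝ Z U) = (ContinuousLinearMap.inr ℝ Z W).comp (fderiv ℝ m u) :=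
      ContinuousLinearMap.ext fun x => by simp
    rw [slice_loc φ f a (𝒟'.comp hg hm he), slice_loc φ f a hg, h3, h2.fderiv,
      slice_pb (Z := Z.prod W) (W := Z.prod U), h4, pb_pb, pb_pb, h5]
    rfl

theorem top_sl (φ : RF (𝒟.prod 𝒟')) {Z W : FS} (f : Z → Y) (a : Z) {g : W → Y'} {b : W}
    (hg : 𝒟'.P ⟨W, g, b⟩) {k l : ℕ} (v : Fin k → Z) (w : Fin l → W) :
    top w (loc (sl φ f a v) W g b) =
      top (Z := Z.prod W) (Fin.append (fun i => (v i, 0)) fun i => (0, w i))
        (loc φ (Z.prod W) (fun p => (f p.1, g p.2)) (a, b)) := by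
  rw [slice_loc φ f a hg, top_pb, top, top, slice_evl, List.ofFn_fin_append]
  rfl

end Vale.Agent.P231C
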