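import Vale.Agent.P231C.WinA

/-! Moving the base point. -/

open scoped ContDiff Topology
open Filter Set MeasureTheory

noncomputable section

namespace Vale.Agent.P231C

open Vale.Agent.P234 Vale.Agent.P231

variable {M : Type*} [MetricSpace M] [CompactSpace M] {n : ℕ} {e : M → Eu n → M} {D : ℝ}

theorem volb_rank {E V : Type*} [NormedAddCommGroup E] [NormedSpace ℝ E] [NormedAddCommGroup V]
    [NormedSpace ℝ V] [FiniteDimensional ℝ V] (T : E × ℝ →L[ℝ] V) (A : Submodule ℝ V)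
    (hA : ∀ b, T (b, 0) ∈ A) :
    Module.finrank ℝ (LinearMap.range T.toLinearMap) ≤ Module.finrank ℝ A + 1 := by
  have h1 : LinearMap.range T.toLinearMap ≤ A ⊔ Submodule.span ℝ {T (0, 1)} := by
    rintro _ ⟨⟨b, s⟩, rfl⟩
    have h2 : T.toLinearMap (b, s) = T (b, 0) + s • T (0, 1) := by
      rw [← map_smul, ← map_add]; simp
    rw [h2]
    exact Submodule.add_mem_sup (hA b)
      (Submodule.smul_mem _ _ (Submodule.mem_span_singleton_self _))
  refine (Submodule.finrank_mono h1).trans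
    ((Submodule.finrank_add_le_finrank_add_finrank _ _).trans ?_)
  have h3 := finrank_span_le_card (R := ℝ) ({T (0, 1)} : Set V)
  simp only [Set.toFinset_singleton, Finset.card_singleton] at h3
  omega

theorem volb_smv0 (h : BC e D) (p₀ : M) (q : Eu n × Eu n) :
    SmV e (fun p : Eu n × Eu n => e p₀ p.1)
      (fun p => Lmap e p₀ p.1 (e p₀ p.1) p.2) q := by
  have h1 : ∀ p : Eu n × Eu n, Sm e (fun p : Eu n × Eu n => e p₀ p.1) p := fun p =>
    Sm.comp (k := fun p : Eu n × Eu n => p.1) (sm_exp h.toGeo p₀ _) contDiffAt_fst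
  have h2 := h.smv_Tm (h1 q) (w := fun p : Eu n × Eu n => (p.2, 0)) (by fun_prop)
  refine h2.congr EventuallyEq.rfl (Eventually.of_forall fun p => ?_)
  have h3 := Tm_comp (e := e) (f := e p₀) (k := fun p : Eu n × Eu n => p.1) (w := p)
    (sm_exp h.toGeo p₀ _) differentiableAt_fst
  simp only [h3, Tm_exp, ContinuousLinearMap.comp_apply, fderiv_fst, ContinuousLinearMap.coe_fst']

/-- The base points. -/
def volbX (e : M → Eu n → M) (p₀ : M) (a : Eu n) (s : ℝ) : M :=
  e p₀ (Real.smoothTransition s • a)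

/-- The linear maps. -/
def volbL (e : M → Eu n → M) (p₀ : M) (a : Eu n) (s : ℝ) : Eu n →L[ℝ] Eu n :=
  Lmap e p₀ (Real.smoothTransition s • a) (volbX e p₀ a s)

/-- The homotopy. -/
def volbF (e : M → Eu n → M) (D : ℝ) (p₀ : M) (a : Eu n) (z : Eu n × ℝ) : M :=
  EE e D (volbX e p₀ a z.2) (volbL e p₀ a z.2 z.1)

theorem volb_cd (a : Eu n) (z : Eu n × ℝ) :
    ContDiffAt ℝ ∞ (fun z : Eu n × ℝ => Real.smoothTransition z.2 • a) z :=
  ((Real.smoothTransition.contDiff.comp contDiff_snd).smul contDiff_const).contDiffAt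

theorem volb_smX (h : BC e D) (p₀ : M) (a : Eu n) (z : Eu n × ℝ) :
    Sm e (fun z : Eu n × ℝ => volbX e p₀ a z.2) z :=
  Sm.comp (k := fun z : Eu n × ℝ => Real.smoothTransition z.2 • a) (sm_exp h.toGeo p₀ _)
    (volb_cd a z)

theorem volb_smL (h : BC e D) (p₀ : M) (a : Eu n) (z : Eu n × ℝ) :
    SmV e (fun z : Eu n × ℝ => volbX e p₀ a z.2) (fun z => volbL e p₀ a z.2 z.1) z :=
  SmV.comp (k := fun z : Eu n × ℝ => (Real.smoothTransition z.2 • a, z.1)) (volb_smv0 h p₀ _)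
    ((volb_cd a z).prodMk contDiffAt_fst)

theorem volb_inner (h : BC e D) (p₀ : M) (a : Eu n) (z : Eu n × ℝ) :
    ContDiffAt ℝ ∞ (fun z : Eu n × ℝ =>
      inner ℝ (volbL e p₀ a z.2 z.1) (volbL e p₀ a z.2 z.1)) z :=
  (volb_smL h p₀ a z).inner (volb_smL h p₀ a z) h (volb_smX h p₀ a z)

theorem volb_smF (h : BC e D) (p₀ : M) (a : Eu n) (z : Eu n × ℝ) : Sm e (volbF e D p₀ a) z := by
  obtain ⟨φ, hφ, hT⟩ := exists_Th (n := n) h.dpos
  have h1 := ((volb_smL h p₀ a z).smul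
    (hφ.contDiffAt.comp z (volb_inner h p₀ a z))).exp h (volb_smX h p₀ a z)
  refine h1.congr (Eventually.of_forall fun w => ?_)
  simp only [volbF, EE, hT, Function.comp_apply]

theorem volb_out (h : BC e D) (p₀ : M) (a : Eu n) {z : Eu n × ℝ}
    (hz : D < ‖volbL e p₀ a z.2 z.1‖) :
    Module.finrank ℝ (LinearMap.range (Tm e (volbF e D p₀ a) z).toLinearMap) < n := by
  obtain ⟨b, s⟩ := z
  have h1 := h.rank_EE (volbX e p₀ a s) hz
  have h2 := Tm_comp (e := e) (f := volbF e D p₀ a) (k := fun b : Eu n => (b, s)) (w := b)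
    (volb_smF h p₀ a _) (by fun_prop)
  have h3 := Tm_comp (e := e) (f := EE e D (volbX e p₀ a s)) (k := volbL e p₀ a s) (w := b)
    (h.sm_EE _ _) (volbL e p₀ a s).differentiableAt
  have h4 : fderiv ℝ (fun b : Eu n => (b, s)) b = ContinuousLinearMap.inl ℝ (Eu n) ℝ :=
    (hasFDerivAt_prodMk_left b s).fderiv
  have h5 := volb_rank (Tm e (volbF e D p₀ a) (b, s))
    (LinearMap.range (Tm e (EE e D (volbX e p₀ a s)) (volbL e p₀ a s b)).toLinearMap) fun v => by
      have h6 : Tm e (volbF e D p₀ a) (b, s) (v, 0) =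
          Tm e (fun w' => volbF e D p₀ a (w', s)) b v := by
        rw [h2, h4]; rfl
      have h7 : Tm e (fun w' => volbF e D p₀ a (w', s)) b v =
          Tm e (fun w' => EE e D (volbX e p₀ a s) (volbL e p₀ a s w')) b v := rfl
      rw [h6, h7, h3]
      exact ⟨_, rfl⟩
  dsimp only at h1
  omega

theorem volb_win (h : BC e D) (p₀ : M) (a : Eu n) :
    Win h.DM (FS.euc n).ext (fun _ => 1) (volbF e D p₀ a) 0 n
      {z | ‖volbL e p₀ a z.2 z.1‖ ≤ D} where
  sm := contDiff_const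
  deg _ := dg_one
  closed z := dd_const _ z
  plot _ _ := Eventually.of_forall fun w => volb_smF h p₀ a w
  out z hz j w hj hw := by
    have h1 : D < ‖volbL e p₀ a z.2 z.1‖ := not_le.1 hz
    have h2 := (volb_out h p₀ a h1).trans_le hj
    rw [h.loc_eq_zero (Z := (FS.euc n).ext) (f := volbF e D p₀ a) (u := z) hw h2, mul_zero]

theorem volb_inj (h : BC e D) (p₀ : M) {a : Eu n} (ha : ‖a‖ < D) (s : ℝ) :
    Function.Injective (volbL e p₀ a s) := by
  refine (Lmap_bij h.toGeo (h.toBl.mem_inj ?_)).1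
  rw [norm_smul, Real.norm_of_nonneg (Real.smoothTransition.nonneg s)]
  exact (mul_le_of_le_one_left (norm_nonneg a) (Real.smoothTransition.le_one s)).trans_lt ha

theorem volb_bound (h : BC e D) (p₀ : M) {a : Eu n} (ha : ‖a‖ < D) :
    ∃ R : ℝ, ∀ b : Eu n, R < ‖b‖ → ∀ s ∈ Icc (0 : ℝ) 1, D < ‖volbL e p₀ a s b‖ := by
  have hc : Continuous fun z : Eu n × ℝ => ‖volbL e p₀ a z.2 z.1‖ := by
    have h1 : Continuous fun z : Eu n × ℝ =>
        √(inner ℝ (volbL e p₀ a z.2 z.1) (volbL e p₀ a z.2 z.1)) :=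
      (continuous_iff_continuousAt.2 fun z => (volb_inner h p₀ a z).continuousAt).sqrt
    simpa only [← norm_eq_sqrt_real_inner] using h1
  have hK : IsCompact (Metric.sphere (0 : Eu n) 1 ×ˢ Icc (0 : ℝ) 1) :=
    (isCompact_sphere _ _).prod isCompact_Icc
  obtain ⟨c, hc0, hcz⟩ := hK.exists_forall_le' hc.continuousOn (a := 0) fun z hz => by
    refine norm_pos_iff.2 fun h0 => ?_
    have h1 : z.1 = 0 := volb_inj h p₀ ha z.2 (h0.trans (map_zero _).symm)
    have h2 := hz.1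
    rw [h1] at h2
    simp at h2
  have hD := h.dpos
  refine ⟨D / c, fun b hb s hs => ?_⟩
  have hb0 : 0 < ‖b‖ := (div_pos hD hc0).trans hb
  have h1 := hcz (‖b‖⁻¹ • b, s) ⟨by simp [norm_smul, hb0.ne'], hs⟩
  simp only [map_smul, norm_smul, norm_inv, norm_norm] at h1
  rw [div_lt_iff₀ hc0] at hb
  rw [le_inv_mul_iff₀ hb0] at h1
  exact hb.trans_le h1

/-- `Win.homotopy` for `DM`, `c = 1`, `N = n`, with `S = Real.smoothTransition`,
`x s = e p₀ (S s • a)`, `L s = Lmap e p₀ (S s • a) (x s)`, `F (b, s) = e (x s) (Th (L s b))`,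
`K' = {(b, s) | ‖L s b‖ ≤ D}`. Smoothness: `BC.smv_Tm` (for the map `(c, b) ↦ e p₀ c` and the
direction `(b, 0)`), `exists_Th`, `SmV.inner`, `SmV.exp`. Outside `K'` the rank is at most
`n - 1` (`rank_EE` in the directions `(b, 0)`, `Tm_comp`). Compactness: `‖L s b‖ ^ 2 =
G (S s • a) b b ≥ c * ‖b‖ ^ 2` (`exists_metric`, `Lmap_bij`). Forms of degree `n + 1` vanish
(`rank_DM`). -/
theorem BC.IM_move (h : BC e D) (p₀ : M) {a : Eu n} (ha : ‖a‖ < D) {φ : RF h.DM} (hφ : Fm n φ) :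
    h.IM p₀ φ = ∫ b : Eu n, top (eb n) (loc φ (FS.euc n)
      (fun b => e (e p₀ a) (Th D (Lmap e p₀ a (e p₀ a) b))) b) := by
  obtain ⟨R, hR⟩ := volb_bound h p₀ ha
  have h1 := (volb_win h p₀ a).homotopy (volume : Measure (Eu n))
    (isCompact_closedBall (0 : Eu n) R)
    (fun z hz s hs hm => (hR z (by simpa using hz) s hs).not_ge hm) hφ le_rfl
    (fun z s _ => by
      rw [h.loc_eq_zero hφ.dx (Nat.lt_succ_of_le
        ((Submodule.finrank_le _).trans_eq finrank_euclideanSpace_fin)), mul_zero]) (eb n)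
  have h2 : (fun z : Eu n => volbF e D p₀ a (z, 0)) = EE e D p₀ := by
    funext z
    simp only [volbF, volbL, volbX, Real.smoothTransition.zero, zero_smul, h.zero,
      h.toGeo.Lmap_zero, ContinuousLinearMap.id_apply]
  have h3 : (fun z : Eu n => volbF e D p₀ a (z, 1)) =
      fun b => e (e p₀ a) (Th D (Lmap e p₀ a (e p₀ a) b)) := by
    funext z
    simp only [volbF, volbL, volbX, Real.smoothTransition.one, one_smul, EE]
  simp only [map_one] at h1
  rw [h2, h3] at h1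
  rw [BC.IM, h1, IG]
  simp only [one_mul]

end Vale.Agent.P231C
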