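import Vale.Agent.P231C.VolA
import Vale.Agent.P231C.VolB
import Vale.Agent.P231C.Slice

/-! The integral of the Liouville form. -/

open scoped ContDiff Topology
open Filter Set MeasureTheory

noncomputable section

namespace Vale.Agent.P231C

open Vale.Agent.P234 Vale.Agent.P231

variable {M : Type*} [MetricSpace M] [CompactSpace M] {n : ℕ} {e : M → Eu n → M} {D : ℝ}

omit [CompactSpace M] in
theorem volc_cut (hD : 0 < D) {t : ℝ} (ht : D / 2 ≤ t) : deriv (cut D) t = 0 := by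
  have h1 : cut D =ᶠ[𝓝 t] fun _ => 1 :=
    (lt_mem_nhds (show D / 4 < t by linarith)).mono fun s hs => (cut_cut hD).one s hs.le
  rw [h1.deriv_eq, deriv_const]

theorem volc_Th (hD : 0 < D) (N : ℕ) (w : Eu n) :
    LinearMap.det (fderiv ℝ (Th (n := n) D) w).toLinearMap *
      (deriv (cut D) ‖Th D w‖ * ‖Th D w‖⁻¹ ^ N) = deriv (cut D) ‖w‖ * ‖w‖⁻¹ ^ N := by
  rcases lt_or_ge ‖w‖ (D / 2) with hw | hw
  · have h1 : Th (n := n) D =ᶠ[𝓝 w] id :=
      (continuous_norm.continuousAt.eventually_lt continuousAt_const hw).mono fun a ha =>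
        Th_near hD ha.le
    rw [h1.fderiv_eq, fderiv_id, Th_near hD hw.le, ContinuousLinearMap.coe_id, LinearMap.det_id,
      one_mul]
  · rw [volc_cut hD hw, volc_cut hD (le_norm_Th hD hw), zero_mul, zero_mul, mul_zero]

theorem volc_lin {L : Eu n →L[ℝ] Eu n} (hL : Function.Bijective L) (F : Eu n → ℝ) :
    |LinearMap.det L.toLinearMap| * ∫ b, F (L b) = ∫ w, F w := by
  have h1 := integral_image_eq_integral_abs_det_fderiv_smul (volume : Measure (Eu n))
    MeasurableSet.univ (f := L) (f' := fun _ => L) (fun _ _ => L.hasFDerivWithinAt)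
    hL.1.injOn F
  rw [image_univ, hL.2.range_eq, Measure.restrict_univ, integral_smul] at h1
  exact h1.symm

theorem volc_fm {N : ℕ} {e : M → Eu (N + 1) → M} (h : BC e D) (z₀ : XT M D) :
    Fm (N + 1 + (N + 1)) (h.OmX z₀ (h.lam * dx h.lam ^ N)) :=
  (h.fm_OmX z₀ (h.fm_lam.mul (h.fm_lam.dx.pow N))).cast (by ring)

omit [CompactSpace M] in
theorem volc_det (A B : Eu n →L[ℝ] Eu n) : LinearMap.det (A.comp B).toLinearMap =
    LinearMap.det A.toLinearMap * LinearMap.det B.toLinearMap := LinearMap.det_comp _ _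

theorem volc_nat (h : BC e D) (p₀ : M) {Φ : RF (h.DM.prod h.DM)} {k : ℕ} (hΦ : Fm k Φ)
    (L : Eu n →L[ℝ] Eu n) (a b : Eu n) :
    top (eb2 n) (loc Φ ((FS.euc n).prod (FS.euc n))
      (fun p => (EE e D p₀ p.1, e (EE e D p₀ a) (Th D (L p.2)))) (a, b)) =
      LinearMap.det (Tm e (EE e D p₀) a).toLinearMap *
        (LinearMap.det (fderiv ℝ (Th (n := n) D) (L b)).toLinearMap *
          LinearMap.det L.toLinearMap) *
        top (eb2 n) (loc Φ ((FS.euc n).prod (FS.euc n))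
          (fun c => (e (EE e D p₀ a) c.1, e (EE e D p₀ a) c.2)) (0, Th D (L b))) := by
  have h1 := xc_sg h (h.plot_EE p₀ a)
  have h2 : ContDiff ℝ ∞ fun b => Th D (L b) := (contDiff_Th h.dpos).comp L.contDiff
  have h3 : Sg (Prod.map (fun z => lg e (EE e D p₀ a) (EE e D p₀ z)) fun b => Th D (L b))
      (a, b) := ((continuous_fst.tendsto (a, b)).eventually h1).mono fun w hw =>
    (hw.comp w contDiffAt_fst).prodMk (h2.contDiffAt.comp w contDiffAt_snd)
  have h4 : HasFDerivAt (Prod.map (fun z => lg e (EE e D p₀ a) (EE e D p₀ z))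
      fun b => Th D (L b)) ((Tm e (EE e D p₀) a).prodMap
        ((fderiv ℝ (Th (n := n) D) (L b)).comp L)) (a, b) :=
    (h1.self_of_nhds.differentiableAt (by simp)).hasFDerivAt.prodMap (a, b)
      (((contDiff_Th h.dpos).differentiable (by simp) (L b)).hasFDerivAt.comp b L.hasFDerivAt)
  have h5 := hΦ.nat ((FS.euc n).prod (FS.euc n)) ((FS.euc n).prod (FS.euc n))
    (fun c => (e (EE e D p₀ a) c.1, e (EE e D p₀ a) c.2)) _ (a, b)
    (fun p => (EE e D p₀ p.1, e (EE e D p₀ a) (Th D (L p.2))))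
    (plot_prod (xc_exp h _ _) (xc_exp h _ _)) h3
    (Eventually.of_forall fun p => Prod.ext (h.toGeo.exp_lg _ _).symm rfl)
  rw [h5, h4.fderiv, top_eb2_det, Prod.map_apply, h.toGeo.lg_self, volc_det]

/-- `top_sl`, `fm_sl`, `IM_move` with `Th a`. Then, with `x = EE a`, `L = Lmap e p₀ (Th a) x`,
naturality for the map `(a', b) ↦ (lg x (EE a'), Th (L b))` whose derivative is
`(L ∘ dTh a).prodMap (dTh (L b) ∘ L)` (`Tm_EE`), `top_eb2_det`, `top_liou`. Where
`deriv cut ‖Th w‖ ≠ 0` one has `Th = id` near `w` (`Th_near`, `le_norm_Th`). Linear change of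
variables `b ↦ L b` (`integral_comp_linearEquiv`-like lemma, `Measure.addHaar_image_linearMap`,
`map_linearMap_addHaar_eq_smul_addHaar`), `integral_cut`, `LinearMap.normDet_eq_abs_det`. -/
theorem BC.inner_liou {N : ℕ} {e : M → Eu (N + 1) → M} (h : BC e D) (p₀ : M) (z₀ : XT M D) :
    ∃ σ : ℝ, |σ| = 1 ∧ ∀ a : Eu (N + 1), ‖a‖ < D →
      ∫ b : Eu (N + 1), top (eb2 (N + 1)) (loc (h.OmX z₀ (h.lam * dx h.lam ^ N))
        ((FS.euc (N + 1)).prod (FS.euc (N + 1)))
        (fun a => (EE e D p₀ a.1, EE e D p₀ a.2)) (a, b)) =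
      σ * N.factorial * sphA (N + 1) * (LinearMap.det (fderiv ℝ (Th (n := N + 1) D) a).toLinearMap *
        jac (T := fun _ => Eu (N + 1)) e p₀ (Th D a)) := by
  obtain ⟨σ, hσ, h1⟩ := h.top_liou z₀
  refine ⟨σ, hσ, fun a ha => ?_⟩
  have hD := h.dpos
  have hΦ := volc_fm h z₀
  have h2 := h.IM_move p₀ (norm_Th_lt hD ha) (fm_sl hΦ (h.plot_EE p₀ a) (eb (N + 1)))
  have hL := Lmap_bij h.toGeo (h.toGeo.short_mem_inj (x := p₀) (norm_Th_lt hD ha))
  obtain ⟨L, hL'⟩ : ∃ L : Eu (N + 1) →L[ℝ] Eu (N + 1),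
      L = Lmap e p₀ (Th D a) (e p₀ (Th D a)) := ⟨_, rfl⟩
  have h3 : jac (T := fun _ => Eu (N + 1)) e p₀ (Th D a) = |LinearMap.det L.toLinearMap| := by
    rw [hL']
    exact LinearMap.normDet_eq_abs_det _
  have h4 : Tm e (EE e D p₀) a = L.comp (fderiv ℝ (Th (n := N + 1) D) a) := by
    rw [hL']
    exact h.Tm_EE p₀ a
  rw [← hL'] at h2 hL
  have h5 : ∀ b, h.DM.P ⟨FS.euc (N + 1), fun b => e (e p₀ (Th D a)) (Th D (L b)), b⟩ := fun b =>
    h.DM.comp (g := fun b => Th D (L b)) (xc_exp h _ _)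
      (sg_of_contDiff ((contDiff_Th hD).comp L.contDiff) b) EventuallyEq.rfl
  have h6 : ∀ b, top (eb (N + 1)) (loc (sl (h.OmX z₀ (h.lam * dx h.lam ^ N)) (EE e D p₀) a
      (eb (N + 1))) (FS.euc (N + 1)) (fun b => e (e p₀ (Th D a)) (Th D (L b))) b) =
      σ * N.factorial * LinearMap.det (fderiv ℝ (Th (n := N + 1) D) a).toLinearMap *
        |LinearMap.det L.toLinearMap| * (|LinearMap.det L.toLinearMap| *
          (deriv (cut D) ‖L b‖ * ‖L b‖⁻¹ ^ N)) := fun b => by
    refine (top_sl (Z := FS.euc (N + 1)) _ (EE e D p₀) a (h5 b) (eb _) (eb _)).trans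
      ((volc_nat h p₀ hΦ L a b).trans ?_)
    rw [h1 _ _ (norm_Th_le hD _), h4, volc_det, ← volc_Th hD N (L b)]
    linear_combination (-σ * N.factorial *
      LinearMap.det (fderiv ℝ (Th (n := N + 1) D) a).toLinearMap *
      LinearMap.det (fderiv ℝ (Th (n := N + 1) D) (L b)).toLinearMap *
      deriv (cut D) ‖Th D (L b)‖ * ‖Th D (L b)‖⁻¹ ^ N) *
        abs_mul_abs_self (LinearMap.det L.toLinearMap)
  simp only [h6] at h2
  rw [integral_const_mul, integral_const_mul,
    volc_lin hL fun w => deriv (cut D) ‖w‖ * ‖w‖⁻¹ ^ N, integral_cut N hD] at h2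
  rw [h3]
  refine Eq.trans ?_ (h2.trans (by ring))
  refine integral_congr_ae (Eventually.of_forall fun b => ?_)
  simp only [one_mul]
  exact (top_sl (Z := FS.euc (N + 1)) _ (EE e D p₀) a (h.plot_EE p₀ b) (eb _) (eb _)).symm

/-- `IX_eq`, Fubini, `loc_EE2` for `D < ‖a‖`, the sphere is null
(`Measure.addHaar_sphere`), `integral_Th`, `integral_jac`. -/
theorem BC.IX_lam [MeasurableSpace M] [BorelSpace M] {N : ℕ} {e : M → Eu (N + 1) → M}
    (h : BC e D) (p₀ : M) (z₀ : XT M D) :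
    |h.IX p₀ z₀ (h.lam * dx h.lam ^ N)| =
      N.factorial * sphA (N + 1) * (μHE[N + 1] (univ : Set M)).toReal := by
  obtain ⟨σ, hσ, h1⟩ := h.inner_liou p₀ z₀
  have hΦ := volc_fm h z₀
  have h0 := fun a => h.loc_EE2 p₀ hΦ (a := a) (by omega)
  have h2 : Integrable fun a : Eu (N + 1) × Eu (N + 1) => top (eb2 (N + 1))
      (loc (h.OmX z₀ (h.lam * dx h.lam ^ N)) ((FS.euc (N + 1)).prod (FS.euc (N + 1)))
        (fun a => (EE e D p₀ a.1, EE e D p₀ a.2)) a) := by
    refine Continuous.integrable_of_hasCompactSupport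
      ((cont_lin (topL (eb2 (N + 1)))).comp (continuous_iff_continuousAt.2 fun a =>
        (hΦ.sm ((FS.euc (N + 1)).prod (FS.euc (N + 1))) _ a
          (plot_prod (h.plot_EE p₀ a.1) (h.plot_EE p₀ a.2))).continuousAt))
      (HasCompactSupport.intro ((isCompact_closedBall 0 D).prod (isCompact_closedBall 0 D))
        fun a ha => ?_)
    rw [mem_prod, mem_closedBall_zero_iff, mem_closedBall_zero_iff, not_and_or, not_le,
      not_le] at ha
    rw [h0 a ha]
    exact lamt_zero _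
  rw [h.IX_eq, Measure.volume_eq_prod, integral_prod _ h2,
    ← setIntegral_eq_integral_of_ae_compl_eq_zero (s := Metric.ball 0 D),
    setIntegral_congr_fun Metric.isOpen_ball.measurableSet
      fun a ha => h1 a (mem_ball_zero_iff.1 ha),
    integral_const_mul, integral_Th h.dpos, h.integral_jac, abs_mul, abs_mul, abs_mul, hσ, one_mul,
    Nat.abs_cast, abs_of_pos (sphA_pos N), abs_of_nonneg ENNReal.toReal_nonneg]
  filter_upwards [measure_eq_zero_iff_ae_notMem.1
    (Measure.addHaar_sphere (volume : Measure (Eu (N + 1))) 0 D)] with a h3 h4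
  rw [mem_sphere_zero_iff_norm] at h3
  rw [mem_ball_zero_iff, not_lt] at h4
  refine (integral_congr_ae (Eventually.of_forall fun b => ?_)).trans (integral_zero _ _)
  rw [h0 (a, b) (Or.inl (lt_of_le_of_ne h4 (Ne.symm h3)))]
  exact lamt_zero _

end Vale.Agent.P231C
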