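import Vale.Agent.P231C.ShE
import Vale.Agent.P231C.VolC
import Vale.Agent.P231C.FubA
import Vale.Agent.P231C.KapB
import Vale.Agent.P231C.TubA
import Vale.Agent.P231C.Red0

/-! The volume bound. -/

open scoped ContDiff Topology
open Filter Set MeasureTheory

noncomputable section

namespace Vale.Agent.P231C

open Vale.Agent.P234 Vale.Agent.P231

variable {M : Type*} [MetricSpace M] [CompactSpace M] {n : ℕ} {e : M → Eu n → M} {D : ℝ}

omit [CompactSpace M] in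
theorem integral_mdl (N : ℕ) (hD : 0 < D) :
    ∫ u in (0 : ℝ)..D, mdl D N 1 u = (2 * D / Real.pi) ^ (N + 1) / (N + 1) := by
  have hp := Real.pi_pos
  have hd : ∀ u ∈ uIcc (0 : ℝ) D, HasDerivAt
      (fun u => (2 * D / Real.pi * Real.sin (Real.pi * u / (2 * D))) ^ (N + 1) / (N + 1))
      (mdl D N 1 u) u := fun u _ => by
    have h1 : HasDerivAt (fun u => Real.pi * u / (2 * D)) (Real.pi / (2 * D)) u := by
      simpa using ((hasDerivAt_id u).const_mul Real.pi).div_const (2 * D)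
    refine (((h1.sin.const_mul (2 * D / Real.pi)).fun_pow (N + 1)).div_const
      ((N : ℝ) + 1)).congr_deriv ?_
    simp only [mdl, Nat.add_sub_cancel, pow_one]
    push_cast
    field_simp
  have hc : Continuous (mdl D N 1) := by
    unfold mdl
    fun_prop
  rw [intervalIntegral.integral_eq_sub_of_hasDerivAt hd (hc.intervalIntegrable _ _),
    show Real.pi * D / (2 * D) = Real.pi / 2 by field_simp]
  simp

omit [CompactSpace M] in
theorem sphA_even (m : ℕ) :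
    sphA (2 * m + 2) = (2 * m + 2) * Real.pi ^ (m + 1) / (m + 1).factorial := by
  have h : ((2 * m + 2 : ℕ) : ℝ) / 2 + 1 = ((m + 1 : ℕ) : ℝ) + 1 := by
    push_cast
    ring
  rw [sphA, h, Real.Gamma_nat_eq_factorial, show 2 * m + 2 = 2 * (m + 1) by ring, pow_mul,
    Real.sq_sqrt Real.pi_pos.le]
  push_cast
  ring

omit [CompactSpace M] in
theorem vol_arith {m : ℕ} (hD : 0 < D) {V : ℝ}
    (hV : (2 * D)⁻¹ ^ (2 * m + 2) * ((2 * m + 1).factorial * sphA (2 * m + 2) * V) ≤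
      (2 * m + 2).choose (m + 1)) :
    V ≤ sphA (2 * m + 2) * ∫ u in (0 : ℝ)..D, mdl D (2 * m + 1) 1 u := by
  have hp := Real.pi_pos
  have f0 : (0 : ℝ) < (m + 1).factorial := Nat.cast_pos.2 (Nat.factorial_pos _)
  have f1 : (0 : ℝ) < (2 * m + 1).factorial := Nat.cast_pos.2 (Nat.factorial_pos _)
  have hc : ((2 * m + 2).choose (m + 1) : ℝ) * (m + 1).factorial * (m + 1).factorial =
      (2 * m + 2) * (2 * m + 1).factorial := by
    have h := Nat.choose_mul_factorial_mul_factorial (show m + 1 ≤ 2 * m + 2 by omega)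
    rw [show 2 * m + 2 - (m + 1) = m + 1 by omega, Nat.factorial_succ (2 * m + 1)] at h
    exact_mod_cast h
  have hA : 0 < sphA (2 * m + 2) := sphA_pos (2 * m + 1)
  refine le_of_mul_le_mul_left (a := (2 * D)⁻¹ ^ (2 * m + 2) *
    ((2 * m + 1).factorial * sphA (2 * m + 2))) ?_ (by positivity)
  refine (le_of_eq (by ring)).trans (hV.trans_eq ?_)
  rw [eq_div_of_mul_eq f0.ne' (eq_div_of_mul_eq f0.ne' hc), integral_mdl _ hD, sphA_even,
    inv_pow, div_pow, show Real.pi ^ (2 * m + 1 + 1) = Real.pi ^ (m + 1) * Real.pi ^ (m + 1) by ring]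
  push_cast
  field_simp
  ring

theorem BC.vol_le [Nonempty M] [MeasurableSpace M] [BorelSpace M] {m : ℕ}
    {e : M → Eu (2 * m + 2) → M} (h : BC e D) :
    (μHE[2 * m + 1 + 1] (univ : Set M)).toReal ≤
      sphA (2 * m + 2) * ∫ u in (0 : ℝ)..D, mdl D (2 * m + 1) 1 u := by
  obtain ⟨p₀⟩ := ‹Nonempty M›
  obtain ⟨J₀, hB⟩ := h.exists_base p₀
  have ho : ‖(EuclideanSpace.single 0 1 : Eu (2 * m + 2))‖ = 1 := by simp
  obtain ⟨η, hη⟩ := exists_curv (cx_ii _) (hB.smo_PP h _) (hB.PP_line h ho)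
  obtain ⟨J, hJ, h0⟩ := h.exists_ori hB hη.fm hη.closed one_ne_zero
    fun v hv => hB.ar_eq ho hη hv
  obtain ⟨c, hc, hs, hl⟩ := hJ.short
  obtain ⟨N, s, s1, s2, s3⟩ := h.exists_phase
  have hD := h.dpos
  obtain ⟨f, hf, hi⟩ := sweep h.chord h.cir_fl (by linarith) s1 s2 s3 hc hl
  let o : Sp (2 * m + 2) := ⟨_, ho⟩
  have hL := hJ.lk (h.integ_IX p₀ (h.i0 p₀ o))
  have hθ := h.cir_fl.conn_of (by linarith) h.fm_lam h.pull_lam
  have hq : Smo (DS (2 * m + 2)) h.DM fun s => ev (h.fl (h.i0 p₀ s, 2 * D / 2)) :=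
    h.smo_ev.comp ((h.smo_fl _).comp (h.smo_i0 p₀))
  have hj : |sgm η (fun p => ev (h.fl (hJ.rt (h.i0 p₀ o, p.1), p.2))) (2 * Real.pi)
      (2 * D / 2)| = 1 := by
    rw [hJ.sgm_eq, h0, BC.i0, vel_mk, ev_mk, hB.ar_eq ho hη o.2, abs_one]
  obtain ⟨Ψ, p1, p2, p3, p4⟩ := hL.link hη hθ (hs.trans hf) hi (integ_IS o (cut_cut hD))
    hB.toGC.cir hB.toGC.conn (h.smo_i0 p₀) (p₀ := p₀) (fun _ => rfl) (hJ.rt_i0 hB h0) hq
    (hB.pull_q ho hη hq) o (hB.hol_i0 h ho) hj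
  have hp : Fm (2 * m + 1 + 1) (η ^ (m + 1)) := (hη.fm.pow (m + 1)).cast (by ring)
  have f1 := h.fubini (N := 2 * m + 1) p₀ (h.i0 p₀ o) hp p1 (c := (m : ℝ) + 2)
    (by rw [p2, map_pow]) o
  have f2 := hB.IM_pow ho hη o (cut_cut hD)
  have f3 := hB.toGC.hopf_le o (cut_cut hD)
  have f4 := h.IX_lam (N := 2 * m + 1) p₀ (h.i0 p₀ o)
  rw [map_pow, f2, p3] at f1
  refine vol_arith hD ?_
  have f5 : (2 * D)⁻¹ • h.lam * dx ((2 * D)⁻¹ • h.lam) ^ (2 * m + 1) =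
      (2 * D)⁻¹ ^ (2 * m + 2) • (h.lam * dx h.lam ^ (2 * m + 1)) := by
    rw [dx_smul h.fm_lam, smul_pow, smul_mul_smul_comm, ← pow_succ']
  have f6 : Fm (4 * m + 2 + 1) (h.lam * dx h.lam ^ (2 * m + 1)) :=
    (h.fm_lam.mul (h.fm_lam.dx.pow _)).cast (by ring)
  rw [f5, hL.integ.smul _ _ f6, abs_mul, f4, abs_of_nonneg (by positivity), f1] at p4
  refine p4.trans ?_
  have f7 := mul_le_one₀ f3 (abs_nonneg _) f3
  exact mul_le_of_le_one_right (Nat.cast_nonneg _) f7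

theorem bl_cross_one {M : Type*} [MetricSpace M] [CompactSpace M] [Nonempty M] {T : M → Type*}
    [∀ x, NormedAddCommGroup (T x)] [∀ x, InnerProductSpace ℝ (T x)]
    [∀ x, FiniteDimensional ℝ (T x)] {e : ∀ x, T x → M} {r D : ℝ}
    [MeasurableSpace M] [BorelSpace M] (h : Bl e r D) {n : ℕ}
    (hn : ∀ x, Module.finrank ℝ (T x) = n) (h3 : 3 ≤ n)
    (hk : ∀ x (v : T x), ‖v‖ = D → kap e x v = 1) : IsCROSS M := by
  obtain ⟨e', h'⟩ := exists_BC h hn h3 hk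
  obtain ⟨J₀, hB⟩ := h'.exists_base (Classical.arbitrary M)
  obtain ⟨k, hk'⟩ := hB.toGC.even
  obtain ⟨m, rfl⟩ : ∃ m, n = 2 * m + 2 := ⟨k - 1, by omega⟩
  have hm : ∀ _ : M, Module.finrank ℝ (Eu (2 * m + 2)) = 2 * m + 1 + 1 := fun _ => by simp
  have := h'.toBl.isFiniteMeasure hm
  refine h'.toBl.cross hm h'.kap1 ?_
  rw [← ENNReal.ofReal_toReal (measure_ne_top μHE[2 * m + 1 + 1] (univ : Set M))]
  exact ENNReal.ofReal_le_ofReal h'.vol_le

end Vale.Agent.P231C
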