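import Vale.Agent.P231C.SphDef
import Vale.Agent.P231.Cross

/-! Geometric definitions. All tangent spaces are identified with Euclidean space. -/

open scoped ContDiff Topology
open Filter Set MeasureTheory

noncomputable section

namespace Vale.Agent.P231C

open Vale.Agent.P234 Vale.Agent.P231

/-- Euclidean space. -/
abbrev Eu (n : ℕ) : Type := EuclideanSpace ℝ (Fin n)

variable {M : Type*} [MetricSpace M] {n : ℕ} {e : M → Eu n → M} {D : ℝ}

/-- Blaschke structure with conjugate multiplicity one. -/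
structure BC (e : M → Eu n → M) (D : ℝ) : Prop extends Bl (T := fun _ => Eu n) e D D where
  three : 3 ≤ n
  kap1 : ∀ x (v : Eu n), ‖v‖ = D → kap (T := fun _ => Eu n) e x v = 1

section Vec

variable {Z : Type*} [NormedAddCommGroup Z] [NormedSpace ℝ Z]

/-- Tangent map. -/
def Tm (e : M → Eu n → M) (f : Z → M) (z : Z) : Z →L[ℝ] Eu n :=
  fderiv ℝ (fun z' => lg e (f z) (f z')) z

/-- Smooth vector fields along a map, read in normal coordinates. -/
def SmV (e : M → Eu n → M) (f : Z → M) (ζ : Z → Eu n) (z₀ : Z) : Prop :=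
  ContDiffAt ℝ ∞ (fun z => Lmap e (f z) 0 (f z₀) (ζ z)) z₀

end Vec

/-- Smooth vector fields along a map from a space with plots. -/
def SmoV {Y : Type*} (e : M → Eu n → M) (𝒟 : Dif Y) (F : Y → M) (ζ : Y → Eu n) : Prop :=
  ∀ (Z : FS) (f : Z → Y) (u : Z), 𝒟.P ⟨Z, f, u⟩ →
    SmV e (fun z => F (f z)) (fun z => ζ (f z)) u

/-- The unit tangent bundle: pairs of points at distance `D / 2`. -/
def XT (M : Type*) [MetricSpace M] (D : ℝ) : Type _ := {z : M × M // dist z.1 z.2 = D / 2}

instance : MetricSpace (XT M D) := inferInstanceAs (MetricSpace {z : M × M // dist z.1 z.2 = D / 2})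

/-- Base point. -/
def ev (z : XT M D) : M := z.1.1

/-- Second point. -/
def ev2 (z : XT M D) : M := z.1.2

/-- Unit vector. -/
def vel (e : M → Eu n → M) (z : XT M D) : Eu n := (D / 2)⁻¹ • lg e z.1.1 z.1.2

/-- The geodesic. -/
def geo (e : M → Eu n → M) (z : XT M D) (t : ℝ) : M := e (ev z) (t • vel e z)

theorem BC.dist_half (h : BC e D) (x : M) {v : Eu n} (hv : ‖v‖ = 1) :
    dist x (e x ((D / 2) • v)) = D / 2 := by
  have h0 := h.dpos
  have h1 : ‖(D / 2) • v‖ = D / 2 := by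
    rw [norm_smul, hv, mul_one, Real.norm_of_nonneg (by linarith)]
  rw [h.min x _ (by rw [h1]; linarith), h1]

/-- The element of the unit tangent bundle given by a unit vector. -/
def BC.mk' (h : BC e D) (x : M) (v : Eu n) (hv : ‖v‖ = 1) : XT M D :=
  ⟨(x, e x ((D / 2) • v)), h.dist_half x hv⟩

variable [CompactSpace M]

/-- Plots of `M`. -/
def BC.DM (h : BC e D) : Dif M where
  P p := ∀ᶠ z in 𝓝 p.u, Sm e p.f z
  ev hp := eventually_eventually_nhds.2 hp
  comp := by
    intro Z W f g w f' hp hg he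
    filter_upwards [hg, hg.self_of_nhds.continuousAt.eventually hp, he.eventuallyEq_nhds]
      with a h1 h2 h3
    exact (Sm.comp h2 h1).congr h3
  const _ y _ := Eventually.of_forall fun z => sm_const h.toGeo y z

/-- Plots of the unit tangent bundle. -/
def BC.DX (h : BC e D) : Dif (XT M D) := (h.DM.prod h.DM).ind fun z => z.1

omit [CompactSpace M] in
theorem BC.norm_vel (h : BC e D) (z : XT M D) : ‖vel e z‖ = 1 := by
  have h0 := h.dpos
  rw [vel, norm_smul, h.toGeo.norm_lg, z.2, Real.norm_of_nonneg (by positivity)]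
  field_simp

/-- The geodesic flow. -/
def BC.fl (h : BC e D) (p : XT M D × ℝ) : XT M D :=
  ⟨(geo e p.1 p.2, geo e p.1 (p.2 + D / 2)), by
    have h0 := h.dpos
    have h1 : |p.2 - (p.2 + D / 2)| = D / 2 := by
      rw [show p.2 - (p.2 + D / 2) = -(D / 2) by ring, abs_neg, abs_of_pos (by linarith)]
    have := h.ugeo (ev p.1) (vel e p.1) p.2 (p.2 + D / 2)
      (by rw [h1, h.norm_vel]; linarith)
    rw [h1, h.norm_vel, mul_one] at this
    exact this⟩

open Classical in
/-- The unit vector pointing from the first point to the second one. -/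
def BC.kp (h : BC e D) (z₀ : XT M D) (w : M × M) : XT M D :=
  if hd : 0 < dist w.1 w.2 then h.mk' w.1 ((dist w.1 w.2)⁻¹ • lg e w.1 w.2) (by
    rw [norm_smul, h.toGeo.norm_lg, Real.norm_of_nonneg (by positivity)]
    field_simp)
  else z₀

/-- The contact form. -/
def BC.lam (h : BC e D) : RF h.DX := fun p =>
  io ((innerSL ℝ (vel e (p.1.f p.1.u))).comp (Tm e (fun z => ev (p.1.f z)) p.1.u))

/-- A plot around `z` which is onto a neighbourhood. -/
def BC.psi (h : BC e D) (z : XT M D) (a : Eu n × Eu n) : XT M D :=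
  h.kp z (e (ev z) a.1, e (ev2 z) a.2)

/-- Coordinates around `z`. -/
def chi (e : M → Eu n → M) (z z' : XT M D) : Eu n × Eu n :=
  (lg e (ev z) (ev z'), lg e (ev2 z) (ev2 z'))

/-- `ν` is a unit vector tangent to the link of `v`. -/
structure Nrm (e : M → Eu n → M) (D : ℝ) (x : M) (v ν : Eu n) : Prop where
  norm : ‖ν‖ = 1
  orth : inner ℝ ν v = 0
  link : e x (D • ν) = e x (D • v)

theorem norm_rot {v ν : Eu n} (hv : ‖v‖ = 1) (hν : ‖ν‖ = 1) (h : inner ℝ ν v = 0) (t : ℝ) :
    ‖Real.cos t • v + Real.sin t • ν‖ = 1 := by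
  have h1 : ‖Real.cos t • v + Real.sin t • ν‖ ^ 2 = 1 := by
    rw [norm_add_sq_real, inner_smul_left, inner_smul_right, real_inner_comm, h, norm_smul,
      norm_smul, hv, hν, mul_pow, mul_pow, Real.norm_eq_abs, Real.norm_eq_abs, sq_abs, sq_abs]
    have := Real.sin_sq_add_cos_sq t
    simp only [mul_zero, add_zero]
    linear_combination this
  exact (pow_eq_one_iff_of_nonneg (norm_nonneg _) two_ne_zero).1 h1

/-- An orientation of the links. -/
structure Ori (h : BC e D) (J : XT M D → Eu n) : Prop where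
  nrm : ∀ z, Nrm e D (ev z) (vel e z) (J z)
  sm : SmoV e h.DX ev J
  rot : ∀ z t hv, J (h.mk' (ev z) (Real.cos t • vel e z + Real.sin t • J z) hv) =
    -Real.sin t • vel e z + Real.cos t • J z

/-- The rotation along the links. -/
def Ori.rt {h : BC e D} {J : XT M D → Eu n} (hJ : Ori h J) (p : XT M D × ℝ) : XT M D :=
  h.mk' (ev p.1) (Real.cos p.2 • vel e p.1 + Real.sin p.2 • J p.1)
    (norm_rot (h.norm_vel _) (hJ.nrm _).norm (hJ.nrm _).orth _)

/-- An orientation of the links at the base point. -/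
structure Base (e : M → Eu n → M) (D : ℝ) (p₀ : M) (J₀ : Eu n → Eu n) : Prop
    extends GC (n := n) J₀ where
  link : ∀ v, ‖v‖ = 1 → e p₀ (D • J₀ v) = e p₀ (D • v)

/-- The fibre over `p₀`. -/
def BC.i0 (h : BC e D) (p₀ : M) (s : Sp n) : XT M D := h.mk' p₀ s.1 s.2

/-- The ambient space of the complex lines. -/
abbrev VV (n : ℕ) : Type := PiLp 2 fun _ : Fin 4 => Eu n

/-- The complex structure. -/
def ii (n : ℕ) : VV n →L[ℝ] VV n :=
  (PiLp.continuousLinearEquiv 2 ℝ fun _ : Fin 4 => Eu n).symm.toContinuousLinearMap.comp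
    (ContinuousLinearMap.pi ![-PiLp.proj 2 (fun _ : Fin 4 => Eu n) 1,
      PiLp.proj 2 (fun _ : Fin 4 => Eu n) 0, -PiLp.proj 2 (fun _ : Fin 4 => Eu n) 3,
      PiLp.proj 2 (fun _ : Fin 4 => Eu n) 2])

theorem ii_apply (x : VV n) : ii n x = WithLp.toLp 2 ![-x 1, x 0, -x 3, x 2] := by
  apply PiLp.ext
  intro i
  fin_cases i <;> rfl

/-- The angle. -/
def ang (D r : ℝ) : ℝ := Real.pi / 2 * Real.smoothTransition (3 * r / D - 1)

/-- The section. -/
def sec (D : ℝ) (o : Eu n) (J₀ : Eu n → Eu n) (a : Eu n) : VV n :=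
  WithLp.toLp 2 ![Real.cos (ang D ‖a‖) • o, 0, (Real.sin (ang D ‖a‖) / (√2 * ‖a‖)) • a,
    -(Real.sin (ang D ‖a‖) / (√2 * ‖a‖)) • J₀ a]

/-- The family of complex lines. -/
def PP (e : M → Eu n → M) (D : ℝ) (p₀ : M) (o : Eu n) (J₀ : Eu n → Eu n) (y : M) :
    VV n →L[ℝ] VV n := prj (ii n) (sec D o J₀ (lg e p₀ y))

/-- A smooth radial map onto the closed ball of radius `D`. -/
def Th (D : ℝ) (a : Eu n) : Eu n :=
  (1 - Real.smoothTransition (2 * ‖a‖ / D - 1) +
    Real.smoothTransition (2 * ‖a‖ / D - 1) * (D / ‖a‖)) • a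

/-- The global plot. -/
def EE (e : M → Eu n → M) (D : ℝ) (p₀ : M) (a : Eu n) : M := e p₀ (Th D a)

/-- The cut off function. -/
def cut (D t : ℝ) : ℝ := Real.smoothTransition (8 * t / D - 1)

/-- Integration on `M`. -/
def BC.IM (h : BC e D) (p₀ : M) : RF h.DM → ℝ :=
  IG (FS.euc n) (volume : Measure (Eu n)) (eb n) (fun _ => 1) (EE e D p₀)

/-- The differential of the cut off function of the distance. -/
def cX (D : ℝ) {Z : FS} (f g : Z → M) (u : Z) : Lam Z :=
  io (fderiv ℝ (fun z => cut D (dist (f z) (g z))) u)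

/-- Integration on the unit tangent bundle. -/
def BC.IX (h : BC e D) (p₀ : M) (z₀ : XT M D) : RF h.DX → ℝ :=
  IG ((FS.euc n).prod (FS.euc n)) (volume : Measure (Eu n × Eu n)) (eb2 n)
    (cX D (fun a => EE e D p₀ a.1) fun a => EE e D p₀ a.2)
    fun a => h.kp z₀ (EE e D p₀ a.1, EE e D p₀ a.2)

section Short

variable {h : BC e D} {J : XT M D → Eu n}

/-- The conjugated rotations. -/
def Ori.RR (hJ : Ori h J) (z : XT M D) (s θ : ℝ) : XT M D :=
  h.fl (hJ.rt (h.fl (z, -s), θ), s)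

/-- The generator of the conjugated rotation, in the coordinates around `z`. -/
def Ori.om (hJ : Ori h J) (z : XT M D) (s : ℝ) : Eu n × Eu n :=
  deriv (fun θ => chi e z (hJ.RR z s θ)) 0

/-- The averaged field. -/
def Ori.xi (hJ : Ori h J) (z : XT M D) : Eu n × Eu n := ∫ s in (0 : ℝ)..D, hJ.om z s

/-- The deformation of the base point map. -/
def Ori.cc (hJ : Ori h J) (p : XT M D × ℝ) : M := e (ev p.1) (p.2 • (hJ.xi p.1).1)

/-- The deformation of the identity. -/
def Ori.Ph (hJ : Ori h J) (p : XT M D × ℝ) : XT M D := h.psi p.1 (p.2 • hJ.xi p.1)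

/-- The energy of the deformed orbits. -/
def Ori.En (hJ : Ori h J) (z : XT M D) (ε : ℝ) : ℝ :=
  ∫ t in (0 : ℝ)..2 * D, ‖Tm e (fun s : ℝ => hJ.cc (h.fl (z, s), ε)) t 1‖ ^ 2

end Short

end Vale.Agent.P231C
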