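import Vale.Agent.P231C.SphB

/-! An equivariant map from the Hopf sphere. -/

open scoped ContDiff Topology
open Filter Set MeasureTheory

noncomputable section

namespace Vale.Agent.P231C

variable {n : ℕ} {J : FS.euc n → FS.euc n}

/-- The action of a complex number. -/
def cact (J : FS.euc n → FS.euc n) (z : ℂ) (v : FS.euc n) : FS.euc n := z.re • v + z.im • J v

theorem GC.cact_cact (h : GC J) {z w : ℂ} (hz : ‖z‖ = 1) (hw : ‖w‖ = 1) (v : FS.euc n) :
    cact J z (cact J w v) = cact J (z * w) v := by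
  have hw0 : w ≠ 0 := by
    rintro rfl
    simp at hw
  have h1 := h.rot v w.arg
  rw [Complex.cos_arg hw0, Complex.sin_arg, hw, div_one, div_one] at h1
  simp only [cact, h1, Complex.mul_re, Complex.mul_im]
  module

theorem GC.norm_cact (h : GC J) {z : ℂ} (hz : ‖z‖ = 1) (v : FS.euc n) : ‖cact J z v‖ = ‖v‖ := by
  have hz0 : z ≠ 0 := by
    rintro rfl
    simp at hz
  have h1 := h.norm_rot v z.arg
  rwa [Complex.cos_arg hz0, Complex.sin_arg, hz, div_one, div_one] at h1

/-- Smooth equivariant maps without zeros. -/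
structure Eqv (J : FS.euc n → FS.euc n) {E : Type*} [NormedAddCommGroup E] [NormedSpace ℝ E]
    [SMul ℂ E] (G : E → FS.euc n) : Prop where
  sm : ∀ z, z ≠ 0 → ContDiffAt ℝ ∞ G z
  ne : ∀ z, z ≠ 0 → G z ≠ 0
  eq : ∀ (c : ℂ) z, ‖c‖ = 1 → z ≠ 0 → G (c • z) = cact J c (G z)

/-- The cone over the image has Hausdorff dimension at most `finrank E + 1`
(`dimH_image_le_of_locally_lipschitzOn`, `Real.dimH_univ_eq_finrank`,
`dense_compl_of_dimH_lt_finrank`). -/
theorem exists_not_mem_cone {E : Type*} [NormedAddCommGroup E] [NormedSpace ℝ E]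
    [FiniteDimensional ℝ E] {G : E → FS.euc n} (hG : ∀ z, z ≠ 0 → ContDiffAt ℝ ∞ G z)
    (hn : Module.finrank ℝ E + 1 < n) : ∃ b : FS.euc n, b ≠ 0 ∧ ∀ (t : ℝ) z, z ≠ 0 → b ≠ t • G z := by
  have h1 : dimH ((fun p : E × ℝ => p.2 • G p.1) '' {p | p.1 ≠ 0}) ≤
      (Module.finrank ℝ (E × ℝ) : ENNReal) := by
    refine (dimH_image_le_of_locally_lipschitzOn fun p hp => ?_).trans
      ((dimH_mono (subset_univ _)).trans (Real.dimH_univ_eq_finrank _).le)
    have h2 : ContDiffAt ℝ 1 (fun p : E × ℝ => p.2 • G p.1) p :=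
      contDiffAt_snd.smul (((hG p.1 hp).of_le (by simp)).comp p contDiffAt_fst)
    obtain ⟨K, t, ht, h3⟩ := h2.exists_lipschitzOnWith
    exact ⟨K, t, mem_nhdsWithin_of_mem_nhds ht, h3⟩
  have h2 : dimH ({0} ∪ (fun p : E × ℝ => p.2 • G p.1) '' {p | p.1 ≠ 0}) <
      (Module.finrank ℝ (FS.euc n) : ENNReal) := by
    rw [dimH_union, dimH_singleton, max_eq_right zero_le]
    refine h1.trans_lt ?_
    have h3 : Module.finrank ℝ (FS.euc n) = n := finrank_euclideanSpace_fin
    rw [h3, Module.finrank_prod, Module.finrank_self]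
    exact_mod_cast hn
  obtain ⟨b, hb⟩ := (dense_compl_of_dimH_lt_finrank h2).nonempty
  exact ⟨b, fun h => hb (Or.inl h), fun t z hz h => hb (Or.inr ⟨(z, t), hz, h.symm⟩)⟩

/-- For `(z, w)` put `τ = ‖w‖ ^ 2 / (‖w‖ ^ 2 + N z)` where `N` is a positive definite quadratic
function (the norm of `E` need not be smooth: `E` is an inner product space over `ℝ` here),
`β = smoothTransition (3 τ - 1)`, `α = 1 - β`. Define `G' (z, w) = G z` if `w = 0`, and otherwise
`cact J c (α • G (c⁻¹ • z) + β • b)` with `c = w / ‖w‖`. Where `β = 0` this is `G z`; near `z = 0`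
the first term vanishes. -/
theorem Eqv.step (h : GC J) {E : Type*} [NormedAddCommGroup E] [InnerProductSpace ℂ E]
    [NormedSpace ℝ E] [IsScalarTower ℝ ℂ E] [FiniteDimensional ℝ E] {G : E → FS.euc n}
    (hG : Eqv J G) (hn : Module.finrank ℝ E + 1 < n) : ∃ G' : E × ℂ → FS.euc n, Eqv J G' := by
  obtain ⟨b, hb0, hb⟩ := exists_not_mem_cone hG.sm hn
  let τ : E × ℂ → ℝ := fun p => 3 * (‖p.2‖ ^ 2 / (‖p.2‖ ^ 2 + ‖p.1‖ ^ 2)) - 1
  let c : E × ℂ → ℂ := fun p => p.2 * ((‖p.2‖ : ℝ) : ℂ)⁻¹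
  let F : E × ℂ → FS.euc n := fun p =>
    (1 - Real.smoothTransition (τ p)) • G ((c p)⁻¹ • p.1) + Real.smoothTransition (τ p) • b
  have hc : ∀ p : E × ℂ, p.2 ≠ 0 → ‖c p‖ = 1 := fun p hp => by
    simp [c, hp]
  have hc0 : ∀ p : E × ℂ, p.2 ≠ 0 → c p ≠ 0 := fun p hp h0 => by
    have := hc p hp
    simp [h0] at this
  have hτ : ∀ p : E × ℂ, p ≠ 0 → ContDiffAt ℝ ∞ τ p := fun p hp => by
    have h1 : ‖p.2‖ ^ 2 + ‖p.1‖ ^ 2 ≠ 0 := by
      intro h0
      have h2 : ‖p.2‖ ^ 2 = 0 := by nlinarith [sq_nonneg ‖p.2‖, sq_nonneg ‖p.1‖]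
      have h3 : ‖p.1‖ ^ 2 = 0 := by nlinarith [sq_nonneg ‖p.2‖, sq_nonneg ‖p.1‖]
      exact hp (Prod.ext (by simpa using h3) (by simpa using h2))
    exact (contDiffAt_const.mul ((contDiffAt_snd.norm_sq ℂ).div
      ((contDiffAt_snd.norm_sq ℂ).add (contDiffAt_fst.norm_sq ℂ)) h1)).sub contDiffAt_const
  have hτ1 : ∀ p : E × ℂ, p.2 ≠ 0 → p.1 = 0 → τ p = 2 := fun p hp h0 => by
    have : ‖p.2‖ ^ 2 ≠ 0 := by simpa using hp
    simp only [τ, h0, norm_zero]
    field_simp
    ring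
  have hF : ∀ p : E × ℂ, p.2 ≠ 0 → F p ≠ 0 := fun p hp h0 => by
    by_cases h1 : p.1 = 0
    · simp only [F, hτ1 p hp h1, Real.smoothTransition.one_of_one_le one_le_two] at h0
      exact hb0 (by simpa using h0)
    · have h2 : (c p)⁻¹ • p.1 ≠ 0 := smul_ne_zero (inv_ne_zero (hc0 p hp)) h1
      by_cases h3 : Real.smoothTransition (τ p) = 0
      · simp only [F, h3] at h0
        exact hG.ne _ h2 (by simpa using h0)
      · refine hb (-((Real.smoothTransition (τ p))⁻¹ * (1 - Real.smoothTransition (τ p)))) _ h2 ?_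
        rw [neg_smul, mul_smul, ← smul_neg, neg_eq_of_add_eq_zero_right h0, smul_smul,
          inv_mul_cancel₀ h3, one_smul]
  have hcs : ∀ p : E × ℂ, p.2 ≠ 0 → ContDiffAt ℝ ∞ c p := fun p hp =>
    contDiffAt_snd.mul ((Complex.ofRealCLM.contDiff.contDiffAt.comp p
      (contDiffAt_snd.norm ℂ hp)).inv (by simpa using hp))
  have hFs : ∀ p : E × ℂ, p.2 ≠ 0 → ContDiffAt ℝ ∞ F p := fun p hp => by
    have hp0 : p ≠ 0 := fun h0 => hp (by rw [h0]; rfl)
    by_cases h1 : p.1 = 0
    · refine (contDiffAt_const (c := b)).congr_of_eventuallyEq ?_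
      have h2 : 1 < τ p := by rw [hτ1 p hp h1]; norm_num
      filter_upwards [(hτ p hp0).continuousAt.eventually (lt_mem_nhds h2)] with q hq
      simp [F, Real.smoothTransition.one_of_one_le hq.le]
    · have h2 := Real.smoothTransition.contDiffAt.comp p (hτ p hp0)
      exact ((contDiffAt_const.sub h2).smul ((hG.sm _ (smul_ne_zero (inv_ne_zero (hc0 p hp))
        h1)).comp p (((hcs p hp).inv (hc0 p hp)).smul contDiffAt_fst))).add
        (h2.smul contDiffAt_const)
  have hne : ∀ p : E × ℂ, p ≠ 0 → p.2 = 0 → p.1 ≠ 0 := fun p hp h2 h1 => hp (Prod.ext h1 h2)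
  classical
  refine ⟨fun p => if p.2 = 0 then G p.1 else cact J (c p) (F p), fun p hp => ?_, fun p hp => ?_,
    fun u p hu hp => ?_⟩
  · by_cases h1 : p.2 = 0
    · refine ((hG.sm _ (hne p hp h1)).comp p contDiffAt_fst).congr_of_eventuallyEq ?_
      have h2 : τ p < 0 := by simp [τ, h1]
      filter_upwards [(hτ p hp).continuousAt.eventually (gt_mem_nhds h2),
        continuous_fst.continuousAt.eventually_ne (hne p hp h1)] with q hq hq1
      split_ifs with h3
      · rfl
      · simp only [F, Real.smoothTransition.zero_of_nonpos hq.le, sub_zero, one_smul, zero_smul,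
          add_zero]
        rw [← hG.eq _ _ (hc q h3) (smul_ne_zero (inv_ne_zero (hc0 q h3)) hq1), smul_smul,
          mul_inv_cancel₀ (hc0 q h3), one_smul]
        rfl
    · have h2 : ContDiffAt ℝ ∞ (fun q => cact J (c q) (F q)) p :=
        ((Complex.reCLM.contDiff.contDiffAt.comp p (hcs p h1)).smul (hFs p h1)).add
          ((Complex.imCLM.contDiff.contDiffAt.comp p (hcs p h1)).smul
            ((h.sm _ (hF p h1)).comp p (hFs p h1)))
      refine h2.congr_of_eventuallyEq ?_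
      filter_upwards [continuous_snd.continuousAt.eventually_ne h1] with q hq
      exact if_neg hq
  · split_ifs with h1
    · exact hG.ne _ (hne p hp h1)
    · rw [← norm_ne_zero_iff, h.norm_cact (hc p h1), norm_ne_zero_iff]
      exact hF p h1
  · have hu0 : u ≠ 0 := by
      rintro rfl
      simp at hu
    by_cases h1 : p.2 = 0
    · have h2 : (u • p).2 = 0 := by simp [h1]
      rw [if_pos h1, if_pos h2]
      exact hG.eq u _ hu (hne p hp h1)
    · have h2 : (u • p).2 ≠ 0 := smul_ne_zero hu0 h1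
      have h3 : c (u • p) = u * c p := by simp [c, hu, mul_assoc]
      have h4 : τ (u • p) = τ p := by simp [τ, hu, norm_smul]
      have h5 : F (u • p) = F p := by
        simp only [F, h3, h4, Prod.smul_fst, smul_smul]
        rw [mul_inv, mul_right_comm, inv_mul_cancel₀ hu0, one_mul]
      rw [if_neg h1, if_neg h2, h3, h5, h.cact_cact hu (hc p h1)]

/-- Induction on `j`; transport `Eqv.step` along a complex linear equivalence
`EuclideanSpace ℂ (Fin (j + 1)) ≃ EuclideanSpace ℂ (Fin j) × ℂ`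
(`ContinuousLinearEquiv.ofFinrankEq`). For `j = 0` there is no nonzero vector. -/
theorem GC.exists_eqv (h : GC J) (j : ℕ) (hj : 2 * j ≤ n) :
    ∃ G : EuclideanSpace ℂ (Fin j) → FS.euc n, Eqv J G := by
  induction j with
  | zero =>
    exact ⟨fun _ => 0, fun _ _ => contDiffAt_const, fun z hz => absurd (Subsingleton.elim _ _) hz,
      fun _ z _ hz => absurd (Subsingleton.elim _ _) hz⟩
  | succ j ih =>
    obtain ⟨G, hG⟩ := ih (by omega)
    have h1 : Module.finrank ℝ (EuclideanSpace ℂ (Fin j)) = 2 * j := by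
      rw [← Module.finrank_mul_finrank ℝ ℂ, Complex.finrank_real_complex,
        finrank_euclideanSpace_fin]
    obtain ⟨G', hG'⟩ := hG.step h (by omega)
    let e : EuclideanSpace ℂ (Fin (j + 1)) ≃L[ℂ] EuclideanSpace ℂ (Fin j) × ℂ :=
      ContinuousLinearEquiv.ofFinrankEq (by simp)
    have h2 : ∀ z, z ≠ 0 → e z ≠ 0 := fun z hz => (map_ne_zero_iff _ e.injective).2 hz
    refine ⟨fun z => G' (e z), fun z hz => (hG'.sm _ (h2 z hz)).comp z
      (e.toContinuousLinearMap.restrictScalars ℝ).contDiff.contDiffAt, fun z hz => hG'.ne _ (h2 z hz),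
      fun u z hu hz => ?_⟩
    rw [map_smul]
    exact hG'.eq u _ hu (h2 z hz)

end Vale.Agent.P231C
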