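import Vale.Agent.P231C.Curv
import Vale.Agent.P231C.SphDef

/-! Holonomy. -/

open scoped ContDiff Topology
open Filter Set MeasureTheory

noncomputable section

namespace Vale.Agent.P231C

variable {V : Type*} [NormedAddCommGroup V] [InnerProductSpace ℝ V] {i : V →L[ℝ] V}
  {M : Type*} {𝒟M : Dif M} {P : M → V →L[ℝ] V} {η : RF 𝒟M}

/-- The integral of the connection form on a loop. -/
def cnI (i : V →L[ℝ] V) (s : ℝ → V) (l : ℝ) : ℝ :=
  ∫ t in (0 : ℝ)..l, (2 * Real.pi)⁻¹ * inner ℝ (i (s t)) (deriv s t)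

/-- With `P y = prj i s₀`, `z t = ⟪s₀, s t⟫ + ⟪i s₀, s t⟫ * I` has norm one and
`z' = ⟪i s, s'⟫ * I * z`, so `exp (-I * ∫ 0..t) * z t` is constant;
`Complex.exp_eq_one_iff`. -/
theorem cnI_const (hi : Cx i) {s₀ : V} (h0 : ‖s₀‖ = 1) {s : ℝ → V} (hs : ContDiff ℝ ∞ s) {l : ℝ}
    (hp : s l = s 0) (h : ∀ t, ‖s t‖ = 1 ∧ prj i s₀ (s t) = s t) : ∃ k : ℤ, cnI i s l = k := by
  have hd : ∀ t, HasDerivAt s (deriv s t) t := fun t =>
    (hs.differentiable (by simp) t).hasDerivAt
  have ha : ∀ v t, HasDerivAt (fun t => inner ℝ v (s t)) (inner ℝ v (deriv s t)) t := fun v t =>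
    (innerSL ℝ v).hasFDerivAt.comp_hasDerivAt t (hd t)
  have e : ∀ t, s t = inner ℝ s₀ (s t) • s₀ + inner ℝ (i s₀) (s t) • i s₀ := fun t => (h t).2.symm
  have e1 : ∀ t, inner ℝ s₀ (s t) ^ 2 + inner ℝ (i s₀) (s t) ^ 2 = 1 := fun t => by
    have := real_inner_self_eq_norm_sq (s t)
    rw [(h t).1, one_pow] at this
    rw [← this]
    conv_rhs => enter [2]; rw [e t]
    rw [inner_add_left, real_inner_smul_left, real_inner_smul_left, sq, sq]
  have e2 : ∀ t, inner ℝ s₀ (s t) * inner ℝ s₀ (deriv s t) +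
      inner ℝ (i s₀) (s t) * inner ℝ (i s₀) (deriv s t) = 0 := fun t => by
    have h1 := ((ha s₀ t).fun_pow 2).fun_add ((ha (i s₀) t).fun_pow 2)
    simp only [e1] at h1
    have h2 := h1.unique (hasDerivAt_const t 1)
    simp only [Nat.cast_ofNat, Nat.add_one_sub_one, pow_one] at h2
    linarith
  have e3 : ∀ t, inner ℝ (i (s t)) (deriv s t) = inner ℝ s₀ (s t) * inner ℝ (i s₀) (deriv s t) -
      inner ℝ (i s₀) (s t) * inner ℝ s₀ (deriv s t) := fun t => by
    conv_lhs => enter [2]; rw [e t]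
    rw [map_add, map_smul, map_smul, hi.sq, inner_add_left, real_inner_smul_left,
      real_inner_smul_left, inner_neg_left]
    ring
  have hw : Continuous fun t => inner ℝ (i (s t)) (deriv s t) :=
    (i.continuous.comp hs.continuous).inner (hs.continuous_deriv (by simp))
  have hF : ∀ t, HasDerivAt (fun t => Complex.exp
      (-Complex.I * (∫ τ in (0 : ℝ)..t, inner ℝ (i (s τ)) (deriv s τ) : ℝ)) *
      ((inner ℝ s₀ (s t) : ℝ) + (inner ℝ (i s₀) (s t) : ℝ) * Complex.I)) 0 t := fun t => by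
    refine ((((hw.integral_hasStrictDerivAt 0 t).hasDerivAt.ofReal_comp.const_mul
      (-Complex.I)).cexp).fun_mul
      ((ha s₀ t).ofReal_comp.fun_add ((ha (i s₀) t).ofReal_comp.mul_const Complex.I))).congr_deriv ?_
    have a1 := congrArg (fun x : ℝ => (x : ℂ)) (e1 t)
    have a2 := congrArg (fun x : ℝ => (x : ℂ)) (e2 t)
    rw [e3]
    push_cast at a1 a2 ⊢
    generalize ((inner ℝ s₀ (s t) : ℝ) : ℂ) = a at *
    generalize ((inner ℝ (i s₀) (s t) : ℝ) : ℂ) = b at *
    generalize ((inner ℝ s₀ (deriv s t) : ℝ) : ℂ) = a' at *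
    generalize ((inner ℝ (i s₀) (deriv s t) : ℝ) : ℂ) = b' at *
    generalize Complex.exp _ = E
    linear_combination (-E * (a' + b' * Complex.I)) * a1 + E * (a + b * Complex.I) * a2 -
      E * b * (a * b' - b * a') * Complex.I_sq
  have h1 := is_const_of_deriv_eq_zero (fun t => (hF t).differentiableAt)
    (fun t => (hF t).deriv) l 0
  rw [hp, intervalIntegral.integral_same, Complex.ofReal_zero, mul_zero, Complex.exp_zero] at h1
  obtain ⟨k, hk⟩ := Complex.exp_eq_one_iff.1 (mul_right_cancel₀ (fun h2 => by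
    have h3 := congrArg Complex.normSq h2
    rw [Complex.normSq_add_mul_I, e1, map_zero] at h3
    exact one_ne_zero h3) h1)
  refine ⟨-k, ?_⟩
  have h4 := congrArg Complex.im hk
  simp only [Complex.mul_im, Complex.neg_re, Complex.neg_im, Complex.I_re, Complex.I_im,
    Complex.ofReal_re, Complex.ofReal_im, Complex.mul_re, Complex.intCast_re, Complex.intCast_im,
    Complex.re_ofNat, Complex.im_ofNat] at h4
  rw [cnI, intervalIntegral.integral_const_mul, inv_mul_eq_iff_eq_mul₀ (by positivity)]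
  push_cast
  linarith

theorem hol_plot {G : ℝ × ℝ → M} (hG : Smo (Dif.vec (ℝ × ℝ)) 𝒟M G) (z : ℝ × ℝ) :
    𝒟M.P ⟨FS.line.ext, G, z⟩ :=
  hG ⟨FS.line.ext, fun z => z, z⟩ (Eventually.of_forall fun _ => contDiffAt_id)

theorem hol_green {A : ℝ × ℝ → ℝ × ℝ →L[ℝ] ℝ} {l u u' : ℝ}
    (hA : ∀ s, ∀ t ∈ uIcc u u', ContDiffAt ℝ ∞ A (s, t)) (hp : ∀ t, A (l, t) = A (0, t)) :
    ∫ s in (0 : ℝ)..l, ∫ t in u..u', (fderiv ℝ A (s, t) (0, 1) (1, 0) -
      fderiv ℝ A (s, t) (1, 0) (0, 1)) =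
      (∫ s in (0 : ℝ)..l, A (s, u') (1, 0)) - ∫ s in (0 : ℝ)..l, A (s, u) (1, 0) := by
  have hH : ContDiff ℝ ∞ fun s => ∫ t in u..u', A (s, t) :=
    contDiff_iff_contDiffAt.2 fun s => contDiffAt_par (hA s)
  have hc : ∀ s, ContinuousOn (fun t => fderiv ℝ A (s, t)) (uIcc u u') := fun s =>
    par_cont fun t ht => (hA s t ht).continuousAt_fderiv (by simp)
  have hc' : ∀ t ∈ uIcc u u', Continuous fun s => A (s, t) (1, 0) := fun t ht =>
    (continuous_iff_continuousAt.2 fun s => ContinuousAt.comp (f := fun s => (s, t))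
      (hA s t ht).continuousAt (by fun_prop)).clm_apply continuous_const
  have e : ∀ s, ∫ t in u..u', (fderiv ℝ A (s, t) (0, 1) (1, 0) - fderiv ℝ A (s, t) (1, 0) (0, 1)) =
      A (s, u') (1, 0) - A (s, u) (1, 0) - deriv (fun s => ∫ t in u..u', A (s, t)) s (0, 1) :=
    fun s => by
      have i1 : ∀ v, IntervalIntegrable (fun t => fderiv ℝ A (s, t) v) volume u u' := fun v =>
        ((hc s).clm_apply continuousOn_const).intervalIntegrable
      have i2 : ∀ v w, IntervalIntegrable (fun t => fderiv ℝ A (s, t) v w) volume u u' :=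
        fun v w => (((hc s).clm_apply continuousOn_const).clm_apply
          continuousOn_const).intervalIntegrable
      rw [intervalIntegral.integral_sub (i2 _ _) (i2 _ _),
        intervalIntegral.integral_eq_sub_of_hasDerivAt (f := fun t => A (s, t) (1, 0))
          (fun t ht => ?_) (i2 _ _),
        (par_main fun t ht => (hA s t ht).of_le (by simp)).hasDerivAt.deriv,
        ContinuousLinearMap.intervalIntegral_apply
          ((hc s).clm_comp continuousOn_const).intervalIntegrable,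
        ← ContinuousLinearMap.intervalIntegral_apply (i1 (1, 0))]
      · rfl
      · exact (ContinuousLinearMap.apply ℝ ℝ ((1, 0) : ℝ × ℝ)).hasFDerivAt.comp_hasDerivAt t
          (((hA s t ht).differentiableAt (by simp)).hasFDerivAt.comp_hasDerivAt t
            ((hasDerivAt_const t s).prodMk (hasDerivAt_id t)))
  have hd := hH.continuous_deriv (by simp)
  simp only [e]
  rw [intervalIntegral.integral_sub
      (((hc' _ right_mem_uIcc).fun_sub (hc' _ left_mem_uIcc)).intervalIntegrable _ _)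
      ((hd.clm_apply continuous_const).intervalIntegrable _ _),
    intervalIntegral.integral_sub ((hc' _ right_mem_uIcc).intervalIntegrable _ _)
      ((hc' _ left_mem_uIcc).intervalIntegrable _ _),
    ← ContinuousLinearMap.intervalIntegral_apply (hd.intervalIntegrable _ _),
    intervalIntegral.integral_deriv_eq_sub (fun s _ => hH.differentiable (by simp) s)
      (hd.intervalIntegrable _ _)]
  simp only [hp, sub_self, ContinuousLinearMap.zero_apply, sub_zero]

/-- Green formula on a rectangle: `Curv.eq`, `evl_dd_io`, symmetry of second derivatives is not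
needed: with `A = cn`, the integrand is `∂_t A (1, 0) - ∂_s A (0, 1)`; Fubini
(`intervalIntegral` swap for continuous functions) and the fundamental theorem of calculus. -/
theorem Curv.strip (h : Curv 𝒟M i P η) {G : ℝ × ℝ → M} (hG : Smo (Dif.vec (ℝ × ℝ)) 𝒟M G) {l : ℝ}
    {σ : ℝ × ℝ → V} {u u' : ℝ} (hs : ∀ s, ∀ t ∈ uIcc u u', Sg σ (s, t) ∧
      ∀ᶠ z in 𝓝 (s, t), ‖σ z‖ = 1 ∧ P (G z) (σ z) = σ z) (hp : ∀ s t, σ (s + l, t) = σ (s, t)) :
    ∫ s in (0 : ℝ)..l, ∫ t in u..u',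
        evl (Z := FS.line.ext) [(0, 1), (1, 0)] (loc η FS.line.ext G (s, t)) =
      cnI i (fun s => σ (s, u')) l - cnI i (fun s => σ (s, u)) l := by
  have hA : ∀ s, ∀ t ∈ uIcc u u', ContDiffAt ℝ ∞
      (fun z => (2 * Real.pi)⁻¹ • (innerSL ℝ (i (σ z))).comp (fderiv ℝ σ z)) (s, t) :=
    fun s t ht => by
      have h1 := (hs s t ht).1.self_of_nhds
      exact (((innerSL ℝ).contDiff.contDiffAt.comp _
        (i.contDiff.contDiffAt.comp _ h1)).clm_comp (h1.fderiv_right (by simp))).const_smul _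
  have e : ∀ t ∈ uIcc u u', cnI i (fun s => σ (s, t)) l = ∫ s in (0 : ℝ)..l,
      ((2 * Real.pi)⁻¹ • (innerSL ℝ (i (σ (s, t)))).comp (fderiv ℝ σ (s, t))) (1, 0) :=
    fun t ht => intervalIntegral.integral_congr fun s _ => by
      have h1 : HasDerivAt (fun s => σ (s, t)) (fderiv ℝ σ (s, t) (1, 0)) s :=
        ((hs s t ht).1.self_of_nhds.differentiableAt (by simp)).hasFDerivAt.comp_hasDerivAt s
          ((hasDerivAt_id s).prodMk (hasDerivAt_const s t))
      rw [h1.deriv]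
      rfl
  rw [e _ left_mem_uIcc, e _ right_mem_uIcc, ← hol_green hA fun t => ?_]
  · refine intervalIntegral.integral_congr fun s _ => intervalIntegral.integral_congr fun t ht => ?_
    beta_reduce
    rw [h.eq FS.line.ext G (s, t) σ (hol_plot hG _) (hs s t ht).1 (hs s t ht).2]
    exact evl_dd_io (Z := FS.line.ext) ((hA s t ht).differentiableAt (by simp)) _ _
  · have e1 : (fun z => σ (z + (l, 0))) = σ := funext fun z => by
      rw [← hp z.1 z.2]
      exact congrArg σ (Prod.ext rfl (add_zero _))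
    have e2 := fderiv_comp_add_right (𝕜 := ℝ) (f := σ) (x := (0, t)) (l, 0)
    have e3 := hp 0 t
    rw [e1, Prod.mk_add_mk, add_zero, zero_add] at e2
    rw [zero_add] at e3
    rw [e2, e3]

theorem hol_cd (h : Curv 𝒟M i P η) {G : ℝ × ℝ → M} (hG : Smo (Dif.vec (ℝ × ℝ)) 𝒟M G) :
    ContDiff ℝ ∞ fun z => P (G z) :=
  contDiff_iff_contDiffAt.2 fun z => (h.sm _ (hol_plot hG z)).self_of_nhds

theorem hol_step (h : Curv 𝒟M i P η) {G : ℝ × ℝ → M} (hG : Smo (Dif.vec (ℝ × ℝ)) 𝒟M G)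
    {l u u' x : ℝ} (hp : ∀ s t, G (s + l, t) = G (s, t))
    (hc : ∀ s, ∀ t ∈ uIcc u u', ‖P (G (s, t)) - P (G (s, u))‖ < 1)
    (hx : Hl i P (fun s => G (s, u)) l x) : Hl i P (fun s => G (s, u')) l (x + ∫ s in (0 : ℝ)..l,
      ∫ t in u..u', evl (Z := FS.line.ext) [(0, 1), (1, 0)] (loc η FS.line.ext G (s, t))) := by
  obtain ⟨s₀, s1, s2, s3, rfl⟩ := hx
  have hw : ContDiff ℝ ∞ fun z : ℝ × ℝ => P (G z) (s₀ z.1) :=
    (hol_cd h hG).clm_apply (s1.comp contDiff_fst)
  have hs : ∀ s, ∀ t ∈ uIcc u u',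
      Sg (fun z : ℝ × ℝ => ‖P (G z) (s₀ z.1)‖⁻¹ • P (G z) (s₀ z.1)) (s, t) ∧
      ∀ᶠ z : ℝ × ℝ in 𝓝 (s, t), ‖‖P (G z) (s₀ z.1)‖⁻¹ • P (G z) (s₀ z.1)‖ = 1 ∧
        P (G z) (‖P (G z) (s₀ z.1)‖⁻¹ • P (G z) (s₀ z.1)) =
          ‖P (G z) (s₀ z.1)‖⁻¹ • P (G z) (s₀ z.1) := fun s t ht => by
    have h0 : P (G (s, t)) (s₀ s) ≠ 0 := fun h0 => by
      have h1 := (P (G (s, t)) - P (G (s, u))).le_opNorm (s₀ s)
      rw [ContinuousLinearMap.sub_apply, h0, (s3 s).2, zero_sub, norm_neg, (s3 s).1, mul_one] at h1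
      exact (hc s t ht).not_ge h1
    have h1 := hw.continuous.continuousAt.eventually_ne (x := (s, t)) h0
    refine ⟨h1.mono fun z hz => ((hw.contDiffAt.norm ℝ hz).inv (norm_ne_zero_iff.2 hz)).smul
      hw.contDiffAt, h1.mono fun z hz => ⟨norm_smul_inv_norm hz, ?_⟩⟩
    obtain ⟨v, v1, v2⟩ := h.line (G z)
    rw [map_smul, v2, prj_prj h.cx v1]
  have key := h.strip hG hs (l := l) fun s t => by simp only [hp, s2 s]
  refine ⟨fun s => ‖P (G (s, u')) (s₀ s)‖⁻¹ • P (G (s, u')) (s₀ s),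
    contDiff_iff_contDiffAt.2 fun s => ContDiffAt.comp (f := fun s => (s, u')) s
      (hs s u' right_mem_uIcc).1.self_of_nhds (contDiffAt_id.prodMk contDiffAt_const),
    fun s => by simp only [hp, s2 s], fun s => (hs s u' right_mem_uIcc).2.self_of_nhds, ?_⟩
  simp only [(s3 _).1, (s3 _).2, inv_one, one_smul] at key
  rw [key]
  exact add_sub_cancel _ _

theorem hol_add (h : Curv 𝒟M i P η) {G : ℝ × ℝ → M} (hG : Smo (Dif.vec (ℝ × ℝ)) 𝒟M G)
    (l u u' : ℝ) : sgm η G l u + ∫ s in (0 : ℝ)..l, ∫ t in u..u',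
      evl (Z := FS.line.ext) [(0, 1), (1, 0)] (loc η FS.line.ext G (s, t)) = sgm η G l u' := by
  have hc : Continuous fun z : ℝ × ℝ =>
      evl (Z := FS.line.ext) [(0, 1), (1, 0)] (loc η FS.line.ext G z) :=
    (cont_lin (sc.toLinearMap ∘ₗ ct (Z := FS.line.ext) (1, 0) ∘ₗ ct (Z := FS.line.ext) (0, 1))).comp
      (continuous_iff_continuousAt.2 fun z => (h.fm.sm FS.line.ext G z (hol_plot hG z)).continuousAt)
  have h1 := fun a b => (intervalIntegral.continuous_parametric_intervalIntegral_of_continuous'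
    (μ := volume) (f := fun s t => evl (Z := FS.line.ext) [(0, 1), (1, 0)]
      (loc η FS.line.ext G (s, t))) hc a b).intervalIntegrable (μ := volume) 0 l
  rw [sgm, ← intervalIntegral.integral_add (h1 _ _) (h1 _ _)]
  exact intervalIntegral.integral_congr fun s _ =>
    intervalIntegral.integral_add_adjacent_intervals
      ((hc.comp (Continuous.prodMk_right s)).intervalIntegrable _ _)
      ((hc.comp (Continuous.prodMk_right s)).intervalIntegrable _ _)

/-- Transport of the holonomy across a cylinder. By periodicity and uniform continuity there is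
`N` with `‖P (G (s, t)) - P (G (s, t'))‖ < 1 / 2` for `t, t'` in `uIcc 0 b` at distance at most
`|b| / N`; on each strip normalize `P (G (s, t)) (s₀ s)` and use `Curv.strip`. -/
theorem Curv.hl_cyl (h : Curv 𝒟M i P η) {G : ℝ × ℝ → M} (hG : Smo (Dif.vec (ℝ × ℝ)) 𝒟M G)
    {l b x : ℝ} (hl : 0 < l) (hp : ∀ s t, G (s + l, t) = G (s, t))
    (hx : Hl i P (fun s => G (s, 0)) l x) : Hl i P (fun s => G (s, b)) l (x + sgm η G l b) := by
  have hc := (hol_cd h hG).continuous
  have step : ∀ u u', (∀ s, ∀ t ∈ uIcc u u', ‖P (G (s, t)) - P (G (s, u))‖ < 1) →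
      Hl i P (fun s => G (s, u)) l (x + sgm η G l u) →
      Hl i P (fun s => G (s, u')) l (x + sgm η G l u') := fun u u' h1 h2 => by
    rw [← hol_add h hG l u u', ← add_assoc]
    exact hol_step h hG hp h1 h2
  refine PreconnectedSpace.induction₂' (fun u u' => Hl i P (fun s => G (s, u)) l (x + sgm η G l u) →
    Hl i P (fun s => G (s, u')) l (x + sgm η G l u')) (fun u => ?_) ⟨fun _ _ _ a b c => b (a c)⟩ 0 b
    (by simpa [sgm] using hx)
  have h1 : ∀ᶠ t in 𝓝 u, ∀ s ∈ Icc 0 l, ‖P (G (s, t)) - P (G (s, u))‖ < 1 / 2 :=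
    isCompact_Icc.eventually_forall_of_forall_eventually fun s _ =>
      ContinuousAt.eventually_lt (f := fun z : ℝ × ℝ => ‖P (G (z.2, z.1)) - P (G (z.2, u))‖)
        ((hc.comp continuous_swap).sub (hc.comp (continuous_snd.prodMk
          continuous_const))).norm.continuousAt continuousAt_const (by simp)
  obtain ⟨ε, hε, h2⟩ := Metric.eventually_nhds_iff_ball.1 h1
  have h3 : ∀ s, ∀ t ∈ Metric.ball u ε, ‖P (G (s, t)) - P (G (s, u))‖ < 1 / 2 := fun s t ht => by
    obtain ⟨s', a1, a2⟩ := Function.Periodic.exists_mem_Ico₀ (f := fun s t => G (s, t))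
      (fun s => funext (hp s)) hl s
    rw [congrFun a2 t, congrFun a2 u]
    exact h2 t ht s' (Ico_subset_Icc_self a1)
  filter_upwards [Metric.ball_mem_nhds u hε] with u' hu
  have h4 := (convex_ball u ε).ordConnected.uIcc_subset (Metric.mem_ball_self hε) hu
  refine ⟨step _ _ fun s t ht => (h3 s t (h4 ht)).trans one_half_lt_one, step _ _ fun s t ht => ?_⟩
  rw [uIcc_comm] at ht
  have h5 := norm_sub_le_norm_sub_add_norm_sub (P (G (s, t))) (P (G (s, u))) (P (G (s, u')))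
  rw [norm_sub_rev (P (G (s, u)))] at h5
  linarith [h3 s t (h4 ht), h3 s u' hu]

theorem Curv.hl_disc (h : Curv 𝒟M i P η) {G : ℝ × ℝ → M} (hG : Smo (Dif.vec (ℝ × ℝ)) 𝒟M G)
    {l b x : ℝ} (hl : 0 < l) (hp : ∀ s t, G (s + l, t) = G (s, t)) {y : M} (hy : ∀ s, G (s, b) = y)
    (hx : Hl i P (fun s => G (s, 0)) l x) : ∃ k : ℤ, sgm η G l b = k - x := by
  obtain ⟨s, s1, s2, s3, s4⟩ := h.hl_cyl hG (b := b) hl hp hx
  obtain ⟨v, v1, v2⟩ := h.line y
  simp only [hy, v2] at s3
  obtain ⟨k, hk⟩ := cnI_const h.cx v1 s1 s2.eq s3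
  exact ⟨k, eq_sub_of_add_eq' (s4.trans hk)⟩

end Vale.Agent.P231C
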