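import Vale.Agent.P231C.Std
import Vale.Agent.P231C.Gmap
import Vale.Agent.P231C.DegC

/-! The Euler number of a great circle fibration. -/

open scoped ContDiff Topology
open Filter Set MeasureTheory

noncomputable section

namespace Vale.Agent.P231C

/-- Normalize `G ∘ cc`. -/
theorem GC.exists_map {k : ℕ} {J : FS.euc (k + k) → FS.euc (k + k)} (h : GC J) :
    ∃ G : Sp (k + k) → Sp (k + k), Smo (DS _) (DS _) G ∧
      ∀ s t, G ((gc_J0 k).rho (s, t)) = h.rho (G s, t) := by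
  obtain ⟨g, hg⟩ := h.exists_eqv k (by omega)
  have h0 : ∀ s : Sp (k + k), s.1 ≠ 0 := fun s => norm_ne_zero_iff.1 (by rw [s.2]; exact one_ne_zero)
  have h1 : ∀ s : Sp (k + k), g (cc k s.1) ≠ 0 := fun s => hg.ne _ (cc_ne (h0 s))
  refine ⟨fun s => ⟨‖g (cc k s.1)‖⁻¹ • g (cc k s.1), norm_smul_inv_norm (h1 s)⟩, ?_,
    fun s t => Subtype.ext ?_⟩
  · refine smo_ind.2 ((smo_ind_val (Dif.vec (FS.euc (k + k))) fun v : Sp (k + k) => v.1).sg_comp
      (g := fun v => ‖g (cc k v)‖⁻¹ • g (cc k v)) fun s => ?_)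
    refine sg_of_open isOpen_ne (fun v hv => ?_) (h0 s)
    have h2 : ContDiffAt ℝ ∞ (fun v => g (cc k v)) v :=
      (hg.sm _ (cc_ne hv)).comp v (contDiff_cc k).contDiffAt
    have h3 := hg.ne _ (cc_ne hv)
    exact ((h2.norm ℝ h3).inv (norm_ne_zero_iff.2 h3)).smul h2
  · show ‖g (cc k (Real.cos t • s.1 + Real.sin t • J0 k s.1))‖⁻¹ •
        g (cc k (Real.cos t • s.1 + Real.sin t • J0 k s.1)) =
      Real.cos t • (‖g (cc k s.1)‖⁻¹ • g (cc k s.1)) +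
        Real.sin t • J (‖g (cc k s.1)‖⁻¹ • g (cc k s.1))
    rw [cc_rot, hg.eq _ _ (Complex.norm_exp_ofReal_mul_I t) (cc_ne (h0 s)),
      h.norm_cact (Complex.norm_exp_ofReal_mul_I t),
      h.hom _ (inv_pos.2 (norm_pos_iff.2 (h1 s))), cact, Complex.exp_ofReal_mul_I_re,
      Complex.exp_ofReal_mul_I_im, smul_add, smul_comm _ (Real.cos t), smul_comm _ (Real.sin t)]

theorem hopf_key {m n : ℕ} (hn : n = 2 * m + 2) {J J' : FS.euc n → FS.euc n} (h : GC J)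
    (h' : GC J') {G : Sp n → Sp n} (hG : Smo (DS n) (DS n) G)
    (he : ∀ s t, G (h'.rho (s, t)) = h.rho (G s, t)) (o : Sp n) {χ : ℝ → ℝ} {a b : ℝ}
    (hχ : Cut χ a b) : ∃ d : ℤ,
      IS o χ (thJ J' * dx (thJ J') ^ m) = d * IS o χ (thJ J * dx (thJ J) ^ m) := by
  subst hn
  have hc : h'.cir.Conn (pull hG (thJ J)) := ⟨h.conn.fm.pull hG,
    by rw [h.cir.pull_push h'.cir hG he, h.conn.push, map_one],
    by rw [dx_pull]; exact h.conn.bas.pull h'.cir hG he⟩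
  have h1 := h'.cir.chern (integ_IS (N := 2 * m) o hχ) h'.conn.fm h'.conn.bas
    (h'.conn.push.trans (map_one _).symm) hc
  obtain ⟨d, hd⟩ := exists_deg_IS hG o hχ
  refine ⟨d, ?_⟩
  rw [h1, one_pow, one_mul, dx_pull, ← map_pow, ← map_mul]
  exact hd _ ((h.conn.fm.mul (h.conn.fm.dx.pow m)).cast (by ring))

/-- `pull G (thJ J)` is a connection for the standard action (`Cir.pull_push`, `Cir.Bas.pull`), so
`Cir.chern`, `IS_std` and `exists_deg_IS` give `1 = |d| * |N|`. For `m = 0` the functional `IS` is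
on forms of degree one, `integ_IS` with `N = 0`. -/
theorem GC.hopf_aux {m : ℕ} {J : FS.euc (m + 1 + (m + 1)) → FS.euc (m + 1 + (m + 1))} (h : GC J)
    (o : Sp (m + 1 + (m + 1))) {χ : ℝ → ℝ} {a b : ℝ} (hχ : Cut χ a b) :
    |IS o χ (thJ J * dx (thJ J) ^ m)| ≤ 1 := by
  obtain ⟨G, hG, he⟩ := h.exists_map
  obtain ⟨d, hd⟩ := hopf_key (m := m) (by ring) h (gc_J0 (m + 1)) hG he o hχ
  have h1 := IS_std m o hχ
  rw [hd, abs_mul] at h1
  have h2 : d ≠ 0 := by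
    rintro rfl
    simp at h1
  have h3 : (1 : ℝ) ≤ |(d : ℝ)| := by exact_mod_cast Int.one_le_abs h2
  exact (le_mul_of_one_le_left (abs_nonneg _) h3).trans h1.le

theorem GC.hopf_le {m : ℕ} {J : FS.euc (2 * m + 2) → FS.euc (2 * m + 2)} (h : GC J)
    (o : Sp (2 * m + 2)) {χ : ℝ → ℝ} {a b : ℝ} (hχ : Cut χ a b) :
    |IS o χ (thJ J * dx (thJ J) ^ m)| ≤ 1 := by
  have key : ∀ n, n = m + 1 + (m + 1) → ∀ {J : FS.euc n → FS.euc n}, GC J → ∀ o : Sp n,
      |IS o χ (thJ J * dx (thJ J) ^ m)| ≤ 1 := by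
    rintro n rfl J h o
    exact h.hopf_aux o hχ
  exact key _ (by ring) h o

end Vale.Agent.P231C
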