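import Vale.Agent.P231C.DifC
import Vale.Agent.P231C.LamD
import Vale.Agent.P231C.Par

/-! Integration of forms through one plot. -/

open scoped ContDiff Topology
open Filter Set MeasureTheory

noncomputable section

namespace Vale.Agent.P231C

variable {Y : Type*} {𝒟 : Dif Y}

/-- Integration of `c * F^* w`. -/
def IG (Z : FS) [MeasurableSpace Z] (μ : Measure Z) {n : ℕ} (b : Fin n → Z) (c : Z → Lam Z)
    (F : Z → Y) (w : RF 𝒟) : ℝ := ∫ z, top b (c z * loc w Z F z) ∂μ

/-- A closed form `c` of degree `k` and a map `F` which is a plot on the support of `c`, such that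
`c * F^* w` vanishes outside the set `K` for all forms of degree at least `N`. -/
structure Win (𝒟 : Dif Y) (Z : FS) (c : Z → Lam Z) (F : Z → Y) (k N : ℕ) (K : Set Z) : Prop where
  sm : ContDiff ℝ ∞ c
  deg : ∀ z, c z ∈ Dg Z k
  closed : ∀ z, dd c z = 0
  plot : ∀ z ∈ tsupport c, 𝒟.P ⟨Z, F, z⟩
  out : ∀ z ∉ K, ∀ j w, N ≤ j → Fm j (w : RF 𝒟) → c z * loc w Z F z = 0

variable {Z : FS} {c : Z → Lam Z} {F : Z → Y} {k N j : ℕ} {K : Set Z} {w : RF 𝒟}

theorem intg_zero (g : Z → Lam Z) {z : Z} (hz : z ∉ tsupport c) :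
    (fun z => c z * g z) =ᶠ[𝓝 z] fun _ => 0 := by
  filter_upwards [notMem_tsupport_iff_eventuallyEq.1 hz] with y hy
  rw [hy, Pi.zero_apply, zero_mul]

theorem intg_supp (h : Win 𝒟 Z c F k N K) (hK : IsCompact K) (hw : Fm j w) (hj : N ≤ j) :
    HasCompactSupport fun z => c z * loc w Z F z :=
  HasCompactSupport.intro hK fun z hz => h.out z hz j w hj hw

theorem intg_slice {c : Z.ext → Lam Z.ext} {F : Z.ext → Y} {K' : Set Z.ext}
    (h : Win 𝒟 Z.ext c F k N K') (hw : Fm j w) (z : Z) (s : ℝ) :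
    pb (Z := Z.ext) (ContinuousLinearMap.inl ℝ Z ℝ) (c (z, s) * loc w Z.ext F (z, s)) =
      pb (Z := Z.ext) (ContinuousLinearMap.inl ℝ Z ℝ) (c (z, s)) *
        loc w Z (fun z => F (z, s)) z := by
  rw [map_mul]
  by_cases hz : (z, s) ∈ tsupport c
  · have h1 := hw.loc_comp (Z := Z.ext) (W := Z) (g := fun z => (z, s)) (h.plot _ hz)
      (sg_of_contDiff (contDiff_id.prodMk contDiff_const) z)
    rw [(hasFDerivAt_prodMk_left z s).fderiv] at h1
    rw [h1]
  · rw [image_eq_zero_of_notMem_tsupport hz, map_zero, zero_mul, zero_mul]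

theorem Win.contDiff (h : Win 𝒟 Z c F k N K) (hw : Fm j w) :
    ContDiff ℝ ∞ fun z => c z * loc w Z F z := by
  refine contDiff_iff_contDiffAt.2 fun z => ?_
  by_cases hz : z ∈ tsupport c
  · exact cd_mul h.sm.contDiffAt (hw.sm Z F z (h.plot z hz))
  · exact contDiffAt_const.congr_of_eventuallyEq (intg_zero _ hz)

theorem Win.dd_eq (h : Win 𝒟 Z c F k N K) (hw : Fm j w) (z : Z) :
    dd (fun z => c z * loc w Z F z) z = (-1 : ℝ) ^ k • (c z * loc (dx w) Z F z) := by
  by_cases hz : z ∈ tsupport c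
  · rw [dd_mul (h.sm.differentiable (by simp) z)
      ((hw.sm Z F z (h.plot z hz)).differentiableAt (by simp)) (h.deg z), h.closed, zero_mul,
      zero_add, loc_dx w (h.plot z hz)]
  · rw [dd_congr (intg_zero _ hz), dd_const, image_eq_zero_of_notMem_tsupport hz, zero_mul,
      smul_zero]

variable [MeasurableSpace Z] [BorelSpace Z] (μ : Measure Z) [μ.IsAddHaarMeasure]

theorem Win.integrable (h : Win 𝒟 Z c F k N K) (hK : IsCompact K) (hw : Fm j w) (hj : N ≤ j)
    {n : ℕ} (b : Fin n → Z) : Integrable (fun z => top b (c z * loc w Z F z)) μ :=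
  ((cont_lin (topL b)).comp (h.contDiff hw).continuous).integrable_of_hasCompactSupport
    ((intg_supp h hK hw hj).comp_left (map_zero (topL b)))

theorem Win.integ (h : Win 𝒟 Z c F k N K) (hK : IsCompact K) (hr : RankLe 𝒟 (N + 1)) {n : ℕ}
    (b : Fin n → Z) : Integ 𝒟 N (IG Z μ b c F) := by
  refine ⟨hr, fun a a' ha ha' => ?_, fun r a _ => ?_, fun a ha => ?_⟩
  · rw [IG, IG, IG, ← integral_add (h.integrable μ hK ha (Nat.le_succ N) b)
      (h.integrable μ hK ha' (Nat.le_succ N) b)]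
    simp only [loc_add, mul_add, top, evl_add]
  · rw [IG, IG, ← integral_const_mul]
    simp only [loc_smul, mul_smul_comm, top, evl_smul]
  · have h1 := stokes_euc μ (topL b) (h.contDiff ha) (intg_supp h hK ha le_rfl)
    simp only [h.dd_eq ha, map_smul, smul_eq_mul, topL_apply] at h1
    rw [integral_const_mul] at h1
    exact (mul_eq_zero.1 h1).resolve_left (pow_ne_zero _ (by norm_num))

/-- Homotopy of windows: `homotopy_euc` for `c * F^* w`, and
`pb inl (loc w Z.ext F (z, s)) = loc w Z (fun z => F (z, s)) z` on the support. -/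
theorem Win.homotopy {c : Z.ext → Lam Z.ext} {F : Z.ext → Y} {K' : Set Z.ext}
    (h : Win 𝒟 Z.ext c F k N K') (hK : IsCompact K)
    (hK' : ∀ z ∉ K, ∀ s ∈ Icc (0 : ℝ) 1, (z, s) ∉ K') (hw : Fm j w) (hj : N ≤ j)
    (hd : ∀ z, ∀ s ∈ Icc (0 : ℝ) 1, c (z, s) * loc (dx w) Z.ext F (z, s) = 0) {n : ℕ}
    (b : Fin n → Z) :
    IG Z μ b (fun z => pb (Z := Z.ext) (ContinuousLinearMap.inl ℝ Z ℝ) (c (z, 0)))
        (fun z => F (z, 0)) w =
      IG Z μ b (fun z => pb (Z := Z.ext) (ContinuousLinearMap.inl ℝ Z ℝ) (c (z, 1)))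
        (fun z => F (z, 1)) w := by
  have h1 := homotopy_euc μ (topL b) (h.contDiff hw)
    (fun z s hs => by rw [h.dd_eq hw, hd z s hs, smul_zero]) hK
    fun z hz s hs => h.out _ (hK' z hz s hs) j w hj hw
  simp only [intg_slice h hw, topL_apply] at h1
  exact h1

omit [BorelSpace Z] [μ.IsAddHaarMeasure] in
/-- Pull back along a smooth map. -/
theorem IG_pull {Y' : Type*} {𝒟' : Dif Y'} {G : Y → Y'} (hG : Smo 𝒟 𝒟' G)
    (hp : ∀ z, c z ≠ 0 → 𝒟.P ⟨Z, F, z⟩) {n : ℕ} (b : Fin n → Z) (w : RF 𝒟') :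
    IG Z μ b c F (pull hG w) = IG Z μ b c (fun z => G (F z)) w := by
  refine integral_congr_ae (Eventually.of_forall fun z => ?_)
  by_cases hz : c z = 0
  · simp only [hz, zero_mul]
  · simp only [loc_pull hG w (hp z hz)]

/-- Integrals of smooth functions along the line are smooth (`contDiffAt_par`; the plot
`(z, t) ↦ (f z, t)` of `𝒟.ext`, tube lemma for the eventual statement). -/
theorem Smo.integral {V : Type*} [NormedAddCommGroup V] [NormedSpace ℝ V] [CompleteSpace V]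
    {G : Y × ℝ → V} (hG : Smo 𝒟.ext (Dif.vec V) G) (a b : ℝ) :
    Smo 𝒟 (Dif.vec V) fun y => ∫ t in a..b, G (y, t) := by
  rintro ⟨W, f, u⟩ hp
  filter_upwards [𝒟.ev hp] with u' hu
  refine contDiffAt_par (f := fun q : W × ℝ => G (f q.1, q.2)) fun t _ => ?_
  exact (hG ⟨W.ext, fun q => (f q.1, q.2), (u', t)⟩
    ⟨𝒟.comp (W := W.ext) (g := Prod.fst) hu (sg_of_contDiff contDiff_fst _) EventuallyEq.rfl,
      sg_of_contDiff contDiff_snd _⟩).self_of_nhds

end Vale.Agent.P231C
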