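import Vale.Agent.P231C.KerB
import Vale.Agent.P231C.Iface

/-! The double cover of oriented links. -/

open scoped ContDiff Topology
open Filter Set MeasureTheory

noncomputable section

namespace Vale.Agent.P231C

open Vale.Agent.P234 Vale.Agent.P231

variable {M : Type*} [MetricSpace M] [CompactSpace M] {n : ℕ} {e : M → Eu n → M} {D : ℝ}

/-- Unit vectors with an orientation of the link. -/
def X2 (e : M → Eu n → M) (D : ℝ) : Type _ :=
  {w : XT M D × Eu n // Nrm e D (ev w.1) (vel e w.1) w.2}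

/-- Plots. -/
def BC.DY (h : BC e D) : Dif (X2 e D) :=
  (h.DX.prod h.DM).ind fun w => (w.1.1, e (ev w.1.1) ((D / 2) • w.1.2))

/-- Rotation. -/
def BC.rt2 (h : BC e D) (p : X2 e D × ℝ) : X2 e D :=
  ⟨(h.mk' (ev p.1.1.1) (Real.cos p.2 • vel e p.1.1.1 + Real.sin p.2 • p.1.1.2)
      (norm_rot (h.norm_vel _) p.1.2.norm p.1.2.orth _),
    -Real.sin p.2 • vel e p.1.1.1 + Real.cos p.2 • p.1.1.2), by
    rw [vel_mk]
    exact p.1.2.rot h (h.norm_vel _) _⟩

/-- The area of the sphere swept by the link. -/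
def BC.ar (h : BC e D) (η : RF h.DM) (x : M) (v ν : Eu n) : ℝ :=
  sgm η (fun p => e x (p.2 • (Real.cos p.1 • v + Real.sin p.1 • ν))) (2 * Real.pi) D

theorem BC.smo_fst2 (h : BC e D) : Smo h.DY h.DX fun w => w.1.1 := fun _ hp => hp.1

/-- `ν = (D / 2)⁻¹ • lg x (e x ((D / 2) • ν))`, `BC.smv_lg`. -/
theorem BC.smoV_nu (h : BC e D) : SmoV e h.DY (fun w => ev w.1.1) fun w => w.1.2 := by
  intro Z f u hp
  have h0 := h.dpos
  have hn : ∀ w : X2 e D, ‖(D / 2) • w.1.2‖ = D / 2 := fun w => by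
    rw [norm_smul, w.2.norm, mul_one, Real.norm_of_nonneg (by linarith)]
  have hd : dist (ev (f u).1.1) (e (ev (f u).1.1) ((D / 2) • (f u).1.2)) < D := by
    rw [h.min _ _ (by rw [hn]; linarith), hn]
    linarith
  have h1 := (h.smv_lg (f := fun z => ev (f z).1.1)
    (g := fun z => e (ev (f z).1.1) ((D / 2) • (f z).1.2)) hp.1.1.self_of_nhds
    hp.2.self_of_nhds hd).smul (c := fun _ => (D / 2)⁻¹) contDiffAt_const
  refine h1.congr EventuallyEq.rfl (Eventually.of_forall fun z => ?_)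
  show (f z).1.2 = (D / 2)⁻¹ • lg e (ev (f z).1.1) (e (ev (f z).1.1) ((D / 2) • (f z).1.2))
  rw [h.toBl.lg_exp' (by rw [hn]; linarith), inv_smul_smul₀ (by linarith)]

theorem BC.plot2 (h : BC e D) {Z : FS} {k : Z → X2 e D} {u : Z}
    (hf : h.DX.P ⟨Z, fun z => (k z).1.1, u⟩)
    (hν : ∀ᶠ z in 𝓝 u, SmV e (fun w => ev (k w).1.1) (fun w => (k w).1.2) z) :
    h.DY.P ⟨Z, k, u⟩ := by
  refine ⟨hf, ?_⟩
  show ∀ᶠ z in 𝓝 u, Sm e (fun w => e (ev (k w).1.1) ((D / 2) • (k w).1.2)) z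
  filter_upwards [hf.1, hν] with z h2 h3
  exact (h3.smul contDiffAt_const).exp h h2

theorem rota_vel (h : BC e D) (w : X2 e D) (t : ℝ) :
    vel e (h.rt2 (w, t)).1.1 = Real.cos t • vel e w.1.1 + Real.sin t • w.1.2 :=
  vel_mk h _ _ (norm_rot (h.norm_vel _) w.2.norm w.2.orth _)

theorem rota_nu (h : BC e D) (w : X2 e D) (t : ℝ) :
    (h.rt2 (w, t)).1.2 = -Real.sin t • vel e w.1.1 + Real.cos t • w.1.2 := rfl

theorem rota_ext (h : BC e D) {w w' : X2 e D} (h1 : ev w.1.1 = ev w'.1.1)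
    (h2 : vel e w.1.1 = vel e w'.1.1) (h3 : w.1.2 = w'.1.2) : w = w' :=
  Subtype.ext (Prod.ext (h.ext h1 h2) h3)

theorem BC.cir2 (h : BC e D) : Cir h.DY h.rt2 (2 * Real.pi) := by
  have hF : Smo h.DY.ext h.DM fun p => ev p.1.1.1 :=
    h.smo_ev.comp (h.smo_fst2.comp (smo_fst _ _))
  have hv : SmoV e h.DY.ext (fun p => ev p.1.1.1) fun p => vel e p.1.1.1 :=
    h.smoV_vel.comp (h.smo_fst2.comp (smo_fst _ _))
  have hn : SmoV e h.DY.ext (fun p => ev p.1.1.1) fun p => p.1.1.2 :=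
    h.smoV_nu.comp (smo_fst _ _)
  have hc : Smo h.DY.ext (Dif.vec ℝ) fun p => Real.cos p.2 :=
    (smo_snd _ _).contDiff_comp Real.contDiff_cos
  have hs : Smo h.DY.ext (Dif.vec ℝ) fun p => Real.sin p.2 :=
    (smo_snd _ _).contDiff_comp Real.contDiff_sin
  have hs' : Smo h.DY.ext (Dif.vec ℝ) fun p => -Real.sin p.2 :=
    (smo_snd _ _).contDiff_comp (g := fun t : ℝ => -Real.sin t) Real.contDiff_sin.neg
  have h1 := h.smo_mk hF ((hv.smul hc).add (hn.smul hs))
    fun p => norm_rot (h.norm_vel _) p.1.2.norm p.1.2.orth _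
  have h2 := (((hv.smul hs').add (hn.smul hc)).smul (smo_const _ _ (D / 2))).exp h hF
  refine ⟨fun p hp => ⟨h1 p hp, h2 p hp⟩, fun w => rota_ext h rfl ?_ ?_,
    fun w s t => rota_ext h rfl ?_ ?_, fun w => rota_ext h rfl ?_ ?_⟩
  · rw [rota_vel, Real.cos_zero, Real.sin_zero, one_smul, zero_smul, add_zero]
  · rw [rota_nu, Real.cos_zero, Real.sin_zero, one_smul, neg_zero, zero_smul, zero_add]
  · rw [rota_vel, rota_vel, rota_vel, rota_nu, Real.cos_add, Real.sin_add]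
    module
  · rw [rota_nu, rota_vel, rota_nu, rota_nu, Real.cos_add, Real.sin_add]
    module
  · rw [rota_vel, Real.cos_two_pi, Real.sin_two_pi, one_smul, zero_smul, add_zero]
  · rw [rota_nu, Real.cos_two_pi, Real.sin_two_pi, one_smul, neg_zero, zero_smul, zero_add]

/-- `Cir.sgm_closed` with `F (w, t) = geo w.1.1 t`, and `eventually_const_of_dx`. -/
theorem BC.ar_const (h : BC e D) {η : RF h.DM} (hη : Fm 2 η) (hc : dx η = 0) {Z : FS}
    {k : Z → X2 e D} {u : Z} (hk : h.DY.P ⟨Z, k, u⟩) : ∀ᶠ z in 𝓝 u,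
      h.ar η (ev (k z).1.1) (vel e (k z).1.1) (k z).1.2 =
        h.ar η (ev (k u).1.1) (vel e (k u).1.1) (k u).1.2 := by
  have hF : Smo h.DY.ext h.DM fun p => geo e p.1.1.1 p.2 := h.smo_geo.comp h.smo_fst2.ext
  have hg : ∀ (w : X2 e D) (s t : ℝ), geo e (h.rt2 (w, s)).1.1 t =
      e (ev w.1.1) (t • (Real.cos s • vel e w.1.1 + Real.sin s • w.1.2)) := fun w s t =>
    geo_mk h _ _ (norm_rot (h.norm_vel _) w.2.norm w.2.orth _) t
  obtain ⟨g1, g2⟩ := h.cir2.sgm_closed (b := D) hη hc hF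
    (fun w s => by rw [h.geo_zero, h.geo_zero]; rfl)
    (fun w s => (hg w s D).trans (w.2.link_rot h (h.norm_vel _) s))
  have h1 := eventually_const_of_dx g1 g2 hk
  simp only [hg] at h1
  exact h1

/-- The inner integral. -/
def rota_in {𝒟 : Dif M} (η : RF 𝒟) (G : ℝ × ℝ → M) (b s : ℝ) : ℝ :=
  ∫ t in (0 : ℝ)..b, evl (Z := FS.line.ext) [(0, 1), (1, 0)] (loc η FS.line.ext G (s, t))

omit [MetricSpace M] [CompactSpace M] in
theorem rota_aff {𝒟 : Dif M} {η : RF 𝒟} (hη : Fm 2 η) {G : ℝ × ℝ → M}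
    (hG : ∀ q, 𝒟.P ⟨FS.line.ext, G, q⟩) (c a b s : ℝ) :
    rota_in η (fun p => G (c * p.1 + a, p.2)) b s = c * rota_in η G b (c * s + a) := by
  rw [rota_in, rota_in, ← intervalIntegral.integral_const_mul]
  refine intervalIntegral.integral_congr fun t _ => ?_
  set B : FS.line.ext →L[ℝ] FS.line.ext :=
    (c • ContinuousLinearMap.id ℝ ℝ).prodMap (ContinuousLinearMap.id ℝ ℝ) with hB
  have hg : HasFDerivAt (fun p : FS.line.ext => ((c * p.1 + a, p.2) : FS.line.ext)) B (s, t) :=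
    (((hasFDerivAt_id s).const_smul c).add_const a).prodMap (p := (s, t)) (hasFDerivAt_id t)
  have hs : ContDiff ℝ ∞ fun p : ℝ × ℝ => ((c * p.1 + a, p.2) : ℝ × ℝ) := by fun_prop
  have e := hη.loc_comp (Z := FS.line.ext) (f := G) (W := FS.line.ext)
    (g := fun p : ℝ × ℝ => ((c * p.1 + a, p.2) : ℝ × ℝ)) (w := (s, t)) (hG _)
    (sg_of_contDiff hs _)
  rw [hg.fderiv] at e
  refine (congrArg (evl (Z := FS.line.ext) [(0, 1), (1, 0)]) e).trans ?_
  have b1 : B (0, 1) = (0, 1) := by simp [hB]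
  have b2 : B (1, 0) = c • ((1, 0) : ℝ × ℝ) := by simp [hB]
  rw [evl_pb]
  simp only [List.map, evl, b1, b2]
  rw [ct_smul, map_smul, smul_eq_mul]

theorem rota_plot (h : BC e D) (x : M) (v ν : Eu n) (q : ℝ × ℝ) : h.DM.P ⟨FS.line.ext,
    fun p => e x (p.2 • (Real.cos p.1 • v + Real.sin p.1 • ν)), q⟩ :=
  h.smo_exp0 x ⟨FS.line.ext, fun p : ℝ × ℝ => p.2 • (Real.cos p.1 • v + Real.sin p.1 • ν), q⟩
    (sg_of_contDiff (by fun_prop) _)

theorem rota_per (h : BC e D) {η : RF h.DM} (hη : Fm 2 η) (x : M) (v ν : Eu n) (b : ℝ) :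
    Function.Periodic (rota_in η (fun p => e x (p.2 • (Real.cos p.1 • v + Real.sin p.1 • ν))) b)
      (2 * Real.pi) := fun s => by
  have h1 := rota_aff hη (rota_plot h x v ν) 1 (2 * Real.pi) b s
  simp only [one_mul, Real.cos_add_two_pi, Real.sin_add_two_pi] at h1
  exact h1.symm

/-- Naturality for the linear map `(s, t) ↦ (-s, t)`, then periodicity in `s` (naturality for
the translation by `2 π`). -/
theorem BC.ar_neg (h : BC e D) {η : RF h.DM} (hη : Fm 2 η) (x : M) (v ν : Eu n) :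
    h.ar η x v (-ν) = -h.ar η x v ν := by
  have h1 := fun s => rota_aff hη (rota_plot h x v ν) (-1) 0 D s
  simp only [neg_one_mul, add_zero, Real.cos_neg, Real.sin_neg, neg_smul, ← smul_neg] at h1
  have h2 := (rota_per h hη x v ν D).intervalIntegral_add_eq (-(2 * Real.pi)) 0
  rw [neg_add_cancel, zero_add] at h2
  refine (intervalIntegral.integral_congr fun s _ => h1 s).trans ?_
  rw [intervalIntegral.integral_neg, intervalIntegral.integral_comp_neg, neg_zero, h2]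
  rfl

/-- Translation in `s` and periodicity. -/
theorem BC.ar_rot (h : BC e D) {η : RF h.DM} (hη : Fm 2 η) (x : M) (v ν : Eu n) (t : ℝ) :
    h.ar η x (Real.cos t • v + Real.sin t • ν) (-Real.sin t • v + Real.cos t • ν) =
      h.ar η x v ν := by
  have h1 := fun s => rota_aff hη (rota_plot h x v ν) 1 t D s
  have h0 : ∀ s : ℝ, Real.cos (s + t) • v + Real.sin (s + t) • ν =
      Real.cos s • (Real.cos t • v + Real.sin t • ν) +
        Real.sin s • (-Real.sin t • v + Real.cos t • ν) := fun s => by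
    rw [Real.cos_add, Real.sin_add]
    module
  simp only [one_mul, h0] at h1
  have h2 := (rota_per h hη x v ν D).intervalIntegral_add_eq t 0
  rw [zero_add] at h2
  refine (intervalIntegral.integral_congr fun s _ => h1 s).trans ?_
  rw [intervalIntegral.integral_comp_add_right, zero_add, add_comm _ t, h2]
  rfl

end Vale.Agent.P231C
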