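import Vale.Agent.P231C.SecA
import Vale.Agent.P231C.RotA

/-! The curvature form in polar coordinates at the base point. -/

open scoped ContDiff Topology
open Filter Set MeasureTheory

noncomputable section

namespace Vale.Agent.P231C

open Vale.Agent.P234 Vale.Agent.P231

variable {M : Type*} [MetricSpace M] [CompactSpace M] {n : ℕ} {e : M → Eu n → M} {D : ℝ}
variable {p₀ : M} {J₀ : Eu n → Eu n} {o : Eu n} {h : BC e D} {η : RF h.DM}

/-- `Curv.eq`, `Base.PP_exp`, `prj_self`. -/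
theorem Base.loc_eta (hB : Base e D p₀ J₀) (ho : ‖o‖ = 1)
    (hη : Curv h.DM (ii n) (PP e D p₀ o J₀) η) {Z : FS} {A : Z → Eu n} {u : Z} (hA : Sg A u)
    (h1 : ∀ᶠ z in 𝓝 u, ‖A z‖ ≤ D) :
    loc η Z (fun z => e p₀ (A z)) u = dd (cn (ii n) fun z => sec D o J₀ (A z)) u := by
  refine hη.eq Z _ u _ (h.smo_exp0 p₀ ⟨Z, A, u⟩ hA)
    (hA.mono fun z hz => (hB.toGC.contDiff_sec h.dpos o).contDiffAt.comp z hz) ?_
  filter_upwards [h1] with z hz
  have h2 := hB.toGC.norm_sec h.dpos ho (A z)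
  refine ⟨h2, ?_⟩
  rw [hB.PP_exp h o hz]
  simpa using prj_self (cx_ii n) h2 1 0

theorem kapa_ang (D : ℝ) : ContDiff ℝ ∞ (ang D) :=
  contDiff_const.mul (Real.smoothTransition.contDiff.comp
    (((contDiff_const.mul contDiff_id).div_const D).sub contDiff_const))

theorem kapa_zero (D : ℝ) : ang D 0 = 0 := by
  rw [ang, Real.smoothTransition.zero_of_nonpos (by simp), mul_zero]

theorem kapa_one {D : ℝ} (hD : 0 < D) : Real.sin (ang D D) = 1 := by
  rw [ang, Real.smoothTransition.one_of_one_le (by rw [mul_div_assoc, div_self hD.ne']; norm_num),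
    mul_one, Real.sin_pi_div_two]

omit [CompactSpace M] in
/-- `GC.sec_smul`, `ii_apply`, `PiLp.inner_apply`; differentiate `⟪J₀ v, v⟫ = 0`. -/
theorem GC.cn_sec (hJ : GC (n := n) J₀) (hD : 0 < D) (o : Eu n) {Z : FS} {t : Z → ℝ}
    {v : Z → Eu n} {u : Z} (ht : DifferentiableAt ℝ t u) (hv : DifferentiableAt ℝ v u)
    (h0 : 0 < t u) (h1 : ∀ᶠ z in 𝓝 u, ‖v z‖ = 1) :
    cn (ii n) (fun z => sec D o J₀ (t z • v z)) u =
      io (((2 * Real.pi)⁻¹ * Real.sin (ang D (t u)) ^ 2) •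
        (innerSL ℝ (J₀ (v u))).comp (fderiv ℝ v u)) := by
  have hs : DifferentiableAt ℝ (fun z => sec D o J₀ (t z • v z)) u :=
    ((hJ.contDiff_sec hD o).differentiable (by simp) _).comp u (ht.smul hv)
  have he : ∀ᶠ z in 𝓝 u, sec D o J₀ (t z • v z) = WithLp.toLp 2 ![Real.cos (ang D (t z)) • o, 0,
      (Real.sin (ang D (t z)) / √2) • v z, -(Real.sin (ang D (t z)) / √2) • J₀ (v z)] := by
    filter_upwards [h1, ht.continuousAt.eventually (lt_mem_nhds h0)] with z h2 h3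
    exact hJ.sec_smul hD o h2 h3.le
  have hv0 : v u ≠ 0 := by
    rw [← norm_ne_zero_iff, h1.self_of_nhds]
    exact one_ne_zero
  have hw : DifferentiableAt ℝ (fun z => J₀ (v z)) u :=
    ((hJ.sm _ hv0).differentiableAt (by simp)).comp u hv
  have hb : DifferentiableAt ℝ (fun z => Real.sin (ang D (t z)) / √2) u :=
    (((kapa_ang D).sin.div_const √2).differentiable (by simp) _).comp u ht
  have hc : ∀ (i : Fin 4) {g : Z → Eu n} {L : Z →L[ℝ] Eu n}, HasFDerivAt g L u →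
      (∀ᶠ z in 𝓝 u, sec D o J₀ (t z • v z) i = g z) → ∀ x,
      fderiv ℝ (fun z => sec D o J₀ (t z • v z)) u x i = L x := fun i g L hg h2 x =>
    congrArg (fun T : Z →L[ℝ] Eu n => T x)
      (((PiLp.proj 2 (fun _ : Fin 4 => Eu n) i : VV n →L[ℝ] Eu n).hasFDerivAt.comp u
        hs.hasFDerivAt).unique (hg.congr_of_eventuallyEq h2))
  have c1 := hc 1 (hasFDerivAt_const (0 : Eu n) u) (he.mono fun z hz => by rw [hz]; rfl)
  have c2 := hc 2 (hb.hasFDerivAt.smul hv.hasFDerivAt) (he.mono fun z hz => by rw [hz]; rfl)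
  have c3 := hc 3 (hb.hasFDerivAt.neg.smul hw.hasFDerivAt) (he.mono fun z hz => by rw [hz]; rfl)
  have ho : ∀ x, inner ℝ (J₀ (v u)) (fderiv ℝ v u x) +
      inner ℝ (fderiv ℝ (fun z => J₀ (v z)) u x) (v u) = 0 := fun x => by
    rw [← fderiv_inner_apply ℝ hw hv]
    have : (fun z => inner ℝ (J₀ (v z)) (v z)) = fun _ => (0 : ℝ) := funext fun z => hJ.orth _
    rw [this]
    simp
  unfold cn
  congr 1
  ext x
  have h2 : inner ℝ (J₀ (v u)) (v u) = (0 : ℝ) := hJ.orth _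
  have h3 : inner ℝ (v u) (J₀ (v u)) = (0 : ℝ) := by rw [real_inner_comm]; exact h2
  have h4 : (√2 : ℝ) ^ 2 = 2 := Real.sq_sqrt two_pos.le
  have h5 := ho x
  rw [real_inner_comm (v u)] at h5
  have key : inner ℝ (ii n (sec D o J₀ (t u • v u)))
      (fderiv ℝ (fun z => sec D o J₀ (t z • v z)) u x) =
      Real.sin (ang D (t u)) ^ 2 * inner ℝ (J₀ (v u)) (fderiv ℝ v u x) := by
    rw [ii_apply, PiLp.inner_apply, Fin.sum_univ_four, c1, c2, c3, he.self_of_nhds]
    simp only [Matrix.cons_val_zero, Matrix.cons_val_one, Matrix.cons_val, neg_zero,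
      inner_zero_left, ContinuousLinearMap.zero_apply, inner_zero_right,
      ContinuousLinearMap.add_apply, ContinuousLinearMap.smul_apply,
      ContinuousLinearMap.smulRight_apply, ContinuousLinearMap.neg_apply, Pi.neg_apply,
      neg_smul, neg_neg, inner_add_right, inner_neg_right, real_inner_smul_left,
      real_inner_smul_right, h2, h3]
    rw [eq_neg_of_add_eq_zero_right h5]
    field_simp
    rw [h4]
    ring
  simp only [ContinuousLinearMap.smul_apply, ContinuousLinearMap.comp_apply, innerSL_apply_apply,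
    smul_eq_mul, key, mul_assoc]

theorem Base.pull_q (hB : Base e D p₀ J₀) (ho : ‖o‖ = 1)
    (hη : Curv h.DM (ii n) (PP e D p₀ o J₀) η)
    (hq : Smo (DS n) h.DM fun s => ev (h.fl (h.i0 p₀ s, 2 * D / 2))) :
    pull hq η = dx (thJ (n := n) J₀) := by
  refine rf_ext fun Z f u hf => ?_
  have hD := h.dpos
  have e1 : (fun z => ev (h.fl (h.i0 p₀ (f z), 2 * D / 2))) = fun z => e p₀ (D • (f z).1) :=
    funext fun z => by
      rw [ev_fl, BC.i0, geo_mk, mul_div_cancel_left₀ D two_ne_zero]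
  have hf' : Sg (fun z => (f z).1) u := hf
  rw [loc_pull hq η hf, e1, loc_dx _ hf, hB.loc_eta ho hη (A := fun z => D • (f z).1)
    (hf'.mono fun z hz => hz.const_smul D) (Eventually.of_forall fun z => by
      rw [norm_smul, (f z).2, mul_one, Real.norm_of_nonneg hD.le])]
  refine dd_congr ?_
  filter_upwards [(DS n).ev hf, hf'] with z h1 h2
  rw [thJ, loc_smul, loc_ip _ _ h1, hB.toGC.cn_sec hD o (t := fun _ => D) (v := fun z => (f z).1)
    (differentiableAt_const _) (h2.differentiableAt (by simp)) hD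
    (Eventually.of_forall fun z => (f z).2), kapa_one hD, one_pow, mul_one, map_smul]

/-- For `0 < t < D` the integrand is `(2 π)⁻¹ * deriv (fun t => sin (ang D t) ^ 2) t`
(`evl_dd_io`, `GC.rot`). -/
theorem Base.ar_eq (hB : Base e D p₀ J₀) (ho : ‖o‖ = 1)
    (hη : Curv h.DM (ii n) (PP e D p₀ o J₀) η) {v : Eu n} (hv : ‖v‖ = 1) :
    h.ar η p₀ v (J₀ v) = 1 := by
  have hD := h.dpos
  have hg : ContDiff ℝ ∞ fun t => (2 * Real.pi)⁻¹ * Real.sin (ang D t) ^ 2 :=
    contDiff_const.mul ((kapa_ang D).sin.pow 2)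
  have hw : ContDiff ℝ ∞ fun p : ℝ × ℝ => Real.cos p.1 • v + Real.sin p.1 • J₀ v := by fun_prop
  have hn : ∀ s : ℝ, ‖Real.cos s • v + Real.sin s • J₀ v‖ = 1 := fun s =>
    (hB.toGC.norm_rot v s).trans hv
  have hd : ∀ p x : ℝ × ℝ, fderiv ℝ (fun p : ℝ × ℝ => Real.cos p.1 • v + Real.sin p.1 • J₀ v) p x =
      x.1 • J₀ (Real.cos p.1 • v + Real.sin p.1 • J₀ v) := fun p x => by
    have h1 := ((Real.hasDerivAt_cos p.1).smul_const v).add
      ((Real.hasDerivAt_sin p.1).smul_const (J₀ v))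
    have h2 := h1.hasFDerivAt.comp p (hasFDerivAt_fst (𝕜 := ℝ) (p := p))
    rw [hB.rot]
    exact congrArg (fun T : ℝ × ℝ →L[ℝ] Eu n => T x) h2.fderiv
  have key : ∀ s : ℝ, ∀ t ∈ Ioo 0 D, evl (Z := FS.line.ext) [(0, 1), (1, 0)] (loc η FS.line.ext
      (fun p => e p₀ (p.2 • (Real.cos p.1 • v + Real.sin p.1 • J₀ v))) (s, t)) =
      deriv (fun t => (2 * Real.pi)⁻¹ * Real.sin (ang D t) ^ 2) t := fun s t ht => by
    have h1 : ∀ᶠ z : ℝ × ℝ in 𝓝 (s, t), z.2 ∈ Ioo 0 D :=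
      continuous_snd.continuousAt.eventually (isOpen_Ioo.mem_nhds ht)
    rw [hB.loc_eta ho hη (Z := FS.line.ext)
      (A := fun p : ℝ × ℝ => p.2 • (Real.cos p.1 • v + Real.sin p.1 • J₀ v))
      (Eventually.of_forall fun z => (contDiff_snd.smul hw).contDiffAt) (h1.mono fun z hz => by
        rw [norm_smul, hn, mul_one, Real.norm_of_nonneg hz.1.le]; exact hz.2.le)]
    have h2 : cn (ii n) (Z := FS.line.ext) (fun p : ℝ × ℝ =>
        sec D o J₀ (p.2 • (Real.cos p.1 • v + Real.sin p.1 • J₀ v))) =ᶠ[𝓝 (s, t)]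
        fun z : ℝ × ℝ => ((2 * Real.pi)⁻¹ * Real.sin (ang D z.2) ^ 2) •
          io (Z := FS.line.ext) (ContinuousLinearMap.fst ℝ ℝ ℝ) := by
      filter_upwards [h1] with z hz
      rw [hB.toGC.cn_sec hD o (Z := FS.line.ext) (t := fun p : ℝ × ℝ => p.2)
        (v := fun p : ℝ × ℝ => Real.cos p.1 • v + Real.sin p.1 • J₀ v) differentiableAt_snd
        (hw.differentiable (by simp) z) hz.1 (Eventually.of_forall fun z => hn _), map_smul]
      congr 2
      refine ContinuousLinearMap.ext fun x => ?_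
      rw [ContinuousLinearMap.comp_apply, innerSL_apply_apply, hd, real_inner_smul_right,
        real_inner_self_eq_norm_sq, hB.norm, hn, one_pow, mul_one]
      rfl
    have h3 := ((hg.differentiable (by simp) t).hasDerivAt.hasFDerivAt.comp (s, t)
      (hasFDerivAt_snd (𝕜 := ℝ) (p := (s, t))))
    rw [dd_congr h2, dd_fun_smul (Z := FS.line.ext)
      (f := fun z : ℝ × ℝ => (2 * Real.pi)⁻¹ * Real.sin (ang D z.2) ^ 2) h3.differentiableAt
      (differentiableAt_const _), dd_const, smul_zero, add_zero, evl_io_io]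
    have h4 : fderiv ℝ (fun z : ℝ × ℝ => (2 * Real.pi)⁻¹ * Real.sin (ang D z.2) ^ 2) (s, t) = _ :=
      h3.fderiv
    rw [h4]
    simp
  have e1 : ∀ s : ℝ, ∫ t in (0 : ℝ)..D, evl (Z := FS.line.ext) [(0, 1), (1, 0)] (loc η FS.line.ext
      (fun p => e p₀ (p.2 • (Real.cos p.1 • v + Real.sin p.1 • J₀ v))) (s, t)) =
      (2 * Real.pi)⁻¹ := fun s => by
    rw [intervalIntegral.integral_congr_Ioo_of_le hD.le (key s),
      intervalIntegral.integral_deriv_eq_sub (fun x _ => hg.differentiable (by simp) x)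
        ((hg.continuous_deriv (by simp)).intervalIntegrable _ _), kapa_one hD, kapa_zero]
    simp
  rw [BC.ar, sgm]
  simp only [e1, intervalIntegral.integral_const, sub_zero, smul_eq_mul]
  exact mul_inv_cancel₀ Real.two_pi_pos.ne'

theorem Base.hol_i0 (hB : Base e D p₀ J₀) (h : BC e D) (ho : ‖o‖ = 1) (s : Sp n) :
    Hl (ii n) (PP e D p₀ o J₀) (fun t => ev (h.fl (h.i0 p₀ s, t))) (2 * D) (1 / 2) := by
  have e1 : (fun t => ev (h.fl (h.i0 p₀ s, t))) = fun t : ℝ => e p₀ (t • s.1) :=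
    funext fun t => by rw [ev_fl, BC.i0, geo_mk]
  rw [e1]
  exact hB.hol h ho s.2

end Vale.Agent.P231C
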