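import Vale.Agent.P231C.DifC

/-! Smooth kernels; orientation of line fields. -/

open scoped ContDiff Topology
open Filter Set

noncomputable section

namespace Vale.Agent.P231C

variable {V : Type*} [NormedAddCommGroup V] [InnerProductSpace ℝ V] [FiniteDimensional ℝ V]

/-- Let `μ ≠ 0` be orthogonal to the range of `A z₀`. Then `B z = A z + (innerSL k₀).smulRight μ`
is invertible near `z₀`, and `k z = ‖k₀‖ ^ 2 • (B z).inverse μ` works: if `κ` spans the kernel of
`A z` then `B z κ = ⟪k₀, κ⟫ • μ`. -/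
theorem smooth_ker {Z : Type*} [NormedAddCommGroup Z] [NormedSpace ℝ Z] {A : Z → V →L[ℝ] V}
    {z₀ : Z} (hA : Sg A z₀)
    (hk : ∀ᶠ z in 𝓝 z₀, Module.finrank ℝ (LinearMap.ker (A z).toLinearMap) = 1) {k₀ : V}
    (h0 : k₀ ≠ 0) (h1 : A z₀ k₀ = 0) :
    ∃ k : Z → V, k z₀ = k₀ ∧ Sg k z₀ ∧ ∀ᶠ z in 𝓝 z₀, k z ≠ 0 ∧ A z (k z) = 0 := by
  have hr : LinearMap.range (A z₀).toLinearMap ≠ ⊤ := fun h => by
    have := LinearMap.ker_eq_bot_iff_range_eq_top.2 h
    exact h0 (LinearMap.ker_eq_bot'.1 this k₀ h1)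
  obtain ⟨μ, hμ, hμ0⟩ := Submodule.exists_mem_ne_zero_of_ne_bot
    (mt Submodule.orthogonal_eq_bot_iff.1 hr)
  obtain ⟨B, hB⟩ : ∃ B : Z → V →L[ℝ] V, B = fun z => A z + (innerSL ℝ k₀).smulRight μ := ⟨_, rfl⟩
  have hBv : ∀ z v, B z v = A z v + inner ℝ k₀ v • μ := fun z v => by rw [hB]; rfl
  have hinj : LinearMap.ker (B z₀).toLinearMap = ⊥ := by
    refine LinearMap.ker_eq_bot'.2 fun v hv => ?_
    have a1 : A z₀ v + inner ℝ k₀ v • μ = 0 := (hBv z₀ v).symm.trans hv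
    have a2 := congrArg (fun u => inner ℝ u μ) a1
    have a3 : inner ℝ (A z₀ v) μ = 0 := hμ _ ⟨v, rfl⟩
    simp only [inner_add_left, real_inner_smul_left, inner_zero_left, a3, zero_add] at a2
    have a4 : inner ℝ k₀ v = 0 := (mul_eq_zero.1 a2).resolve_right (inner_self_ne_zero.2 hμ0)
    rw [a4, zero_smul, add_zero] at a1
    obtain ⟨c, hc⟩ := (finrank_eq_one_iff_of_nonzero'
      (⟨k₀, h1⟩ : LinearMap.ker (A z₀).toLinearMap)
      (fun h => h0 (congrArg Subtype.val h))).1 hk.self_of_nhds ⟨v, a1⟩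
    have a5 : c • k₀ = v := congrArg Subtype.val hc
    rw [← a5, real_inner_smul_right] at a4
    rw [← a5, (mul_eq_zero.1 a4).resolve_right (inner_self_ne_zero.2 h0), zero_smul]
  have hi0 : (B z₀).IsInvertible :=
    ⟨ContinuousLinearEquiv.ofBijective (B z₀) hinj
      (LinearMap.ker_eq_bot_iff_range_eq_top.1 hinj), rfl⟩
  have hBs : Sg B z₀ := hA.mono fun z hz => by rw [hB]; exact hz.add contDiffAt_const
  have hi : ∀ᶠ z in 𝓝 z₀, (B z).IsInvertible :=
    hBs.self_of_nhds.continuousAt.eventually (ContinuousLinearEquiv.isOpen.mem_nhds hi0)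
  refine ⟨fun z => (B z).inverse (inner ℝ k₀ k₀ • μ), ?_, ?_, ?_⟩
  · rw [hi0.inverse_apply_eq, hBv, h1, zero_add]
  · filter_upwards [hBs, hi] with z h2 h3
    exact (h3.contDiffAt_map_inverse.comp z h2).clm_apply contDiffAt_const
  · filter_upwards [hk, hi] with z h2 h3
    obtain ⟨κ, hκ, -⟩ := finrank_eq_one_iff'.1 h2
    have a1 : A z κ.1 = 0 := κ.2
    have a2 : κ.1 ≠ 0 := fun h => hκ (Subtype.ext h)
    have a3 : inner ℝ k₀ κ.1 ≠ 0 := fun h => a2 (by
      have a4 : (B z).inverse 0 = κ.1 := by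
        rw [h3.inverse_apply_eq, hBv, a1, h, zero_smul, add_zero]
      rw [← a4, map_zero])
    have a4 : (B z).inverse (inner ℝ k₀ k₀ • μ) = (inner ℝ k₀ k₀ / inner ℝ k₀ κ.1) • κ.1 := by
      rw [h3.inverse_apply_eq, map_smul, hBv, a1, zero_add, smul_smul, div_mul_cancel₀ _ a3]
    rw [a4, map_smul, a1, smul_zero]
    exact ⟨smul_ne_zero (div_ne_zero (inner_self_ne_zero.2 h0) a3) a2, rfl⟩

omit [FiniteDimensional ℝ V] in
theorem oria_cov : IsCoveringMap (Quotient.mk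
    (MulAction.orbitRel (Metric.sphere (0 : ℝ) 1) (Metric.sphere (0 : V) 1))) := by
  refine IsQuotientCoveringMap.isCoveringMap _ (Metric.sphere (0 : ℝ) 1)
    { toIsQuotientMap := isQuotientMap_quotient_mk'
      toContinuousConstSMul := inferInstance
      apply_eq_iff_mem_orbit := Quotient.eq''
      disjoint := fun e => ⟨{x | 0 < inner ℝ e.1 x.1}, ?_, ?_⟩ }
  · refine (isOpen_lt continuous_const (by fun_prop)).mem_nhds ?_
    show 0 < inner ℝ e.1 e.1
    rw [real_inner_self_eq_norm_sq, norm_eq_of_mem_sphere]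
    norm_num
  · rintro g ⟨_, ⟨x, hx, rfl⟩, h⟩
    have a1 : 0 < inner ℝ e.1 (g.1 • x.1) := h
    have a2 : 0 < inner ℝ e.1 x.1 := hx
    rw [real_inner_smul_right] at a1
    have a3 := norm_eq_of_mem_sphere g
    rw [Real.norm_eq_abs, abs_of_pos ((mul_pos_iff_of_pos_right a2).1 a1)] at a3
    exact Subtype.ext a3

/-- Orientation on a star convex open set. One way: the set of `(w, s)`, `s = ± 1` with the
topology making local sections continuous is a covering; a direct way: for `w ∈ U` consider the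
segment from `o` to `w`; by compactness (Lebesgue number) there is a unique sign function `ε w`
on `[0, 1]` with `ε w 0 = 1` and `t ↦ ε w t • ν (o + t • (w - o))` continuous; the set of `t`
such that `w' ↦ ε w' t • ν (o + t • (w' - o))` is continuous at `w` is open and closed. Or use
`IsCoveringMap.existsUnique_continuousMap_lifts` with `StarConvex.contractibleSpace`. -/
theorem orient_star {U : Set V} (hU : IsOpen U) {o : V} (ho : o ∈ U) (hs : StarConvex ℝ o U)
    {ν : V → V} (hn : ∀ w ∈ U, ‖ν w‖ = 1)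
    (hl : ∀ w ∈ U, ∃ k : V → V, ∀ᶠ w' in 𝓝 w, ContinuousAt k w' ∧ (k w' = ν w' ∨ k w' = -ν w')) :
    ∃ μ : V → V, ∀ w ∈ U, ContinuousAt μ w ∧ (μ w = ν w ∨ μ w = -ν w) := by
  classical
  have := hs.contractibleSpace ⟨o, ho⟩
  have := hU.locallyPathConnectedSpace
  obtain ⟨n, hn'⟩ : ∃ n : U → Metric.sphere (0 : V) 1, ∀ w, (n w).1 = ν w :=
    ⟨fun w => ⟨ν w, mem_sphere_zero_iff_norm.2 (hn _ w.2)⟩, fun _ => rfl⟩
  have hf : Continuous fun w => Quotient.mk
      (MulAction.orbitRel (Metric.sphere (0 : ℝ) 1) (Metric.sphere (0 : V) 1)) (n w) := by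
    refine continuous_iff_continuousAt.2 fun w => ?_
    obtain ⟨k, hk⟩ := hl _ w.2
    have a1 : ContinuousAt (fun w' : U => if k w' = ν w' then n w' else -n w') w := by
      rw [Topology.IsInducing.subtypeVal.continuousAt_iff]
      refine (hk.self_of_nhds.1.comp continuousAt_subtype_val).congr ?_
      filter_upwards [continuousAt_subtype_val.eventually hk] with w' hw
      simp only [Function.comp_apply]
      split_ifs with h
      · rw [h, hn']
      · rw [hw.2.resolve_left h, coe_neg_sphere, hn']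
    refine (continuous_quotient_mk'.continuousAt.comp a1).congr (Eventually.of_forall fun w' => ?_)
    simp only [Function.comp_apply]
    split_ifs with h
    · rfl
    · exact Quotient.sound ⟨⟨-1, by simp⟩, Subtype.ext (neg_one_smul ℝ (n w').1)⟩
  obtain ⟨F, ⟨-, hF⟩, -⟩ := oria_cov.existsUnique_continuousMap_lifts ⟨_, hf⟩ ⟨o, ho⟩
    (n ⟨o, ho⟩) rfl
  refine ⟨fun w => if h : w ∈ U then (F ⟨w, h⟩).1 else 0, fun w hw => ⟨?_, ?_⟩⟩
  · refine ContinuousOn.continuousAt ?_ (hU.mem_nhds hw)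
    rw [continuousOn_iff_continuous_domRestrict]
    refine (continuous_subtype_val.comp F.continuous).congr fun w' => ?_
    simp only [Function.comp_apply, Set.domRestrict_apply, dif_pos w'.2]
  · obtain ⟨g, hg⟩ := Quotient.exact (congrFun hF ⟨w, hw⟩)
    have a1 : g.1 • (n ⟨w, hw⟩).1 = (F ⟨w, hw⟩).1 := congrArg Subtype.val hg
    have a3 := norm_eq_of_mem_sphere g
    rw [Real.norm_eq_abs, abs_eq zero_le_one] at a3
    simp only [dif_pos hw]
    rw [← a1, hn']
    rcases a3 with h | h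
    · left; rw [h, one_smul]
    · right; rw [h, neg_one_smul]

omit [FiniteDimensional ℝ V] in
theorem oria_loc {μ k : V → V} {w : V} (hμ : ContinuousAt μ w) (hk : ContinuousAt k w)
    (h0 : μ w = k w) (h : ∀ᶠ w' in 𝓝 w, ‖k w'‖ = 1 ∧ (μ w' = k w' ∨ μ w' = -k w')) :
    μ =ᶠ[𝓝 w] k := by
  have a1 : ∀ᶠ w' in 𝓝 w, ‖μ w' - k w'‖ < 1 :=
    (hμ.sub hk).norm.eventually (gt_mem_nhds (by simp [h0]))
  filter_upwards [a1, h] with w' h1 h2
  refine h2.2.resolve_right fun h3 => ?_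
  rw [h3, ← neg_add', norm_neg, ← two_smul ℝ, norm_smul, h2.1] at h1
  norm_num at h1

theorem oria_ray {a : V} (ha : a ≠ 0) {ν : V → V} (hn : ∀ w, w ≠ 0 → ‖ν w‖ = 1)
    (hl : ∀ w, w ≠ 0 → ∃ k : V → V, Sg k w ∧ ∀ᶠ w' in 𝓝 w, k w' = ν w' ∨ k w' = -ν w') :
    ∃ U : Set V, IsOpen U ∧ (∀ w, w ∈ U ↔ ∀ t : ℝ, 0 ≤ t → w ≠ t • a) ∧
      ∃ μ : V → V, ∀ w ∈ U, ContinuousAt μ w ∧ (μ w = ν w ∨ μ w = -ν w) := by
  have hU : IsOpen ((fun t : ℝ => t • a) '' Ici 0)ᶜ :=
    ((isClosedEmbedding_smul_left ha).isClosedMap _ isClosed_Ici).isOpen_compl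
  have hm : ∀ w, w ∈ ((fun t : ℝ => t • a) '' Ici 0)ᶜ ↔ ∀ t : ℝ, 0 ≤ t → w ≠ t • a := fun w =>
    ⟨fun h t ht e => h ⟨t, ht, e.symm⟩, fun h ⟨t, ht, e⟩ => h t ht e.symm⟩
  have h0 : ∀ w ∈ ((fun t : ℝ => t • a) '' Ici 0)ᶜ, w ≠ 0 := fun w hw => by
    have := (hm w).1 hw 0 le_rfl
    rwa [zero_smul] at this
  have h1 : ∀ t : ℝ, 0 ≤ t → (t + 1) • a ≠ 0 := fun t ht => smul_ne_zero (by linarith) ha
  refine ⟨_, hU, hm, orient_star hU (o := -a) ?_ ?_ (fun w hw => hn w (h0 w hw)) fun w hw => ?_⟩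
  · refine (hm _).2 fun t ht e => h1 t ht ?_
    rw [add_smul, one_smul, ← e, neg_add_cancel]
  · intro y hy α β hα hβ hab
    refine (hm _).2 fun t ht e => ?_
    have e1 : β • y = (t + α) • a := by
      rw [add_smul, ← e, smul_neg]; abel
    rcases hβ.eq_or_lt with h | h
    · rw [← h, add_zero] at hab
      rw [← h, hab, zero_smul] at e1
      exact h1 t ht e1.symm
    · refine (hm _).1 hy (β⁻¹ * (t + α)) (by positivity) ?_
      rw [mul_smul, ← e1, smul_smul, inv_mul_cancel₀ h.ne', one_smul]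
  · obtain ⟨k, hk, hk'⟩ := hl w (h0 w hw)
    exact ⟨k, (hk.mono fun _ h => h.continuousAt).and hk'⟩

theorem oria_glob (h3 : 3 ≤ Module.finrank ℝ V) {ν : V → V} (hn : ∀ w, w ≠ 0 → ‖ν w‖ = 1)
    (hl : ∀ w, w ≠ 0 → ∃ k : V → V, Sg k w ∧ ∀ᶠ w' in 𝓝 w, k w' = ν w' ∨ k w' = -ν w') :
    ∃ μ : V → V, ∀ w, w ≠ 0 → ContinuousAt μ w ∧ (μ w = ν w ∨ μ w = -ν w) := by
  classical
  have : Nontrivial V := Module.nontrivial_of_finrank_pos (R := ℝ) (by omega)
  obtain ⟨a, ha⟩ := exists_ne (0 : V)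
  obtain ⟨U, hU, mU, μ, hμ⟩ := oria_ray ha hn hl
  obtain ⟨U', hU', mU', μ', hμ'⟩ := oria_ray (neg_ne_zero.2 ha) hn hl
  have e : U ∩ U' = ((Submodule.span ℝ {a} : Submodule ℝ V) : Set V)ᶜ := by
    ext w
    rw [mem_inter_iff, mU, mU', mem_compl_iff, SetLike.mem_coe, Submodule.mem_span_singleton]
    constructor
    · rintro ⟨h1, h2⟩ ⟨t, rfl⟩
      rcases le_total 0 t with h | h
      · exact h1 t h rfl
      · exact h2 (-t) (by linarith) (by rw [smul_neg, neg_smul, neg_neg])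
    · exact fun h => ⟨fun t _ e => h ⟨t, e.symm⟩,
        fun t _ e => h ⟨-t, by rw [e, smul_neg, neg_smul]⟩⟩
  have hc : IsPreconnected (U ∩ U') := by
    rw [e]
    refine (isConnected_compl_of_one_lt_codim ?_).2
    have a1 := Submodule.finrank_quotient_add_finrank (Submodule.span ℝ {a})
    rw [finrank_span_singleton ha] at a1
    rw [← Module.finrank_eq_rank]
    exact_mod_cast (by omega : 1 < Module.finrank ℝ (V ⧸ Submodule.span ℝ {a}))
  have h0 : ∀ w ∈ U, w ≠ 0 := fun w hw => by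
    have := (mU w).1 hw 0 le_rfl
    rwa [zero_smul] at this
  have h1 : ∀ w ∈ U, inner ℝ (ν w) (ν w) = 1 := fun w hw => by
    rw [real_inner_self_eq_norm_sq, hn w (h0 w hw), one_pow]
  have hs := hc.eq_one_or_eq_neg_one_of_sq_eq (f := fun w => inner ℝ (μ w) (μ' w))
    (fun w hw => ((hμ w hw.1).1.inner (hμ' w hw.2).1).continuousWithinAt) fun w hw => by
      have := h1 w hw.1
      rcases (hμ w hw.1).2 with h | h <;> rcases (hμ' w hw.2).2 with h' | h' <;>
        simp only [Pi.pow_apply, Pi.one_apply, h, h', inner_neg_left, inner_neg_right, this] <;>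
        norm_num
  obtain ⟨μ₂, h2, h2'⟩ : ∃ μ₂ : V → V, (∀ w ∈ U', ContinuousAt μ₂ w ∧
      (μ₂ w = ν w ∨ μ₂ w = -ν w)) ∧ ∀ w ∈ U ∩ U', μ w = μ₂ w := by
    rcases hs with hs | hs
    · refine ⟨μ', hμ', fun w hw => ?_⟩
      have a1 : inner ℝ (μ w) (μ' w) = 1 := hs hw
      have := h1 w hw.1
      rcases (hμ w hw.1).2 with h | h <;> rcases (hμ' w hw.2).2 with h' | h' <;>
        simp only [h, h', inner_neg_left, inner_neg_right, this] at a1 ⊢ <;> norm_num at a1
    · refine ⟨fun w => -μ' w, fun w hw => ⟨(hμ' w hw).1.neg, ?_⟩, fun w hw => ?_⟩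
      · rcases (hμ' w hw).2 with h | h
        · right; simp only [h]
        · left; simp only [h, neg_neg]
      · have a1 : inner ℝ (μ w) (μ' w) = -1 := hs hw
        have := h1 w hw.1
        rcases (hμ w hw.1).2 with h | h <;> rcases (hμ' w hw.2).2 with h' | h' <;>
          simp only [h, h', inner_neg_left, inner_neg_right, this, neg_neg] at a1 ⊢ <;>
          norm_num at a1
  refine ⟨fun w => if w ∈ U then μ w else μ₂ w, fun w hw => ?_⟩
  by_cases h : w ∈ U
  · refine ⟨(hμ w h).1.congr ?_, by simpa only [if_pos h] using (hμ w h).2⟩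
    filter_upwards [hU.mem_nhds h] with w' hw'
    rw [if_pos hw']
  · have h' : w ∈ U' := by
      rw [mU] at h
      push Not at h
      obtain ⟨t, ht, rfl⟩ := h
      refine (mU' _).2 fun s hs e => hw ?_
      have a1 : (t + s) • a = 0 := by rw [add_smul, e, smul_neg, neg_add_cancel]
      have a2 : t + s = 0 := (smul_eq_zero.1 a1).resolve_right ha
      rw [show t = 0 by linarith, zero_smul]
    refine ⟨(h2 w h').1.congr ?_, by simpa only [if_neg h] using (h2 w h').2⟩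
    filter_upwards [hU'.mem_nhds h'] with w' hw'
    split_ifs with h4
    · exact (h2' w' ⟨h4, hw'⟩).symm
    · rfl

/-- Cover `V ∖ 0` by the complements of two opposite closed rays; their intersection, the
complement of a line, is connected (`isConnected_compl_of_one_lt_codim`). A continuous choice
agrees locally with `k` or `-k`, so it is smooth. -/
theorem exists_orient (h3 : 3 ≤ Module.finrank ℝ V) {ν : V → V} (hn : ∀ w, w ≠ 0 → ‖ν w‖ = 1)
    (hl : ∀ w, w ≠ 0 → ∃ k : V → V, Sg k w ∧ ∀ᶠ w' in 𝓝 w, k w' = ν w' ∨ k w' = -ν w') :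
    ∃ μ : V → V, ∀ w, w ≠ 0 → ContDiffAt ℝ ∞ μ w ∧ (μ w = ν w ∨ μ w = -ν w) := by
  obtain ⟨μ, hμ⟩ := oria_glob h3 hn hl
  refine ⟨μ, fun w hw => ⟨?_, (hμ w hw).2⟩⟩
  obtain ⟨k, hk, hk'⟩ := hl w hw
  have a1 : ∀ᶠ w' in 𝓝 w, ‖k w'‖ = 1 ∧ (μ w' = k w' ∨ μ w' = -k w') := by
    filter_upwards [hk', isOpen_ne.mem_nhds hw] with w' h1 h2
    have := hn w' h2
    rcases h1 with h | h <;> rcases (hμ w' h2).2 with h' | h' <;> simp [h, h', this]
  have a2 := hk.self_of_nhds
  rcases a1.self_of_nhds.2 with h | h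
  · exact a2.congr_of_eventuallyEq (oria_loc (hμ w hw).1 a2.continuousAt h a1)
  · refine a2.neg.congr_of_eventuallyEq (oria_loc (hμ w hw).1 a2.neg.continuousAt h ?_)
    filter_upwards [a1] with w' h1
    rw [norm_neg, neg_neg]
    exact ⟨h1.1, h1.2.symm⟩

end Vale.Agent.P231C
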