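import Vale.Agent.P231C.VecA
import Vale.Agent.P231C.OriA

/-! The links are great circles. Tools: `Bl.link` (P231/ClB: the link is a sphere in a subspace
`W`), `Bl.gauss` (P231/GeoA) with `exists_line`, `h.kap1`. -/

open scoped ContDiff Topology
open Filter Set MeasureTheory

noncomputable section

namespace Vale.Agent.P231C

open Vale.Agent.P234 Vale.Agent.P231

variable {M : Type*} [MetricSpace M] [CompactSpace M] {n : ℕ} {e : M → Eu n → M} {D : ℝ}
variable {x : M} {v ν : Eu n}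

omit [CompactSpace M] in
theorem kera_norm (h : BC e D) (hv : ‖v‖ = 1) : ‖D • v‖ = D := by
  rw [norm_smul, hv, mul_one, Real.norm_of_nonneg h.dpos.le]

theorem kera_unit {a : Eu n} (ha : a ≠ 0) : ‖‖a‖⁻¹ • a‖ = 1 := norm_smul_inv_norm (𝕜 := ℝ) ha

theorem kera_W (h : BC e D) (x : M) (hv : ‖v‖ = 1) : ∃ W : Submodule ℝ (Eu n), v ∈ W ∧
    ∀ w, ‖w‖ = 1 → (e x (D • w) = e x (D • v) ↔ w ∈ W) := by
  obtain ⟨W, hW⟩ := h.toBl.link (p := e x (D • v)) (q := x)
    (by rw [dist_comm, h.min x _ (kera_norm h hv).le, kera_norm h hv])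
  have h1 : ∀ w, ‖w‖ = 1 → (e x (D • w) = e x (D • v) ↔ w ∈ W) := fun w hw => by
    have h2 := Set.ext_iff.1 hW (D • w)
    simp only [P231.Lk, mem_ofPred_eq, kera_norm h hw, true_and, and_true] at h2
    rw [h2, W.smul_mem_iff h.dpos.ne']
  exact ⟨W, (h1 v hv).1 rfl, h1⟩

theorem kera_const {V : Type*} [NormedAddCommGroup V] [NormedSpace ℝ V] {f : ℝ → V}
    (hf : ∀ᶠ t in 𝓝 (0 : ℝ), HasDerivAt f 0 t) : ∀ᶠ t in 𝓝 (0 : ℝ), f t = f 0 := by
  obtain ⟨ε, hε, h⟩ := Metric.eventually_nhds_iff_ball.1 hf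
  filter_upwards [Metric.ball_mem_nhds 0 hε] with t ht
  exact Metric.isOpen_ball.is_const_of_deriv_eq_zero (convex_ball _ _).isPreconnected
    (fun s hs => (h s hs).differentiableAt.differentiableWithinAt) (fun s hs => (h s hs).deriv) ht
    (Metric.mem_ball_self hε)

theorem kera_sm (h : BC e D) (x : M) {q : M} {a : Eu n} (hd : dist q (e x a) < D) :
    ContDiffAt ℝ ∞ (fun a => lg e q (e x a)) a :=
  (sm_exp h.toGeo x a).lg h.toGeo (h.toBl.sp hd)

/-- The kernel does not depend on the chart. -/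
theorem BC.ker_chart (h : BC e D) (x : M) (a : Eu n) {p : M} (hd : dist p (e x a) < D) (w : Eu n) :
    Lmap e x a p w = 0 ↔ Lmap e x a (e x a) w = 0 := by
  rw [h.Lmap_trans x a hd, ContinuousLinearMap.comp_apply]
  refine ⟨fun h1 => ?_, fun h1 => by rw [h1, map_zero]⟩
  rw [← h.Lmap_right hd (Lmap e x a (e x a) w), h1, map_zero]

theorem BC.ker_orth (h : BC e D) (hv : ‖v‖ = 1) {w : Eu n}
    (hw : Lmap e x (D • v) (e x (D • v)) w = 0) : inner ℝ w v = 0 := by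
  obtain ⟨γ, ρ, hl, rfl, h0⟩ := exists_line h.toGeo x hv
  obtain rfl := eq_of_heq h0
  have h1 := h.toBl.gauss hl 0 D w
  rw [hl.eq 0 D, sub_zero, hw, inner_zero_left] at h1
  exact h1.symm

/-- Differentiate along the great circle of `W`. -/
theorem Nrm.ker (hν : Nrm e D x v ν) (h : BC e D) (hv : ‖v‖ = 1) :
    Lmap e x (D • v) (e x (D • v)) ν = 0 := by
  obtain ⟨W, h0, hW⟩ := kera_W h x hv
  have h1 : HasDerivAt (fun t => D • (Real.cos t • v + Real.sin t • ν)) (D • ν) 0 :=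
    ((((Real.hasDerivAt_cos 0).smul_const v).add
      ((Real.hasDerivAt_sin 0).smul_const ν)).const_smul D).congr_deriv (by simp)
  have h2 := ((kera_sm h x (q := e x (D • v)) (a := D • v)
    (by rw [dist_self]; exact h.dpos)).differentiableAt (by simp)).hasFDerivAt
  have h3 := h2.comp_hasDerivAt_of_eq 0 h1 (by simp)
  have h4 : ((fun a => lg e (e x (D • v)) (e x a)) ∘ fun t => D • (Real.cos t • v + Real.sin t • ν))
      = fun _ => lg e (e x (D • v)) (e x (D • v)) := funext fun t => by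
    rw [Function.comp_apply, (hW _ (norm_rot hv hν.norm hν.orth t)).2
      (W.add_mem (W.smul_mem _ h0) (W.smul_mem _ ((hW _ hν.norm).1 hν.link)))]
  rw [h4] at h3
  have h5 := h3.unique (hasDerivAt_const _ _)
  rw [map_smul] at h5
  exact (smul_eq_zero.1 h5).resolve_left h.dpos.ne'

theorem kera_tan (h : BC e D) (hv : ‖v‖ = 1) {W : Submodule ℝ (Eu n)}
    (hW : ∀ w, ‖w‖ = 1 → (e x (D • w) = e x (D • v) ↔ w ∈ W)) {w : Eu n} (hw : w ∈ W)
    (ho : inner ℝ w v = 0) : Lmap e x (D • v) (e x (D • v)) w = 0 := by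
  rcases eq_or_ne w 0 with rfl | h0
  · exact map_zero _
  have h1 := kera_unit h0
  have h2 := Nrm.ker ⟨h1, by rw [inner_smul_left, ho, mul_zero], (hW _ h1).2 (W.smul_mem _ hw)⟩ h hv
  rw [map_smul] at h2
  exact (smul_eq_zero.1 h2).resolve_left (inv_ne_zero (norm_ne_zero_iff.2 h0))

/-- Let `q = e x (D • v)`, `A w = Lmap e x (D • ‖w‖⁻¹ • w) q`, and `k` a smooth field in the
kernel of `A` with `k v = ν` (`smooth_ker`). Along an integral curve `c` of `k` through `v`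
(`ContDiffAt.exists_forall_mem_closedBall_exists_eq_forall_mem_Ioo_hasDerivAt` or
`IsPicardLindelof`), `‖c‖` and `lg q (e x (D • c))` are constant, so `D • c s ∈ W` and
`ν = c' 0 ∈ W`. -/
theorem BC.nrm_of_ker (h : BC e D) (hv : ‖v‖ = 1) (hν : ‖ν‖ = 1)
    (hk : Lmap e x (D • v) (e x (D • v)) ν = 0) : Nrm e D x v ν := by
  obtain ⟨W, h0, hW⟩ := kera_W h x hv
  obtain ⟨q, hq⟩ : ∃ q, q = e x (D • v) := ⟨_, rfl⟩
  have v0 : v ≠ 0 := norm_ne_zero_iff.1 (by rw [hv]; exact one_ne_zero)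
  have s1 : ∀ a : Eu n, a ≠ 0 → ContDiffAt ℝ ∞ (fun a : Eu n => D • ‖a‖⁻¹ • a) a := fun a ha =>
    (((contDiffAt_norm ℝ ha).inv (norm_ne_zero_iff.2 ha)).smul contDiffAt_id).const_smul D
  have c1 : Continuous (e x) :=
    continuous_iff_continuousAt.2 fun a => (sm_exp h.toGeo x a).continuousAt h.toGeo
  have e1 : ∀ᶠ a in 𝓝 v, a ≠ 0 ∧ dist q (e x (D • ‖a‖⁻¹ • a)) < D :=
    (eventually_ne_nhds v0).and ((continuousAt_const.dist (c1.continuousAt.comp
      (s1 v v0).continuousAt)).eventually_lt continuousAt_const (by simp [hv, hq, h.dpos]))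
  obtain ⟨k, k0, k1, k2⟩ := smooth_ker (A := fun a : Eu n => Lmap e x (D • ‖a‖⁻¹ • a) q) (z₀ := v)
    (e1.mono fun a ha => ((kera_sm h x ha.2).fderiv_right (m := ∞) (by simp)).comp a (s1 a ha.1))
    (e1.mono fun a ha => by
      rw [← h.kap1 x _ (kera_norm h (kera_unit ha.1)), kap]
      exact congrArg (fun K : Submodule ℝ (Eu n) => Module.finrank ℝ K)
        (Submodule.ext fun w => h.ker_chart x _ ha.2 w))
    (norm_ne_zero_iff.1 (by rw [hν]; exact one_ne_zero)) (by simpa [hv, hq] using hk)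
  obtain ⟨α, a0, ε, hε, a1⟩ :=
    ContDiffAt.exists_forall_mem_closedBall_exists_eq_forall_mem_Ioo_hasDerivAt₀ (k1.self_of_nhds.of_le (by exact_mod_cast le_top)) 0
  have a2 : ∀ᶠ t in 𝓝 (0 : ℝ), HasDerivAt α (k (α t)) t :=
    mem_of_superset (Ioo_mem_nhds (by linarith) (by linarith)) a1
  have a3 : Tendsto α (𝓝 0) (𝓝 v) := a0 ▸ a2.self_of_nhds.continuousAt
  have a4 : ∀ᶠ t in 𝓝 (0 : ℝ), ‖α t‖ = 1 := by
    have h1 : ∀ᶠ t in 𝓝 (0 : ℝ), HasDerivAt (fun t => ‖α t‖ ^ 2) 0 t := by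
      filter_upwards [a2, a3.eventually e1, a3.eventually k2] with t b1 b2 b3
      have b4 := h.ker_orth (kera_unit b2.1) ((h.ker_chart x _ b2.2 _).1 b3.2)
      rw [inner_smul_right, mul_eq_zero, inv_eq_zero, norm_eq_zero, real_inner_comm] at b4
      simpa [b4.resolve_left b2.1] using b1.norm_sq
    filter_upwards [kera_const h1] with t ht
    rw [a0, hv, one_pow] at ht
    exact (pow_eq_one_iff_of_nonneg (norm_nonneg _) two_ne_zero).1 ht
  have a5 : ∀ᶠ t in 𝓝 (0 : ℝ), HasDerivAt (fun t => lg e q (e x (D • α t))) 0 t := by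
    filter_upwards [a2, a3.eventually e1, a3.eventually k2, a4] with t b1 b2 b3 b4
    rw [b4, inv_one, one_smul] at b2 b3
    have b5 := ((kera_sm h x b2.2).differentiableAt (by simp)).hasFDerivAt.comp_hasDerivAt t
      (b1.const_smul D)
    have b6 : Lmap e x (D • α t) q (D • k (α t)) = 0 := by rw [map_smul, b3.2, smul_zero]
    exact b5.congr_deriv b6
  have a6 : ∀ᶠ t in 𝓝 (0 : ℝ), α t ∈ W := by
    filter_upwards [kera_const a5, a4] with t b1 b2
    have b3 := congrArg (e q) b1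
    rw [h.toGeo.exp_lg, h.toGeo.exp_lg, a0] at b3
    exact (hW _ b2).1 b3
  have a7 := hasDerivAt_iff_tendsto_slope.1 a2.self_of_nhds
  rw [a0, k0] at a7
  refine ⟨hν, h.ker_orth hv hk, (hW _ hν).2 (W.closed_of_finiteDimensional.mem_of_tendsto a7 ?_)⟩
  filter_upwards [nhdsWithin_le_nhds a6] with t ht
  exact W.smul_mem _ (W.sub_mem ht (a0 ▸ h0))

theorem BC.exists_nrm (h : BC e D) (x : M) (hv : ‖v‖ = 1) : ∃ ν, Nrm e D x v ν := by
  obtain ⟨⟨w, hw⟩, h0, -⟩ := finrank_eq_one_iff'.1 (h.kap1 x _ (kera_norm h hv))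
  have h1 : w ≠ 0 := fun h2 => h0 (Subtype.ext h2)
  exact ⟨_, h.nrm_of_ker hv (kera_unit h1) (Submodule.smul_mem _ _ hw)⟩

theorem Nrm.ker_iff (hν : Nrm e D x v ν) (h : BC e D) (hv : ‖v‖ = 1) (w : Eu n) :
    Lmap e x (D • v) (e x (D • v)) w = 0 ↔ ∃ c : ℝ, w = c • ν := by
  refine ⟨fun hw => ?_, ?_⟩
  · obtain ⟨c, hc⟩ := (finrank_eq_one_iff_of_nonzero' (K := ℝ)
      (⟨ν, hν.ker h hv⟩ : LinearMap.ker (Lmap e x (D • v) (e x (D • v))).toLinearMap)
      (fun h0 => norm_ne_zero_iff.1 (by rw [hν.norm]; exact one_ne_zero)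
        (congrArg Subtype.val h0))).1
      (h.kap1 x _ (kera_norm h hv)) ⟨w, hw⟩
    exact ⟨c, (congrArg Subtype.val hc).symm⟩
  · rintro ⟨c, rfl⟩
    rw [map_smul, hν.ker h hv, smul_zero]

theorem Nrm.link_iff (hν : Nrm e D x v ν) (h : BC e D) (hv : ‖v‖ = 1) {w : Eu n} (hw : ‖w‖ = 1) :
    e x (D • w) = e x (D • v) ↔ ∃ a b : ℝ, w = a • v + b • ν := by
  obtain ⟨W, h0, hW⟩ := kera_W h x hv
  rw [hW w hw]
  refine ⟨fun h1 => ?_, ?_⟩
  · obtain ⟨c, hc⟩ := (hν.ker_iff h hv _).1 (kera_tan h hv hW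
      (W.sub_mem h1 (W.smul_mem (inner ℝ w v) h0))
      (by rw [inner_sub_left, real_inner_smul_left, real_inner_self_eq_norm_sq, hv]; ring))
    exact ⟨_, c, sub_eq_iff_eq_add'.1 hc⟩
  · rintro ⟨a, b, rfl⟩
    exact W.add_mem (W.smul_mem _ h0) (W.smul_mem _ ((hW _ hν.norm).1 hν.link))

theorem Nrm.link_angle (hν : Nrm e D x v ν) (h : BC e D) (hv : ‖v‖ = 1) {w : Eu n} (hw : ‖w‖ = 1)
    (he : e x (D • w) = e x (D • v)) : ∃ t : ℝ, w = Real.cos t • v + Real.sin t • ν := by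
  obtain ⟨a, b, rfl⟩ := (hν.link_iff h hv hw).1 he
  have h1 : ‖(⟨a, b⟩ : ℂ)‖ = 1 := by
    have h2 := norm_add_sq_real (a • v) (b • ν)
    rw [hw, inner_smul_left, inner_smul_right, real_inner_comm, hν.orth, norm_smul, norm_smul, hv,
      hν.norm, mul_one, mul_one, Real.norm_eq_abs, Real.norm_eq_abs, sq_abs, sq_abs] at h2
    rw [Complex.norm_eq_sqrt_sq_add_sq, Real.sqrt_eq_one]
    simp only [mul_zero, add_zero] at h2
    linarith
  have h3 := Complex.norm_mul_cos_arg ⟨a, b⟩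
  have h4 := Complex.norm_mul_sin_arg ⟨a, b⟩
  rw [h1, one_mul] at h3 h4
  exact ⟨_, by rw [h3, h4]⟩

theorem Nrm.unique (hν : Nrm e D x v ν) (h : BC e D) (hv : ‖v‖ = 1) {ν' : Eu n}
    (hν' : Nrm e D x v ν') : ν' = ν ∨ ν' = -ν := by
  obtain ⟨c, rfl⟩ := (hν.ker_iff h hv _).1 (hν'.ker h hv)
  have h1 := hν'.norm
  rw [norm_smul, hν.norm, mul_one, Real.norm_eq_abs, abs_eq zero_le_one] at h1
  rcases h1 with rfl | rfl <;> simp

theorem Nrm.neg (hν : Nrm e D x v ν) (h : BC e D) : Nrm e D x v (-ν) :=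
  ⟨by rw [norm_neg, hν.norm], by rw [inner_neg_left, hν.orth, neg_zero], by
    rw [smul_neg, h.toBl.closed x (kera_norm h hν.norm), hν.link]⟩

theorem Nrm.link_rot (hν : Nrm e D x v ν) (h : BC e D) (hv : ‖v‖ = 1) (t : ℝ) :
    e x (D • (Real.cos t • v + Real.sin t • ν)) = e x (D • v) :=
  (hν.link_iff h hv (norm_rot hv hν.norm hν.orth t)).2 ⟨_, _, rfl⟩

theorem Nrm.rot (hν : Nrm e D x v ν) (h : BC e D) (hv : ‖v‖ = 1) (t : ℝ) :
    Nrm e D x (Real.cos t • v + Real.sin t • ν) (-Real.sin t • v + Real.cos t • ν) := by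
  have h1 := norm_rot hv hν.norm hν.orth (t + Real.pi / 2)
  have h2 := hν.link_rot h hv (t + Real.pi / 2)
  rw [Real.cos_add_pi_div_two, Real.sin_add_pi_div_two] at h1 h2
  refine ⟨h1, ?_, h2.trans (hν.link_rot h hv t).symm⟩
  simp only [inner_add_left, inner_add_right, real_inner_smul_left, real_inner_smul_right,
    real_inner_self_eq_norm_sq, hv, hν.norm, hν.orth, real_inner_comm ν v]
  ring

end Vale.Agent.P231C
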