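import Vale.Agent.P231C.VecB

/-! The exponential of a smooth vector field is smooth. -/

open scoped ContDiff Topology
open Filter Set MeasureTheory

noncomputable section

namespace Vale.Agent.P231C

open Vale.Agent.P234 Vale.Agent.P231

variable {M : Type*} [MetricSpace M] [CompactSpace M] {n : ℕ} {e : M → Eu n → M} {D : ℝ}
variable {Z : Type*} [NormedAddCommGroup Z] [NormedSpace ℝ Z] {f g : Z → M} {ζ ζ' : Z → Eu n}
  {z₀ : Z}

theorem vecc_zero (h : BC e D) (p : M) (ξ : Eu n) : Lmap e p 0 p ξ = ξ := by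
  have := h.Tm_exp_zero p
  rw [Tm_exp, h.zero] at this
  rw [this]
  rfl

/-- Inverse function theorem for maps that are triangular. -/
theorem vecc_inv {E : Type*} [NormedAddCommGroup E] [NormedSpace ℝ E] [FiniteDimensional ℝ E]
    {Ψ : E × E → E} {b₀ : E} (hΨ : ContDiffAt ℝ ∞ Ψ (0, b₀))
    (h0 : ∀ᶠ b in 𝓝 b₀, Ψ (0, b) = b) : ∃ B : E × E → E, ContDiffAt ℝ ∞ B (0, b₀) ∧
      B (0, b₀) = b₀ ∧ ∀ᶠ q in 𝓝 ((0 : E), b₀), Ψ (q.1, B q) = q.2 := by
  have := FiniteDimensional.complete ℝ E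
  have hΦ : ContDiffAt ℝ ∞ (fun q : E × E => (q.1, Ψ q)) (0, b₀) := contDiffAt_fst.prodMk hΨ
  have hd := (hΨ.differentiableAt (by simp)).hasFDerivAt
  have h1 : ∀ b, fderiv ℝ Ψ (0, b₀) (0, b) = b := fun b => by
    have a1 : HasFDerivAt (fun b : E => Ψ (0, b))
        ((fderiv ℝ Ψ (0, b₀)).comp (ContinuousLinearMap.inr ℝ E E)) b₀ :=
      hd.comp b₀ (hasFDerivAt_prodMk_right (0 : E) b₀)
    have a2 := a1.unique ((hasFDerivAt_id b₀).congr_of_eventuallyEq h0)
    exact DFunLike.congr_fun a2 b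
  let L : E × E →L[ℝ] E × E := (ContinuousLinearMap.fst ℝ E E).prod (fderiv ℝ Ψ (0, b₀))
  have hL : Function.Injective L := (injective_iff_map_eq_zero L).2 fun q hq => by
    obtain ⟨a, b⟩ := q
    have a1 : a = 0 := congrArg Prod.fst hq
    subst a1
    have a2 : fderiv ℝ Ψ (0, b₀) (0, b) = 0 := congrArg Prod.snd hq
    rw [h1] at a2
    rw [a2]
    rfl
  let L' : (E × E) ≃L[ℝ] E × E :=
    (LinearEquiv.ofInjectiveEndo (L : E × E →ₗ[ℝ] E × E) hL).toContinuousLinearEquiv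
  have hL' : HasFDerivAt (fun q : E × E => (q.1, Ψ q)) (L' : E × E →L[ℝ] E × E) (0, b₀) :=
    hasFDerivAt_fst.prodMk hd
  have hn : (∞ : WithTop ℕ∞) ≠ 0 := by simp
  have e0 : Ψ (0, b₀) = b₀ := h0.self_of_nhds
  have i1 := hΦ.to_localInverse hL' hn
  have i2 := hΦ.localInverse_apply_image hL' hn
  have i3 : ∀ᶠ y in 𝓝 _, ((hΦ.localInverse hL' hn y).1, Ψ (hΦ.localInverse hL' hn y)) = y :=
    (hΦ.hasStrictFDerivAt' hL' hn).eventually_right_inverse
  simp only [e0] at i1 i2 i3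
  refine ⟨fun q => (hΦ.localInverse hL' hn q).2, i1.snd, by simp only [i2], i3.mono fun q hq => ?_⟩
  have a1 := congrArg Prod.fst hq
  have a2 := congrArg Prod.snd hq
  simp only at a1 a2 ⊢
  rw [← a1]
  exact a2

/-- Let `p = f z₀`. The map `Φ (a, b) = (a, Lmap e (e p a) 0 p (lg (e p a) (e p b)))` is smooth
near `(0, 0)` (`BC.smv_lg`), with invertible derivative `(a, b) ↦ (a, b - a)` (it is enough to
know that `Φ (0, b) = (0, b)`: the derivative is block triangular). Its local inverse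
(`ContDiffAt.toOpenPartialHomeomorph`, `ContDiffAt.to_localInverse`) gives, by `BC.Lmap_right`,
the smoothness of `e (f z) (ε • ζ z)` for small `ε > 0` (the local inverse is `C^∞` at all
points near `(0, 0)` because `Φ` is `C^∞` with invertible derivative at all these points; apply
the inverse function theorem at the point `(0, ε • ζ z₀)`). Conclude with `Sm.ln`:
`e x v = ln e x (e x (ε • v)) ε⁻¹`. -/
theorem SmV.exp [FiniteDimensional ℝ Z] (hζ : SmV e f ζ z₀) (h : BC e D) (hf : Sm e f z₀) :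
    Sm e (fun z => e (f z) (ζ z)) z₀ := by
  have hD := h.dpos
  obtain ⟨ε, hε, hb⟩ : ∃ ε : ℝ, 0 < ε ∧ ‖ε • ζ z₀‖ < D := by
    have h1 : 0 < ‖ζ z₀‖ + 1 := by positivity
    refine ⟨D / (‖ζ z₀‖ + 1), by positivity, ?_⟩
    rw [norm_smul, Real.norm_of_nonneg (by positivity), div_mul_eq_mul_div, div_lt_iff₀ h1]
    linarith
  have hΨ : ContDiffAt ℝ ∞ (fun q : Eu n × Eu n =>
      Lmap e (e (f z₀) q.1) 0 (f z₀) (lg e (e (f z₀) q.1) (e (f z₀) q.2))) (0, ε • ζ z₀) := by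
    have := h.smv_lg (f := fun q : Eu n × Eu n => e (f z₀) q.1) (g := fun q => e (f z₀) q.2)
      (z₀ := (0, ε • ζ z₀)) ((sm_exp h.toGeo (f z₀) 0).comp (k := Prod.fst) contDiffAt_fst)
      ((sm_exp h.toGeo (f z₀) _).comp (k := Prod.snd) contDiffAt_snd)
      (by simp only [h.zero]; rwa [h.min _ _ hb.le])
    simpa only [SmV, h.zero] using this
  obtain ⟨B, h1, h2, h3⟩ := vecc_inv hΨ (by
    filter_upwards [continuous_norm.continuousAt.eventually_lt continuousAt_const hb] with b h1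
    simp only [h.zero]
    rw [h.toBl.lg_exp' h1, vecc_zero h])
  have hk : ContDiffAt ℝ ∞ (fun z => (lg e (f z₀) (f z), Lmap e (f z) 0 (f z₀) (ε • ζ z))) z₀ :=
    ContDiffAt.prodMk hf (hζ.smul (c := fun _ => ε) contDiffAt_const)
  have k0 : (lg e (f z₀) (f z₀), Lmap e (f z₀) 0 (f z₀) (ε • ζ z₀)) = (0, ε • ζ z₀) := by
    rw [h.toGeo.lg_self, vecc_zero h]
  rw [← k0] at h1 h3
  have hg : Sm e (fun z => e (f z₀) (B (lg e (f z₀) (f z), Lmap e (f z) 0 (f z₀) (ε • ζ z)))) z₀ :=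
    (sm_exp h.toGeo (f z₀) _).comp (h1.comp z₀ hk)
  refine (Sm.ln h.toGeo hf hg (by rw [k0, h2]; rwa [h.min _ _ hb.le])
    (l := fun _ => ε⁻¹) contDiffAt_const).congr ?_
  have hc : ContinuousAt (fun z => dist (f z₀) (f z)) z₀ :=
    continuousAt_const.dist (hf.continuousAt h.toGeo)
  filter_upwards [hk.continuousAt.eventually h3,
    hc.eventually_lt continuousAt_const ((dist_self _).trans_lt hD)] with z a1 a2
  simp only [h.toGeo.exp_lg] at a1
  have a3 := congrArg (Lmap e (f z₀) (lg e (f z₀) (f z)) (f z)) a1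
  rw [h.Lmap_right a2, h.Lmap_right a2] at a3
  rw [ln, a3, inv_smul_smul₀ hε.ne']

end Vale.Agent.P231C
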