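import Vale.Agent.P231C.XA
import Vale.Agent.P231C.VecC

/-! Smooth maps attached to the unit tangent bundle. -/

open scoped ContDiff Topology
open Filter Set MeasureTheory

noncomputable section

namespace Vale.Agent.P231C

open Vale.Agent.P234 Vale.Agent.P231

variable {M : Type*} [MetricSpace M] [CompactSpace M] {n : ℕ} {e : M → Eu n → M} {D : ℝ}
variable {Y : Type*} {𝒟 : Dif Y} {F : Y → M} {ζ ζ' : Y → Eu n}

theorem BC.plot_iff (h : BC e D) {Z : FS} {f : Z → M} {u : Z} :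
    h.DM.P ⟨Z, f, u⟩ ↔ ∀ᶠ z in 𝓝 u, Sm e f z := Iff.rfl

theorem BC.plotX_iff (h : BC e D) {Z : FS} {f : Z → XT M D} {u : Z} : h.DX.P ⟨Z, f, u⟩ ↔
    h.DM.P ⟨Z, fun z => ev (f z), u⟩ ∧ h.DM.P ⟨Z, fun z => ev2 (f z), u⟩ := Iff.rfl

theorem BC.smo_ev (h : BC e D) : Smo h.DX h.DM ev := fun _ hp => hp.1

theorem BC.smo_ev2 (h : BC e D) : Smo h.DX h.DM ev2 := fun _ hp => hp.2

theorem BC.smo_X (h : BC e D) {F : Y → XT M D} (h1 : Smo 𝒟 h.DM fun y => ev (F y))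
    (h2 : Smo 𝒟 h.DM fun y => ev2 (F y)) : Smo 𝒟 h.DX F := fun p hp => ⟨h1 p hp, h2 p hp⟩

theorem BC.smo_exp0 (h : BC e D) (x : M) : Smo (Dif.vec (Eu n)) h.DM (e x) := by
  exact fun p hp => hp.mono fun z hz => Sm.comp (k := p.f) (sm_exp h.toGeo x (p.f z)) hz

omit [CompactSpace M] in
theorem xb_half (h : BC e D) (z : XT M D) : 0 < dist (ev z) (ev2 z) ∧ dist (ev z) (ev2 z) < D := by
  have h0 := h.dpos
  have h1 : dist (ev z) (ev2 z) = D / 2 := z.2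
  rw [h1]
  constructor <;> linarith

theorem xb_ext {Z : FS} {f : Z → Y} {u : Z} (hp : 𝒟.P ⟨Z, f, u⟩) (t : ℝ) :
    𝒟.ext.P ⟨Z.ext, fun p => (f p.1, p.2), (u, t)⟩ :=
  ⟨𝒟.comp (g := fun p : Z.ext => p.1) (w := (u, t)) hp (sg_of_contDiff contDiff_fst _)
    EventuallyEq.rfl, sg_of_contDiff contDiff_snd _⟩

theorem xb_lt (h : BC e D) {Z : FS} {f g : Z → M} {u : Z} (hf : h.DM.P ⟨Z, f, u⟩)
    (hg : h.DM.P ⟨Z, g, u⟩) (h1 : dist (f u) (g u) < D) : ∀ᶠ z in 𝓝 u, dist (f z) (g z) < D :=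
  ((Sm.continuousAt h.toGeo hf.self_of_nhds).dist
    (Sm.continuousAt h.toGeo hg.self_of_nhds)).eventually_lt continuousAt_const h1

theorem BC.smoV_vel (h : BC e D) : SmoV e h.DX ev (vel e) := by
  exact fun Z f u hp =>
    (h.smv_lg hp.1.self_of_nhds hp.2.self_of_nhds (xb_half h (f u)).2).smul contDiffAt_const

theorem SmoV.add (h : SmoV e 𝒟 F ζ) (h' : SmoV e 𝒟 F ζ') : SmoV e 𝒟 F fun y => ζ y + ζ' y := by
  exact fun Z f u hp => (h Z f u hp).add (h' Z f u hp)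

theorem SmoV.neg (h : SmoV e 𝒟 F ζ) : SmoV e 𝒟 F fun y => -ζ y := by
  exact fun Z f u hp => (h Z f u hp).neg

theorem SmoV.smul (h : SmoV e 𝒟 F ζ) {c : Y → ℝ} (hc : Smo 𝒟 (Dif.vec ℝ) c) :
    SmoV e 𝒟 F fun y => c y • ζ y := by
  exact fun Z f u hp => (h Z f u hp).smul (hc ⟨Z, f, u⟩ hp).self_of_nhds

theorem SmoV.comp (h : SmoV e 𝒟 F ζ) {Y' : Type*} {𝒟' : Dif Y'} {G : Y' → Y} (hG : Smo 𝒟' 𝒟 G) :
    SmoV e 𝒟' (fun y => F (G y)) fun y => ζ (G y) := by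
  exact fun Z f u hp => h Z (fun z => G (f z)) u (hG ⟨Z, f, u⟩ hp)

theorem SmoV.inner (h1 : SmoV e 𝒟 F ζ) (h2 : SmoV e 𝒟 F ζ') (h : BC e D) (hF : Smo 𝒟 h.DM F) :
    Smo 𝒟 (Dif.vec ℝ) fun y => inner ℝ (ζ y) (ζ' y) := by
  exact fun p hp => (𝒟.ev hp).mono fun z hz =>
    (h1 _ _ z hz).inner (h2 _ _ z hz) h (hF ⟨_, _, z⟩ hz).self_of_nhds

theorem BC.smoV_const (h : BC e D) (x : M) (hζ : Smo 𝒟 (Dif.vec (Eu n)) ζ) :
    SmoV e 𝒟 (fun _ => x) ζ := by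
  exact fun Z f u hp => (h.smv_const x).2 (hζ ⟨Z, f, u⟩ hp).self_of_nhds

theorem SmoV.exp (hζ : SmoV e 𝒟 F ζ) (h : BC e D) (hF : Smo 𝒟 h.DM F) :
    Smo 𝒟 h.DM fun y => e (F y) (ζ y) := by
  exact fun p hp => (𝒟.ev hp).mono fun z hz =>
    (hζ _ _ z hz).exp h (hF ⟨_, _, z⟩ hz).self_of_nhds

theorem SmoV.integral (h : BC e D) (hF : Smo 𝒟 h.DM F) {ζ : Y × ℝ → Eu n}
    (hζ : SmoV e 𝒟.ext (fun p => F p.1) ζ) (a b : ℝ) :
    SmoV e 𝒟 F fun y => ∫ t in a..b, ζ (y, t) := by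
  exact fun Z f u hp => SmV.integral h (hF ⟨Z, f, u⟩ hp).self_of_nhds
    (ζ := fun p : Z × ℝ => ζ (f p.1, p.2)) fun t _ =>
      hζ Z.ext (fun p => (f p.1, p.2)) (u, t) (xb_ext hp t)

theorem BC.smoV_deriv (h : BC e D) {G : Y × ℝ → M} (hG : Smo 𝒟.ext h.DM G) (t : ℝ) :
    SmoV e 𝒟 (fun y => G (y, t)) fun y => deriv (fun s => lg e (G (y, t)) (G (y, s))) t := by
  exact fun Z f u hp => h.smv_deriv (F := fun p : Z × ℝ => G (f p.1, p.2))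
    (hG ⟨Z.ext, fun p => (f p.1, p.2), (u, t)⟩ (xb_ext hp t)).self_of_nhds

theorem BC.smoV_Tm (h : BC e D) {G : Y × ℝ → M} (hG : Smo 𝒟.ext h.DM G) :
    SmoV e 𝒟.ext G fun p => Tm e (fun s => G (p.1, s)) p.2 1 := by
  intro Z f u hp
  have h1 : ∀ z, 𝒟.ext.P ⟨Z, f, z⟩ → Sm e (fun p : Z × ℝ => G ((f p.1).1, p.2)) (z, (f z).2) :=
    fun z hz => (hG ⟨Z.ext, fun p => ((f p.1).1, p.2), (z, (f z).2)⟩
      (xb_ext (f := fun z => (f z).1) hz.1 _)).self_of_nhds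
  have h2 : ContDiffAt ℝ ∞ (fun z : Z => (z, (f z).2)) u :=
    contDiffAt_id.prodMk hp.2.self_of_nhds
  have h3 := (h.smv_Tm (h1 u hp) (w := fun _ => ((0 : Z), (1 : ℝ))) contDiffAt_const).comp
    (k := fun z : Z => (z, (f z).2)) h2
  refine h3.congr EventuallyEq.rfl ?_
  filter_upwards [𝒟.ext.ev hp] with z hz
  exact h.Tm_slice (h1 z hz)

theorem BC.smo_mk (h : BC e D) (hF : Smo 𝒟 h.DM F) (hζ : SmoV e 𝒟 F ζ) (h1 : ∀ y, ‖ζ y‖ = 1) :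
    Smo 𝒟 h.DX fun y => h.mk' (F y) (ζ y) (h1 y) := by
  exact h.smo_X hF ((hζ.smul (smo_const _ _ (D / 2))).exp h hF)

theorem BC.plot_mk (h : BC e D) {Z : FS} {f : Z → M} {ζ : Z → Eu n} {u : Z}
    (hf : h.DM.P ⟨Z, f, u⟩) (hζ : ∀ᶠ z in 𝓝 u, SmV e f ζ z) {k : Z → XT M D}
    (hk : ∀ᶠ z in 𝓝 u, ev (k z) = f z ∧ vel e (k z) = ζ z) : h.DX.P ⟨Z, k, u⟩ := by
  refine ⟨Dif.congr hf (hk.mono fun z hz => hz.1), ?_⟩
  have h1 : h.DM.P ⟨Z, fun z => e (f z) ((D / 2) • ζ z), u⟩ := by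
    filter_upwards [hf, hζ] with z h2 h3
    exact (h3.smul contDiffAt_const).exp h h2
  refine Dif.congr h1 (hk.mono fun z hz => ?_)
  show ev2 (k z) = e (f z) ((D / 2) • ζ z)
  rw [← h.geo_half, geo, hz.1, hz.2]

theorem BC.smo_geo (h : BC e D) : Smo h.DX.ext h.DM fun p => geo e p.1 p.2 := by
  exact ((h.smoV_vel.comp (smo_fst _ _)).smul (smo_snd _ _)).exp h (h.smo_ev.comp (smo_fst _ _))

theorem BC.cir_fl (h : BC e D) : Cir h.DX h.fl (2 * D) := by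
  refine ⟨h.smo_X h.smo_geo ?_, h.fl_zero, h.fl_add, fun z => ?_⟩
  · exact h.smo_geo.comp ((smo_fst _ _).pair ((smo_snd _ _).contDiff_comp
      (g := fun t : ℝ => t + D / 2) (contDiff_id.add contDiff_const)))
  · have h1 := h.fl_per z 0
    rw [zero_add] at h1
    rw [h1, h.fl_zero]

theorem BC.plot_kp (h : BC e D) (z₀ : XT M D) {Z : FS} {f g : Z → M} {u : Z}
    (hf : h.DM.P ⟨Z, f, u⟩) (hg : h.DM.P ⟨Z, g, u⟩) (h0 : 0 < dist (f u) (g u))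
    (h1 : dist (f u) (g u) < D) : h.DX.P ⟨Z, fun z => h.kp z₀ (f z, g z), u⟩ := by
  have h2 : ∀ᶠ z in 𝓝 u, 0 < dist (f z) (g z) :=
    continuousAt_const.eventually_lt ((Sm.continuousAt h.toGeo hf.self_of_nhds).dist
      (Sm.continuousAt h.toGeo hg.self_of_nhds)) h0
  refine h.plot_mk hf (ζ := fun z => (dist (f z) (g z))⁻¹ • lg e (f z) (g z)) ?_
    (h2.mono fun z hz => ⟨h.ev_kp z₀ hz, h.vel_kp z₀ hz⟩)
  filter_upwards [hf, hg, h2, xb_lt h hf hg h1] with z a1 a2 a3 a4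
  exact (h.smv_lg a1 a2 a4).smul ((h.contDiffAt_dist a1 a2 a3 a4).inv a3.ne')

theorem BC.plot_psi (h : BC e D) (z : XT M D) :
    h.DX.P ⟨(FS.euc n).prod (FS.euc n), h.psi z, 0⟩ := by
  refine h.plot_kp z (Z := (FS.euc n).prod (FS.euc n)) (f := fun a => e (ev z) a.1)
    (g := fun a => e (ev2 z) a.2) ?_ ?_ ?_ ?_
  · exact h.smo_exp0 (ev z) ⟨(FS.euc n).prod (FS.euc n), fun a => a.1, 0⟩
      (sg_of_contDiff contDiff_fst _)
  · exact h.smo_exp0 (ev2 z) ⟨(FS.euc n).prod (FS.euc n), fun a => a.2, 0⟩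
      (sg_of_contDiff contDiff_snd _)
  · simpa only [Prod.fst_zero, Prod.snd_zero, h.zero] using (xb_half h z).1
  · simpa only [Prod.fst_zero, Prod.snd_zero, h.zero] using (xb_half h z).2

theorem BC.sg_lg (h : BC e D) {Z : FS} {f : Z → M} {u : Z} (hf : h.DM.P ⟨Z, f, u⟩) {p : M}
    (hd : dist p (f u) < D) : Sg (fun w => lg e p (f w)) u := by
  filter_upwards [hf, xb_lt h (h.DM.const Z p u) hf hd] with z a1 a2
  exact a1.lg h.toGeo (h.toBl.sp a2)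

theorem BC.sg_chi (h : BC e D) {Z : FS} {f : Z → XT M D} {u : Z} (hf : h.DX.P ⟨Z, f, u⟩) :
    Sg (fun w => chi e (f u) (f w)) u := by
  filter_upwards [h.sg_lg hf.1 (p := ev (f u)) ((dist_self (ev (f u))).trans_lt h.dpos),
    h.sg_lg hf.2 (p := ev2 (f u)) ((dist_self (ev2 (f u))).trans_lt h.dpos)] with z a1 a2
  exact a1.prodMk a2

theorem BC.plot_cont (h : BC e D) {Z : FS} {f : Z → M} {u : Z} (hf : h.DM.P ⟨Z, f, u⟩) :
    ContinuousAt f u := by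
  exact Sm.continuousAt h.toGeo hf.self_of_nhds

theorem BC.plotX_cont (h : BC e D) {Z : FS} {f : Z → XT M D} {u : Z} (hf : h.DX.P ⟨Z, f, u⟩) :
    ContinuousAt f u := by
  exact tendsto_subtype_rng.2 ((h.plot_cont hf.1).prodMk (h.plot_cont hf.2))

theorem BC.chord (h : BC e D) : Chord h.DM (ln e) D := by
  refine ⟨fun Z f u hf => h.plot_cont hf, fun Z f g s u hf hg hs hd => ?_, fun x y => ?_,
    fun x y _ => ?_, fun x s => ?_, fun x y hd s hs t ht => ?_⟩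
  · filter_upwards [hf, hg, hs, xb_lt h hf hg hd] with z a1 a2 a3 a4
    exact Sm.ln h.toGeo a1 a2 a4 a3
  · rw [ln, zero_smul, h.zero]
  · rw [ln, one_smul, h.toGeo.exp_lg]
  · rw [ln, h.toGeo.lg_self, smul_zero, h.zero]
  · have h1 : |s - t| ≤ 1 := abs_le.2 ⟨by linarith [hs.1, ht.2], by linarith [hs.2, ht.1]⟩
    have h2 := h.ugeo x (lg e x y) s t (by
      rw [h.toGeo.norm_lg]
      exact (mul_le_of_le_one_left dist_nonneg h1).trans_lt hd)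
    rw [h.toGeo.norm_lg] at h2
    exact h2

theorem BC.smo_i0 (h : BC e D) (p₀ : M) : Smo (DS n) h.DX (h.i0 p₀) := by
  exact h.smo_mk (smo_const _ _ p₀) (h.smoV_const p₀ (smo_ind_val _ _)) fun s => s.2

theorem Ori.cir {h : BC e D} {J : XT M D → Eu n} (hJ : Ori h J) :
    Cir h.DX hJ.rt (2 * Real.pi) := by
  refine ⟨?_, hJ.rt_zero, hJ.rt_add, hJ.rt_per⟩
  exact h.smo_mk (h.smo_ev.comp (smo_fst _ _))
    (((h.smoV_vel.comp (smo_fst _ _)).smul ((smo_snd _ _).contDiff_comp Real.contDiff_cos)).add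
      ((hJ.sm.comp (smo_fst _ _)).smul ((smo_snd _ _).contDiff_comp Real.contDiff_sin))) _

end Vale.Agent.P231C
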