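import Vale.Agent.P231C.KerA
import Vale.Agent.P231C.XB

/-! Local and global orientations of the links. -/

open scoped ContDiff Topology
open Filter Set MeasureTheory

noncomputable section

namespace Vale.Agent.P231C

open Vale.Agent.P234 Vale.Agent.P231

variable {M : Type*} [MetricSpace M] [CompactSpace M] {n : ℕ} {e : M → Eu n → M} {D : ℝ}

/-- Let `p = ev (f u)`, `q = geo (f u) D`, `L z = Lmap e p (lg p (ev (f z))) (ev (f z))` and
`A z = fderiv (fun b => lg q (e (ev (f z)) (D • vel (f z) + L z b))) 0`, smooth in `z` by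
`SmV.exp`, `BC.smv_lift` and `ContDiffAt.fderiv`. Apply `smooth_ker`, and normalize `L z (k z)`. -/
theorem BC.exists_sect (h : BC e D) {Z : FS} {f : Z → XT M D} {u : Z} (hf : h.DX.P ⟨Z, f, u⟩)
    {ν₀ : Eu n} (h0 : Nrm e D (ev (f u)) (vel e (f u)) ν₀) : ∃ ν : Z → Eu n, ν u = ν₀ ∧
      ∀ᶠ z in 𝓝 u, SmV e (fun w => ev (f w)) ν z ∧ Nrm e D (ev (f z)) (vel e (f z)) (ν z) := by
  have hD := h.dpos
  obtain ⟨p, hp⟩ : ∃ p, p = ev (f u) := ⟨_, rfl⟩
  obtain ⟨q, hq⟩ : ∃ q, q = e (ev (f u)) (D • vel e (f u)) := ⟨_, rfl⟩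
  obtain ⟨L, hL⟩ : ∃ L : Z → Eu n →L[ℝ] Eu n,
    L = fun z => Lmap e p (lg e p (ev (f z))) (ev (f z)) := ⟨_, rfl⟩
  have hx : ∀ᶠ z in 𝓝 u, Sm e (fun w => ev (f w)) z := hf.1
  have hv : ∀ᶠ z in 𝓝 u, SmV e (fun w => ev (f w)) (fun w => vel e (f w)) z :=
    (h.DX.ev hf).mono fun z hz => h.smoV_vel Z f z hz
  have hd1 : ∀ᶠ z in 𝓝 u, dist p (ev (f z)) < D :=
    (continuousAt_const.dist (hx.self_of_nhds.continuousAt h.toGeo)).eventually_lt
      continuousAt_const (by rwa [hp, dist_self])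
  have hd2 : ∀ᶠ z in 𝓝 u, dist q (e (ev (f z)) (D • vel e (f z))) < D :=
    (continuousAt_const.dist (((hv.self_of_nhds.smul (c := fun _ => D) contDiffAt_const).exp h
      hx.self_of_nhds).continuousAt h.toGeo)).eventually_lt continuousAt_const
      (by rwa [hq, dist_self])
  have hl : ∀ᶠ z in 𝓝 u, ∀ b, Lmap e (ev (f z)) 0 p (L z b) = b :=
    hd1.mono fun z hz b => hL ▸ h.Lmap_left hz b
  have hr : ∀ᶠ z in 𝓝 u, ∀ b, L z (Lmap e (ev (f z)) 0 p b) = b :=
    hd1.mono fun z hz b => hL ▸ h.Lmap_right hz b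
  obtain ⟨A, hA⟩ : ∃ A : Z → Eu n →L[ℝ] Eu n, A = fun z =>
    fderiv ℝ (fun b => lg e q (e (ev (f z)) (D • vel e (f z) + L z b))) 0 := ⟨_, rfl⟩
  have hA1 : Sg A u := by
    filter_upwards [hx, hv, hd1, hd2] with z h1 h2 h3 h4
    have h5 : Sm e (fun w : Z × Eu n => ev (f w.1)) (z, 0) :=
      Sm.comp (f := fun w => ev (f w)) (k := Prod.fst) h1 contDiffAt_fst
    have h6 := (((SmV.comp (k := Prod.fst) (w := (z, (0 : Eu n))) h2 contDiffAt_fst).smul
      (c := fun _ => D) contDiffAt_const).add (h.smv_lift h5 h3 contDiffAt_snd)).exp h h5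
    have h7 := h6.lg h.toGeo (p := q) (h.toBl.sp (by rwa [map_zero, add_zero]))
    rw [hA, hL]
    exact ContDiffAt.fderiv (g := fun _ => 0) h7 contDiffAt_const (by exact_mod_cast le_top)
  have hA2 : ∀ᶠ z in 𝓝 u, ∀ b, A z b = 0 ↔ Lmap e (ev (f z)) (D • vel e (f z))
      (e (ev (f z)) (D • vel e (f z))) (L z b) = 0 := by
    filter_upwards [hd2] with z h4 b
    have h5 := ((sm_exp h.toGeo (ev (f z)) (D • vel e (f z))).lg h.toGeo
      (h.toBl.sp h4)).differentiableAt (by simp)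
    have h6 : HasFDerivAt (fun a => lg e q (e (ev (f z)) a))
        (Lmap e (ev (f z)) (D • vel e (f z)) q) (D • vel e (f z) + L z 0) := by
      rw [map_zero, add_zero]
      exact h5.hasFDerivAt
    have h7 := (HasFDerivAt.comp (f := fun b => D • vel e (f z) + L z b) 0 h6
      ((L z).hasFDerivAt.const_add _)).fderiv
    rw [← h.ker_chart _ _ h4, hA]
    exact iff_of_eq (congrArg (fun B : Eu n →L[ℝ] Eu n => B b = 0) h7)
  have hA3 : ∀ᶠ z in 𝓝 u, Module.finrank ℝ (LinearMap.ker (A z).toLinearMap) = 1 := by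
    filter_upwards [hA2, hl, hr] with z h1 h2 h3
    obtain ⟨ν, hν⟩ := h.exists_nrm (ev (f z)) (h.norm_vel (f z))
    have h4 : Lmap e (ev (f z)) 0 p ν ≠ 0 := fun h5 => by
      have h6 := h3 ν
      rw [h5, map_zero] at h6
      exact zero_ne_one (norm_zero.symm.trans (h6 ▸ hν.norm))
    refine Eq.trans (congrArg (fun S : Submodule ℝ (Eu n) => Module.finrank ℝ S) ?_)
      (finrank_span_singleton (K := ℝ) h4)
    ext b
    rw [LinearMap.mem_ker, ContinuousLinearMap.coe_coe, h1, hν.ker_iff h (h.norm_vel _),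
      Submodule.mem_span_singleton]
    refine exists_congr fun c => ⟨fun hc => ?_, fun hc => ?_⟩
    · rw [← map_smul, ← hc, h2]
    · rw [← hc, map_smul, h3]
  have hk0 := hr.self_of_nhds ν₀
  obtain ⟨k, hk1, hk2, hk3⟩ := smooth_ker hA1 hA3 (k₀ := Lmap e (ev (f u)) 0 p ν₀) (fun h5 => by
    rw [h5, map_zero] at hk0
    exact zero_ne_one (norm_zero.symm.trans (hk0 ▸ h0.norm))) (by
    rw [hA2.self_of_nhds, hk0]
    exact h0.ker h (h.norm_vel _))
  refine ⟨fun z => ‖L z (k z)‖⁻¹ • L z (k z), by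
    simp only [hk1, hk0, h0.norm, inv_one, one_smul], ?_⟩
  filter_upwards [hx, hd1, hl, hA2, hk2, hk3] with z h1 h2 h3 h4 h5 h6
  have h7 : L z (k z) ≠ 0 := fun h8 => h6.1 (by rw [← h3 (k z), h8, map_zero])
  have h8 : SmV e (fun w => ev (f w)) (fun w => L w (k w)) z := hL ▸ h.smv_lift h1 h2 h5
  refine ⟨h8.smul ?_, h.nrm_of_ker (h.norm_vel _) (norm_smul_inv_norm h7) ?_⟩
  · simp only [norm_eq_sqrt_real_inner]
    have h9 := inner_self_ne_zero (𝕜 := ℝ) |>.2 h7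
    exact ((h8.inner h8 h h1).sqrt h9).inv
      (Real.sqrt_ne_zero'.2 (real_inner_self_nonneg.lt_of_ne' h9))
  · rw [map_smul, (h4 _).1 h6.2, smul_zero]

theorem kerb_sign {S : Set ℝ} (hS : IsPreconnected S) {a b : ℝ → Eu n} (ha : ContinuousOn a S)
    (hb : ContinuousOn b S) (h1 : ∀ t ∈ S, ‖b t‖ = 1) (h : ∀ t ∈ S, a t = b t ∨ a t = -b t)
    {s t : ℝ} (hs : s ∈ S) (ht : t ∈ S) (h0 : a s = b s) : a t = b t := by
  refine (h t ht).resolve_right fun h2 => ?_
  have h3 : ∀ r ∈ S, inner ℝ (b r) (b r) = 1 := fun r hr => by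
    rw [real_inner_self_eq_norm_sq, h1 r hr, one_pow]
  obtain ⟨r, hr, h4⟩ := hS.intermediate_value ht hs (ha.inner (𝕜 := ℝ) hb) (show (0 : ℝ) ∈ _ from
    ⟨by simp only [h2, inner_neg_left, h3 t ht]; norm_num, by simp only [h0, h3 s hs]; norm_num⟩)
  rcases h r hr with h5 | h5
  · simp only [h5, h3 r hr] at h4
    norm_num at h4
  · simp only [h5, inner_neg_left, h3 r hr] at h4
    norm_num at h4

theorem kerb_orient (h : BC e D) (p₀ : M) : ∃ μ : Eu n → Eu n, ∀ w, w ≠ 0 →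
    ContDiffAt ℝ ∞ μ w ∧ Nrm e D p₀ (‖w‖⁻¹ • w) (μ w) := by
  choose! ν hν using fun (w : Eu n) (hw : w ≠ 0) =>
    h.exists_nrm p₀ (v := ‖w‖⁻¹ • w) (norm_smul_inv_norm (𝕜 := ℝ) hw)
  obtain ⟨μ, hμ⟩ := exists_orient (V := Eu n) (by simpa using h.three) (fun w hw => (hν w hw).norm)
    (fun w hw => by
      have h1 : ∀ᶠ z in 𝓝 w, z ≠ 0 := eventually_ne_nhds hw
      obtain ⟨g, hg, h2⟩ : ∃ g : Eu n → XT M D, (∀ z, ev (g z) = p₀) ∧
          ∀ z, z ≠ 0 → vel e (g z) = ‖z‖⁻¹ • z := by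
        refine ⟨fun z => h.i0 p₀ (rad ⟨_, norm_smul_inv_norm (𝕜 := ℝ) hw⟩ z), fun _ => rfl,
          fun z hz => (vel_mk h _ _ _).trans (congrArg Subtype.val (dif_neg hz))⟩
      obtain ⟨k, -, hk⟩ := h.exists_sect (Z := FS.euc n) (u := w) (ν₀ := ν w) (f := g)
        (h.plot_mk (Z := FS.euc n) (k := g) (u := w) (ζ := fun z => ‖z‖⁻¹ • z)
          (h.DM.const (FS.euc n) p₀ w)
          (h1.mono fun z hz => (h.smv_const (ζ := fun z : Eu n => ‖z‖⁻¹ • z) p₀).2
            (((contDiffAt_norm ℝ hz).inv (norm_ne_zero_iff.2 hz)).smul contDiffAt_id))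
          (h1.mono fun z hz => And.intro (hg z) (h2 z hz))) (by rw [h2 w hw, hg]; exact hν w hw)
      simp only [hg] at hk
      refine ⟨k, hk.mono fun z hz => (h.smv_const p₀).1 hz.1, ?_⟩
      filter_upwards [hk, h1] with z hz h3
      refine (hν z h3).unique h (norm_smul_inv_norm h3) ?_
      rw [← h2 z h3]
      exact hz.2)
  refine ⟨μ, fun w hw => ⟨(hμ w hw).1, ?_⟩⟩
  rcases (hμ w hw).2 with h1 | h1 <;> rw [h1]
  exacts [hν w hw, (hν w hw).neg h]

/-- Choose `ν w` with `Nrm p₀ (‖w‖⁻¹ • w) (ν w)`, orient it with `exists_orient` (local sections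
by `exists_sect` for the plot `w ↦ mk' p₀ (‖w‖⁻¹ • w)`, `BC.smv_const`), put
`J₀ w = ‖w‖ • μ w`. Homogeneity and the rotation rule: both sides are continuous in the
parameter, equal up to sign (`Nrm.unique`), nonzero, and equal for one value. -/
theorem BC.exists_base (h : BC e D) (p₀ : M) : ∃ J₀, Base e D p₀ J₀ := by
  obtain ⟨μ, hμ⟩ := kerb_orient h p₀
  have h1 : ∀ v, ‖v‖ = 1 → Nrm e D p₀ v (μ v) := fun v hv => by
    simpa only [hv, inv_one, one_smul] using (hμ v (norm_ne_zero_iff.1 (hv ▸ one_ne_zero))).2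
  have h2 : ∀ c : ℝ, 0 < c → ∀ v, ‖c • v‖ • μ (c • v) = c • ‖v‖ • μ v := fun c hc v => by
    rw [norm_smul, Real.norm_of_nonneg hc.le, mul_smul]
    by_cases hv : v = 0
    · rw [hv, norm_zero, zero_smul, zero_smul]
    rw [kerb_sign isPreconnected_Ioi (a := fun c : ℝ => μ (c • v)) (b := fun _ => μ v)
      (fun c hc => ((hμ _ (smul_ne_zero (ne_of_gt hc) hv)).1.continuousAt.comp
        (f := fun c : ℝ => c • v) (by fun_prop)).continuousWithinAt) continuousOn_const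
      (fun _ _ => (hμ v hv).2.norm) (fun c hc => (hμ v hv).2.unique h (norm_smul_inv_norm hv) ?_)
      (mem_Ioi.2 one_pos) hc (by rw [one_smul])]
    have hc' : 0 < c := hc
    have h3 := (hμ _ (smul_ne_zero hc'.ne' hv)).2
    rwa [norm_smul, Real.norm_of_nonneg hc'.le, smul_smul, mul_inv, mul_right_comm,
      inv_mul_cancel₀ hc'.ne', one_mul] at h3
  have h3 : ∀ v, ‖v‖ = 1 → ∀ t, μ (Real.cos t • v + Real.sin t • μ v) =
      -Real.sin t • v + Real.cos t • μ v := fun v hv t => by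
    have h4 := norm_rot hv (h1 v hv).norm (h1 v hv).orth
    exact kerb_sign isPreconnected_univ (a := fun t => μ (Real.cos t • v + Real.sin t • μ v))
      (b := fun t => -Real.sin t • v + Real.cos t • μ v)
      (fun t _ => ((hμ _ (norm_ne_zero_iff.1 (h4 t ▸ one_ne_zero))).1.continuousAt.comp
        (f := fun t => Real.cos t • v + Real.sin t • μ v) (by fun_prop)).continuousWithinAt)
      (by fun_prop) (fun t _ => ((h1 v hv).rot h hv t).norm)
      (fun t _ => ((h1 v hv).rot h hv t).unique h (h4 t) (h1 _ (h4 t))) (mem_univ 0) (mem_univ t)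
      (by simp)
  refine ⟨fun w => ‖w‖ • μ w, ⟨fun v hv => (contDiffAt_norm ℝ hv).smul (hμ v hv).1, h2,
    fun v => ?_, fun v => ?_, fun v t => ?_⟩, fun v hv => ?_⟩
  · by_cases hv : v = 0
    · simp [hv]
    · rw [norm_smul, (hμ v hv).2.norm, mul_one, norm_norm]
  · by_cases hv : v = 0
    · simp [hv]
    · have h4 := (hμ v hv).2.orth
      rw [inner_smul_right, mul_eq_zero, or_iff_right (inv_ne_zero (norm_ne_zero_iff.2 hv))] at h4
      rw [inner_smul_left, h4, mul_zero]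
  · by_cases hv : v = 0
    · simp [hv]
    obtain ⟨c, u, hc, hu, rfl⟩ : ∃ (c : ℝ) (u : Eu n), 0 < c ∧ ‖u‖ = 1 ∧ v = c • u :=
      ⟨‖v‖, ‖v‖⁻¹ • v, norm_pos_iff.2 hv, norm_smul_inv_norm hv,
        (smul_inv_smul₀ (norm_ne_zero_iff.2 hv) v).symm⟩
    simp only [h2 c hc u, hu, one_smul]
    rw [smul_comm (Real.cos t) c, smul_comm (Real.sin t) c, ← smul_add, h2 c hc,
      norm_rot hu (h1 u hu).norm (h1 u hu).orth, one_smul, h3 u hu, smul_add, smul_comm c,
      smul_comm c]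
  · simp only [hv, one_smul]
    exact (h1 v hv).link

theorem Base.nrm {p₀ : M} {J₀ : Eu n → Eu n} (hB : Base e D p₀ J₀) {v : Eu n} (hv : ‖v‖ = 1) :
    Nrm e D p₀ v (J₀ v) := ⟨(hB.norm v).trans hv, hB.orth v, hB.link v hv⟩

end Vale.Agent.P231C
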