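import Mathlib

/-! The exterior algebra of the dual of a finite dimensional space, as a normed space. -/

noncomputable section

namespace Vale.Agent.P231C

/-- Finite dimensional real normed spaces. -/
structure FS where
  Z : Type
  [n : NormedAddCommGroup Z]
  [s : NormedSpace ℝ Z]
  [f : FiniteDimensional ℝ Z]

attribute [instance] FS.n FS.s FS.f

instance : CoeSort FS Type := ⟨FS.Z⟩

/-- Product with the line. -/
abbrev FS.ext (Z : FS) : FS := ⟨Z × ℝ⟩

/-- Product. -/
abbrev FS.prod (Z W : FS) : FS := ⟨Z × W⟩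

/-- The line. -/
abbrev FS.line : FS := ⟨ℝ⟩

/-- Euclidean space. -/
abbrev FS.euc (n : ℕ) : FS := ⟨EuclideanSpace ℝ (Fin n)⟩

/-- Alternating forms on `Z`. -/
def Lam (Z : FS) : Type := ExteriorAlgebra ℝ (Z →L[ℝ] ℝ)

variable {Z W U : FS}

instance : Ring (Lam Z) := inferInstanceAs (Ring (ExteriorAlgebra ℝ (Z →L[ℝ] ℝ)))

instance : Algebra ℝ (Lam Z) := inferInstanceAs (Algebra ℝ (ExteriorAlgebra ℝ (Z →L[ℝ] ℝ)))

theorem ext_finite {V : Type*} [AddCommGroup V] [Module ℝ V] [FiniteDimensional ℝ V] :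
    Module.Finite ℝ (ExteriorAlgebra ℝ V) := by
  classical
  have hz : ∀ k, Module.finrank ℝ V < k → (⋀[ℝ]^k V) = ⊥ := fun k hk => by
    have h := exteriorPower.finrank_eq ℝ k (M := V)
    rw [Nat.choose_eq_zero_of_lt hk] at h
    exact Submodule.finrank_eq_zero.1 h
  have h1 : (⨆ k : Fin (Module.finrank ℝ V + 1), ⋀[ℝ]^(k : ℕ) V) = ⊤ := by
    rw [eq_top_iff, ← (DirectSum.Decomposition.isInternal
      (fun k : ℕ => ⋀[ℝ]^k V)).submodule_iSup_eq_top]
    refine iSup_le fun k => ?_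
    rcases lt_or_ge (Module.finrank ℝ V) k with hk | hk
    · rw [hz k hk]; exact bot_le
    · exact le_iSup (fun k : Fin (Module.finrank ℝ V + 1) => ⋀[ℝ]^(k : ℕ) V)
        ⟨k, Nat.lt_succ_of_le hk⟩
  have h2 : FiniteDimensional ℝ
      (⨆ k : Fin (Module.finrank ℝ V + 1), ⋀[ℝ]^(k : ℕ) V : Submodule ℝ _) := inferInstance
  rw [h1] at h2
  exact Module.Finite.equiv Submodule.topEquiv

instance : Module.Finite ℝ (Lam Z) := ext_finite

instance : NormedAddCommGroup (Lam Z) :=
  NormedAddCommGroup.induced _ _ (Module.finBasis ℝ (Lam Z)).equivFun.toLinearMap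
    (Module.finBasis ℝ (Lam Z)).equivFun.injective

instance : NormedSpace ℝ (Lam Z) :=
  NormedSpace.induced ℝ _ _ (Module.finBasis ℝ (Lam Z)).equivFun.toLinearMap

instance : CompleteSpace (Lam Z) := FiniteDimensional.complete ℝ _

/-- Covectors as forms of degree one. -/
def io : (Z →L[ℝ] ℝ) →ₗ[ℝ] Lam Z := ExteriorAlgebra.ι ℝ

/-- Forms of degree `k`. -/
def Dg (Z : FS) (k : ℕ) : Submodule ℝ (Lam Z) := ⋀[ℝ]^k (Z →L[ℝ] ℝ)

/-- Pull back by a linear map. -/
def pb (A : W →L[ℝ] Z) : Lam Z →ₐ[ℝ] Lam W :=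
  ExteriorAlgebra.map ((ContinuousLinearMap.compL ℝ W Z ℝ).flip A).toLinearMap

/-- Contraction with a vector. -/
def ct (v : Z) : Lam Z →ₗ[ℝ] Lam Z :=
  CliffordAlgebra.contractLeft (Q := 0) (ContinuousLinearMap.apply ℝ ℝ v).toLinearMap

/-- The scalar part. -/
def sc : Lam Z →ₐ[ℝ] ℝ := ExteriorAlgebra.algebraMapInv

/-- Value of a form on a list of vectors: contract with the first vector first. -/
def evl : List Z → Lam Z → ℝ
  | [], c => sc c
  | v :: l, c => evl l (ct v c)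

/-- Value of a form on a finite family of vectors. -/
def top {n : ℕ} (b : Fin n → Z) (c : Lam Z) : ℝ := evl (List.ofFn b) c

/-- Exterior derivative. -/
def dd (φ : Z → Lam Z) (u : Z) : Lam Z :=
  ∑ i, io (LinearMap.toContinuousLinearMap ((Module.finBasis ℝ Z).coord i)) *
    fderiv ℝ φ u (Module.finBasis ℝ Z i)

/-- The standard basis of Euclidean space. -/
def eb (n : ℕ) (i : Fin n) : FS.euc n := EuclideanSpace.single i 1

/-- The standard basis of a product of two Euclidean spaces. -/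
def eb2 (n : ℕ) : Fin (n + n) → (FS.euc n).prod (FS.euc n) :=
  Fin.append (fun i => (eb n i, 0)) fun i => (0, eb n i)

end Vale.Agent.P231C
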