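import Vale.Agent.P231C.Lam

/-! Algebra of forms: degrees, pull backs, contractions.
Hints: `Dg Z k` is `(LinearMap.range ι) ^ k` as a submodule (`ExteriorAlgebra.exteriorPower`),
use `Submodule.pow_induction_on_left'`, `SetLike.mul_mem_graded`, `ExteriorAlgebra.induction`,
`CliffordAlgebra.contractLeft_ι_mul`, `ExteriorAlgebra.map_apply_ι`,
`ExteriorAlgebra.hom_ext`. -/

noncomputable section

namespace Vale.Agent.P231C

variable {Z W U : FS} {k l : ℕ} {a b : Lam Z}

theorem lama_dg (Z : FS) (k : ℕ) : Dg Z k = LinearMap.range (io (Z := Z)) ^ k := rfl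

theorem lama_swap (f g : Z →L[ℝ] ℝ) : io f * io g = -(io g * io f) :=
  eq_neg_of_add_eq_zero_left (ExteriorAlgebra.ι_add_mul_swap f g)

theorem io_mem (f : Z →L[ℝ] ℝ) : io f ∈ Dg Z 1 := by
  rw [lama_dg, pow_one]
  exact ⟨f, rfl⟩

theorem io_sq (f : Z →L[ℝ] ℝ) : io f * io f = 0 := ExteriorAlgebra.ι_sq_zero f

theorem dg_zero_iff : a ∈ Dg Z 0 ↔ ∃ c : ℝ, a = algebraMap ℝ (Lam Z) c := by
  rw [lama_dg, pow_zero, Submodule.mem_one]
  exact exists_congr fun _ => eq_comm

theorem dg_one_iff : a ∈ Dg Z 1 ↔ ∃ f, a = io f := by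
  rw [lama_dg, pow_one]
  exact exists_congr fun _ => eq_comm

theorem dg_alg (c : ℝ) : algebraMap ℝ (Lam Z) c ∈ Dg Z 0 := dg_zero_iff.2 ⟨c, rfl⟩

theorem dg_one : (1 : Lam Z) ∈ Dg Z 0 := dg_zero_iff.2 ⟨1, (map_one _).symm⟩

theorem dg_mul (ha : a ∈ Dg Z k) (hb : b ∈ Dg Z l) : a * b ∈ Dg Z (k + l) := by
  rw [lama_dg, pow_add]
  exact Submodule.mul_mem_mul ha hb

theorem dg_pow (ha : a ∈ Dg Z k) (j : ℕ) : a ^ j ∈ Dg Z (k * j) := by
  induction j with
  | zero =>
    rw [pow_zero]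
    exact dg_one
  | succ j ih =>
    rw [pow_succ]
    exact dg_mul ih ha

/-- Induction on the degree. -/
theorem dg_induction {p : ℕ → Lam Z → Prop} (h0 : ∀ c : ℝ, p 0 (algebraMap ℝ (Lam Z) c))
    (hadd : ∀ j x y, x ∈ Dg Z j → y ∈ Dg Z j → p j x → p j y → p j (x + y))
    (hmul : ∀ j f x, x ∈ Dg Z j → p j x → p (j + 1) (io f * x)) (ha : a ∈ Dg Z k) : p k a := by
  rw [lama_dg] at ha
  induction ha using Submodule.pow_induction_on_left' with
  | algebraMap r => exact h0 r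
  | add x y i hx hy ix iy => exact hadd i x y hx hy ix iy
  | mem_mul m hm i x hx ix =>
    obtain ⟨f, rfl⟩ := hm
    exact hmul i f x hx ix

/-- Induction on all forms. -/
theorem lam_induction {p : Lam Z → Prop} (h0 : ∀ c : ℝ, p (algebraMap ℝ (Lam Z) c))
    (hadd : ∀ x y, p x → p y → p (x + y)) (hmul : ∀ f x, p x → p (io f * x)) (a : Lam Z) :
    p a :=   CliffordAlgebra.left_induction (Q := 0) (P := p) h0 hadd (fun x f => hmul f x) a

theorem lama_comm (f : Z →L[ℝ] ℝ) (hb : b ∈ Dg Z l) : io f * b = (-1 : ℝ) ^ l • (b * io f) := by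
  refine dg_induction (p := fun l b => io f * b = (-1 : ℝ) ^ l • (b * io f)) (fun c => ?_)
    (fun j x y _ _ hx hy => ?_) (fun j g x _ hx => ?_) hb
  · rw [pow_zero, one_smul, Algebra.commutes]
  · rw [add_mul, mul_add, smul_add, hx, hy]
  · rw [← mul_assoc, lama_swap, neg_mul, mul_assoc, hx, mul_smul_comm, mul_assoc, pow_succ,
      mul_neg_one, neg_smul]

theorem dg_comm (ha : a ∈ Dg Z k) (hb : b ∈ Dg Z l) : a * b = (-1 : ℝ) ^ (k * l) • (b * a) := by
  refine dg_induction (p := fun k a => a * b = (-1 : ℝ) ^ (k * l) • (b * a)) (fun c => ?_)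
    (fun j x y _ _ hx hy => ?_) (fun j f x _ hx => ?_) ha
  · rw [zero_mul, pow_zero, one_smul, Algebra.commutes]
  · rw [add_mul, mul_add, smul_add, hx, hy]
  · rw [mul_assoc, hx, mul_smul_comm, ← mul_assoc, lama_comm f hb, smul_mul_assoc, smul_smul,
      mul_assoc, add_mul, one_mul, pow_add]

theorem pb_io (A : W →L[ℝ] Z) (f : Z →L[ℝ] ℝ) : pb A (io f) = io (f.comp A) := ExteriorAlgebra.map_apply_ι _ f

theorem pb_mem (A : W →L[ℝ] Z) (ha : a ∈ Dg Z k) : pb A a ∈ Dg W k := by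
  refine dg_induction (p := fun k a => pb A a ∈ Dg W k) (fun c => ?_)
    (fun j x y _ _ hx hy => ?_) (fun j f x _ hx => ?_) ha
  · rw [AlgHom.commutes]
    exact dg_alg c
  · rw [map_add]
    exact add_mem hx hy
  · rw [map_mul, pb_io, add_comm]
    exact dg_mul (io_mem _) hx

theorem pb_pb (A : W →L[ℝ] Z) (B : U →L[ℝ] W) (a : Lam Z) : pb B (pb A a) = pb (A.comp B) a := by
  induction a using lam_induction with
  | h0 c => rw [AlgHom.commutes, AlgHom.commutes, AlgHom.commutes]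
  | hadd x y hx hy => simp only [map_add, hx, hy]
  | hmul f x hx =>
    rw [map_mul, map_mul, map_mul, hx, pb_io, pb_io, pb_io, ContinuousLinearMap.comp_assoc]

theorem pb_id (a : Lam Z) : pb (ContinuousLinearMap.id ℝ Z) a = a := by
  induction a using lam_induction with
  | h0 c => rw [AlgHom.commutes]
  | hadd x y hx hy => rw [map_add, hx, hy]
  | hmul f x hx => rw [map_mul, hx, pb_io, ContinuousLinearMap.comp_id]

/-- `exteriorPower.finrank_eq` and `Nat.choose_eq_zero_of_lt`, see `ext_finite`. -/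
theorem dg_eq_zero (ha : a ∈ Dg Z k) (h : Module.finrank ℝ Z < k) : a = 0 := by
  have h1 := exteriorPower.finrank_eq ℝ k (M := Z →L[ℝ] ℝ)
  rw [← (LinearMap.toContinuousLinearMap (𝕜 := ℝ) (E := Z) (F' := ℝ)).finrank_eq,
    Subspace.dual_finrank_eq, Nat.choose_eq_zero_of_lt h] at h1
  exact (Submodule.eq_bot_iff _).1 (Submodule.finrank_eq_zero.1 h1) a ha

/-- Factor `A` through its range, an object of `FS`. -/
theorem pb_eq_zero (A : W →L[ℝ] Z) (ha : a ∈ Dg Z k)
    (h : Module.finrank ℝ (LinearMap.range A.toLinearMap) < k) : pb A a = 0 := by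
  have h1 := pb_pb (W := ⟨LinearMap.range A.toLinearMap⟩) (LinearMap.range A.toLinearMap).subtypeL
    (A.codRestrict _ fun x => ⟨x, rfl⟩) a
  rw [dg_eq_zero (pb_mem _ ha) h, map_zero] at h1
  exact h1.symm

theorem ct_io (v : Z) (f : Z →L[ℝ] ℝ) : ct v (io f) = algebraMap ℝ (Lam Z) (f v) := CliffordAlgebra.contractLeft_ι 0 _ f

theorem ct_alg (v : Z) (c : ℝ) : ct v (algebraMap ℝ (Lam Z) c) = 0 := CliffordAlgebra.contractLeft_algebraMap 0 _ c

theorem ct_io_mul (v : Z) (f : Z →L[ℝ] ℝ) (b : Lam Z) :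
    ct v (io f * b) = f v • b - io f * ct v b := CliffordAlgebra.contractLeft_ι_mul (Q := 0) _ f b

theorem ct_mul (v : Z) (ha : a ∈ Dg Z k) (b : Lam Z) :
    ct v (a * b) = ct v a * b + (-1 : ℝ) ^ k • (a * ct v b) := by
  refine dg_induction (p := fun k a => ct v (a * b) = ct v a * b + (-1 : ℝ) ^ k • (a * ct v b))
    (fun c => ?_) (fun j x y _ _ hx hy => ?_) (fun j f x _ hx => ?_) ha
  · rw [ct_alg, zero_mul, zero_add, pow_zero, one_smul, ← Algebra.smul_def, ← Algebra.smul_def,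
      map_smul]
  · rw [add_mul, map_add, hx, hy, map_add, add_mul, add_mul, smul_add]
    abel
  · rw [mul_assoc, ct_io_mul, ct_io_mul, hx, mul_add, sub_mul, mul_smul_comm, smul_mul_assoc,
      mul_assoc, mul_assoc, pow_succ, mul_neg_one, neg_smul]
    abel

theorem ct_mem (v : Z) (ha : a ∈ Dg Z (k + 1)) : ct v a ∈ Dg Z k := by
  refine (dg_induction (p := fun j a => (j = 0 → ct v a = 0) ∧ ∀ k, j = k + 1 → ct v a ∈ Dg Z k)
    (fun c => ⟨fun _ => ct_alg v c, fun k hk => absurd hk (by omega)⟩)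
    (fun j x y _ _ hx hy => ⟨fun h => ?_, fun k hk => ?_⟩)
    (fun j f x hm hx => ⟨fun h => absurd h (by omega), fun k hk => ?_⟩) ha).2 k rfl
  · rw [map_add, hx.1 h, hy.1 h, add_zero]
  · rw [map_add]
    exact add_mem (hx.2 k hk) (hy.2 k hk)
  · obtain rfl : j = k := by omega
    rw [ct_io_mul]
    refine sub_mem (Submodule.smul_mem _ _ hm) ?_
    rcases j with _ | j
    · rw [hx.1 rfl, mul_zero]
      exact zero_mem _
    · rw [add_comm]
      exact dg_mul (io_mem f) (hx.2 j rfl)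

theorem ct_pb (A : W →L[ℝ] Z) (v : W) (a : Lam Z) : ct v (pb A a) = pb A (ct (A v) a) := by
  induction a using lam_induction with
  | h0 c => rw [AlgHom.commutes, ct_alg, ct_alg, map_zero]
  | hadd x y hx hy => simp only [map_add, hx, hy]
  | hmul f x hx =>
    rw [map_mul, pb_io, ct_io_mul, ct_io_mul, hx, map_sub, map_smul, map_mul, pb_io,
      ContinuousLinearMap.comp_apply]

theorem ct_ct (v : Z) (a : Lam Z) : ct v (ct v a) = 0 := CliffordAlgebra.contractLeft_contractLeft (Q := 0) _ a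

theorem ct_anti (u v : Z) (a : Lam Z) : ct u (ct v a) = -ct v (ct u a) := CliffordAlgebra.contractLeft_comm (Q := 0) _ _ a

theorem ct_add (u v : Z) (a : Lam Z) : ct (u + v) a = ct u a + ct v a := by
  induction a using lam_induction with
  | h0 c => rw [ct_alg, ct_alg, ct_alg, add_zero]
  | hadd x y hx hy =>
    rw [map_add, map_add, map_add, hx, hy]
    abel
  | hmul f x hx =>
    rw [ct_io_mul, ct_io_mul, ct_io_mul, hx, map_add, add_smul, mul_add]
    abel

theorem ct_smul (c : ℝ) (v : Z) (a : Lam Z) : ct (c • v) a = c • ct v a := by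
  induction a using lam_induction with
  | h0 c => rw [ct_alg, ct_alg, smul_zero]
  | hadd x y hx hy => rw [map_add, map_add, hx, hy, smul_add]
  | hmul f x hx =>
    rw [ct_io_mul, ct_io_mul, hx, map_smul, smul_sub, mul_smul_comm, smul_smul, smul_eq_mul]

theorem ct_zero (a : Lam Z) : ct (0 : Z) a = 0 := by
  rw [← zero_smul ℝ (0 : Z), ct_smul, zero_smul]

theorem lama_sc (f : Z →L[ℝ] ℝ) : sc (io f) = 0 := ExteriorAlgebra.lift_ι_apply ℝ _ _ f

theorem sc_pb (A : W →L[ℝ] Z) (a : Lam Z) : sc (pb A a) = sc a := by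
  induction a using lam_induction with
  | h0 c => simp only [AlgHom.commutes]
  | hadd x y hx hy => simp only [map_add, hx, hy]
  | hmul f x hx => rw [map_mul, map_mul, map_mul, pb_io, lama_sc, lama_sc, zero_mul, zero_mul]

theorem sc_io (f : Z →L[ℝ] ℝ) : sc (io f) = 0 := lama_sc f

theorem sc_alg (c : ℝ) : sc (algebraMap ℝ (Lam Z) c) = c := sc.commutes c

theorem sc_eq_zero (ha : a ∈ Dg Z (k + 1)) : sc a = 0 := by
  refine dg_induction (p := fun j a => j ≠ 0 → sc a = 0) (fun c h => absurd rfl h)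
    (fun j x y _ _ hx hy h => ?_) (fun j f x _ _ _ => ?_) ha k.succ_ne_zero
  · rw [map_add, hx h, hy h, add_zero]
  · rw [map_mul, sc_io, zero_mul]

theorem lama_rank (A : W →L[ℝ] Z) (f : W →L[ℝ] ℝ) (v : Z) (a : Lam Z) :
    pb (A + f.smulRight v) a = pb A a + io f * pb A (ct v a) := by
  induction a using lam_induction with
  | h0 c => rw [AlgHom.commutes, AlgHom.commutes, ct_alg, map_zero, mul_zero, add_zero]
  | hadd x y hx hy =>
    rw [map_add, map_add, map_add, map_add, hx, hy, mul_add]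
    abel
  | hmul g x hx =>
    have e : g.comp (A + f.smulRight v) = g.comp A + g v • f :=
      ContinuousLinearMap.ext fun w => by simp [mul_comm]
    rw [map_mul, map_mul, pb_io, pb_io, hx, e, ct_io_mul, map_sub, map_smul, map_mul, pb_io,
      map_add, map_smul, add_mul, mul_add, mul_add, mul_sub, smul_mul_assoc, smul_mul_assoc,
      ← mul_assoc (io f) (io f), io_sq, zero_mul, smul_zero, mul_smul_comm,
      ← mul_assoc (io f), lama_swap f, neg_mul, mul_assoc]
    abel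

/-- A form on `Z × ℝ` is `a₀ + dt * a₁`. Induction on `a`. -/
theorem split_ext (a : Lam Z.ext) :
    a = pb (W := Z.ext) (ContinuousLinearMap.fst ℝ Z ℝ)
        (pb (Z := Z.ext) (ContinuousLinearMap.inl ℝ Z ℝ) a) +
      io (Z := Z.ext) (ContinuousLinearMap.snd ℝ Z ℝ) *
        pb (W := Z.ext) (ContinuousLinearMap.fst ℝ Z ℝ)
          (pb (Z := Z.ext) (ContinuousLinearMap.inl ℝ Z ℝ) (ct (Z := Z.ext) (0, 1) a)) := by
  have h := lama_rank (Z := Z.ext) (W := Z.ext)
    ((ContinuousLinearMap.inl ℝ Z ℝ).comp (ContinuousLinearMap.fst ℝ Z ℝ))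
    (ContinuousLinearMap.snd ℝ Z ℝ) (0, 1) a
  have e : (ContinuousLinearMap.inl ℝ Z ℝ).comp (ContinuousLinearMap.fst ℝ Z ℝ) +
      (ContinuousLinearMap.snd ℝ Z ℝ).smulRight ((0 : Z), (1 : ℝ)) =
        ContinuousLinearMap.id ℝ (Z × ℝ) := ContinuousLinearMap.ext fun x => by simp
  rw [e] at h
  rw [pb_pb, pb_pb, ← h]
  exact (pb_id (Z := Z.ext) a).symm

/-- Rank one perturbation of the linear map. Induction on `a`. -/
theorem pb_add_smulRight (A : W →L[ℝ] Z) (f : W →L[ℝ] ℝ) (v : Z) (a : Lam Z) :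
    pb (A + f.smulRight v) a = pb A a + io f * pb A (ct v a) := lama_rank A f v a

end Vale.Agent.P231C
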