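import Vale.Agent.P231C.LamT

/-! Smoothness of the algebraic operations. All spaces `Lam Z` are finite dimensional, so linear
and bilinear maps are continuous (`LinearMap.toContinuousLinearMap`). -/

open scoped ContDiff Topology
open Filter Set

noncomputable section

namespace Vale.Agent.P231C

variable {Z W : FS} {X : Type*} [NormedAddCommGroup X] [NormedSpace ℝ X] {x : X}
  {N : WithTop ℕ∞}

/-- Multiplication as a continuous bilinear map. -/
def mulL (Z : FS) : Lam Z →L[ℝ] Lam Z →L[ℝ] Lam Z :=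
  LinearMap.toContinuousLinearMap
    ((LinearMap.toContinuousLinearMap (E := Lam Z) (F' := Lam Z)).toLinearMap ∘ₗ
      LinearMap.mul ℝ (Lam Z))

theorem mulL_apply (a b : Lam Z) : mulL Z a b = a * b := rfl

theorem cd_lin {F : Type*} [NormedAddCommGroup F] [NormedSpace ℝ F] (f : Lam Z →ₗ[ℝ] F)
    {φ : X → Lam Z} (h : ContDiffAt ℝ N φ x) : ContDiffAt ℝ N (fun y => f (φ y)) x :=
  (LinearMap.toContinuousLinearMap f).contDiff.contDiffAt.comp x h

theorem fderiv_lin {F : Type*} [NormedAddCommGroup F] [NormedSpace ℝ F] (f : Lam Z →ₗ[ℝ] F)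
    {φ : X → Lam Z} (h : DifferentiableAt ℝ φ x) (v : X) :
    fderiv ℝ (fun y => f (φ y)) x v = f (fderiv ℝ φ x v) :=
  congrArg (fun L : X →L[ℝ] F => L v)
    ((LinearMap.toContinuousLinearMap f).hasFDerivAt.comp x h.hasFDerivAt).fderiv

theorem cont_lin {F : Type*} [NormedAddCommGroup F] [NormedSpace ℝ F] (f : Lam Z →ₗ[ℝ] F) :
    Continuous f := f.continuous_of_finiteDimensional

theorem cd_mul {φ ψ : X → Lam Z} (h : ContDiffAt ℝ N φ x) (h' : ContDiffAt ℝ N ψ x) :
    ContDiffAt ℝ N (fun y => φ y * ψ y) x :=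
  ((mulL Z).contDiff.contDiffAt.comp x h).clm_apply h'

theorem fderiv_lmul {φ ψ : X → Lam Z} (h : DifferentiableAt ℝ φ x) (h' : DifferentiableAt ℝ ψ x)
    (v : X) : fderiv ℝ (fun y => φ y * ψ y) x v = fderiv ℝ φ x v * ψ x + φ x * fderiv ℝ ψ x v :=
  (congrArg (fun L : X →L[ℝ] Lam Z => L v)
    (((mulL Z).hasFDerivAt.comp x h.hasFDerivAt).clm_apply h'.hasFDerivAt).fderiv).trans
    (add_comm _ _)

theorem cd_pow {φ : X → Lam Z} (h : ContDiffAt ℝ N φ x) (j : ℕ) :
    ContDiffAt ℝ N (fun y => φ y ^ j) x := by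
  induction j with
  | zero => simpa only [pow_zero] using contDiffAt_const
  | succ j ih => simpa only [pow_succ] using cd_mul ih h

theorem cd_alg {f : X → ℝ} (h : ContDiffAt ℝ N f x) :
    ContDiffAt ℝ N (fun y => algebraMap ℝ (Lam Z) (f y)) x := by
  simp only [Algebra.algebraMap_eq_smul_one]
  exact h.smul_const _

theorem cd_io {A : X → Z →L[ℝ] ℝ} (h : ContDiffAt ℝ N A x) :
    ContDiffAt ℝ N (fun y => io (A y)) x :=
  (LinearMap.toContinuousLinearMap (io (Z := Z))).contDiff.contDiffAt.comp x h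

theorem fderiv_io {A : X → Z →L[ℝ] ℝ} (h : DifferentiableAt ℝ A x) (v : X) :
    fderiv ℝ (fun y => io (A y)) x v = io (fderiv ℝ A x v) :=
  congrArg (fun L : X →L[ℝ] Lam Z => L v)
    ((LinearMap.toContinuousLinearMap (io (Z := Z))).hasFDerivAt.comp x h.hasFDerivAt).fderiv

theorem lamb_pb {A : X → W →L[ℝ] Z} (hA : ContDiffAt ℝ N A x) (a : Lam Z) :
    ContDiffAt ℝ N (fun y => pb (A y) a) x := by
  induction a using lam_induction with
  | h0 c => simpa only [AlgHom.commutes] using contDiffAt_const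
  | hadd a b ha hb => simpa only [map_add] using ha.add hb
  | hmul f a ha =>
    simpa only [map_mul, pb_io] using cd_mul (cd_io (contDiffAt_const.clm_comp hA)) ha

/-- For a constant form use `lam_induction`; then expand `φ y` in a basis of `Lam Z`. -/
theorem cd_pb {A : X → W →L[ℝ] Z} {φ : X → Lam Z} (hA : ContDiffAt ℝ N A x)
    (h : ContDiffAt ℝ N φ x) : ContDiffAt ℝ N (fun y => pb (A y) (φ y)) x := by
  have e : ∀ y, pb (A y) (φ y) = ∑ i, (Module.finBasis ℝ (Lam Z)).coord i (φ y) •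
      pb (A y) (Module.finBasis ℝ (Lam Z) i) := fun y => by
    conv_lhs => rw [← (Module.finBasis ℝ (Lam Z)).sum_repr (φ y)]
    simp only [map_sum, map_smul, Module.Basis.coord_apply]
  simp only [e]
  exact ContDiffAt.sum fun i _ => (cd_lin _ h).fun_smul (lamb_pb hA _)

/-- Contraction as a continuous bilinear map. -/
def lamb_ct (Z : FS) : Z →L[ℝ] Lam Z →L[ℝ] Lam Z :=
  LinearMap.toContinuousLinearMap
    ((LinearMap.toContinuousLinearMap (E := Lam Z) (F' := Lam Z)).toLinearMap ∘ₗ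
      LinearMap.mk₂ ℝ (fun v a => ct v a) ct_add ct_smul (fun v => map_add (ct v))
        fun c v => map_smul (ct v) c)

theorem cd_ct {v : X → Z} {φ : X → Lam Z} (hv : ContDiffAt ℝ N v x) (h : ContDiffAt ℝ N φ x) :
    ContDiffAt ℝ N (fun y => ct (v y) (φ y)) x :=
  ((lamb_ct Z).contDiff.contDiffAt.comp x hv).clm_apply h

theorem cd_dd {φ : Z → Lam Z} {u : Z} (h : ContDiffAt ℝ ∞ φ u) : ContDiffAt ℝ ∞ (dd φ) u :=
  ContDiffAt.sum fun _ _ => cd_mul contDiffAt_const
    ((h.fderiv_right (by simp)).clm_apply contDiffAt_const)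

/-- With a parameter. -/
theorem cd_dd_par {φ : Z × X → Lam Z} {u : Z} (h : ContDiffAt ℝ ∞ φ (u, x)) :
    ContDiffAt ℝ ∞ (fun p : Z × X => dd (fun z => φ (z, p.2)) p.1) (u, x) :=
  ContDiffAt.sum fun _ _ => cd_mul contDiffAt_const
    ((ContDiffAt.fderiv (f := fun (p : Z × X) z => φ (z, p.2)) (g := Prod.fst) (n := ∞)
      (ContDiffAt.comp (g := φ) (f := fun q : (Z × X) × Z => (q.2, q.1.2)) ((u, x), u) h
        (contDiffAt_snd.prodMk contDiffAt_fst.snd)) contDiffAt_fst (by simp)).clm_apply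
      contDiffAt_const)

theorem isClosed_dg (k : ℕ) : IsClosed (Dg Z k : Set (Lam Z)) :=
  (Dg Z k).closed_of_finiteDimensional

theorem fderiv_mem_dg {φ : X → Lam Z} {k : ℕ} (h : ∀ᶠ y in 𝓝 x, φ y ∈ Dg Z k) (v : X) :
    fderiv ℝ φ x v ∈ Dg Z k := by
  by_cases hd : DifferentiableAt ℝ φ x
  · by_contra hn
    obtain ⟨f, h1, h2⟩ := Submodule.exists_le_ker_of_notMem hn
    have e : (fun y => f (φ y)) =ᶠ[𝓝 x] fun _ => 0 := h.mono fun y hy => h2 hy
    rw [← fderiv_lin f hd, e.fderiv_eq] at h1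
    simp at h1
  · rw [fderiv_zero_of_not_differentiableAt hd]
    exact zero_mem _

theorem integral_mem_dg {φ : ℝ → Lam Z} {k : ℕ} {a b : ℝ} (h : ∀ t, φ t ∈ Dg Z k) :
    ∫ t in a..b, φ t ∈ Dg Z k := by
  by_cases hi : IntervalIntegrable φ MeasureTheory.volume a b
  · by_contra hn
    obtain ⟨f, h1, h2⟩ := Submodule.exists_le_ker_of_notMem hn
    have e := (LinearMap.toContinuousLinearMap f).intervalIntegral_comp_comm hi
    have e' : ∀ t, LinearMap.toContinuousLinearMap f (φ t) = 0 := fun t => h2 (h t)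
    simp only [e', intervalIntegral.integral_zero] at e
    exact h1 e.symm
  · rw [intervalIntegral.integral_undef hi]
    exact zero_mem _

end Vale.Agent.P231C
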