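import Vale.Agent.P231C.LamT

/-! The top power of a contact form. -/

noncomputable section

namespace Vale.Agent.P231C

/-- The form `∑ i, d (B w) i * d a i` on pairs `(a, w)`. -/
def sy {n : ℕ} (B : FS.euc n →L[ℝ] FS.euc n) : Lam ((FS.euc n).prod (FS.euc n)) :=
  ∑ i, io (Z := (FS.euc n).prod (FS.euc n))
      (((innerSL ℝ (eb n i)).comp B).comp (ContinuousLinearMap.snd ℝ _ _)) *
    io (Z := (FS.euc n).prod (FS.euc n))
      ((innerSL ℝ (eb n i)).comp (ContinuousLinearMap.fst ℝ _ _))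

section Aux

variable {R : Type} [Ring R]

theorem lams_pow {a S : R} (h : Commute a S) (ha : a * a = 0) (m : ℕ) :
    (a + S) ^ (m + 1) = S ^ (m + 1) + (m + 1) • (a * S ^ m) := by
  induction m with
  | zero => simp [add_comm]
  | succ m ih =>
    have h1 : S * (a * S ^ m) = a * S ^ (m + 1) := by
      rw [← mul_assoc, ← h.eq, mul_assoc, pow_succ']
    rw [pow_succ', ih, add_mul, mul_add, mul_add, mul_smul_comm, mul_smul_comm, h1, ← mul_assoc, ha,
      zero_mul, smul_zero, add_zero, ← pow_succ', succ_nsmul _ (m + 1)]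
    abel

theorem lams_list (l : List R) (hc : ∀ a ∈ l, ∀ b ∈ l, Commute a b) (h0 : ∀ a ∈ l, a * a = 0) :
    l.sum ^ l.length = l.length.factorial • l.prod ∧ l.sum ^ (l.length + 1) = 0 := by
  induction l with
  | nil => simp
  | cons a l ih =>
    obtain ⟨h1, h2⟩ := ih (fun a ha b hb => hc a (by simp [ha]) b (by simp [hb]))
      fun a ha => h0 a (by simp [ha])
    have h3 : Commute a l.sum := Commute.list_sum_right _ _ fun b hb =>
      hc a (by simp) b (by simp [hb])
    have h4 := h0 a (by simp)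
    rw [List.sum_cons, List.length_cons, List.prod_cons, lams_pow h3 h4, lams_pow h3 h4, h1, h2,
      pow_succ, h2, Nat.factorial_succ, mul_smul_comm, mul_smul]
    simp

variable {Z : FS}

theorem lams_comm {k : ℕ} {a b : Lam Z} (ha : a ∈ Dg Z 2) (hb : b ∈ Dg Z k) : Commute a b := by
  have h := dg_comm ha hb
  rwa [pow_mul, neg_one_sq, one_pow, one_smul] at h

theorem lams_sq (f g : Z →L[ℝ] ℝ) : io f * io g * (io f * io g) = 0 := by
  rw [← mul_assoc, (lams_comm (dg_mul (io_mem f) (io_mem g)) (io_mem f)).eq, ← mul_assoc, io_sq,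
    zero_mul, zero_mul]

theorem lams_mem {m : ℕ} (f : Fin m → Z →L[ℝ] ℝ) :
    (List.ofFn fun i => io (f i)).prod ∈ Dg Z m := by
  induction m with
  | zero => simpa using dg_one
  | succ m ih =>
    have h := dg_mul (io_mem (f 0)) (ih fun i => f i.succ)
    rw [add_comm] at h
    rw [List.ofFn_succ, List.prod_cons]
    exact h

theorem lams_ct {m : ℕ} (f : Fin m → Z →L[ℝ] ℝ) {v : Z} (h : ∀ i, f i v = 0) :
    ct v (List.ofFn fun i => io (f i)).prod = 0 := by
  induction m with
  | zero => simpa using ct_alg v 1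
  | succ m ih =>
    rw [List.ofFn_succ, List.prod_cons, ct_io_mul, h, ih (fun i => f i.succ) fun i => h _]
    simp

theorem lams_dual {m : ℕ} (f : Fin m → Z →L[ℝ] ℝ) (v : Fin m → Z)
    (h : ∀ i j, f i (v j) = if i = j then 1 else 0) :
    top v (List.ofFn fun i => io (f i)).prod = 1 := by
  induction m with
  | zero => simp [top, evl]
  | succ m ih =>
    rw [top, List.ofFn_succ, List.ofFn_succ, List.prod_cons, evl, ct_io_mul, h,
      lams_ct (fun i => f i.succ) fun i => by rw [h, if_neg (Fin.succ_ne_zero i)]]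
    simp only [if_true, one_smul, mul_zero, sub_zero]
    exact ih (fun i => f i.succ) (fun i => v i.succ) fun i j => by simp [h]

theorem lams_sort {m : ℕ} (f g : Fin m → Z →L[ℝ] ℝ) : ∃ ε : ℝ, |ε| = 1 ∧
    (List.ofFn fun i => io (g i) * io (f i)).prod =
      ε • ((List.ofFn fun i => io (f i)).prod * (List.ofFn fun i => io (g i)).prod) := by
  induction m with
  | zero => exact ⟨1, by simp, by simp⟩
  | succ m ih =>
    obtain ⟨ε, h1, h2⟩ := ih (fun i => f i.succ) fun i => g i.succ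
    refine ⟨ε * (-1) ^ (1 * (m + 1)), by simp [abs_mul, h1], ?_⟩
    have h3 := dg_comm (io_mem (g 0)) (lams_mem f)
    have h4 : (List.ofFn fun i => io (f i)).prod =
        io (f 0) * (List.ofFn fun i : Fin m => io (f i.succ)).prod := by
      rw [List.ofFn_succ, List.prod_cons]
    rw [List.ofFn_succ, List.prod_cons, h2, List.ofFn_succ (f := fun i => io (g i)),
      List.prod_cons, ← mul_assoc _ (io (g 0)), mul_smul, ← smul_mul_assoc ((-1 : ℝ) ^ _), ← h3, h4,
      mul_smul_comm]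
    simp only [mul_assoc]

theorem lams_append {m k : ℕ} (f : Fin m → Z →L[ℝ] ℝ) (g : Fin k → Z →L[ℝ] ℝ) :
    (List.ofFn fun i => io (f i)).prod * (List.ofFn fun i => io (g i)).prod =
      (List.ofFn fun i => io (Fin.append f g i)).prod := by
  rw [← List.prod_append, ← List.ofFn_fin_append]
  congr 2
  funext i
  refine Fin.addCases (fun i => ?_) (fun i => ?_) i <;> simp

/-- `evl L` as a linear map. -/
def lamsE (L : List Z) : Lam Z →ₗ[ℝ] ℝ where
  toFun := evl L
  map_add' := evl_add _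
  map_smul' := evl_smul _

theorem lams_cont (μ ω : Lam Z) (m : ℕ) (L : Lam Z →ₗ[ℝ] ℝ) :
    Continuous fun s : ℝ => L ((s • μ + ω) ^ m) := by
  induction m generalizing L with
  | zero => simpa using continuous_const
  | succ m ih =>
    simp only [pow_succ, mul_add, mul_smul_comm, map_add, map_smul, smul_eq_mul]
    exact (continuous_id.mul (ih (L.comp (LinearMap.mulRight ℝ μ)))).add
      (ih (L.comp (LinearMap.mulRight ℝ ω)))

theorem lams_bil (s : ℝ) (p p' q q' : Z) (ν : Lam Z) : evl [s • p + p', s • q + q'] ν =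
    s ^ 2 * evl [p, q] ν + s * (evl [p', q] ν - evl [q', p] ν) + evl [p', q'] ν := by
  simp only [evl, ct_add, ct_smul, map_add, map_smul, smul_eq_mul, ct_anti q' p, map_neg]
  ring

end Aux

theorem lams_sy_mem {n : ℕ} (B : FS.euc n →L[ℝ] FS.euc n) : sy B ∈ Dg _ 2 :=
  Submodule.sum_mem _ fun _ _ => dg_mul (io_mem _) (io_mem _)

theorem lams_evl {n : ℕ} (B : FS.euc n →L[ℝ] FS.euc n) (p q : (FS.euc n).prod (FS.euc n)) :
    evl [p, q] (sy B) = inner ℝ (B p.2) q.1 - inner ℝ (B q.2) p.1 := by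
  refine (map_sum (lamsE [p, q]) _ _).trans ?_
  refine (Finset.sum_congr rfl fun i _ =>
    evl_io_io (Z := (FS.euc n).prod (FS.euc n)) p q _ _).trans ?_
  simp [eb, PiLp.inner_apply, mul_comm]

/-- The summands of `sy id` commute and have square zero, so the power is `n !` times their
product `Π`; `top (eb2 n) Π = ± 1` (for instance: `Π = ± pb fst x * pb snd x` with
`x = ∏ io (coord i)`, `top_append`, and `top (eb n) x = 1` by induction, or use
`exists_alternating`). -/
theorem abs_top_sy (n : ℕ) :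
    |top (eb2 n) (sy (ContinuousLinearMap.id ℝ (FS.euc n)) ^ n)| = n.factorial := by
  have h1 := (lams_list (List.ofFn fun i : Fin n => io (Z := (FS.euc n).prod (FS.euc n))
      ((innerSL ℝ (eb n i)).comp (ContinuousLinearMap.snd ℝ _ _)) *
    io (Z := (FS.euc n).prod (FS.euc n)) ((innerSL ℝ (eb n i)).comp (ContinuousLinearMap.fst ℝ _ _)))
    (by
      simp only [List.forall_mem_ofFn_iff]
      exact fun i j => lams_comm (dg_mul (io_mem _) (io_mem _)) (dg_mul (io_mem _) (io_mem _)))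
    (by
      simp only [List.forall_mem_ofFn_iff]
      exact fun i => lams_sq _ _)).1
  obtain ⟨ε, h2, h3⟩ := lams_sort (Z := (FS.euc n).prod (FS.euc n))
    (fun i => (innerSL ℝ (eb n i)).comp (ContinuousLinearMap.fst ℝ _ _))
    fun i => (innerSL ℝ (eb n i)).comp (ContinuousLinearMap.snd ℝ _ _)
  rw [List.sum_ofFn, List.length_ofFn, h3, lams_append] at h1
  have h4 := lams_dual (Z := (FS.euc n).prod (FS.euc n)) (Fin.append
    (fun i => (innerSL ℝ (eb n i)).comp (ContinuousLinearMap.fst ℝ _ _))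
    fun i => (innerSL ℝ (eb n i)).comp (ContinuousLinearMap.snd ℝ _ _)) (eb2 n) (by
      intro i j
      refine Fin.addCases (fun i => ?_) (fun i => ?_) i <;>
        refine Fin.addCases (fun j => ?_) (fun j => ?_) j <;>
        simp only [eb2, Fin.append_left, Fin.append_right]
      · simp [eb, EuclideanSpace.inner_single_left, PiLp.single_apply]
      · rw [if_neg (by simp [Fin.ext_iff]; omega)]
        simp
      · rw [if_neg (by simp [Fin.ext_iff]; omega)]
        simp
      · simp [eb, EuclideanSpace.inner_single_left, PiLp.single_apply])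
  have h5 : sy (ContinuousLinearMap.id ℝ (FS.euc n)) ^ n = _ := h1
  rw [h5, ← topL_apply, map_nsmul, map_smul, topL_apply, h4]
  simp [abs_mul, h2]

/-- `sy B = pb (id.prodMap B) (sy id)` and `top_eb2_det`. -/
theorem top_sy (n : ℕ) (B : FS.euc n →L[ℝ] FS.euc n) :
    top (eb2 n) (sy B ^ n) = LinearMap.det B.toLinearMap *
      top (eb2 n) (sy (ContinuousLinearMap.id ℝ (FS.euc n)) ^ n) := by
  have h : sy B = pb (W := (FS.euc n).prod (FS.euc n))
      ((ContinuousLinearMap.id ℝ (FS.euc n)).prodMap B)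
      (sy (ContinuousLinearMap.id ℝ (FS.euc n))) := by
    refine dg_ext_two (lams_sy_mem _) (pb_mem _ (lams_sy_mem _)) fun p q => ?_
    rw [evl_pb, lams_evl]
    exact (lams_evl (ContinuousLinearMap.id ℝ (FS.euc n)) (p.1, B p.2) (q.1, B q.2)).symm
  rw [h, ← map_pow, top_eb2_det]
  simp

theorem lams_sy_add {n : ℕ} (B C : FS.euc n →L[ℝ] FS.euc n) : sy (B + C) = sy B + sy C :=
  dg_ext_two (lams_sy_mem _) (add_mem (lams_sy_mem _) (lams_sy_mem _)) fun p q => by
    rw [evl_add, lams_evl, lams_evl, lams_evl]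
    simp only [add_apply, inner_add_left]
    ring

theorem lams_rank {n : ℕ} (u : FS.euc n) : sy ((innerSL ℝ u).smulRight u) =
    io (Z := (FS.euc n).prod (FS.euc n)) ((innerSL ℝ u).comp (ContinuousLinearMap.snd ℝ _ _)) *
      io (Z := (FS.euc n).prod (FS.euc n)) ((innerSL ℝ u).comp (ContinuousLinearMap.fst ℝ _ _)) :=
  dg_ext_two (lams_sy_mem _) (dg_mul (io_mem _) (io_mem _)) fun p q => by
    rw [lams_evl, evl_io_io]
    simp [inner_smul_left]

/-- The contact endomorphism. -/
def lamsN {n : ℕ} (u : FS.euc n) (t : ℝ) : FS.euc n →L[ℝ] FS.euc n :=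
  t⁻¹ • (ContinuousLinearMap.id ℝ _ - (innerSL ℝ u).smulRight u)

theorem lams_det_zero {n : ℕ} {u : FS.euc n} (hu : ‖u‖ = 1) (t : ℝ) :
    LinearMap.det (lamsN u t).toLinearMap = 0 := by
  rw [LinearMap.det_eq_zero_iff_ker_ne_bot, Submodule.ne_bot_iff]
  refine ⟨u, by simp [lamsN, hu], ?_⟩
  rintro rfl
  simp at hu

theorem lams_det {n : ℕ} {u : FS.euc (n + 1)} (hu : ‖u‖ = 1) {t : ℝ} (ht : t ≠ 0) :
    LinearMap.det ((innerSL ℝ u).smulRight u + lamsN u t).toLinearMap = t⁻¹ ^ n := by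
  have h : ((innerSL ℝ u).smulRight u + lamsN u t).toLinearMap =
      t⁻¹ • LinearMap.transvection ((t - 1) • (innerSL ℝ u).toLinearMap) u := by
    ext1 w
    simp only [lamsN, LinearMap.transvection.apply, ContinuousLinearMap.coe_coe,
      add_apply, ContinuousLinearMap.smulRight_apply,
      smul_apply, sub_apply,
      ContinuousLinearMap.id_apply, LinearMap.smul_apply, smul_eq_mul]
    match_scalars <;> field_simp
    ring
  rw [h, LinearMap.det_smul, LinearMap.transvection.det]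
  simp [hu]
  field_simp
  ring

theorem lams_main {n : ℕ} {u : FS.euc (n + 1)} (hu : ‖u‖ = 1) {t : ℝ} (ht : t ≠ 0) :
    (n + 1 : ℝ) * top (eb2 (n + 1)) (sy ((innerSL ℝ u).smulRight u) * sy (lamsN u t) ^ n) =
      t⁻¹ ^ n * top (eb2 (n + 1)) (sy (ContinuousLinearMap.id ℝ (FS.euc (n + 1))) ^ (n + 1)) := by
  have h := top_sy (n + 1) ((innerSL ℝ u).smulRight u + lamsN u t)
  rw [lams_det hu ht, lams_sy_add, lams_pow (lams_comm (lams_sy_mem _) (lams_sy_mem _))
    (by rw [lams_rank]; exact lams_sq _ _), ← topL_apply, map_add, map_nsmul, topL_apply,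
    topL_apply, top_sy, lams_det_zero hu] at h
  rw [← h]
  simp

theorem lams_scale {n : ℕ} (u : FS.euc n) {t : ℝ} {ν : Lam ((FS.euc n).prod (FS.euc n))}
    (h : ν ∈ Dg _ 2) (h1 : ∀ w w', evl [(0, w), (0, w')] ν = 0)
    (h2 : ∀ a w, evl [(0, w), (a, 0)] ν = t⁻¹ * (inner ℝ w a - inner ℝ u w * inner ℝ u a))
    (s : ℝ) : pb (W := (FS.euc n).prod (FS.euc n))
      ((s • ContinuousLinearMap.id ℝ (FS.euc n)).prodMap (ContinuousLinearMap.id ℝ (FS.euc n))) ν =
      s • (s • (ν - sy (lamsN u t)) + sy (lamsN u t)) := by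
  refine dg_ext_two (pb_mem _ h) (Submodule.smul_mem _ _ (add_mem (Submodule.smul_mem _ _
    (sub_mem h (lams_sy_mem _))) (lams_sy_mem _))) fun p q => ?_
  have h3 : ∀ r : ℝ, evl (Z := (FS.euc n).prod (FS.euc n)) [(r • p.1, p.2), (r • q.1, q.2)] ν =
      r ^ 2 * evl (Z := (FS.euc n).prod (FS.euc n)) [(p.1, 0), (q.1, 0)] ν +
        r * evl [p, q] (sy (lamsN u t)) := fun r => by
    have h4 := lams_bil (Z := (FS.euc n).prod (FS.euc n)) r (p.1, 0) (0, p.2) (q.1, 0) (0, q.2) ν
    rw [h1, h2, h2] at h4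
    rw [lams_evl]
    simp only [Prod.smul_mk, Prod.mk_add_mk, add_zero, smul_zero, zero_add] at h4
    rw [h4]
    simp [lamsN, inner_smul_left, inner_sub_left]
  have h5 := h3 1
  simp only [one_smul, Prod.mk.eta] at h5
  rw [evl_pb, evl_smul, evl_add, evl_smul, sub_eq_add_neg, evl_add, ← neg_one_smul ℝ, evl_smul, h5]
  refine (h3 s).trans ?_
  ring

/-- By `dg_ext_two`, `ν = pb fst ν' + sy N` with `N w = t⁻¹ • (w - ⟪u, w⟫ • u)`,
`ν' = pb inl ν`. Terms with more than `n + 1` factors from `pb fst` vanish (`pb_eq_zero`), so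
the product equals `c • sy P * sy N ^ n` where `P w = ⟪u, w⟫ • u`, `sy P * sy P = 0`.
Expand `(sy N + sy P) ^ (n + 1) = sy (N + P) ^ (n + 1)`; `det N = 0`, `det (N + P) = t⁻¹ ^ n`.
To count factors: the scaling `pb ((s • id).prodMap id)` multiplies `top (eb2 _)` by
`s ^ (n + 1)` (`top_eb2_det`), divide by powers of `s` and compare polynomials, or argue
directly in the ideal generated by `pb fst (Dg (n + 2))`. -/
theorem top_contact (n : ℕ) : ∃ σ : ℝ, |σ| = 1 ∧ ∀ (u : FS.euc (n + 1)) (c t : ℝ)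
    (α : FS.euc (n + 1) →L[ℝ] ℝ) (ν : Lam ((FS.euc (n + 1)).prod (FS.euc (n + 1)))),
    ‖u‖ = 1 → t ≠ 0 → ν ∈ Dg _ 2 → (∀ w w', evl [(0, w), (0, w')] ν = 0) →
    (∀ a w, evl [(0, w), (a, 0)] ν =
      t⁻¹ * (inner ℝ w a - inner ℝ u w * inner ℝ u a)) →
    top (eb2 (n + 1))
      (io (Z := (FS.euc (n + 1)).prod (FS.euc (n + 1)))
          (α.comp (ContinuousLinearMap.fst ℝ _ _) +
            c • (innerSL ℝ u).comp (ContinuousLinearMap.snd ℝ _ _)) *
        (io (Z := (FS.euc (n + 1)).prod (FS.euc (n + 1)))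
          ((innerSL ℝ u).comp (ContinuousLinearMap.fst ℝ _ _)) * ν ^ n)) =
      σ * c * n.factorial * t⁻¹ ^ n := by
  have hf : ((n + 1).factorial : ℝ) ≠ 0 := by positivity
  refine ⟨top (eb2 (n + 1)) (sy (ContinuousLinearMap.id ℝ (FS.euc (n + 1))) ^ (n + 1)) /
    (n + 1).factorial, by rw [abs_div, abs_top_sy, Nat.abs_cast, div_self hf], ?_⟩
  intro u c t α ν hu ht h h1 h2
  set A := io (Z := (FS.euc (n + 1)).prod (FS.euc (n + 1)))
    (α.comp (ContinuousLinearMap.fst ℝ _ _)) with hA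
  set B := io (Z := (FS.euc (n + 1)).prod (FS.euc (n + 1)))
    ((innerSL ℝ u).comp (ContinuousLinearMap.snd ℝ _ _)) with hB
  set C := io (Z := (FS.euc (n + 1)).prod (FS.euc (n + 1)))
    ((innerSL ℝ u).comp (ContinuousLinearMap.fst ℝ _ _)) with hC
  rw [map_add, map_smul, ← hA, ← hB]
  let g : ℝ → ℝ := fun s => top (eb2 (n + 1))
    ((s • A + c • B) * (C * (s • (ν - sy (lamsN u t)) + sy (lamsN u t)) ^ n))
  have h3 : Continuous g := by
    have h4 := fun X => lams_cont (ν - sy (lamsN u t)) (sy (lamsN u t)) n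
      ((topL (eb2 (n + 1))).comp (LinearMap.mulLeft ℝ (X * C)))
    refine ((continuous_id.mul (h4 A)).add (continuous_const.mul (h4 B) (f := fun _ => c))).congr
      fun s => ?_
    simp only [g, add_mul, smul_mul_assoc, ← topL_apply, map_add, map_smul, smul_eq_mul,
      LinearMap.comp_apply, LinearMap.mulLeft_apply, mul_assoc]
    rfl
  have h4 : ∀ s, s ≠ 0 → g s = top (eb2 (n + 1)) ((A + c • B) * (C * ν ^ n)) := fun s hs => by
    have h5 := top_eb2_det (s • ContinuousLinearMap.id ℝ (FS.euc (n + 1)))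
      (ContinuousLinearMap.id ℝ (FS.euc (n + 1))) ((A + c • B) * (C * ν ^ n))
    have h6 : ∀ f : FS.euc (n + 1) →L[ℝ] ℝ, pb (W := (FS.euc (n + 1)).prod (FS.euc (n + 1)))
        ((s • ContinuousLinearMap.id ℝ (FS.euc (n + 1))).prodMap (ContinuousLinearMap.id ℝ _))
        (io (Z := (FS.euc (n + 1)).prod (FS.euc (n + 1)))
          (f.comp (ContinuousLinearMap.fst ℝ _ _))) =
        s • io (Z := (FS.euc (n + 1)).prod (FS.euc (n + 1)))
          (f.comp (ContinuousLinearMap.fst ℝ _ _)) := fun f => by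
      rw [pb_io, ← map_smul]
      congr 1
      ext <;> simp
    have h7 : pb (W := (FS.euc (n + 1)).prod (FS.euc (n + 1)))
        ((s • ContinuousLinearMap.id ℝ (FS.euc (n + 1))).prodMap (ContinuousLinearMap.id ℝ _))
        B = B := by
      rw [hB, pb_io]
      congr 1
    rw [map_mul, map_mul, map_pow, map_add, map_smul, h7, h6, h6, lams_scale u h h1 h2, smul_pow,
      ← hA, ← hC, smul_mul_smul_comm, mul_smul_comm, ← topL_apply, map_smul, topL_apply] at h5
    refine mul_left_cancel₀ (pow_ne_zero (n + 1) hs) ?_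
    simpa [g, pow_succ', LinearMap.det_smul] using h5
  have h5 : g 0 = top (eb2 (n + 1)) ((A + c • B) * (C * ν ^ n)) :=
    tendsto_nhds_unique (h3.continuousAt.tendsto.mono_left nhdsWithin_le_nhds)
      (tendsto_const_nhds.congr' (l₁ := nhdsWithin 0 {0}ᶜ)
        (eventually_nhdsWithin_of_forall fun s hs => (h4 s hs).symm))
  have h6 := lams_main hu ht
  rw [lams_rank, ← hB, ← hC] at h6
  rw [← h5]
  simp only [g, zero_smul, zero_add, smul_mul_assoc]
  rw [← topL_apply, map_smul, topL_apply, ← mul_assoc, smul_eq_mul]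
  rw [Nat.factorial_succ, mul_comm _ (t⁻¹ ^ n), ← mul_assoc, ← mul_assoc, ← mul_div_assoc, ← h6]
  push_cast
  field_simp

end Vale.Agent.P231C
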