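import Vale.Agent.P231C.XB

/-! The contact form. -/

open scoped ContDiff Topology
open Filter Set MeasureTheory

noncomputable section

namespace Vale.Agent.P231C

open Vale.Agent.P234 Vale.Agent.P231

variable {M : Type*} [MetricSpace M] [CompactSpace M] {n : ℕ} {e : M → Eu n → M} {D : ℝ}

theorem BC.loc_lam (h : BC e D) {Z : FS} {f : Z → XT M D} {u : Z} (hf : h.DX.P ⟨Z, f, u⟩) :
    loc h.lam Z f u = io ((innerSL ℝ (vel e (f u))).comp (Tm e (fun z => ev (f z)) u)) := by
  exact loc_eq h.lam hf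

theorem lamx_clm {Z : FS} {A : Z → Z →L[ℝ] ℝ} {u : Z}
    (hA : ∀ w, ContDiffAt ℝ ∞ (fun z => A z w) u) : ContDiffAt ℝ ∞ A u := by
  have h1 : A = fun z => ∑ i, A z (Module.finBasis ℝ Z i) •
      LinearMap.toContinuousLinearMap ((Module.finBasis ℝ Z).coord i) := by
    funext z
    ext v
    rw [← lamc_exp (Module.finBasis ℝ Z) (A z) v]
    simp only [sum_apply, smul_apply, smul_eq_mul,
      LinearMap.coe_toContinuousLinearMap', mul_comm]
  rw [h1]
  exact ContDiffAt.sum fun i _ => (hA _).smul contDiffAt_const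

/-- Smoothness of the covector: test on constant vectors (`contDiffAt_clm_apply`), `SmV.inner`,
`BC.smv_Tm`. -/
theorem BC.contDiffAt_lam (h : BC e D) {Z : FS} {f : Z → XT M D} {u : Z} (hf : h.DX.P ⟨Z, f, u⟩) :
    ContDiffAt ℝ ∞ (fun u' => (innerSL ℝ (vel e (f u'))).comp (Tm e (fun z => ev (f z)) u')) u := by
  exact lamx_clm fun w => (h.smoV_vel Z f u hf).inner
    (h.smv_Tm hf.1.self_of_nhds (w := fun _ => w) contDiffAt_const) h hf.1.self_of_nhds

theorem BC.fm_lam (h : BC e D) : Fm 1 h.lam := by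
  refine ⟨fun p => io_mem _, fun Z f u hf => difa_sm hf (fun u' hu => h.loc_lam hu)
    (cd_io (h.contDiffAt_lam hf)), fun Z W f g w f' hf hg he => ?_⟩
  have h1 : (fun z => ev (f' z)) =ᶠ[𝓝 w] fun z => ev (f (g z)) :=
    he.mono fun z hz => congrArg ev hz
  rw [h.loc_lam (h.DX.comp hf hg he), h.loc_lam hf, pb_io, Tm_congr h1, he.self_of_nhds,
    Tm_comp (f := fun z => ev (f z)) hf.1.self_of_nhds
      (hg.self_of_nhds.differentiableAt (by simp))]
  rfl

theorem lamx_plot (h : BC e D) {Z : FS} {f : Z → XT M D} {t : Z → ℝ} {u : Z}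
    (hf : h.DX.P ⟨Z, f, u⟩) (ht : Sg t u) : h.DX.P ⟨Z, fun z => h.fl (f z, t z), u⟩ :=
  h.cir_fl.sm ⟨Z, fun z => (f z, t z), u⟩ ⟨hf, ht⟩

theorem lamx_step (h : BC e D) {Z : FS} {f : Z → XT M D} {t : Z → ℝ} {u : Z}
    (hf : h.DX.P ⟨Z, f, u⟩) (ht : Sg t u) (w : Z) (h0 : 0 < t u) (h1 : t u < D) :
    inner ℝ (vel e (h.fl (f u, t u))) (Tm e (fun z => geo e (f z) (t z)) u w) =
      inner ℝ (vel e (f u)) (Tm e (fun z => ev (f z)) u w) + fderiv ℝ t u w := by
  have hc := ht.self_of_nhds.continuousAt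
  have h2 : ∀ (z : XT M D) (s : ℝ), 0 < s → s < D → dist (ev z) (geo e z s) = s := by
    intro z s a1 a2
    have a3 : |0 - s| = s := by rw [zero_sub, abs_neg, abs_of_pos a1]
    rw [← h.geo_zero, h.dist_geo z (by rw [a3]; exact a2.le), a3]
  have h3 : (fun z => dist (ev (f z)) (geo e (f z) (t z))) =ᶠ[𝓝 u] t := by
    filter_upwards [continuousAt_const.eventually_lt hc h0,
      hc.eventually_lt continuousAt_const h1] with z a1 a2
    exact h2 _ _ a1 a2
  have h4 := h.fderiv_dist (f := fun z => ev (f z)) (g := fun z => geo e (f z) (t z))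
    hf.1.self_of_nhds (lamx_plot h hf ht).1.self_of_nhds (by rw [h2 _ _ h0 h1]; exact h0)
    (by rw [h2 _ _ h0 h1]; exact h1) w
  have h5 : lg e (ev (f u)) (geo e (f u) (t u)) = t u • vel e (f u) := by
    have := h.lg_geo (f u) (s := 0) (t := t u) (by rw [zero_sub, abs_neg, abs_of_pos h0]; exact h1)
    rw [h.geo_zero, h.fl_zero, sub_zero] at this
    exact this
  have h6 : lg e (geo e (f u) (t u)) (ev (f u)) = (-t u) • vel e (h.fl (f u, t u)) := by
    have := h.lg_geo (f u) (s := t u) (t := 0) (by rw [sub_zero, abs_of_pos h0]; exact h1)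
    rw [h.geo_zero, zero_sub] at this
    exact this
  rw [h3.fderiv_eq, h2 _ _ h0 h1, h5, h6, real_inner_smul_left, real_inner_smul_left] at h4
  have h7 := h0.ne'
  rw [h4]
  field_simp
  ring

theorem lamx_int (h : BC e D) {Z : FS} {f : Z → XT M D} {u : Z} (hf : h.DX.P ⟨Z, f, u⟩) (w : Z)
    (k : ℤ) : inner ℝ (vel e (h.fl (f u, k * (D / 2))))
      (Tm e (fun z => geo e (f z) (k * (D / 2))) u w) =
      inner ℝ (vel e (f u)) (Tm e (fun z => ev (f z)) u w) := by
  have h0 := h.dpos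
  have key : ∀ c : ℝ, inner ℝ (vel e (h.fl (f u, c + D / 2)))
      (Tm e (fun z => geo e (f z) (c + D / 2)) u w) =
      inner ℝ (vel e (h.fl (f u, c))) (Tm e (fun z => geo e (f z) c) u w) := by
    intro c
    have h1 := lamx_step h (lamx_plot h hf (difc_sg_const c u)) (difc_sg_const (D / 2) u) w
      (by linarith) (by linarith)
    simp only [h.fl_add, geo_fl, ev_fl, fderiv_fun_const, Pi.zero_apply,
      zero_apply, add_zero] at h1
    exact h1
  induction k using Int.induction_on with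
  | zero => simp only [Int.cast_zero, zero_mul, h.fl_zero, h.geo_zero]
  | succ k ih =>
    rw [← ih]
    push_cast
    rw [add_mul, one_mul, key]
  | pred k ih =>
    rw [← ih, ← key]
    push_cast
    rw [sub_mul, one_mul, sub_add_cancel]

/-- For `0 < t u < D` differentiate `dist (ev (f z)) (geo (f z) (t z)) = t z` with
`BC.fderiv_dist`, `BC.lg_geo`. The general case follows by writing `t z = c + (t z - c)` with
`fl_add`, and induction on steps of length `D / 2` in both directions. -/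
theorem BC.gauss_fl (h : BC e D) {Z : FS} {f : Z → XT M D} {t : Z → ℝ} {u : Z}
    (hf : h.DX.P ⟨Z, f, u⟩) (ht : Sg t u) (w : Z) :
    inner ℝ (vel e (h.fl (f u, t u))) (Tm e (fun z => geo e (f z) (t z)) u w) =
      inner ℝ (vel e (f u)) (Tm e (fun z => ev (f z)) u w) + fderiv ℝ t u w := by
  have h0 := h.dpos
  have h1 : 0 < D / 2 := by linarith
  have h2 := Int.floor_le (t u / (D / 2))
  have h3 := Int.lt_floor_add_one (t u / (D / 2))
  rw [le_div_iff₀ h1] at h2
  rw [div_lt_iff₀ h1] at h3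
  obtain ⟨k, hk⟩ : ∃ k : ℤ, (k : ℝ) = ⌊t u / (D / 2)⌋ - 1 := ⟨⌊t u / (D / 2)⌋ - 1, by push_cast; rfl⟩
  have h4 : Sg (fun z => t z - k * (D / 2)) u := ht.mono fun z hz => hz.sub contDiffAt_const
  have h5 := lamx_step h (lamx_plot h hf (difc_sg_const (k * (D / 2)) u)) h4 w
    (by rw [hk]; linarith) (by rw [hk]; linarith)
  simp only [h.fl_add, geo_fl, ev_fl, add_sub_cancel, fderiv_sub_const] at h5
  rw [h5, lamx_int h hf w k]

theorem BC.pull_lam (h : BC e D) : pull h.cir_fl.sm h.lam =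
    pull (smo_fst _ _) h.lam + dx (fn h.DX.ext fun p => p.2) := by
  refine rf_ext fun Z f u hp => ?_
  have h1 : loc (fn h.DX.ext fun p => p.2) Z f =ᶠ[𝓝 u] fun z => algebraMap ℝ (Lam Z) (f z).2 :=
    (h.DX.ext.ev hp).mono fun z hz => loc_fn _ hz
  rw [loc_add, loc_pull _ _ hp, loc_pull _ _ hp, loc_dx _ hp, dd_congr h1,
    dd_fun (hp.2.self_of_nhds.differentiableAt (by simp)),
    h.loc_lam (h.cir_fl.sm ⟨Z, f, u⟩ hp), h.loc_lam hp.1, ← map_add]
  congr 1
  ext w
  exact h.gauss_fl hp.1 hp.2 w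

theorem BC.smo_fl (h : BC e D) (t : ℝ) : Smo h.DX h.DX fun z => h.fl (z, t) :=
  h.cir_fl.sm.comp (smo_slice _ t)

theorem BC.pull_lam_const (h : BC e D) (t : ℝ) : pull (h.smo_fl t) h.lam = h.lam := by
  refine rf_ext fun Z f u hp => ?_
  rw [loc_pull _ _ hp, h.loc_lam (h.smo_fl t ⟨Z, f, u⟩ hp), h.loc_lam hp]
  congr 1
  ext w
  have h1 := h.gauss_fl hp (difc_sg_const t u) w
  simp only [fderiv_fun_const, Pi.zero_apply, zero_apply, add_zero] at h1
  exact h1

end Vale.Agent.P231C
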