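import Vale.Agent.P231C.VecB

/-! Length of smooth curves. -/

open scoped ContDiff Topology
open Filter Set MeasureTheory

noncomputable section

namespace Vale.Agent.P231C

open Vale.Agent.P234 Vale.Agent.P231

variable {M : Type*} [MetricSpace M] [CompactSpace M] {n : ℕ} {e : M → Eu n → M} {D : ℝ}

theorem lena_cont (h : BC e D) {σ : ℝ → M} (hσ : ∀ t, Sm e σ t) :
    Continuous fun t => ‖Tm e σ t 1‖ := by
  simp only [norm_eq_sqrt_real_inner]
  refine Real.continuous_sqrt.comp (continuous_iff_continuousAt.2 fun t => ?_)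
  have h1 := h.smv_Tm (hσ t) (w := fun _ => (1 : ℝ)) contDiffAt_const
  exact (h1.inner h1 h (hσ t)).continuousAt

/-- For fixed `s` the function `t ↦ dist (σ s) (σ t) - ∫ ‖Tm‖` is non increasing: use the local
estimate `dist (σ t) (σ t') = ‖lg (σ t) (σ t')‖ = |t' - t| * ‖Tm e σ t 1‖ + o (t' - t)` and
`image_le_of_liminf_slope_right_le_deriv_boundary` or `image_le_of_liminf_slope_right_lt_deriv_boundary`. -/
theorem BC.dist_le_integral (h : BC e D) {σ : ℝ → M} (hσ : ∀ t, Sm e σ t) {a b : ℝ} (hab : a ≤ b) :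
    dist (σ a) (σ b) ≤ ∫ t in a..b, ‖Tm e σ t 1‖ := by
  have hc := lena_cont h hσ
  have hs : Continuous σ := continuous_iff_continuousAt.2 fun t => (hσ t).continuousAt h.toGeo
  refine image_le_of_liminf_slope_right_le_deriv_boundary (f := fun t => dist (σ a) (σ t))
    (B := fun t => ∫ s in a..t, ‖Tm e σ s 1‖) (B' := fun t => ‖Tm e σ t 1‖) (a := a) (b := b)
    (continuous_const.dist hs).continuousOn (by simp)
    (fun t _ => (hc.integral_hasStrictDerivAt a t).hasDerivAt.continuousAt.continuousWithinAt)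
    (fun t _ => (hc.integral_hasStrictDerivAt a t).hasDerivAt.hasDerivWithinAt)
    (fun t _ r hr => ?_) ⟨hab, le_rfl⟩
  have hd : HasDerivAt (fun z => lg e (σ t) (σ z)) (Tm e σ t 1) t :=
    (ContDiffAt.differentiableAt (hσ t) (by simp)).hasFDerivAt.hasDerivAt
  refine ((hd.hasDerivWithinAt.liminf_right_norm_slope_le hr).and_eventually
    self_mem_nhdsWithin).mono fun z hz => lt_of_le_of_lt ?_ hz.1
  have hz' : 0 < z - t := sub_pos.2 hz.2
  rw [h.toGeo.lg_self, sub_zero, h.toGeo.norm_lg, Real.norm_eq_abs, abs_of_pos hz', slope_def_field,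
    div_eq_inv_mul]
  exact mul_le_mul_of_nonneg_left (by linarith [dist_triangle (σ a) (σ t) (σ z)])
    (inv_nonneg.2 hz'.le)

theorem BC.continuous_speed (h : BC e D) {σ : ℝ → M} (hσ : ∀ t, Sm e σ t) :
    Continuous fun t => ‖Tm e σ t 1‖ := lena_cont h hσ

theorem BC.eVar_le (h : BC e D) {σ : ℝ → M} (hσ : ∀ t, Sm e σ t) {a b : ℝ} (hab : a ≤ b) :
    eVariationOn σ (Icc a b) ≤ ENNReal.ofReal (∫ t in a..b, ‖Tm e σ t 1‖) := by
  have _ := hab
  have hc := lena_cont h hσ
  refine iSup_le ?_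
  rintro ⟨k, u, hu, hm⟩
  have h1 : ∀ i, edist (σ (u (i + 1))) (σ (u i)) ≤
      ENNReal.ofReal (∫ t in u i..u (i + 1), ‖Tm e σ t 1‖) := fun i => by
    rw [edist_dist, dist_comm]
    exact ENNReal.ofReal_le_ofReal (h.dist_le_integral hσ (hu i.le_succ))
  refine (Finset.sum_le_sum fun i _ => h1 i).trans ?_
  rw [← ENNReal.ofReal_sum_of_nonneg fun i _ =>
    intervalIntegral.integral_nonneg (hu i.le_succ) fun _ _ => norm_nonneg _,
    intervalIntegral.sum_integral_adjacent_intervals fun i _ => hc.intervalIntegrable _ _]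
  exact ENNReal.ofReal_le_ofReal (intervalIntegral.integral_mono_interval (hm 0).1 (hu k.zero_le)
    (hm k).2 (ae_of_all _ fun _ => norm_nonneg _) (hc.intervalIntegrable _ _))

/-- Cauchy-Schwarz: `2 * x ≤ 1 + x ^ 2`. -/
theorem BC.eVar_lt (h : BC e D) {σ : ℝ → M} (hσ : ∀ t, Sm e σ t) {l : ℝ} (hl : 0 < l)
    (hE : ∫ t in (0 : ℝ)..l, ‖Tm e σ t 1‖ ^ 2 < l) :
    eVariationOn σ (Icc 0 l) < ENNReal.ofReal l := by
  have hc := lena_cont h hσ
  refine (h.eVar_le hσ hl.le).trans_lt ((ENNReal.ofReal_lt_ofReal_iff hl).2 ?_)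
  have h1 : ∫ t in (0 : ℝ)..l, ‖Tm e σ t 1‖ ≤ ∫ t in (0 : ℝ)..l, 1 / 2 + 1 / 2 * ‖Tm e σ t 1‖ ^ 2 :=
    intervalIntegral.integral_mono_on hl.le (hc.intervalIntegrable _ _)
      ((continuous_const.add (continuous_const.mul (hc.pow 2))).intervalIntegrable _ _)
      fun t _ => by nlinarith [sq_nonneg (‖Tm e σ t 1‖ - 1)]
  rw [intervalIntegral.integral_add (continuous_const.intervalIntegrable _ _)
    (Continuous.intervalIntegrable (by fun_prop) _ _), intervalIntegral.integral_const_mul,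
    intervalIntegral.integral_const, smul_eq_mul] at h1
  linarith

end Vale.Agent.P231C
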