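import Vale.Agent.P231C.CoreB
import Vale.Agent.P231C.Hol

/-! The linking theorem. -/

open scoped ContDiff Topology
open Filter Set MeasureTheory

noncomputable section

namespace Vale.Agent.P231C

variable {X M : Type*} {𝒟 : Dif X} {𝒟M : Dif M} {V : Type*} [NormedAddCommGroup V]
  [InnerProductSpace ℝ V] {i : V →L[ℝ] V} {P : M → V →L[ℝ] V} {m : ℕ} {l : ℝ}
  {fl rot : X × ℝ → X} {ev : X → M} {I : RF 𝒟 → ℝ} {η : RF 𝒟M}

theorem Cir.add_per {a : X × ℝ → X} (h : Cir 𝒟 a l) (y : X) (t : ℝ) : a (y, t + l) = a (y, t) := by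
  rw [add_comm, ← h.add, h.per]

/-- A continuous function with values in `ℤ - 1 / 2` is constant. -/
theorem link_half {φ : ℝ → ℝ} (hφ : Continuous φ) (h : ∀ t, ∃ k : ℤ, φ t = k - 1 / 2) (s t : ℝ) :
    φ s = φ t := by
  have key : ∀ s t, ¬φ s < φ t := by
    intro s t hlt
    obtain ⟨k, hk⟩ := h s
    obtain ⟨j, hj⟩ := h t
    have h1 : k < j := by
      have : (k : ℝ) < j := by linarith
      exact_mod_cast this
    have h2 : (k : ℝ) + 1 ≤ j := by exact_mod_cast h1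
    obtain ⟨u, hu⟩ := intermediate_value_univ s t hφ
      (show (k : ℝ) ∈ Icc (φ s) (φ t) from ⟨by linarith, by linarith⟩)
    obtain ⟨q, hq⟩ := h u
    have h3 : (2 * q : ℝ) = 2 * k + 1 := by linarith
    have h4 : 2 * q = 2 * k + 1 := by exact_mod_cast h3
    omega
  exact le_antisymm (not_lt.1 (key t s)) (not_lt.1 (key s t))

/-- The rotation side: `K' = fib 0 (l / 2) (pull (ev ∘ fl) η)`, `cs_of_hom`, `Cir.push_fib`,
`Cir.sgm_closed`, `Lk.conn`, `CS.prim`. On `S`: `pull hi (pull ev η) = 0` (`pull_const`),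
`Cir.pull_push`, the rank condition kills `pull hi Γ`, `hh3_zero_left`, `Cir.chern`. -/
theorem Lk.rot_side (h : Lk 𝒟 𝒟M m l fl rot ev I) (hη : Fm 2 η) (hc : dx η = 0)
    {S : Type*} {𝒮 : Dif S} {ρ : S × ℝ → S} {I' : RF 𝒮 → ℝ} (hI : Integ 𝒮 (2 * m) I')
    (hρ : Cir 𝒮 ρ (2 * Real.pi)) {θ' : RF 𝒮} (hθ' : hρ.Conn θ') {i₀ : S → X} (hi : Smo 𝒮 𝒟 i₀)
    {p₀ : M} (hp : ∀ s, ev (i₀ s) = p₀) (heq : ∀ s t, rot (i₀ s, t) = i₀ (ρ (s, t)))
    (hq : Smo 𝒮 𝒟M fun s => ev (fl (i₀ s, l / 2))) (hβ : pull hq η = dx θ') (s₀ : S)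
    (hj : |sgm η (fun p => ev (fl (rot (i₀ s₀, p.1), p.2))) (2 * Real.pi) (l / 2)| = 1) :
    ∃ Ψ : RF 𝒟, Fm (2 * m + 1) Ψ ∧ dx Ψ = ((m : ℝ) + 2) • pull h.sev η ^ (m + 1) ∧
      |I' (pull hi Ψ)| = |I' (θ' * dx θ' ^ m)| := by
  have hH : Smo 𝒟.ext 𝒟M fun p => ev (fl p) := h.sev.comp h.cfl.sm
  have hQ : Smo 𝒟 𝒟M fun v => ev (fl (v, l / 2)) := hH.comp (smo_slice 𝒟 (l / 2))
  have hn : η ^ (m + 2) = 0 := h.rank.eq_zero (hη.pow (m + 2)) (by omega)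
  have cs : CS m (pull h.sev η) (pull hQ η) (fib 0 (l / 2) (pull hH η)) :=
    cs_of_hom hη hc hn hH h.sev hQ (fun y => by rw [h.cfl.zero]) fun _ => rfl
  have b1 : h.crot.Bas (pull h.sev η) := h.crot.bas_pull h.sev h.ev_rot η
  have b2 : h.crot.Bas (pull hQ η) := h.crot.bas_pull hQ h.q_rot η
  obtain ⟨g1, g2⟩ := h.crot.sgm_closed (b := l / 2) hη hc hH
    (fun v s => by rw [h.cfl.zero, h.cfl.zero, h.ev_rot]) h.q_rot
  set j := sgm η (fun p => ev (fl (rot (i₀ s₀, p.1), p.2))) (2 * Real.pi) (l / 2) with hjd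
  have hK : h.crot.push (fib 0 (l / 2) (pull hH η)) = algebraMap ℝ _ j := by
    rw [h.crot.push_fib hη hH, ← fn_const]
    congr 1
    funext v
    exact h.conn _ g1 g2 v (i₀ s₀)
  have hj0 : j ≠ 0 := by
    intro h0
    rw [h0, abs_zero] at hj
    exact zero_ne_one hj
  obtain ⟨Γ, f1, f2, f3, -⟩ := cs.prim h.integ h.crot b1 b2 hj0 hK
  refine ⟨_, f2, f3, ?_⟩
  have e1 : pull hi (pull h.sev η) = 0 := by
    rw [pull_pull]
    exact pull_const hη _ hp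
  have e2 : pull hi (pull hQ η) = dx θ' := hβ
  have he : ∀ s t, i₀ (ρ (s, t)) = rot (i₀ s, t) := fun s t => (heq s t).symm
  have e3 : pull hi (h.crot.push Γ) = 0 := by
    rw [← h.crot.pull_push hρ hi he, hI.rank.eq_zero (f1.pull hi) (by omega), hρ.push_zero]
  have fK := cs.fk.pull hi
  have e4 : dx (pull hi (fib 0 (l / 2) (pull hH η))) = dx θ' := by
    rw [dx_pull, cs.dk, map_sub, e1, e2, sub_zero]
  have e5 : hρ.push (pull hi (fib 0 (l / 2) (pull hH η))) = algebraMap ℝ _ j := by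
    rw [h.crot.pull_push hρ hi he, hK, AlgHom.commutes]
  have e6 := hρ.chern hI fK (e4 ▸ hθ'.bas) e5 hθ'
  have e7 : pull hi (hh3 (pull h.sev η) (pull h.sev η) (pull hQ η) m) = dx θ' ^ m := by
    have := map_hh3 (pull hi).toRingHom (pull h.sev η) (pull h.sev η) (pull hQ η) m
    simp only [AlgHom.toRingHom_eq_coe, AlgHom.coe_toRingHom] at this
    rw [this, e1, e2, hh3_zero_left]
  rw [map_sub, map_smul, map_mul, e3, e7, smul_zero, zero_sub,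
    hI.neg ((fK.mul (hθ'.fm.dx.pow m)).cast (by ring)), abs_neg]
  rw [e4] at e6
  rw [e6, abs_mul, abs_pow, hj, one_pow, one_mul]

/-- The flow side. `K₊ = fib 0 1 (pull H η)`, `push K₊ = fn μ`; `ι = rot (·, π)`,
`K = -K₊ + pull ι K₊`, `push K = fn (-μ - μ ∘ ι)` (`Cir.pull_push_rev`), a constant `c` because
`dx (push K) = -push (dx K) = 0`. By `Curv.hl_disc`, `μ (i₀ s) ∈ ℤ - 1 / 2` for all `s`, and
`t ↦ μ (i₀ (ρ (s₀, t)))` is continuous, so constant; hence `c = -2 μ (i₀ s₀)` is odd. -/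
theorem Lk.flow_side (h : Lk 𝒟 𝒟M m l fl rot ev I) (hη : Curv 𝒟M i P η) {f : X → M}
    (hf : SH 𝒟 𝒟M ev f) (hinv : ∀ v t, f (fl (v, t)) = f v) {S : Type*} {ρ : S × ℝ → S}
    {i₀ : S → X} (heq : ∀ s t, rot (i₀ s, t) = i₀ (ρ (s, t))) (s₀ : S)
    (hol : ∀ s, Hl i P (fun t => ev (fl (i₀ s, t))) l (1 / 2)) :
    ∃ (α β K L : RF 𝒟) (c : ℝ), CS m α β K ∧ CS m (pull h.sev η) α L ∧ h.cfl.Bas α ∧
      h.cfl.Bas β ∧ 1 ≤ |c| ∧ h.cfl.push K = algebraMap ℝ _ c := by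
  obtain ⟨H, hH, H0, H1⟩ := hf
  have hF : Smo 𝒟 𝒟M f := (funext H1 : (fun y => H (y, 1)) = f) ▸ hH.comp (smo_slice 𝒟 1)
  have hn : η ^ (m + 2) = 0 := h.rank.eq_zero (hη.fm.pow (m + 2)) (by omega)
  have c2 : CS m (pull h.sev η) (pull hF η) (fib 0 1 (pull hH η)) :=
    cs_of_hom hη.fm hη.closed hn hH h.sev hF H0 H1
  have hι : Smo 𝒟 𝒟 fun v => rot (v, Real.pi) := h.crot.sm.comp (smo_slice 𝒟 Real.pi)
  have c3 := c2.pull hι
  have e1 : pull hι (pull h.sev η) = pull h.sev η := by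
    rw [pull_pull]
    exact pull_congr _ _ (fun v => h.ev_rot v _) η
  rw [e1] at c3
  have c1 := c2.symm.trans c3
  have b1 : h.cfl.Bas (pull hF η) := h.cfl.bas_pull hF hinv η
  have b2 : h.cfl.Bas (pull hι (pull hF η)) := by
    rw [pull_pull]
    exact h.cfl.bas_pull (hF.comp hι) (fun v t => by rw [h.flip, hinv]) η
  set μ : X → ℝ := fun v => sgm η (fun p => H (fl (v, p.1), p.2)) l 1 with hμd
  have hμ : Smo 𝒟 (Dif.vec ℝ) μ := h.cfl.smo_sgm hη.fm hH 1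
  have hg : Smo 𝒟 (Dif.vec ℝ) fun v => μ v + μ (rot (v, Real.pi)) :=
    (hμ.prodMk (hμ.comp hι)).contDiff_comp (g := fun p : ℝ × ℝ => p.1 + p.2)
      (contDiff_fst.add contDiff_snd)
  have e2 : h.cfl.push (-fib 0 1 (pull hH η) + pull hι (fib 0 1 (pull hH η))) =
      -fn 𝒟 fun v => μ v + μ (rot (v, Real.pi)) := by
    rw [h.cfl.push_add c2.fk.neg c3.fk, h.cfl.push_neg, h.cfl.pull_push_rev hι h.flip c2.fk,
      h.cfl.push_fib hη.fm hH, pull_fn, fn_add, neg_add]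
  have e3 : dx (fn 𝒟 fun v => μ v + μ (rot (v, Real.pi))) = 0 := by
    have h1 := h.cfl.push_dx c1.fk
    rw [e2, dx_neg (fm_fn hg), neg_neg, c1.dk,
      h.cfl.push_bas (c1.fb.sub c1.fa) (b2.sub b1)] at h1
    exact h1.symm
  have hint : ∀ s, ∃ k : ℤ, μ (i₀ s) = k - 1 / 2 := by
    intro s
    have hG : Smo (Dif.vec (ℝ × ℝ)) 𝒟M fun p => H (fl (i₀ s, p.1), p.2) :=
      hH.comp ((h.cfl.sm.comp ((smo_const _ _ (i₀ s)).pair
        (smo_of_contDiff contDiff_fst))).pair (smo_of_contDiff contDiff_snd))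
    refine hη.hl_disc hG h.lpos (y := f (i₀ s)) (fun a b => ?_) (fun a => ?_) ?_
    · simp only [h.cfl.add_per]
    · simp only [H1, hinv]
    · simpa only [H0] using hol s
  have hc : Continuous fun t : ℝ => μ (rot (i₀ s₀, t)) := by
    have h1 : Smo (Dif.vec ℝ) (Dif.vec ℝ) fun t : ℝ => μ (rot (i₀ s₀, t)) :=
      hμ.comp (h.crot.sm.comp ((smo_const _ _ (i₀ s₀)).pair (smo_id _)))
    exact continuous_iff_continuousAt.2 fun t =>
      (Filter.Eventually.self_of_nhds (smo_line_iff.1 h1 t)).continuousAt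
  have e4 : μ (rot (i₀ s₀, Real.pi)) = μ (i₀ s₀) := by
    have h1 := link_half hc (fun t => by rw [heq]; exact hint _) Real.pi 0
    rwa [h.crot.zero] at h1
  obtain ⟨k, hk⟩ := hint s₀
  refine ⟨_, _, _, _, -(2 * k - 1), c1, c2, b1, b2, ?_, ?_⟩
  · have h1 : (1 : ℤ) ≤ |-(2 * k - 1)| := Int.one_le_abs (by omega)
    exact_mod_cast h1
  · rw [e2, map_neg, ← fn_const]
    congr 2
    funext v
    rw [h.conn _ hg e3 v (i₀ s₀), e4, hk]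
    ring

/-- The linking theorem. -/
theorem Lk.link (h : Lk 𝒟 𝒟M m l fl rot ev I) (hη : Curv 𝒟M i P η) {θ : RF 𝒟}
    (hθ : h.cfl.Conn θ) {f : X → M} (hf : SH 𝒟 𝒟M ev f) (hinv : ∀ v t, f (fl (v, t)) = f v)
    {S : Type*} {𝒮 : Dif S} {ρ : S × ℝ → S} {I' : RF 𝒮 → ℝ} (hI : Integ 𝒮 (2 * m) I')
    (hρ : Cir 𝒮 ρ (2 * Real.pi)) {θ' : RF 𝒮} (hθ' : hρ.Conn θ') {i₀ : S → X} (hi : Smo 𝒮 𝒟 i₀)
    {p₀ : M} (hp : ∀ s, ev (i₀ s) = p₀) (heq : ∀ s t, rot (i₀ s, t) = i₀ (ρ (s, t)))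
    (hq : Smo 𝒮 𝒟M fun s => ev (fl (i₀ s, l / 2))) (hβ : pull hq η = dx θ') (s₀ : S)
    (hol : ∀ s, Hl i P (fun t => ev (fl (i₀ s, t))) l (1 / 2))
    (hj : |sgm η (fun p => ev (fl (rot (i₀ s₀, p.1), p.2))) (2 * Real.pi) (l / 2)| = 1) :
    ∃ Ψ : RF 𝒟, Fm (2 * m + 1) Ψ ∧ dx Ψ = ((m : ℝ) + 2) • pull h.sev η ^ (m + 1) ∧
      |I' (pull hi Ψ)| = |I' (θ' * dx θ' ^ m)| ∧
      |I (θ * dx θ ^ (2 * m + 1))| ≤
        (2 * m + 2).choose (m + 1) * |I (pull h.sev η ^ (m + 1) * Ψ)| := by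
  obtain ⟨Ψ, h1, h2, h3⟩ := h.rot_side hη.fm hη.closed hI hρ hθ' hi hp heq hq hβ s₀ hj
  obtain ⟨α, β, K, L, c, c1, c2, b1, b2, hc, hK⟩ := h.flow_side hη hf hinv heq s₀ hol
  refine ⟨Ψ, h1, h2, h3, ?_⟩
  have h4 := c1.core h.integ h.cfl b1 b2 hc hK hθ (c2.lnk h.integ ⟨Ψ, h1, h2, rfl⟩)
  have h5 : pull h.sev η ^ (m + 1) * Ψ = Ψ * pull h.sev η ^ (m + 1) :=
    (((Commute.symm (c2.fa.comm_two h1).symm).pow_left (m + 1)).eq)
  rwa [h5]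

end Vale.Agent.P231C
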