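import Vale.Agent.P231C.Fin

/-! The statement for Riemannian manifolds. -/

open scoped ContDiff Topology Bundle Manifold
open Filter Set Metric MeasureTheory

noncomputable section

namespace Vale.Agent.P231C

open Vale.Agent.P234 Vale.Agent.P231

variable {E : Type*} [NormedAddCommGroup E] [NormedSpace ℝ E] [FiniteDimensional ℝ E]
  {M : Type*} [MetricSpace M] [ChartedSpace E M]
  [Bundle.RiemannianBundle fun x : M => TangentSpace 𝓘(ℝ, E) x] [IsManifold 𝓘(ℝ, E) ∞ M]
  [IsContMDiffRiemannianBundle 𝓘(ℝ, E) ∞ E fun x : M => TangentSpace 𝓘(ℝ, E) x]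
  [IsRiemannianManifold 𝓘(ℝ, E) M] [CompactSpace M]

theorem blaschke_one [Nonempty M] [MeasurableSpace M] [BorelSpace M]
    (hn : 0 < Module.finrank ℝ E) (hB : IsBlaschke E M) : ∃ k : ℕ,
      (∀ (x : M) (v : TangentSpace 𝓘(ℝ, E) x), ‖v‖ = diam (univ : Set M) →
        conjMult E x v = k ∧ expMap E x (-v) = expMap E x v) ∧
      (k = 1 → 3 ≤ Module.finrank ℝ E → IsCROSS M) ∧
      ENNReal.ofReal (modelVolume (Module.finrank ℝ E) k (diam (univ : Set M))) ≤
        μHE[Module.finrank ℝ E] (univ : Set M) ∧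
      (μHE[Module.finrank ℝ E] (univ : Set M) ≤
          ENNReal.ofReal (modelVolume (Module.finrank ℝ E) k (diam (univ : Set M))) →
        IsCROSS M) := by
  obtain ⟨k, h1, h2, h3⟩ := blaschke_cross hn hB
  refine ⟨k, h1, fun hk hd => ?_, h2, h3⟩
  obtain ⟨r, h⟩ := exists_bl hn hB
  have : ∀ x : M, FiniteDimensional ℝ (TangentSpace 𝓘(ℝ, E) x) := fun _ =>
    inferInstanceAs (FiniteDimensional ℝ E)
  exact bl_cross_one h (fun _ => rfl) hd fun x v hv =>
    (conjMult_eq x v).symm.trans ((h1 x v hv).1.trans hk)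

end Vale.Agent.P231C
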