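import Vale.Agent.P231C.DifD

/-! Rules for the integration along orbits. -/

open scoped ContDiff Topology
open Filter Set

noncomputable section

namespace Vale.Agent.P231C

variable {Y : Type*} {𝒟 : Dif Y} {k j N : ℕ} {a : Y × ℝ → Y} {l : ℝ} {φ ψ : RF 𝒟}

theorem Cir.fm_push (h : Cir 𝒟 a l) (hφ : Fm (k + 1) φ) : Fm k (h.push φ) := by
  exact (hφ.pull h.sm).fib 0 l

theorem Cir.push_zero (h : Cir 𝒟 a l) : h.push 0 = 0 := by
  unfold Cir.push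
  rw [map_zero, fib_zero]

theorem Cir.push_add (h : Cir 𝒟 a l) (hφ : Fm k φ) (hψ : Fm j ψ) :
    h.push (φ + ψ) = h.push φ + h.push ψ := by
  unfold Cir.push
  rw [map_add, fib_add (hφ.pull h.sm) (hψ.pull h.sm)]

theorem Cir.push_sub (h : Cir 𝒟 a l) (hφ : Fm k φ) (hψ : Fm j ψ) :
    h.push (φ - ψ) = h.push φ - h.push ψ := by
  unfold Cir.push
  rw [map_sub, fib_sub (hφ.pull h.sm) (hψ.pull h.sm)]

theorem Cir.push_neg (h : Cir 𝒟 a l) (φ : RF 𝒟) : h.push (-φ) = -h.push φ := by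
  unfold Cir.push
  rw [map_neg, fib_neg]

theorem Cir.push_smul (h : Cir 𝒟 a l) (c : ℝ) (φ : RF 𝒟) : h.push (c • φ) = c • h.push φ := by
  unfold Cir.push
  rw [map_smul, fib_smul]

theorem Cir.push_dx (h : Cir 𝒟 a l) (hφ : Fm k φ) : h.push (dx φ) = -dx (h.push φ) := by
  unfold Cir.push
  have h1 := fib_dx (hφ.pull h.sm) 0 l
  rw [pull_pull, pull_pull, pull_congr _ (smo_id 𝒟) h.per, pull_congr _ (smo_id 𝒟) h.zero,
    sub_self, dx_pull] at h1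
  exact eq_neg_of_add_eq_zero_right h1

theorem Cir.push_mul_bas (h : Cir 𝒟 a l) (hφ : Fm k φ) (hψ : Fm j ψ) (hb : h.Bas ψ) :
    h.push (φ * ψ) = h.push φ * ψ := by
  unfold Cir.push
  rw [map_mul, show pull h.sm ψ = _ from hb, fib_mul_pull (hφ.pull h.sm) hψ]

theorem Cir.push_bas_mul (h : Cir 𝒟 a l) (hφ : Fm k φ) (hψ : Fm j ψ) (hb : h.Bas ψ) :
    h.push (ψ * φ) = (-1 : ℝ) ^ j • (ψ * h.push φ) := by
  unfold Cir.push
  rw [map_mul, show pull h.sm ψ = _ from hb, fib_pull_mul (hφ.pull h.sm) hψ]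

theorem Cir.push_bas (h : Cir 𝒟 a l) (hψ : Fm j ψ) (hb : h.Bas ψ) : h.push ψ = 0 := by
  unfold Cir.push
  rw [show pull h.sm ψ = _ from hb, fib_pull_fst hψ]

theorem Cir.bas_zero (h : Cir 𝒟 a l) : h.Bas 0 := by
  unfold Cir.Bas
  rw [map_zero, map_zero]

theorem Cir.bas_one (h : Cir 𝒟 a l) : h.Bas 1 := by
  unfold Cir.Bas
  rw [map_one, map_one]

theorem Cir.Bas.add {h : Cir 𝒟 a l} (h1 : h.Bas φ) (h2 : h.Bas ψ) : h.Bas (φ + ψ) := by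
  unfold Cir.Bas at *
  rw [map_add, map_add, h1, h2]

theorem Cir.Bas.neg {h : Cir 𝒟 a l} (h1 : h.Bas φ) : h.Bas (-φ) := by
  unfold Cir.Bas at *
  rw [map_neg, map_neg, h1]

theorem Cir.Bas.sub {h : Cir 𝒟 a l} (h1 : h.Bas φ) (h2 : h.Bas ψ) : h.Bas (φ - ψ) := by
  unfold Cir.Bas at *
  rw [map_sub, map_sub, h1, h2]

theorem Cir.Bas.mul {h : Cir 𝒟 a l} (h1 : h.Bas φ) (h2 : h.Bas ψ) : h.Bas (φ * ψ) := by
  unfold Cir.Bas at *
  rw [map_mul, map_mul, h1, h2]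

theorem Cir.Bas.smul {h : Cir 𝒟 a l} (c : ℝ) (h1 : h.Bas φ) : h.Bas (c • φ) := by
  unfold Cir.Bas at *
  rw [map_smul, map_smul, h1]

theorem Cir.Bas.pow {h : Cir 𝒟 a l} (h1 : h.Bas φ) (n : ℕ) : h.Bas (φ ^ n) := by
  unfold Cir.Bas at *
  rw [map_pow, map_pow, h1]

theorem Cir.Bas.hh {h : Cir 𝒟 a l} (h1 : h.Bas φ) (h2 : h.Bas ψ) (n : ℕ) :
    h.Bas (hh φ ψ n) := by
  unfold Cir.Bas P231C.hh at *
  simp only [map_sum, map_mul, map_pow, h1, h2]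

theorem Cir.Bas.dx {h : Cir 𝒟 a l} (h1 : h.Bas φ) : h.Bas (dx φ) := by
  unfold Cir.Bas at *
  rw [← dx_pull, ← dx_pull, h1]

/-- The pull back by an invariant map is basic. -/
theorem Cir.bas_pull (h : Cir 𝒟 a l) {Y' : Type*} {𝒟' : Dif Y'} {F : Y → Y'} (hF : Smo 𝒟 𝒟' F)
    (hi : ∀ y t, F (a (y, t)) = F y) (η : RF 𝒟') : h.Bas (pull hF η) := by
  unfold Cir.Bas
  rw [pull_pull, pull_pull]
  exact pull_congr _ _ (fun w : Y × ℝ => hi w.1 w.2) η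

/-- Equivariant maps. -/
theorem Cir.pull_push (h : Cir 𝒟 a l) {Y' : Type*} {𝒟' : Dif Y'} {a' : Y' × ℝ → Y'}
    (h' : Cir 𝒟' a' l) {F : Y' → Y} (hF : Smo 𝒟' 𝒟 F) (he : ∀ y t, F (a' (y, t)) = a (F y, t))
    (φ : RF 𝒟) : h'.push (pull hF φ) = pull hF (h.push φ) := by
  unfold Cir.push
  rw [pull_fib, pull_pull, pull_pull, pull_congr _ (h.sm.comp hF.ext) fun w => he w.1 w.2]

theorem Cir.Bas.pull {h : Cir 𝒟 a l} {Y' : Type*} {𝒟' : Dif Y'} {a' : Y' × ℝ → Y'}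
    (h' : Cir 𝒟' a' l) {F : Y' → Y} (hF : Smo 𝒟' 𝒟 F) (he : ∀ y t, F (a' (y, t)) = a (F y, t))
    (h1 : h.Bas φ) : h'.Bas (pull hF φ) := by
  unfold Cir.Bas at *
  rw [pull_pull, pull_congr _ (h.sm.comp hF.ext) fun w => he w.1 w.2, ← pull_pull h.sm hF.ext, h1]
  rfl

/-- Maps that reverse the orbits: `a (F y, -t) = a (F y, -1 * t + l)`, `fib_affine`,
`fib_symm`. -/
theorem Cir.pull_push_rev (h : Cir 𝒟 a l) {F : Y → Y} (hF : Smo 𝒟 𝒟 F)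
    (he : ∀ y t, F (a (y, t)) = a (F y, -t)) (hφ : Fm k φ) :
    h.push (pull hF φ) = -pull hF (h.push φ) := by
  unfold Cir.push
  have h1 : ∀ w : Y × ℝ, F (a w) = a (F w.1, -1 * w.2 + l) := fun w => by
    rw [show -1 * w.2 + l = l + -w.2 by ring, ← h.add, h.per]
    exact he w.1 w.2
  have h2 := fib_affine (hφ.pull h.sm) (-1) l (smo_affine 𝒟 (-1) l) 0 l
  rw [show (-1 : ℝ) * 0 + l = l by ring, show -1 * l + l = 0 by ring, fib_symm _ l 0] at h2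
  have h3 : pull h.sm (pull hF φ) =
      pull hF.ext (pull (smo_affine 𝒟 (-1) l) (pull h.sm φ)) := by
    rw [pull_pull, pull_pull, pull_pull]
    exact pull_congr _ _ h1 φ
  rw [h3, ← pull_fib, h2, map_neg]

end Vale.Agent.P231C
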