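import Vale.Agent.P231C.RotA
import Vale.Agent.P231C.XC

/-! The global orientation of the links. -/

open scoped ContDiff Topology
open Filter Set MeasureTheory

noncomputable section

namespace Vale.Agent.P231C

open Vale.Agent.P234 Vale.Agent.P231

variable {M : Type*} [MetricSpace M] [CompactSpace M] {n : ℕ} {e : M → Eu n → M} {D : ℝ}

theorem rotb_sect (h : BC e D) {η : RF h.DM} (hη : Fm 2 η) (hc : dx η = 0) {Z : FS}
    {f : Z → XT M D} {u : Z} (hf : h.DX.P ⟨Z, f, u⟩) {ν₀ : Eu n}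
    (h0 : Nrm e D (ev (f u)) (vel e (f u)) ν₀) : ∃ μ : Z → Eu n,
      (∀ z, Nrm e D (ev (f z)) (vel e (f z)) (μ z)) ∧ SmV e (fun w => ev (f w)) μ u ∧
      ∀ᶠ z in 𝓝 u, h.ar η (ev (f z)) (vel e (f z)) (μ z) = h.ar η (ev (f u)) (vel e (f u)) ν₀ := by
  classical
  obtain ⟨ν, h1, h2⟩ := h.exists_sect hf h0
  choose N hN using fun z : XT M D => h.exists_nrm (ev z) (h.norm_vel z)
  obtain ⟨μ, hμ⟩ : ∃ μ : Z → Eu n, μ = fun z =>
      if Nrm e D (ev (f z)) (vel e (f z)) (ν z) then ν z else N (f z) := ⟨_, rfl⟩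
  have h3 : ∀ z, Nrm e D (ev (f z)) (vel e (f z)) (μ z) := fun z => by
    simp only [hμ]
    split_ifs with hz
    exacts [hz, hN _]
  have h4 : μ =ᶠ[𝓝 u] ν := h2.mono fun z hz => by simp only [hμ, if_pos hz.2]
  have h5 : ∀ᶠ z in 𝓝 u, SmV e (fun w => ev (f w)) μ z := by
    filter_upwards [h2, h4.eventuallyEq_nhds] with z hz hz'
    exact hz.1.congr EventuallyEq.rfl hz'
  have h6 := h.ar_const hη hc (h.plot2 (k := fun z => ⟨(f z, μ z), h3 z⟩) hf h5)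
  refine ⟨μ, h3, h5.self_of_nhds, ?_⟩
  rw [← h1, ← h4.eq_of_nhds]
  exact h6

/-- Choose `ν z` with `Nrm`. The function `(ar (ev z) (vel z) (ν z)) ^ 2` does not depend on the
choice, it is eventually constant along plots (`exists_sect`, `plot2`, `ar_const`), so constant
(`const_of_plot`) and equal to `σ ^ 2`. Let `J z = ± ν z` with `ar = σ`; it is the unique vector
with `Nrm` and `ar = σ`. -/
theorem BC.exists_ori (h : BC e D) {p₀ : M} {J₀ : Eu n → Eu n} (hB : Base e D p₀ J₀)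
    {η : RF h.DM} (hη : Fm 2 η) (hc : dx η = 0) {σ : ℝ} (hσ : σ ≠ 0)
    (h1 : ∀ v, ‖v‖ = 1 → h.ar η p₀ v (J₀ v) = σ) :
    ∃ J, Ori h J ∧ ∀ s : Sp n, J (h.i0 p₀ s) = J₀ s.1 := by
  classical
  choose N hN using fun z : XT M D => h.exists_nrm (ev z) (h.norm_vel z)
  have hsq : ∀ z ν, Nrm e D (ev z) (vel e z) ν →
      h.ar η (ev z) (vel e z) (N z) ^ 2 = h.ar η (ev z) (vel e z) ν ^ 2 := fun z ν hν => by
    rcases (hN z).unique h (h.norm_vel z) hν with h2 | h2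
    · rw [h2]
    · rw [h2, h.ar_neg hη, neg_sq]
  have hi : ∀ s : Sp n, Nrm e D (ev (h.i0 p₀ s)) (vel e (h.i0 p₀ s)) (J₀ s.1) ∧
      h.ar η (ev (h.i0 p₀ s)) (vel e (h.i0 p₀ s)) (J₀ s.1) = σ := fun s => by
    rw [BC.i0, vel_mk, ev_mk]
    exact ⟨hB.nrm s.2, h1 _ s.2⟩
  have hconst : ∀ z, h.ar η (ev z) (vel e z) (N z) ^ 2 = σ ^ 2 := fun z => by
    obtain ⟨s⟩ : Nonempty (Sp n) := ⟨⟨vel e z, h.norm_vel z⟩⟩
    rw [h.const_of_plot (g := fun z => h.ar η (ev z) (vel e z) (N z) ^ 2) (fun Z f u hf => by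
      obtain ⟨μ, m1, -, m3⟩ := rotb_sect h hη hc hf (hN (f u))
      filter_upwards [m3] with w hw
      rw [hsq _ _ (m1 w), hw]) z (h.i0 p₀ s), hsq _ _ (hi s).1, (hi s).2]
  obtain ⟨J, hJ⟩ : ∃ J : XT M D → Eu n, ∀ z, Nrm e D (ev z) (vel e z) (J z) ∧
      h.ar η (ev z) (vel e z) (J z) = σ := by
    refine ⟨fun z => if h.ar η (ev z) (vel e z) (N z) = σ then N z else -N z, fun z => ?_⟩
    simp only
    split_ifs with hz
    · exact ⟨hN z, hz⟩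
    · refine ⟨(hN z).neg h, ?_⟩
      rw [h.ar_neg hη, (sq_eq_sq_iff_eq_or_eq_neg.1 (hconst z)).resolve_left hz, neg_neg]
  have hu : ∀ z ν, Nrm e D (ev z) (vel e z) ν → h.ar η (ev z) (vel e z) ν = σ → J z = ν :=
    fun z ν hν ha => by
      rcases (hJ z).1.unique h (h.norm_vel z) hν with h2 | h2
      · exact h2.symm
      · rw [h2, h.ar_neg hη, (hJ z).2] at ha
        exact absurd (by linarith) hσ
  refine ⟨J, ⟨fun z => (hJ z).1, fun Z f u hf => ?_, fun z t hv => hu _ _ ?_ ?_⟩,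
    fun s => hu _ _ (hi s).1 (hi s).2⟩
  · obtain ⟨μ, m1, m2, m3⟩ := rotb_sect h hη hc hf (hJ (f u)).1
    refine m2.congr EventuallyEq.rfl ?_
    filter_upwards [m3] with w hw
    exact hu _ _ (m1 w) (hw.trans (hJ _).2)
  · rw [vel_mk, ev_mk]
    exact (hJ z).1.rot h (h.norm_vel z) t
  · rw [vel_mk, ev_mk, h.ar_rot hη, (hJ z).2]

variable {h : BC e D} {J : XT M D → Eu n}

theorem Ori.q_rt (hJ : Ori h J) (z : XT M D) (t : ℝ) : geo e (hJ.rt (z, t)) D = geo e z D := by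
  rw [geo, geo, hJ.vel_rt, hJ.ev_rt]
  exact (hJ.nrm z).link_rot h (h.norm_vel z) t

theorem Ori.rt_i0 (hJ : Ori h J) {p₀ : M} {J₀ : Eu n → Eu n} (hB : Base e D p₀ J₀)
    (h0 : ∀ s : Sp n, J (h.i0 p₀ s) = J₀ s.1) (s : Sp n) (t : ℝ) :
    hJ.rt (h.i0 p₀ s, t) = h.i0 p₀ (hB.toGC.rho (s, t)) := by
  refine h.ext rfl ?_
  rw [hJ.vel_rt, h0, BC.i0, BC.i0, vel_mk, vel_mk]
  rfl

theorem Ori.sgm_eq (hJ : Ori h J) (η : RF h.DM) (z : XT M D) :
    sgm η (fun p => ev (h.fl (hJ.rt (z, p.1), p.2))) (2 * Real.pi) (2 * D / 2) =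
      h.ar η (ev z) (vel e z) (J z) := by
  rw [mul_div_cancel_left₀ D two_ne_zero, BC.ar]
  congr 1
  funext p
  rw [ev_fl, geo, hJ.vel_rt, hJ.ev_rt]

theorem Ori.lk {m : ℕ} {e : M → Eu (2 * m + 2) → M} {h : BC e D} {J : XT M D → Eu (2 * m + 2)}
    (hJ : Ori h J) {I : RF h.DX → ℝ} (hI : Integ h.DX (4 * m + 2) I) :
    Lk h.DX h.DM m (2 * D) h.fl hJ.rt ev I := by
  refine ⟨hI, h.rank_DM, by linarith [h.dpos], h.cir_fl, hJ.cir, h.smo_ev, fun _ _ => rfl,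
    fun v t => ?_, hJ.flip, h.conn⟩
  rw [ev_fl, ev_fl, mul_div_cancel_left₀ D two_ne_zero, hJ.q_rt]

end Vale.Agent.P231C
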