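import Vale.Agent.P231C.KerB

/-! The section over the tangent space at the base point. -/

open scoped ContDiff Topology
open Filter Set MeasureTheory

noncomputable section

namespace Vale.Agent.P231C

open Vale.Agent.P234 Vale.Agent.P231

variable {M : Type*} [MetricSpace M] [CompactSpace M] {n : ℕ} {e : M → Eu n → M} {D : ℝ}
variable {p₀ : M} {J₀ : Eu n → Eu n} {o : Eu n}

theorem cx_ii (n : ℕ) : Cx (ii n) := by
  refine ⟨fun a b => ?_, fun a => ?_⟩
  · rw [PiLp.inner_apply, PiLp.inner_apply a, Fin.sum_univ_four, Fin.sum_univ_four]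
    change inner ℝ (-a 1) (-b 1) + inner ℝ (a 0) (b 0) + inner ℝ (-a 3) (-b 3) +
      inner ℝ (a 2) (b 2) = _
    simp only [inner_neg_neg]
    ring
  · apply PiLp.ext
    intro k
    fin_cases k <;> rfl

theorem seca_orth {V : Type*} [NormedAddCommGroup V] [InnerProductSpace ℝ V] {i : V →L[ℝ] V}
    (hi : Cx i) (a b : V) : inner ℝ a (i b) = -inner ℝ (i a) b := by
  rw [← hi.inner, hi.sq, inner_neg_right]

theorem seca_orth' {V : Type*} [NormedAddCommGroup V] [InnerProductSpace ℝ V] {i : V →L[ℝ] V}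
    (hi : Cx i) (a : V) : inner ℝ (i a) a = 0 := by
  have := seca_orth hi a a
  rw [real_inner_comm] at this
  linarith

theorem seca_norm {V : Type*} [NormedAddCommGroup V] [InnerProductSpace ℝ V] {a b : V}
    (ha : ‖a‖ = 1) (hb : ‖b‖ = 1) (h : inner ℝ a b = 0) (t : ℝ) :
    ‖Real.cos t • a + Real.sin t • b‖ = 1 := by
  have h1 : ‖Real.cos t • a + Real.sin t • b‖ ^ 2 = 1 := by
    rw [norm_add_sq_real, inner_smul_left, inner_smul_right, h, norm_smul,
      norm_smul, ha, hb, mul_pow, mul_pow, Real.norm_eq_abs, Real.norm_eq_abs, sq_abs, sq_abs]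
    have := Real.sin_sq_add_cos_sq t
    simp only [mul_zero, add_zero]
    linear_combination this
  exact (pow_eq_one_iff_of_nonneg (norm_nonneg _) two_ne_zero).1 h1

theorem seca_norm_i {V : Type*} [NormedAddCommGroup V] [InnerProductSpace ℝ V] {i : V →L[ℝ] V}
    (hi : Cx i) {a : V} (ha : ‖a‖ = 1) : ‖i a‖ = 1 := by
  have := hi.inner a a
  rw [real_inner_self_eq_norm_sq, real_inner_self_eq_norm_sq, ha, one_pow] at this
  exact (pow_eq_one_iff_of_nonneg (norm_nonneg _) two_ne_zero).1 this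

theorem prj_self {V : Type*} [NormedAddCommGroup V] [InnerProductSpace ℝ V] {i : V →L[ℝ] V}
    (hi : Cx i) {s : V} (hs : ‖s‖ = 1) (a b : ℝ) : prj i s (a • s + b • i s) = a • s + b • i s := by
  have h1 : inner ℝ s s = (1 : ℝ) := by rw [real_inner_self_eq_norm_sq, hs, one_pow]
  have h2 := seca_orth' hi s
  simp only [prj, _root_.add_apply, ContinuousLinearMap.smulRight_apply, innerSL_apply_apply,
    inner_add_right, inner_smul_right, hi.inner, seca_orth hi s s, h1, h2, neg_zero, mul_zero,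
    mul_one, add_zero, zero_add]

theorem prj_rot {V : Type*} [NormedAddCommGroup V] [InnerProductSpace ℝ V] {i : V →L[ℝ] V}
    (hi : Cx i) (s : V) (t : ℝ) : prj i (Real.cos t • s + Real.sin t • i s) = prj i s := by
  ext x
  have := Real.sin_sq_add_cos_sq t
  simp only [prj, _root_.add_apply, ContinuousLinearMap.smulRight_apply, innerSL_apply_apply]
  simp only [map_add, map_smul, hi.sq, inner_add_left, real_inner_smul_left, inner_neg_left]
  match_scalars
  · linear_combination inner ℝ s x * this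
  · linear_combination inner ℝ (i s) x * this

theorem contDiff_prj {V : Type*} [NormedAddCommGroup V] [InnerProductSpace ℝ V] (i : V →L[ℝ] V) :
    ContDiff ℝ ∞ (prj i) := by
  have h1 : ContDiff ℝ ∞ fun s : V => innerSL ℝ s := (innerSL ℝ (E := V)).contDiff
  exact (h1.smulRight contDiff_id).add ((h1.comp i.contDiff).smulRight i.contDiff)

theorem seca_ang0 (hD : 0 < D) {t : ℝ} (ht : t ≤ D / 3) : ang D t = 0 := by
  rw [ang, Real.smoothTransition.zero_of_nonpos, mul_zero]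
  rw [sub_nonpos, div_le_one hD]
  linarith

theorem seca_ang1 (hD : 0 < D) {t : ℝ} (ht : 2 * D / 3 ≤ t) : ang D t = Real.pi / 2 := by
  rw [ang, Real.smoothTransition.one_of_one_le, mul_one]
  rw [le_sub_iff_add_le, le_div_iff₀ hD]
  linarith

theorem seca_ang (D : ℝ) : ContDiff ℝ ∞ (ang D) :=
  contDiff_const.mul (Real.smoothTransition.contDiff.comp
    (((contDiff_const.mul contDiff_id).div_const D).sub contDiff_const))

/-- Near `0` the section is constant. -/
theorem GC.contDiff_sec (hJ : GC (n := n) J₀) (hD : 0 < D) (o : Eu n) :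
    ContDiff ℝ ∞ (sec D o J₀) := by
  refine contDiff_iff_contDiffAt.2 fun a => ?_
  rcases eq_or_ne a 0 with rfl | ha
  · refine (contDiffAt_const (c := (WithLp.toLp 2 ![o, 0, 0, 0] : VV n))).congr_of_eventuallyEq ?_
    filter_upwards [Metric.ball_mem_nhds (0 : Eu n) (show 0 < D / 3 by linarith)] with b hb
    rw [sec, seca_ang0 hD (mem_ball_zero_iff.1 hb).le]
    simp
  · have h1 : ContDiffAt ℝ ∞ (fun b : Eu n => ang D ‖b‖) a :=
      (seca_ang D).contDiffAt.comp a (contDiffAt_norm ℝ ha)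
    have h2 : ContDiffAt ℝ ∞ (fun b : Eu n => Real.sin (ang D ‖b‖) / (√2 * ‖b‖)) a :=
      h1.sin.div (contDiffAt_const.mul (contDiffAt_norm ℝ ha))
        (mul_ne_zero (by positivity) (norm_ne_zero_iff.2 ha))
    refine (PiLp.continuousLinearEquiv 2 ℝ fun _ : Fin 4 => Eu n).symm.contDiff.contDiffAt.comp a
      (contDiffAt_pi.2 fun k => ?_)
    fin_cases k
    · exact h1.cos.smul contDiffAt_const
    · exact contDiffAt_const
    · exact h2.smul contDiffAt_id
    · exact h2.neg.smul (hJ.sm a ha)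

theorem GC.neg (hJ : GC (n := n) J₀) (v : Eu n) : J₀ (-v) = -J₀ v := by
  simpa using hJ.rot v Real.pi

theorem GC.sec_smul (hJ : GC (n := n) J₀) (hD : 0 < D) (o : Eu n) {v : Eu n} (hv : ‖v‖ = 1) {t : ℝ}
    (ht : 0 ≤ t) : sec D o J₀ (t • v) = WithLp.toLp 2 ![Real.cos (ang D t) • o, 0,
      (Real.sin (ang D t) / √2) • v, -(Real.sin (ang D t) / √2) • J₀ v] := by
  rcases ht.eq_or_lt with h | h
  · rw [← h, sec, zero_smul, norm_zero, seca_ang0 hD (by linarith)]
    simp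
  · have e : Real.sin (ang D t) / (√2 * t) * t = Real.sin (ang D t) / √2 := by field_simp
    rw [sec, norm_smul, hv, mul_one, Real.norm_of_nonneg ht, hJ.hom t h, smul_smul, smul_smul,
      neg_mul, e]

theorem GC.sec_far (hJ : GC (n := n) J₀) (hD : 0 < D) (o : Eu n) {v : Eu n} (hv : ‖v‖ = 1) {t : ℝ}
    (ht : 2 * D / 3 ≤ t) :
    sec D o J₀ (t • v) = WithLp.toLp 2 ![0, 0, (√2)⁻¹ • v, -(√2)⁻¹ • J₀ v] := by
  rw [hJ.sec_smul hD o hv (by linarith), seca_ang1 hD ht, Real.cos_pi_div_two, Real.sin_pi_div_two,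
    zero_smul, one_div]

theorem GC.sec_rot (hJ : GC (n := n) J₀) (hD : 0 < D) (o : Eu n) {v : Eu n} (hv : ‖v‖ = 1)
    (θ : ℝ) : sec D o J₀ (D • (Real.cos θ • v + Real.sin θ • J₀ v)) =
      Real.cos θ • sec D o J₀ (D • v) + Real.sin θ • ii n (sec D o J₀ (D • v)) := by
  rw [hJ.sec_far hD o ((hJ.norm_rot v θ).trans hv) (by linarith),
    hJ.sec_far hD o hv (by linarith), hJ.rot, ii_apply]
  apply PiLp.ext
  intro k
  fin_cases k
  · simp
  · simp
  · change (√2)⁻¹ • (Real.cos θ • v + Real.sin θ • J₀ v) =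
      Real.cos θ • (√2)⁻¹ • v + Real.sin θ • -(-(√2)⁻¹ • J₀ v)
    module
  · change -(√2)⁻¹ • (-Real.sin θ • v + Real.cos θ • J₀ v) =
      Real.cos θ • -(√2)⁻¹ • J₀ v + Real.sin θ • (√2)⁻¹ • v
    module

/-- The first vector. -/
def secaA (o : Eu n) : VV n := WithLp.toLp 2 ![o, 0, 0, 0]

/-- The second vector. -/
def secaB (J₀ : Eu n → Eu n) (v : Eu n) : VV n :=
  WithLp.toLp 2 ![0, 0, (√2)⁻¹ • v, -(√2)⁻¹ • J₀ v]

theorem seca_A (ho : ‖o‖ = 1) : ‖secaA o‖ = 1 := by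
  refine (pow_eq_one_iff_of_nonneg (norm_nonneg _) two_ne_zero).1 ?_
  rw [PiLp.norm_sq_eq_of_L2, Fin.sum_univ_four]
  simp [secaA, ho]

theorem seca_B (hJ : GC (n := n) J₀) {v : Eu n} (hv : ‖v‖ = 1) : ‖secaB J₀ v‖ = 1 := by
  refine (pow_eq_one_iff_of_nonneg (norm_nonneg _) two_ne_zero).1 ?_
  have h1 : ‖J₀ v‖ = 1 := (hJ.norm v).trans hv
  rw [PiLp.norm_sq_eq_of_L2, Fin.sum_univ_four]
  simp [secaB, norm_smul, hv, h1]
  norm_num

theorem seca_AB (o v : Eu n) : inner ℝ (secaA o) (secaB J₀ v) = 0 ∧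
    inner ℝ (ii n (secaA o)) (secaB J₀ v) = 0 := by
  constructor <;> simp [secaA, secaB, ii_apply, PiLp.inner_apply, Fin.sum_univ_four]

theorem seca_eq (hJ : GC (n := n) J₀) (hD : 0 < D) (o : Eu n) {v : Eu n} (hv : ‖v‖ = 1) {t : ℝ}
    (ht : 0 ≤ t) : sec D o J₀ (t • v) =
      Real.cos (ang D t) • secaA o + Real.sin (ang D t) • secaB J₀ v := by
  rw [hJ.sec_smul hD o hv ht]
  apply PiLp.ext
  intro k
  fin_cases k <;> simp [secaA, secaB, smul_smul, div_eq_mul_inv]

theorem seca_polar (ho : ‖o‖ = 1) (a : Eu n) : ∃ v, ‖v‖ = 1 ∧ a = ‖a‖ • v := by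
  rcases eq_or_ne a 0 with rfl | ha
  · exact ⟨o, ho, by simp⟩
  · exact ⟨‖a‖⁻¹ • a, norm_smul_inv_norm ha, (smul_inv_smul₀ (norm_ne_zero_iff.2 ha) a).symm⟩

theorem GC.norm_sec (hJ : GC (n := n) J₀) (hD : 0 < D) (ho : ‖o‖ = 1) (a : Eu n) :
    ‖sec D o J₀ a‖ = 1 := by
  obtain ⟨v, hv, ha⟩ := seca_polar ho a
  rw [ha, seca_eq hJ hD o hv (norm_nonneg a)]
  exact seca_norm (seca_A ho) (seca_B hJ hv) (seca_AB o v).1 _

/-- For `‖a‖ = D` use `Nrm.link_angle`, `sec_rot`, `prj_rot`. -/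
theorem Base.PP_exp (hB : Base e D p₀ J₀) (h : BC e D) (o : Eu n) {a : Eu n} (ha : ‖a‖ ≤ D) :
    PP e D p₀ o J₀ (e p₀ a) = prj (ii n) (sec D o J₀ a) := by
  have hD := h.dpos
  rcases ha.eq_or_lt with ha | ha
  · have h0 : a ≠ 0 := norm_ne_zero_iff.1 (by rw [ha]; exact hD.ne')
    have hv := norm_smul_inv_norm (𝕜 := ℝ) h0
    obtain ⟨v, hv, e1⟩ := seca_polar hv a
    obtain ⟨w, hw, e2⟩ := seca_polar hv (lg e p₀ (e p₀ a))
    rw [h.toGeo.norm_lg, h.min _ _ ha.le, ha] at e2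
    rw [ha] at e1
    have e3 := h.toGeo.exp_lg p₀ (e p₀ a)
    rw [e2] at e3
    obtain ⟨t, ht⟩ := (hB.nrm hv).link_angle h hv hw (e1 ▸ e3)
    rw [PP, e2, ht, hB.toGC.sec_rot hD o hv, prj_rot (cx_ii n), ← e1]
  · rw [PP, h.toBl.lg_exp' ha]

theorem Base.PP_line (hB : Base e D p₀ J₀) (h : BC e D) (ho : ‖o‖ = 1) (y : M) :
    ∃ s, ‖s‖ = 1 ∧ PP e D p₀ o J₀ y = prj (ii n) s := by
  exact ⟨_, hB.toGC.norm_sec h.dpos ho _, rfl⟩

theorem seca_per {V : Type*} [NormedAddCommGroup V] [NormedSpace ℝ V] {s₀ : ℝ → V}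
    (hs : ContDiff ℝ ∞ s₀) {l δ : ℝ} (hl : 0 < l) (hδ : 0 < δ) (hδl : δ ≤ l)
    (hp : ∀ t ∈ Ioo (-δ) 0, s₀ (t + l) = s₀ t) :
    ContDiff ℝ ∞ fun t => s₀ (toIcoMod hl 0 t) := by
  refine contDiff_iff_contDiffAt.2 fun t₀ => ?_
  have h1 := toIcoMod_mem_Ico hl 0 t₀
  rw [toIcoMod] at h1
  generalize toIcoDiv hl 0 t₀ = k at h1
  have h2 : ContDiff ℝ ∞ fun t : ℝ => t - k • l := contDiff_id.sub contDiff_const
  refine (hs.comp h2).contDiffAt.congr_of_eventuallyEq ?_
  filter_upwards [h2.continuous.continuousAt.preimage_mem_nhds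
    (Ioo_mem_nhds (a := -δ) (b := l) (by linarith [h1.1]) (by linarith [h1.2]))] with t ht
  rw [Function.comp_apply, ← toIcoMod_sub_zsmul hl 0 t k]
  rcases le_or_gt 0 (t - k • l) with h | h
  · rw [(toIcoMod_eq_self hl).2 ⟨h, by linarith [ht.2]⟩]
  · rw [← toIcoMod_add_right, (toIcoMod_eq_self hl).2 ⟨by linarith [ht.1], by linarith⟩,
      hp _ ⟨ht.1, h⟩]

theorem seca_hol {V Y : Type*} [NormedAddCommGroup V] [InnerProductSpace ℝ V] {i : V →L[ℝ] V}
    (hi : Cx i) {A B : V} (hA : ‖A‖ = 1) (hB : ‖B‖ = 1) (h1 : inner ℝ A B = 0)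
    (h2 : inner ℝ (i A) B = 0) {F : ℝ → ℝ} (hF : ContDiff ℝ ∞ F) {l δ : ℝ} (hl : 0 < l)
    (hδ : 0 < δ) (hδl : δ ≤ l) (hp : ∀ t ∈ Ioo (-δ) 0, F (t + l) = F t + Real.pi)
    {P : Y → V →L[ℝ] V} {c : ℝ → Y} (hc : Function.Periodic c l)
    (hP : ∀ t ∈ Ico 0 l, P (c t) = prj i (Real.cos (F t) • A + Real.sin (F t) • B)) :
    Hl i P c l (1 / 2) := by
  obtain ⟨σ, hσ⟩ : ∃ σ : ℝ → V, σ = fun t => Real.cos (F t) • A + Real.sin (F t) • B := ⟨_, rfl⟩
  have n1 : ∀ t, ‖σ t‖ = 1 := fun t => hσ ▸ seca_norm hA hB h1 _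
  have c1 : ContDiff ℝ ∞ σ := hσ ▸ (hF.cos.smul contDiff_const).add (hF.sin.smul contDiff_const)
  have d1 : ∀ t, ∃ τ, HasDerivAt σ τ t ∧ inner ℝ (i (σ t)) τ = 0 := fun t => by
    have h3 := (hF.differentiable (by simp) t).hasDerivAt
    rw [hσ]
    refine ⟨_, (h3.cos.smul_const A).add (h3.sin.smul_const B), ?_⟩
    have h4 : inner ℝ (i B) A = 0 := by rw [real_inner_comm, seca_orth hi, h2, neg_zero]
    simp only [map_add, map_smul, inner_add_left, inner_add_right, real_inner_smul_left,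
      real_inner_smul_right, seca_orth' hi, h2, h4, mul_zero, add_zero]
  obtain ⟨s, hs⟩ : ∃ s : ℝ → V, s = fun t =>
      Real.cos (Real.pi / l * t) • σ t + Real.sin (Real.pi / l * t) • i (σ t) := ⟨_, rfl⟩
  have c2 : ContDiff ℝ ∞ fun t : ℝ => Real.pi / l * t := contDiff_const.mul contDiff_id
  have c3 : ContDiff ℝ ∞ s := hs ▸ (c2.cos.smul c1).add (c2.sin.smul (i.contDiff.comp c1))
  have d2 : ∀ t, inner ℝ (i (s t)) (deriv s t) = Real.pi / l := fun t => by
    obtain ⟨τ, h3, h4⟩ := d1 t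
    have h5 : HasDerivAt (fun t : ℝ => Real.pi / l * t) (Real.pi / l) t := by
      simpa using (hasDerivAt_id t).const_mul (Real.pi / l)
    have h6 : HasDerivAt s _ t :=
      ((h5.cos.smul h3).add (h5.sin.smul (i.hasFDerivAt.comp_hasDerivAt t h3))).congr_of_eventuallyEq
        (Eventually.of_forall fun x => congrFun hs x)
    have h7 : inner ℝ (σ t) (σ t) = (1 : ℝ) := by rw [real_inner_self_eq_norm_sq, n1, one_pow]
    have := Real.sin_sq_add_cos_sq (Real.pi / l * t)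
    rw [h6.deriv, hs]
    simp only [Function.comp_apply, map_add, map_smul, hi.sq, inner_add_left, inner_add_right,
      real_inner_smul_left, real_inner_smul_right, inner_neg_left, hi.inner, seca_orth hi (σ t),
      seca_orth' hi, h4, h7]
    linear_combination Real.pi / l * this
  refine ⟨fun t => s (toIcoMod hl 0 t), seca_per c3 hl hδ hδl fun t ht => ?_,
    fun t => by simp only [toIcoMod_add_right], fun t => ?_, ?_⟩
  · have e1 : Real.pi / l * (t + l) = Real.pi / l * t + Real.pi := by field_simp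
    simp only [hs, hσ, hp t ht, e1, Real.cos_add_pi, Real.sin_add_pi, map_add, map_smul]
    module
  · have e1 : c t = c (toIcoMod hl 0 t) := (hc.sub_zsmul_eq _).symm
    have h3 := toIcoMod_mem_Ico hl 0 t
    rw [zero_add] at h3
    simp only
    rw [e1, hP _ h3, hs]
    refine ⟨seca_norm (n1 _) (seca_norm_i hi (n1 _)) ?_ _, ?_⟩
    · rw [real_inner_comm, seca_orth' hi]
    · exact hσ ▸ prj_self hi (seca_norm hA hB h1 _) _ _
  · rw [intervalIntegral.integral_congr_Ioo_of_le hl.le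
      (g := fun _ => (2 * Real.pi)⁻¹ * (Real.pi / l)) fun t ht => ?_]
    · have := Real.pi_pos
      rw [intervalIntegral.integral_const, smul_eq_mul]
      field_simp
      ring
    · have e : (fun t => s (toIcoMod hl 0 t)) =ᶠ[𝓝 t] s := by
        filter_upwards [Ioo_mem_nhds ht.1 ht.2] with x hx
        rw [(toIcoMod_eq_self hl).2 ⟨hx.1.le, by linarith [hx.2]⟩]
      simp only
      rw [e.deriv_eq, (toIcoMod_eq_self hl).2 ⟨ht.1.le, by linarith [ht.2]⟩, d2]

/-- Let `F t = ang D t + (π / 2 - ang D (2 D - t))` on `[0, 2 D]`, extended with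
`F (t + 2 D) = F t + π` (for instance `F t = ∫ s in 0..t, g s` with `g` smooth of period `2 D`,
or define the section piecewise with `toIocMod` and check smoothness locally: near `t ∈ 2 D ℤ`
and near `t ∈ D + 2 D ℤ` the function `F` is locally constant), let
`σ t = ![cos F • o, 0, (sin F / √2) • v, -(sin F / √2) • J₀ v]`, so `σ (t + 2 D) = -σ t`,
`⟪ii σ, σ'⟫ = 0`, and `s t = cos (π t / (2 D)) • σ t + sin (π t / (2 D)) • ii (σ t)`. On
`[D, 2 D]` use `e p₀ (t • v) = e p₀ ((2 D - t) • (-v))` (`Bl.periodic`). -/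
theorem Base.hol (hB : Base e D p₀ J₀) (h : BC e D) (ho : ‖o‖ = 1) {v : Eu n} (hv : ‖v‖ = 1) :
    Hl (ii n) (PP e D p₀ o J₀) (fun t => e p₀ (t • v)) (2 * D) (1 / 2) := by
  have hD := h.dpos
  have hJ := hB.toGC
  have hc : Function.Periodic (fun t : ℝ => e p₀ (t • v)) (2 * D) := h.toBl.periodic p₀ hv
  refine seca_hol (cx_ii n) (seca_A ho) (seca_B hJ hv) (seca_AB o v).1 (seca_AB o v).2
    (F := fun t => ang D t + (Real.pi / 2 - ang D (2 * D - t)))
    ((seca_ang D).add (contDiff_const.sub ((seca_ang D).comp (contDiff_const.sub contDiff_id))))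
    (by linarith) (δ := D / 3) (by linarith) (by linarith) (fun t ht => ?_) hc fun t ht => ?_
  · rw [seca_ang1 hD (t := t + 2 * D) (by linarith [ht.1]),
      seca_ang0 hD (t := 2 * D - (t + 2 * D)) (by linarith [ht.1]),
      seca_ang0 hD (t := t) (by linarith [ht.2]), seca_ang1 hD (t := 2 * D - t) (by linarith [ht.2])]
    ring
  · rcases le_total t D with h1 | h1
    · rw [hB.PP_exp h o (by rwa [norm_smul, hv, mul_one, Real.norm_of_nonneg ht.1]),
        seca_eq hJ hD o hv ht.1, seca_ang1 hD (t := 2 * D - t) (by linarith), sub_self, add_zero]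
    · have h2 : 0 ≤ 2 * D - t := by linarith [ht.2]
      have hv' : ‖-v‖ = 1 := by rwa [norm_neg]
      have e1 : e p₀ (t • v) = e p₀ ((2 * D - t) • -v) := by
        rw [smul_neg, ← neg_smul, neg_sub]
        exact (hc.sub_eq t).symm
      have e2 : secaB J₀ (-v) = -secaB J₀ v := by
        apply PiLp.ext
        intro k
        fin_cases k <;> simp [secaB, hJ.neg]
      rw [e1, hB.PP_exp h o (by rw [norm_smul, hv', mul_one, Real.norm_of_nonneg h2]; linarith),
        seca_eq hJ hD o hv' h2, seca_ang1 hD (t := t) (by linarith), e2,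
        ← prj_rot (cx_ii n) _ Real.pi, ← add_sub_assoc, add_halves, Real.cos_pi_sub,
        Real.sin_pi_sub, Real.cos_pi, Real.sin_pi]
      congr 1
      module

end Vale.Agent.P231C
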