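import Vale.Agent.P231C.GeoDef

/-! Elementary identities in the unit tangent bundle. -/

open scoped ContDiff Topology
open Filter Set MeasureTheory

noncomputable section

namespace Vale.Agent.P231C

open Vale.Agent.P234 Vale.Agent.P231

variable {M : Type*} [MetricSpace M] [CompactSpace M] {n : ℕ} {e : M → Eu n → M} {D : ℝ}

theorem ev_mk (h : BC e D) (x : M) (v : Eu n) (hv : ‖v‖ = 1) : ev (h.mk' x v hv) = x := rfl

theorem vel_mk (h : BC e D) (x : M) (v : Eu n) (hv : ‖v‖ = 1) : vel e (h.mk' x v hv) = v := by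
  have h0 := h.dpos
  have h1 : ‖(D / 2) • v‖ < D := by
    rw [norm_smul, hv, mul_one, Real.norm_of_nonneg (by linarith)]
    linarith
  change (D / 2)⁻¹ • lg e x (e x ((D / 2) • v)) = v
  rw [h.toBl.lg_exp' h1, inv_smul_smul₀ (by linarith)]

theorem BC.geo_zero (h : BC e D) (z : XT M D) : geo e z 0 = ev z := by
  rw [geo, zero_smul, h.zero]

theorem BC.geo_half (h : BC e D) (z : XT M D) : geo e z (D / 2) = ev2 z := by
  have h0 := h.dpos
  rw [geo, vel, smul_inv_smul₀ (by linarith)]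
  exact h.toGeo.exp_lg _ _

theorem BC.ext (h : BC e D) {z z' : XT M D} (h1 : ev z = ev z') (h2 : vel e z = vel e z') :
    z = z' := by
  refine Subtype.ext (Prod.ext h1 ?_)
  change ev2 z = ev2 z'
  rw [← h.geo_half, ← h.geo_half, geo, geo, h1, h2]

theorem BC.mk_vel (h : BC e D) (z : XT M D) : h.mk' (ev z) (vel e z) (h.norm_vel z) = z :=
  h.ext rfl (vel_mk h _ _ _)

theorem BC.mk_congr (h : BC e D) {x x' : M} {v v' : Eu n} (hv : ‖v‖ = 1) (hv' : ‖v'‖ = 1)
    (h1 : x = x') (h2 : v = v') : h.mk' x v hv = h.mk' x' v' hv' := by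
  subst h1 h2
  rfl

theorem geo_mk (h : BC e D) (x : M) (v : Eu n) (hv : ‖v‖ = 1) (t : ℝ) :
    geo e (h.mk' x v hv) t = e x (t • v) := by
  rw [geo, vel_mk, ev_mk]

theorem ev_fl (h : BC e D) (z : XT M D) (t : ℝ) : ev (h.fl (z, t)) = geo e z t := rfl

theorem ev2_fl (h : BC e D) (z : XT M D) (t : ℝ) : ev2 (h.fl (z, t)) = geo e z (t + D / 2) := rfl

/-- `Geo.flow`, `Bl.lg_exp'`. -/
theorem geo_fl (h : BC e D) (z : XT M D) (s t : ℝ) : geo e (h.fl (z, s)) t = geo e z (s + t) := by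
  have h0 := h.dpos
  obtain ⟨ρ, h1, h2⟩ := h.toGeo.flow (x := ev z) (v := vel e z) (θ := s) (m := geo e z s) rfl
  have h3 : ‖(D / 2) • ρ‖ < D := by
    rw [norm_smul, h1, h.norm_vel, mul_one, Real.norm_of_nonneg (by linarith)]
    linarith
  have h4 : vel e (h.fl (z, s)) = ρ := by
    change (D / 2)⁻¹ • lg e (geo e z s) (e (ev z) ((s + D / 2) • vel e z)) = ρ
    rw [h2, h.toBl.lg_exp' h3, inv_smul_smul₀ (by linarith)]
  rw [geo, h4, ev_fl]
  exact (h2 t).symm

theorem BC.line (h : BC e D) (z : XT M D) :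
    Line (T := fun _ => Eu n) e (geo e z) fun s => vel e (h.fl (z, s)) :=
  ⟨fun _ => h.norm_vel _, fun s t => (geo_fl h z s t).symm⟩

theorem BC.fl_zero (h : BC e D) (z : XT M D) : h.fl (z, 0) = z := by
  refine Subtype.ext (Prod.ext (h.geo_zero z) ?_)
  change geo e z (0 + D / 2) = ev2 z
  rw [zero_add, h.geo_half]

theorem BC.fl_add (h : BC e D) (z : XT M D) (s t : ℝ) : h.fl (h.fl (z, s), t) = h.fl (z, s + t) := by
  refine Subtype.ext (Prod.ext (geo_fl h z s t) ?_)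
  change geo e (h.fl (z, s)) (t + D / 2) = geo e z (s + t + D / 2)
  rw [geo_fl, add_assoc]

theorem BC.geo_per (h : BC e D) (z : XT M D) (t : ℝ) : geo e z (t + 2 * D) = geo e z t :=
  h.toBl.periodic _ (h.norm_vel z) t

theorem BC.fl_per (h : BC e D) (z : XT M D) (t : ℝ) : h.fl (z, t + 2 * D) = h.fl (z, t) := by
  refine Subtype.ext (Prod.ext (h.geo_per z t) ?_)
  change geo e z (t + 2 * D + D / 2) = geo e z (t + D / 2)
  rw [add_right_comm, h.geo_per]

theorem BC.geo_neg (h : BC e D) (z : XT M D) : geo e z (-D) = geo e z D := by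
  rw [← h.geo_per z (-D)]
  congr 1
  ring

theorem BC.dist_geo (h : BC e D) (z : XT M D) {s t : ℝ} (hst : |s - t| ≤ D) :
    dist (geo e z s) (geo e z t) = |s - t| := (h.line z).dist_eq h.toBl hst

theorem BC.lg_geo (h : BC e D) (z : XT M D) {s t : ℝ} (hst : |s - t| < D) :
    lg e (geo e z s) (geo e z t) = (t - s) • vel e (h.fl (z, s)) := (h.line z).lg_eq h.toBl hst

theorem BC.fl_flip (h : BC e D) (z : XT M D) (t : ℝ) (h1 : ‖-vel e (h.fl (z, t))‖ = 1)
    (h2 : ‖-vel e z‖ = 1) : h.mk' (ev (h.fl (z, t))) (-vel e (h.fl (z, t))) h1 =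
      h.fl (h.mk' (ev z) (-vel e z) h2, -t) := by
  have k : ∀ s, geo e (h.mk' (ev z) (-vel e z) h2) s = geo e z (-s) := fun s => by
    rw [geo_mk, geo, smul_neg, neg_smul]
  refine Subtype.ext (Prod.ext ?_ ?_)
  · change geo e z t = geo e (h.mk' (ev z) (-vel e z) h2) (-t)
    rw [k, neg_neg]
  · change e (ev (h.fl (z, t))) ((D / 2) • -vel e (h.fl (z, t))) =
      geo e (h.mk' (ev z) (-vel e z) h2) (-t + D / 2)
    rw [k, smul_neg, ← neg_smul, neg_add, neg_neg, ← geo_fl h z t]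
    rfl

theorem BC.ev_kp (h : BC e D) (z₀ : XT M D) {x y : M} (hd : 0 < dist x y) :
    ev (h.kp z₀ (x, y)) = x := by
  rw [BC.kp, dif_pos hd, ev_mk]

theorem BC.vel_kp (h : BC e D) (z₀ : XT M D) {x y : M} (hd : 0 < dist x y) :
    vel e (h.kp z₀ (x, y)) = (dist x y)⁻¹ • lg e x y := by
  rw [BC.kp, dif_pos hd, vel_mk]

theorem BC.kp_exp (h : BC e D) (z₀ : XT M D) (x : M) {v : Eu n} (hv : ‖v‖ = 1) {t : ℝ} (h0 : 0 < t)
    (h1 : t < D) : h.kp z₀ (x, e x (t • v)) = h.mk' x v hv := by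
  have h2 : ‖t • v‖ = t := by rw [norm_smul, hv, mul_one, Real.norm_of_nonneg h0.le]
  have h3 : dist x (e x (t • v)) = t := by rw [h.min x _ (by rw [h2]; exact h1.le), h2]
  have h4 : 0 < dist x (e x (t • v)) := by rwa [h3]
  refine h.ext (h.ev_kp z₀ h4) ?_
  rw [h.vel_kp z₀ h4, vel_mk, h3, h.toBl.lg_exp' (by rwa [h2]), inv_smul_smul₀ h0.ne']

theorem BC.kp_self (h : BC e D) (z₀ z : XT M D) : h.kp z₀ (ev z, ev2 z) = z := by
  have h0 := h.dpos
  have h1 : dist (ev z) (ev2 z) = D / 2 := z.2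
  have h2 : 0 < dist (ev z) (ev2 z) := by linarith
  refine h.ext (h.ev_kp z₀ h2) ?_
  rw [h.vel_kp z₀ h2, h1]
  rfl

theorem BC.psi_chi (h : BC e D) (z z' : XT M D) : h.psi z (chi e z z') = z' := by
  simp only [BC.psi, chi, h.toGeo.exp_lg, h.kp_self]

theorem BC.chi_self (h : BC e D) (z : XT M D) : chi e z z = 0 := by
  simp only [chi, h.toGeo.lg_self, Prod.mk_zero_zero]

theorem BC.psi_zero (h : BC e D) (z : XT M D) : h.psi z 0 = z := by
  rw [← h.chi_self z, h.psi_chi]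

theorem BC.ev_psi (h : BC e D) (z : XT M D) :
    ∀ᶠ a in 𝓝 (0 : Eu n × Eu n), ev (h.psi z a) = e (ev z) a.1 := by
  have h0 := h.dpos
  have h1 : dist (ev z) (ev2 z) = D / 2 := z.2
  have c : Continuous fun a : Eu n × Eu n => dist (e (ev z) a.1) (e (ev2 z) a.2) :=
    ((h.toGeo.continuous_exp _).comp continuous_fst).dist
      ((h.toGeo.continuous_exp _).comp continuous_snd)
  have h2 : 0 < dist (e (ev z) (0 : Eu n × Eu n).1) (e (ev2 z) (0 : Eu n × Eu n).2) := by
    rw [Prod.fst_zero, Prod.snd_zero, h.zero, h.zero]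
    linarith
  filter_upwards [continuousAt_const.eventually_lt c.continuousAt h2] with a ha
  exact h.ev_kp z ha

theorem continuous_ev : Continuous (ev : XT M D → M) :=
  continuous_fst.comp continuous_subtype_val

theorem continuous_ev2 : Continuous (ev2 : XT M D → M) :=
  continuous_snd.comp continuous_subtype_val

theorem BC.continuousAt_chi (h : BC e D) (z : XT M D) : ContinuousAt (chi e z) z := by
  have k : ∀ x : M, ContinuousAt (lg e x) x := fun x => by
    have := h.toGeo.continuousAt_lg (x := x) (v := 0)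
      (h.toBl.mem_inj (by rw [norm_zero]; exact h.dpos))
    rwa [h.zero] at this
  exact ((k _).comp continuous_ev.continuousAt).prodMk ((k _).comp continuous_ev2.continuousAt)

theorem compact_XT (D : ℝ) : CompactSpace (XT M D) :=
  isCompact_iff_compactSpace.1 (isClosed_eq (continuous_fst.dist continuous_snd)
    (continuous_const (y := D / 2))).isCompact

theorem Ori.ev_rt {h : BC e D} {J : XT M D → Eu n} (hJ : Ori h J) (z : XT M D) (t : ℝ) :
    ev (hJ.rt (z, t)) = ev z := rfl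

theorem Ori.vel_rt {h : BC e D} {J : XT M D → Eu n} (hJ : Ori h J) (z : XT M D) (t : ℝ) :
    vel e (hJ.rt (z, t)) = Real.cos t • vel e z + Real.sin t • J z := vel_mk h _ _ _

theorem Ori.J_rt {h : BC e D} {J : XT M D → Eu n} (hJ : Ori h J) (z : XT M D) (t : ℝ) :
    J (hJ.rt (z, t)) = -Real.sin t • vel e z + Real.cos t • J z := hJ.rot z t _

theorem Ori.rt_zero {h : BC e D} {J : XT M D → Eu n} (hJ : Ori h J) (z : XT M D) :
    hJ.rt (z, 0) = z := by
  refine h.ext rfl ?_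
  rw [hJ.vel_rt, Real.cos_zero, Real.sin_zero, one_smul, zero_smul, add_zero]

theorem Ori.rt_add {h : BC e D} {J : XT M D → Eu n} (hJ : Ori h J) (z : XT M D) (s t : ℝ) :
    hJ.rt (hJ.rt (z, s), t) = hJ.rt (z, s + t) := by
  refine h.ext rfl ?_
  rw [hJ.vel_rt, hJ.vel_rt, hJ.vel_rt, hJ.J_rt, Real.cos_add, Real.sin_add]
  module

theorem Ori.rt_per {h : BC e D} {J : XT M D → Eu n} (hJ : Ori h J) (z : XT M D) :
    hJ.rt (z, 2 * Real.pi) = z := by
  refine h.ext rfl ?_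
  rw [hJ.vel_rt, Real.cos_two_pi, Real.sin_two_pi, one_smul, zero_smul, add_zero]

theorem Ori.flip {h : BC e D} {J : XT M D → Eu n} (hJ : Ori h J) (z : XT M D) (t : ℝ) :
    hJ.rt (h.fl (z, t), Real.pi) = h.fl (hJ.rt (z, Real.pi), -t) := by
  have n1 : ∀ w : XT M D, ‖-vel e w‖ = 1 := fun w => by rw [norm_neg, h.norm_vel]
  have k : ∀ w : XT M D, hJ.rt (w, Real.pi) = h.mk' (ev w) (-vel e w) (n1 w) := fun w => by
    refine h.ext rfl ?_
    rw [hJ.vel_rt, vel_mk, Real.cos_pi, Real.sin_pi, neg_one_smul, zero_smul, add_zero]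
  rw [k, k, h.fl_flip]

end Vale.Agent.P231C
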