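import Vale.Agent.P231C.KerA
import Vale.Agent.P231C.XA

/-! Jacobi fields vanishing at conjugate points pair non trivially. -/

open scoped ContDiff Topology
open Filter Set MeasureTheory

noncomputable section

namespace Vale.Agent.P231C

open Vale.Agent.P234 Vale.Agent.P231

variable {M : Type*} [MetricSpace M] [CompactSpace M] {n : ℕ} {e : M → Eu n → M} {D : ℝ}


open scoped Matrix in
theorem sha_mat {α β : Type} [Fintype α] [DecidableEq α] [Fintype β] [DecidableEq β] {s : ℝ}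
    {C A : ℝ → Matrix (α ⊕ β) (α ⊕ β) ℝ} (h : Jac D C A) (ha : Adapted (A D)) (h0 : 0 < s)
    (h1 : s < D) {y : α ⊕ β → ℝ} (hy : ∀ i, y (Sum.inr i) = 0)
    (hz : ((Sl C A (s + D) - Sl C A s) *ᵥ y) ⬝ᵥ y = 0) : y = 0 := by
  obtain ⟨P, S₁, hS⟩ := h.exists_sdata ha
  have b1 := corea_pd hS h0 (by linarith : s < s + D) (by linarith)
  rw [← corea_blk hS h1.ne (by linarith : D < s + D).ne'] at b1
  have e1 : y = Sum.elim (fun i => y (Sum.inl i)) (0 : β → ℝ) := by
    funext i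
    rcases i with i | i
    · rfl
    · exact hy i
  by_contra hne
  have h2 : (fun i => y (Sum.inl i)) ≠ 0 := fun h3 => hne (by rw [e1, h3, Sum.elim_zero_zero])
  have h3 := b1.dotProduct_mulVec_pos h2
  rw [dotProduct_comm, e1, ← Matrix.fromBlocks_toBlocks (Sl C A (s + D) - Sl C A s),
    Matrix.fromBlocks_mulVec, sumElim_dotProduct_sumElim] at hz
  refine h3.ne' ?_
  simpa using hz

/-- Use `Bl.jdata`, `JData.exists_jac` with an adapted frame (`Bl.exists_adapted`; follow the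
proof of `Bl.geoa_data` in P231/GeoA), `Jac.exists_sdata`, `corea_pd` (P231/CoreA), `multb_graph`.
The field `j = ι s w'` vanishes at `s` and `s + D`, has `σ j = 0`; write `j = Ξ (y, Sl s *ᵥ y)`
with `Sl (s + D) *ᵥ y = Sl s *ᵥ y`. If the pairing with the kernel at `0` vanishes, the second
block of `y` is zero (the kernel has dimension one), so `y ⬝ᵥ (Sl (s + D) - Sl s) *ᵥ y > 0`
unless `y = 0`; then `j = 0` and `w' = 0` by `JData.pair`, `JData.surj`. -/
theorem BC.pair_ne (h : BC e D) {γ : ℝ → M} {ρ : ℝ → Eu n}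
    (hl : Line (T := fun _ => Eu n) e γ ρ) {s : ℝ} (h0 : 0 < s) (h1 : s < D) {w w' : Eu n}
    (hw0 : w ≠ 0) (hw : Lmap e (γ 0) (D • ρ 0) (γ D) w = 0) (hw0' : w' ≠ 0)
    (hw' : Lmap e (γ s) (D • ρ s) (γ (s + D)) w' = 0) :
    inner ℝ w (Lmap e (γ s) ((0 - s) • ρ s) (γ 0) w') ≠ 0 := by

  intro hp
  have hB := h.toBl
  have hD := h.dpos
  obtain ⟨a, b, hb, hab⟩ := hB.exists_adapted hl
  obtain ⟨Ω, -, hJ⟩ := hB.jdata hl (half_pos hB.pos) (half_lt_self hB.pos)
  obtain ⟨C, A, Ξ, hCA, -, -, j4, j5, j6, -⟩ := hJ.exists_jac hB hl hb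
  have had : Adapted (A D) := fun w => by
    rw [← hab, ← dotProduct_self_eq_zero, j4, mul_eq_zero, sq_eq_zero_iff, sq_eq_zero_iff,
      norm_eq_zero, or_iff_right hD.ne']
  generalize Ym (T := fun _ => Eu n) e γ (D / 2) = Y at hJ j5
  generalize P231.io (T := fun _ => Eu n) e γ ρ (D / 2) = ι at hJ j6
  have y1 : Y s (ι s w') = 0 := hJ.red_self s w'
  have y2 : Y (s + D) (ι s w') = 0 := by rw [hJ.expd, add_sub_cancel_left, hw', smul_zero]
  have y3 : inner ℝ (Y 0 (ι s w')) (ρ 0) = 0 := by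
    have a1 := hJ.rad s (s + D) (ι s w')
    have a2 := hJ.rad s 0 (ι s w')
    rw [y1, y2, inner_zero_left, inner_zero_left, add_sub_cancel_left, zero_add] at a1
    rw [a2, y1, inner_zero_left, (mul_eq_zero.1 a1.symm).resolve_left hD.ne', mul_zero, add_zero]
  have y4 : inner ℝ w (Y 0 (ι s w')) = 0 := by rw [hJ.expd, real_inner_smul_right, hp, mul_zero]
  have d1 := hCA.det_ne (t := s) ⟨h0, by linarith⟩ h1.ne
  have d2 := hCA.det_ne (t := s + D) ⟨by linarith, by linarith⟩ (by linarith : D < s + D).ne'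
  have k1 : ∀ t, (A t).det ≠ 0 → Y t (ι s w') = 0 → ∀ y,
      Ω (ι s w') (Ξ (y, (Sl C A t).mulVec y)) = 0 := fun t ht hY y => by
    obtain ⟨u, hu⟩ := hJ.ker t _ hY
    rw [← hu, hJ.pair, (j5 _ _ _).2 (multb_graph ht y), inner_zero_right]
  have k2 : (fun i => inner ℝ (b i) (Y 0 (ι s w'))) = 0 := by
    refine sha_mat hCA had h0 h1 (fun i => ?_) ?_
    · have a1 : Module.finrank ℝ
          (LinearMap.ker (Lmap e (γ 0) (D • ρ 0) (γ D)).toLinearMap) = 1 := by
        rw [← kap_eq (T := fun _ => Eu n) (by rw [hl.eq 0 D, sub_zero])]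
        exact h.kap1 _ _ (by rw [norm_smul, hl.norm, mul_one, Real.norm_of_nonneg hD.le])
      have a2 := (hab (Pi.single (Sum.inr i) 1)).2 fun j => by simp
      have a3 : ∑ j, (Pi.single (Sum.inr i) (1 : ℝ) : _ → ℝ) j • b j = b (Sum.inr i) := by
        simp [Pi.single_apply]
      rw [a3] at a2
      obtain ⟨c, hc⟩ := (finrank_eq_one_iff_of_nonzero' (K := ℝ) (⟨w, hw⟩ :
        LinearMap.ker (Lmap e (γ 0) (D • ρ 0) (γ D)).toLinearMap)
        fun h0 => hw0 (congrArg Subtype.val h0)).1 a1 ⟨_, a2⟩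
      have a4 : c • w = b (Sum.inr i) := congrArg Subtype.val hc
      rw [← a4, real_inner_smul_left, y4, mul_zero]
    · generalize hy : (fun i => inner ℝ (b i) (Y 0 (ι s w'))) = y
      have c1 : Ξ (y, (Sl C A (s + D)).mulVec y) = Ξ (y, (Sl C A s).mulVec y) +
          Ξ (0, (Sl C A (s + D) - Sl C A s).mulVec y) := by
        rw [← map_add, Matrix.sub_mulVec]
        simp
      have c2 := k1 _ d2 y2 y
      rw [c1, map_add, k1 _ d1 y1 y, zero_add, j6, hJ.skew, hJ.pair, neg_eq_zero,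
        ← hb.span _ y3, hb.red_inner, hy] at c2
      exact c2
  have k3 : Y 0 (ι s w') = 0 := by
    rw [← hb.span _ y3]
    exact Finset.sum_eq_zero fun i _ => by rw [congrFun k2 i, Pi.zero_apply, zero_smul]
  rw [hJ.expd, smul_eq_zero, or_iff_right (by linarith), hl.eq s 0] at k3
  refine hw0' ((Lmap_bij h.toGeo (hB.mem_inj ?_)).1 (k3.trans (map_zero _).symm))
  rw [norm_smul, hl.norm, mul_one, zero_sub, norm_neg, Real.norm_of_nonneg h0.le]
  exact h1

end Vale.Agent.P231C
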