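import Vale.Agent.P231C.RotB

/-! The averaged field: smoothness and first order expansions. -/

open scoped ContDiff Topology
open Filter Set MeasureTheory

noncomputable section

namespace Vale.Agent.P231C

open Vale.Agent.P234 Vale.Agent.P231

variable {M : Type*} [MetricSpace M] [CompactSpace M] {n : ℕ} {e : M → Eu n → M} {D : ℝ}
variable {h : BC e D} {J : XT M D → Eu n}

theorem Ori.smo_RR (hJ : Ori h J) :
    Smo h.DX.ext.ext h.DX fun p => hJ.RR p.1.1 p.1.2 p.2 :=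
  h.cir_fl.sm.comp ((hJ.cir.sm.comp ((h.cir_fl.sm.comp (((smo_fst _ _).comp (smo_fst _ _)).pair
    (((smo_snd _ _).comp (smo_fst _ _)).contDiff_comp (g := fun t : ℝ => -t) contDiff_neg))).pair
      (smo_snd _ _))).pair ((smo_snd _ _).comp (smo_fst _ _)))

theorem Ori.RR_zero (hJ : Ori h J) (z : XT M D) (s : ℝ) : hJ.RR z s 0 = z := by
  rw [Ori.RR, hJ.rt_zero, h.fl_add, neg_add_cancel, h.fl_zero]

theorem Ori.RR_fl (hJ : Ori h J) (z : XT M D) (s t θ : ℝ) :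
    h.fl (hJ.RR (h.fl (z, t)) s θ, -t) = hJ.RR z (s - t) θ := by
  rw [Ori.RR, Ori.RR, h.fl_add, h.fl_add, neg_sub, sub_eq_add_neg, sub_eq_add_neg]

theorem Ori.RR_per (hJ : Ori h J) (z : XT M D) (s θ : ℝ) : hJ.RR z (s + 2 * D) θ = hJ.RR z s θ := by
  rw [Ori.RR, Ori.RR, h.fl_per, ← h.fl_per z (-(s + 2 * D)),
    show -(s + 2 * D) + 2 * D = -s by ring]

theorem Ori.ev_RR_zero (hJ : Ori h J) (z : XT M D) (θ : ℝ) : ev (hJ.RR z 0 θ) = ev z := by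
  rw [Ori.RR, h.fl_zero, neg_zero, h.fl_zero, hJ.ev_rt]

theorem Ori.ev_RR_D (hJ : Ori h J) (z : XT M D) (θ : ℝ) : ev (hJ.RR z D θ) = ev z := by
  rw [Ori.RR, ev_fl, hJ.q_rt, geo_fl, neg_add_cancel, h.geo_zero]

theorem Ori.contDiffAt_chi (hJ : Ori h J) (z : XT M D) (s : ℝ) :
    ContDiffAt ℝ ∞ (fun p : ℝ × ℝ => chi e z (hJ.RR z p.1 p.2)) (s, 0) := by
  have h1 := hJ.smo_RR ⟨FS.line.ext, fun p => ((z, p.1), p.2), (s, 0)⟩
    ⟨⟨h.DX.const _ z _, sg_of_contDiff contDiff_fst _⟩, sg_of_contDiff contDiff_snd _⟩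
  have h2 := (h.sg_chi h1).self_of_nhds
  simp only [hJ.RR_zero] at h2
  exact h2

theorem shb_der (hJ : Ori h J) (z : XT M D) (s : ℝ) : HasDerivAt (fun θ => chi e z (hJ.RR z s θ))
    (fderiv ℝ (fun p : ℝ × ℝ => chi e z (hJ.RR z p.1 p.2)) (s, 0) (0, 1)) 0 :=
  ((hJ.contDiffAt_chi z s).differentiableAt (by simp)).hasFDerivAt.comp_hasDerivAt 0
    ((hasDerivAt_const 0 s).prodMk (hasDerivAt_id 0))

theorem Ori.hasDerivAt_om (hJ : Ori h J) (z : XT M D) (s : ℝ) :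
    HasDerivAt (fun θ => chi e z (hJ.RR z s θ)) (hJ.om z s) 0 :=
  (shb_der hJ z s).differentiableAt.hasDerivAt

theorem Ori.contDiff_om (hJ : Ori h J) (z : XT M D) : ContDiff ℝ ∞ (hJ.om z) := by
  rw [show hJ.om z = fun s => fderiv ℝ (fun p : ℝ × ℝ => chi e z (hJ.RR z p.1 p.2)) (s, 0) (0, 1)
    from funext fun s => (shb_der hJ z s).deriv]
  exact contDiff_iff_contDiffAt.2 fun s =>
    ((((hJ.contDiffAt_chi z s).fderiv_right (m := ∞) (by simp)).comp s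
      (f := fun t : ℝ => (t, (0 : ℝ))) (contDiffAt_id.prodMk contDiffAt_const)).clm_apply
        contDiffAt_const)

theorem Ori.smoV_om1 (hJ : Ori h J) :
    SmoV e h.DX.ext (fun p => ev p.1) fun p => (hJ.om p.1 p.2).1 := by
  have h1 := h.smoV_deriv (h.smo_ev.comp hJ.smo_RR) 0
  simp only [hJ.RR_zero] at h1
  rw [show (fun p : XT M D × ℝ => (hJ.om p.1 p.2).1) = _ from
    funext fun p => ((ContinuousLinearMap.fst ℝ _ _).hasFDerivAt.comp_hasDerivAt 0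
      (hJ.hasDerivAt_om p.1 p.2)).deriv.symm]
  exact h1

theorem Ori.smoV_om2 (hJ : Ori h J) :
    SmoV e h.DX.ext (fun p => ev2 p.1) fun p => (hJ.om p.1 p.2).2 := by
  have h1 := h.smoV_deriv (h.smo_ev2.comp hJ.smo_RR) 0
  simp only [hJ.RR_zero] at h1
  rw [show (fun p : XT M D × ℝ => (hJ.om p.1 p.2).2) = _ from
    funext fun p => ((ContinuousLinearMap.snd ℝ _ _).hasFDerivAt.comp_hasDerivAt 0
      (hJ.hasDerivAt_om p.1 p.2)).deriv.symm]
  exact h1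

theorem shb_lin (hJ : Ori h J) (z : XT M D) {F : Type*} [NormedAddCommGroup F] [NormedSpace ℝ F]
    [CompleteSpace F] (L : Eu n × Eu n →L[ℝ] F) :
    L (hJ.xi z) = ∫ s in (0 : ℝ)..D, L (hJ.om z s) :=
  (L.intervalIntegral_comp_comm ((hJ.contDiff_om z).continuous.intervalIntegrable _ _)).symm

theorem Ori.smoV_xi1 (hJ : Ori h J) : SmoV e h.DX ev fun z => (hJ.xi z).1 := by
  rw [show (fun z => (hJ.xi z).1) = _ from
    funext fun z => shb_lin hJ z (ContinuousLinearMap.fst ℝ _ _)]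
  exact SmoV.integral h h.smo_ev hJ.smoV_om1 0 D

theorem Ori.smoV_xi2 (hJ : Ori h J) : SmoV e h.DX ev2 fun z => (hJ.xi z).2 := by
  rw [show (fun z => (hJ.xi z).2) = _ from
    funext fun z => shb_lin hJ z (ContinuousLinearMap.snd ℝ _ _)]
  exact SmoV.integral h h.smo_ev2 hJ.smoV_om2 0 D

theorem Ori.smo_cc (hJ : Ori h J) : Smo h.DX.ext h.DM hJ.cc :=
  ((hJ.smoV_xi1.comp (smo_fst _ _)).smul (smo_snd _ _)).exp h (h.smo_ev.comp (smo_fst _ _))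

theorem Ori.cc_zero (hJ : Ori h J) (z : XT M D) : hJ.cc (z, 0) = ev z := by
  rw [Ori.cc, zero_smul, h.zero]

theorem Ori.Ph_zero (hJ : Ori h J) (z : XT M D) : hJ.Ph (z, 0) = z := by
  rw [Ori.Ph, zero_smul, h.psi_zero]

theorem Ori.plot_Ph (hJ : Ori h J) {Z : FS} {f : Z → XT M D} {ε : Z → ℝ} {u : Z}
    (hf : h.DX.P ⟨Z, f, u⟩) (hε : Sg ε u) (h0 : ε u = 0) :
    h.DX.P ⟨Z, fun z => hJ.Ph (f z, ε z), u⟩ ∧
      ∀ᶠ z in 𝓝 u, ev (hJ.Ph (f z, ε z)) = hJ.cc (f z, ε z) := by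
  have hp : h.DX.ext.P ⟨Z, fun z => (f z, ε z), u⟩ := ⟨hf, hε⟩
  have hA : h.DM.P ⟨Z, fun z => e (ev (f z)) (ε z • (hJ.xi (f z)).1), u⟩ := hJ.smo_cc _ hp
  have hB : h.DM.P ⟨Z, fun z => e (ev2 (f z)) (ε z • (hJ.xi (f z)).2), u⟩ :=
    ((hJ.smoV_xi2.comp (smo_fst _ _)).smul (smo_snd _ _)).exp h (h.smo_ev2.comp (smo_fst _ _)) _ hp
  have h1 := xb_half h (f u)
  have h2 : dist (e (ev (f u)) (ε u • (hJ.xi (f u)).1)) (e (ev2 (f u)) (ε u • (hJ.xi (f u)).2)) =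
      dist (ev (f u)) (ev2 (f u)) := by rw [h0, zero_smul, zero_smul, h.zero, h.zero]
  rw [← h2] at h1
  have h3 := continuousAt_const.eventually_lt ((h.plot_cont hA).dist (h.plot_cont hB)) h1.1
  refine ⟨Dif.congr (h.plot_kp (f u) hA hB h1.1 h1.2) (h3.mono fun z hz => ?_),
    h3.mono fun z hz => h.ev_kp _ hz⟩
  exact h.ext ((h.ev_kp _ hz).trans (h.ev_kp _ hz).symm) ((h.vel_kp _ hz).trans (h.vel_kp _ hz).symm)

/-- `G z' = G (psi z (chi z z'))` (`psi_chi`), chain rule; a continuous linear map commutes with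
the integral. -/
theorem Ori.lin (hJ : Ori h J) (z : XT M D) {F : Type*} [NormedAddCommGroup F] [NormedSpace ℝ F]
    [CompleteSpace F] {G : XT M D → F} (hG : DifferentiableAt ℝ (fun a => G (h.psi z a)) 0) :
    HasDerivAt (fun ε => G (hJ.Ph (z, ε)))
        (∫ s in (0 : ℝ)..D, deriv (fun θ => G (hJ.RR z s θ)) 0) 0 ∧
      ∀ s, deriv (fun θ => G (hJ.RR z s θ)) 0 = fderiv ℝ (fun a => G (h.psi z a)) 0 (hJ.om z s) := by
  have h1 : ∀ s, deriv (fun θ => G (hJ.RR z s θ)) 0 =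
      fderiv ℝ (fun a => G (h.psi z a)) 0 (hJ.om z s) := fun s => by
    have h2 := hG.hasFDerivAt.comp_hasDerivAt_of_eq 0 (hJ.hasDerivAt_om z s)
      (by rw [hJ.RR_zero, h.chi_self])
    simpa only [Function.comp_def, h.psi_chi] using h2.deriv
  refine ⟨?_, h1⟩
  simp only [h1, ← shb_lin hJ z]
  have h2 := hG.hasFDerivAt.comp_hasDerivAt_of_eq 0 ((hasDerivAt_id (0 : ℝ)).smul_const (hJ.xi z))
    (zero_smul ℝ _).symm
  rw [one_smul] at h2
  exact h2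

end Vale.Agent.P231C
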