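import Vale.Agent.P231C.ShA
import Vale.Agent.P231C.ShB
import Vale.Agent.P231C.LamX

/-! The sign of the symplectic form on the generators. -/

open scoped ContDiff Topology
open Filter Set MeasureTheory

noncomputable section

namespace Vale.Agent.P231C

open Vale.Agent.P234 Vale.Agent.P231

variable {M : Type*} [MetricSpace M] [CompactSpace M] {n : ℕ} {e : M → Eu n → M} {D : ℝ}
variable {h : BC e D} {J : XT M D → Eu n}

/-- The contact form in the coordinates around `z`. -/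
def BC.mu (h : BC e D) (z : XT M D) (a : Eu n × Eu n) : Eu n × Eu n →L[ℝ] ℝ :=
  (innerSL ℝ (vel e (h.psi z a))).comp (Tm e (fun b => ev (h.psi z b)) a)

/-- Its differential at the origin. -/
def BC.Bz (h : BC e D) (z : XT M D) (a b : Eu n × Eu n) : ℝ :=
  fderiv ℝ (h.mu z) 0 a b - fderiv ℝ (h.mu z) 0 b a

theorem BC.sg_mu (h : BC e D) (z : XT M D) : Sg (h.mu z) 0 := by

  exact (h.DX.ev (h.plot_psi z)).mono fun a ha => h.contDiffAt_lam ha

/-- The contact form on the velocity of a curve. -/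
theorem BC.mu_curve (h : BC e D) (z : XT M D) : ∀ᶠ a in 𝓝 (0 : Eu n × Eu n),
    ∀ (k : ℝ → Eu n × Eu n) (t : ℝ), k t = a → DifferentiableAt ℝ k t →
      h.mu z a (deriv k t) =
        inner ℝ (vel e (h.psi z (k t))) (Tm e (fun s => ev (h.psi z (k s))) t 1) := by

  filter_upwards [(h.plot_psi z).1] with a ha k t hk hd
  subst hk
  rw [Tm_comp (f := fun b => ev (h.psi z b)) ha hd]
  rfl


theorem shc_id {A : Type*} [NormedAddCommGroup A] [NormedSpace ℝ A] (a : A) :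
    Sg (fun x : A => x) a := sg_of_contDiff contDiff_id a

theorem shc_diff (h : BC e D) (z : XT M D) : DifferentiableAt ℝ (h.mu z) 0 :=
  (h.sg_mu z).self_of_nhds.differentiableAt (by simp)

/-- `gauss_fl` for the curve `θ ↦ rt (fl (z, -s), θ)`, whose base point is constant. -/
theorem Ori.mu_om (hJ : Ori h J) (z : XT M D) (s : ℝ) : h.mu z 0 (hJ.om z s) = 0 := by

  have h1 := (h.mu_curve z).self_of_nhds _ 0 (by rw [hJ.RR_zero, h.chi_self])
    (hJ.hasDerivAt_om z s).differentiableAt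
  have h2 : h.DX.P ⟨FS.line, fun θ => hJ.rt (h.fl (z, -s), θ), (0 : ℝ)⟩ :=
    hJ.cir.sm ⟨FS.line, fun θ => (h.fl (z, -s), θ), (0 : ℝ)⟩ ⟨h.DX.const _ _ _, shc_id _⟩
  have h3 := h.gauss_fl h2 (difc_sg_const s _) (1 : ℝ)
  simp only [hJ.ev_rt, h.Tm_const, fderiv_fun_const, Pi.zero_apply, zero_apply, inner_zero_right,
    add_zero] at h3
  simp only [h.psi_chi] at h1
  exact h1.trans h3

theorem BC.Bz_eq (h : BC e D) (z : XT M D) (a b : Eu n × Eu n) : h.Bz z a b =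
    evl (Z := (FS.euc n).prod (FS.euc n)) [a, b]
      (loc (dx h.lam) ((FS.euc n).prod (FS.euc n)) (h.psi z) 0) := by

  have h1 : loc h.lam ((FS.euc n).prod (FS.euc n)) (h.psi z) =ᶠ[𝓝 0]
      fun a => io (Z := (FS.euc n).prod (FS.euc n)) (h.mu z a) :=
    (h.DX.ev (h.plot_psi z)).mono fun a ha => h.loc_lam ha
  rw [loc_dx _ (h.plot_psi z), dd_congr h1]
  exact (evl_dd_io (Z := (FS.euc n).prod (FS.euc n)) (shc_diff h z) a b).symm

/-- Invariance: `pull_lam_const`, `dx_pull`, naturality for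
`g = chi z' ∘ fl (·, -t) ∘ psi z`, `z' = fl (z, -t)`, whose derivative sends `om z s` to
`om z' (s - t)` (`Ori.lin`, second part, and `RR_fl`). -/
theorem Ori.Bz_shift (hJ : Ori h J) (z : XT M D) (s s' t : ℝ) :
    h.Bz z (hJ.om z s) (hJ.om z s') =
      h.Bz (h.fl (z, -t)) (hJ.om (h.fl (z, -t)) (s - t)) (hJ.om (h.fl (z, -t)) (s' - t)) := by

  have p1 : h.DX.P ⟨(FS.euc n).prod (FS.euc n), fun a => h.fl (h.psi z a, -t), 0⟩ :=
    h.smo_fl (-t) _ (h.plot_psi z)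
  have p2 := h.sg_chi p1
  simp only [h.psi_zero] at p2
  have p3 : chi e (h.fl (z, -t)) (h.fl (h.psi z 0, -t)) = 0 := by rw [h.psi_zero, h.chi_self]
  have p4 := h.fm_lam.dx.loc_comp (Z := (FS.euc n).prod (FS.euc n))
    (W := (FS.euc n).prod (FS.euc n)) (f := h.psi (h.fl (z, -t)))
    (g := fun a => chi e (h.fl (z, -t)) (h.fl (h.psi z a, -t))) (w := 0)
    (by rw [p3]; exact h.plot_psi _) p2
  simp only [h.psi_chi, p3] at p4
  have p5 : ∀ u, fderiv ℝ (fun a => chi e (h.fl (z, -t)) (h.fl (h.psi z a, -t))) 0 (hJ.om z u) =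
      hJ.om (h.fl (z, -t)) (u - t) := fun u => by
    rw [← (hJ.lin z (G := fun y => chi e (h.fl (z, -t)) (h.fl (y, -t)))
      (p2.self_of_nhds.differentiableAt (by simp))).2 u, Ori.om]
    simp only [← hJ.RR_fl, h.fl_add, neg_add_cancel, h.fl_zero]
  have p6 : dx h.lam = pull (h.smo_fl (-t)) (dx h.lam) := by rw [← dx_pull, h.pull_lam_const]
  rw [h.Bz_eq, h.Bz_eq, ← p5, ← p5]
  conv_lhs => rw [p6, loc_pull _ _ (h.plot_psi z), p4, evl_pb]
  rfl


theorem shc_mu (h : BC e D) (z : XT M D) : ∀ᶠ a in 𝓝 (0 : Eu n × Eu n), ∀ b,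
    h.mu z a b = inner ℝ (vel e (h.psi z a)) (Tm e (e (ev z)) a.1 b.1) := by
  filter_upwards [(h.ev_psi z).eventually_nhds] with a ha b
  have h1 := Tm_comp (f := e (ev z)) (k := Prod.fst) (w := a) (sm_exp h.toGeo _ _)
    differentiableAt_fst
  rw [BC.mu, Tm_congr ha, h1, fderiv_fst]
  rfl

theorem shc_RR (hJ : Ori h J) (z : XT M D) (θ : ℝ) : hJ.RR z 0 θ = hJ.rt (z, θ) := by
  rw [Ori.RR, neg_zero, h.fl_zero, h.fl_zero]

theorem shc_fst (hJ : Ori h J) (z : XT M D) (θ : ℝ) : (chi e z (hJ.RR z 0 θ)).1 = 0 := by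
  rw [chi, hJ.ev_RR_zero]
  exact h.toGeo.lg_self _

/-- Along `k θ = chi z (rt (z, θ))`, with `(k θ).1 = 0`, `mu (k θ) b = ⟪cos θ • v + sin θ • J z,
b.1⟫`; and `mu a (0, c) = 0` for all `a` near `0` (`ev_psi`). -/
theorem Ori.Bz_zero (hJ : Ori h J) (z : XT M D) (b : Eu n × Eu n) :
    h.Bz z (hJ.om z 0) b = inner ℝ (J z) b.1 := by

  have hk := hJ.hasDerivAt_om z 0
  have k0 : chi e z (hJ.RR z 0 0) = 0 := by rw [hJ.RR_zero, h.chi_self]
  have h1 : (hJ.om z 0).1 = 0 := by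
    have : HasDerivAt (fun θ => (chi e z (hJ.RR z 0 θ)).1) (hJ.om z 0).1 0 :=
      (ContinuousLinearMap.fst ℝ (Eu n) (Eu n)).hasFDerivAt.comp_hasDerivAt 0 hk
    simp only [shc_fst] at this
    exact this.unique (hasDerivAt_const _ _)
  have h2 : ∀ c, HasFDerivAt (fun a => h.mu z a c) ((fderiv ℝ (h.mu z) 0).flip c) 0 := fun c =>
    (ContinuousLinearMap.apply ℝ ℝ c).hasFDerivAt.comp 0 (shc_diff h z).hasFDerivAt
  have h3 : fderiv ℝ (h.mu z) 0 b (hJ.om z 0) = 0 := by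
    have a1 : (fun _ => (0 : ℝ)) =ᶠ[𝓝 0] fun a => h.mu z a (hJ.om z 0) :=
      (shc_mu h z).mono fun a ha => by
        beta_reduce
        rw [ha, h1, map_zero, inner_zero_right]
    have a2 := ((h2 _).congr_of_eventuallyEq a1).unique (hasFDerivAt_const _ _)
    exact congrArg (fun L => L b) a2
  have h4 := (k0 ▸ h2 b :).comp_hasDerivAt 0 hk
  have h5 : (fun θ => inner ℝ (Real.cos θ • vel e z + Real.sin θ • J z) b.1) =ᶠ[𝓝 0]
      (fun a => h.mu z a b) ∘ fun θ => chi e z (hJ.RR z 0 θ) := by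
    have a1 := hk.continuousAt.tendsto
    rw [k0] at a1
    filter_upwards [a1.eventually (shc_mu h z)] with θ hθ
    rw [Function.comp_apply, hθ, shc_fst, h.psi_chi, h.Tm_exp_zero, shc_RR, hJ.vel_rt]
    rfl
  have h6 := (((Real.hasDerivAt_cos 0).smul_const (vel e z)).add
    ((Real.hasDerivAt_sin 0).smul_const (J z))).inner ℝ (hasDerivAt_const (0 : ℝ) b.1)
  have h7 := (h4.congr_of_eventuallyEq h5).unique h6
  rw [BC.Bz, h3, sub_zero]
  simpa [k0] using h7


theorem shc_L (h : BC e D) (z : XT M D) (s : ℝ) {k : ℝ → Eu n} {k' : Eu n}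
    (hk : HasDerivAt k k' 0) (h0 : k 0 = (0 - s) • vel e (h.fl (z, s))) :
    HasDerivAt (fun θ => lg e (ev z) (e (geo e z s) (k θ)))
      (Lmap e (geo e z s) ((0 - s) • vel e (h.fl (z, s))) (ev z) k') 0 := by
  have h1 := jacg1_L h.toGeo (h.line z) s 0
  rw [h.geo_zero] at h1
  exact h1.comp_hasDerivAt_of_eq 0 hk h0.symm

theorem Ori.om_fst (hJ : Ori h J) (z : XT M D) (s : ℝ) : (hJ.om z (-s)).1 =
    (-s) • Lmap e (geo e z s) ((0 - s) • vel e (h.fl (z, s))) (ev z) (J (h.fl (z, s))) := by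

  have h1 : HasDerivAt (fun θ => (chi e z (hJ.RR z (-s) θ)).1) (hJ.om z (-s)).1 0 :=
    (ContinuousLinearMap.fst ℝ (Eu n) (Eu n)).hasFDerivAt.comp_hasDerivAt 0
      (hJ.hasDerivAt_om z (-s))
  have h2 := shc_L h z s ((((Real.hasDerivAt_cos 0).smul_const (vel e (h.fl (z, s)))).add
    ((Real.hasDerivAt_sin 0).smul_const (J (h.fl (z, s))))).const_smul (-s)) (by simp)
  have h3 : (fun θ => (chi e z (hJ.RR z (-s) θ)).1) = fun θ => lg e (ev z) (e (geo e z s)
      ((-s) • (Real.cos θ • vel e (h.fl (z, s)) + Real.sin θ • J (h.fl (z, s))))) := by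
    funext θ
    rw [chi, Ori.RR, ev_fl, neg_neg, geo, hJ.ev_rt, hJ.vel_rt, ev_fl]
  rw [h3] at h1
  rw [h1.unique h2]
  simp


theorem shc_cont (hJ : Ori h J) (z : XT M D) : Continuous fun s => inner ℝ (J z)
    (Lmap e (geo e z s) ((0 - s) • vel e (h.fl (z, s))) (ev z) (J (h.fl (z, s)))) := by
  have hc : Smo (Dif.vec (ℝ × ℝ)) h.DX fun p => h.fl (z, p.1) :=
    h.cir_fl.sm.comp ((smo_const _ _ z).pair (smo_of_contDiff contDiff_fst))
  have h1 := (((h.smoV_vel.comp hc).smul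
    (smo_of_contDiff (contDiff_const.sub contDiff_fst : ContDiff ℝ ∞ fun p : ℝ × ℝ => 0 - p.1))).add
    ((hJ.sm.comp hc).smul (smo_of_contDiff contDiff_snd))).exp h (h.smo_ev.comp hc)
  have h2 : ∀ s : ℝ, ContDiffAt ℝ ∞ (fun p : ℝ × ℝ => lg e (ev z) (e (geo e z p.1)
      ((0 - p.1) • vel e (h.fl (z, p.1)) + p.2 • J (h.fl (z, p.1))))) (s, 0) := fun s => by
    have a1 := (h1 ⟨FS.line.prod FS.line, fun p => p, (s, 0)⟩ (shc_id _)).self_of_nhds
    have a2 : e (geo e z s) ((0 - s) • vel e (h.fl (z, s))) = ev z := by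
      rw [← h.geo_zero]
      exact ((h.line z).eq s 0).symm
    simp only [Sm, ev_fl, zero_smul, add_zero, a2] at a1
    exact a1
  have h3 : ∀ s : ℝ, Lmap e (geo e z s) ((0 - s) • vel e (h.fl (z, s))) (ev z) (J (h.fl (z, s))) =
      fderiv ℝ (fun p : ℝ × ℝ => lg e (ev z) (e (geo e z p.1)
        ((0 - p.1) • vel e (h.fl (z, p.1)) + p.2 • J (h.fl (z, p.1))))) (s, 0) (0, 1) := by
    intro s
    have a1 := ((h2 s).differentiableAt (by simp)).hasFDerivAt.comp_hasDerivAt (0 : ℝ)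
      ((hasDerivAt_const (0 : ℝ) s).prodMk (hasDerivAt_id (0 : ℝ)))
    have a2 := shc_L h z s (((hasDerivAt_id (0 : ℝ)).smul_const (J (h.fl (z, s)))).const_add
      ((0 - s) • vel e (h.fl (z, s)))) (by simp)
    rw [one_smul] at a2
    exact a2.unique a1
  simp only [h3]
  refine continuous_const.inner (Continuous.clm_apply ?_ continuous_const)
  exact continuous_iff_continuousAt.2 fun s => ((h2 s).continuousAt_fderiv (by simp)).comp
    (f := fun s : ℝ => (s, (0 : ℝ))) (by fun_prop)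

/-- The function `φ s = ⟪J z, Lmap e (geo z s) ((0 - s) • vel (fl (z, s))) (ev z) (J (fl (z, s)))⟫`
is continuous (it is the derivative in `θ` of `⟪J z, lg (ev z) (e (geo z s) ((0 - s) • vel +
θ • J))⟫`, smooth in `(s, θ)` by `SmoV.exp`), equal to `1` at `0` and nonzero on `(0, D)`
(`pair_ne`, `Nrm.ker`). -/
theorem Ori.pair_pos (hJ : Ori h J) (z : XT M D) {s : ℝ} (h0 : 0 < s) (h1 : s < D) :
    0 < inner ℝ (J z)
      (Lmap e (geo e z s) ((0 - s) • vel e (h.fl (z, s))) (ev z) (J (h.fl (z, s)))) := by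

  by_contra hn
  have a0 : inner ℝ (J z) (Lmap e (geo e z 0) ((0 - 0 : ℝ) • vel e (h.fl (z, 0))) (ev z)
      (J (h.fl (z, 0)))) = 1 := by
    rw [sub_self, zero_smul, h.geo_zero, h.fl_zero, vecc_zero h, real_inner_self_eq_norm_sq,
      (hJ.nrm z).norm, one_pow]
  obtain ⟨c, hc, hc'⟩ := intermediate_value_Icc' h0.le (shc_cont hJ z).continuousOn
    (show (0 : ℝ) ∈ _ from ⟨not_lt.1 hn, by beta_reduce; rw [a0]; exact zero_le_one⟩)
  have c0 : 0 < c := hc.1.lt_of_ne fun h2 => by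
    subst h2
    exact one_ne_zero (a0.symm.trans hc')
  have hne : ∀ y, J y ≠ 0 := fun y hy => by
    have := (hJ.nrm y).norm
    rw [hy, norm_zero] at this
    exact zero_ne_one this
  have a1 := h.pair_ne (h.line z) c0 (hc.2.trans_lt h1) (hne z) (by
    rw [h.geo_zero, h.fl_zero]
    exact (hJ.nrm z).ker h (h.norm_vel z)) (hne (h.fl (z, c))) (by
    rw [← geo_fl h]
    exact (hJ.nrm (h.fl (z, c))).ker h (h.norm_vel _))
  rw [h.geo_zero] at a1
  exact a1 hc'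

theorem Ori.Bz_neg (hJ : Ori h J) (z : XT M D) {a b : ℝ} (h0 : a - D < b) (h1 : b < a) :
    h.Bz z (hJ.om z a) (hJ.om z b) < 0 := by

  rw [hJ.Bz_shift z a b a, sub_self, hJ.Bz_zero, ← neg_sub a b, hJ.om_fst, real_inner_smul_right]
  exact mul_neg_of_neg_of_pos (by linarith) (hJ.pair_pos _ (by linarith) (by linarith))

end Vale.Agent.P231C
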