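import Vale.Agent.P231C.Par

/-! Second variation in coordinates, and a uniform Taylor estimate. -/

open scoped ContDiff Topology
open Filter Set Asymptotics

namespace Vale.Agent.P231C

variable {W : Type*} [NormedAddCommGroup W] [NormedSpace ℝ W] [FiniteDimensional ℝ W]

section Aux
variable {X A F : Type*} [NormedAddCommGroup X] [NormedSpace ℝ X] [NormedAddCommGroup A]
  [NormedSpace ℝ A] [NormedAddCommGroup F] [NormedSpace ℝ F]

/-- Directional derivative. -/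
noncomputable def tayD (v : X) (f : X → F) (p : X) : F := fderiv ℝ f p v

theorem tay_sm {f : X → F} {p : X} (h : ContDiffAt ℝ ∞ f p) (v : X) :
    ContDiffAt ℝ ∞ (tayD v f) p := (h.fderiv_right (by simp)).clm_apply contDiffAt_const

theorem tay_ev2 {f : X → F} {p : X} (h : ContDiffAt ℝ ∞ f p) : ∀ᶠ q in 𝓝 p, ContDiffAt ℝ 2 f q :=
  (contDiffAt_infty.1 h 2).eventually (by simp)

theorem tay_ev {f : X → F} {p : X} (h : ContDiffAt ℝ ∞ f p) :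
    ∀ᶠ q in 𝓝 p, DifferentiableAt ℝ f q := (tay_ev2 h).mono fun _ hq => hq.differentiableAt (by simp)

theorem tay_comm {f : X → F} {p : X} (h : ContDiffAt ℝ 2 f p) (v w : X) :
    tayD v (tayD w f) p = tayD w (tayD v f) p := by
  have h1 : DifferentiableAt ℝ (fderiv ℝ f) p :=
    (h.fderiv_right (m := 1) le_rfl).differentiableAt one_ne_zero
  have h2 : ∀ v w, tayD v (tayD w f) p = fderiv ℝ (fderiv ℝ f) p v w := fun v w => by
    unfold tayD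
    rw [fderiv_clm_apply h1 (differentiableAt_const w)]
    simp
  rw [h2, h2, h.isSymmSndFDerivAt (by simp) v w]

theorem tay_per {f : X → F} {a : X} (h : ∀ p, f (p + a) = f p) (v p : X) :
    tayD v f (p + a) = tayD v f p := by
  unfold tayD
  rw [← fderiv_comp_add_right, funext h]

theorem tay_d1 {f : ℝ × A → F} {ε : ℝ} {t : A} (h : DifferentiableAt ℝ f (ε, t)) :
    HasDerivAt (fun ε => f (ε, t)) (tayD (1, 0) f (ε, t)) ε :=
  h.hasFDerivAt.comp_hasDerivAt ε ((hasDerivAt_id ε).prodMk (hasDerivAt_const ε t))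

theorem tay_d2 {f : A × ℝ → F} {a : A} {t : ℝ} (h : DifferentiableAt ℝ f (a, t)) :
    HasDerivAt (fun s => f (a, s)) (tayD (0, 1) f (a, t)) t :=
  h.hasFDerivAt.comp_hasDerivAt t ((hasDerivAt_const t a).prodMk (hasDerivAt_id t))

theorem tay_ev1 {P : ℝ × ℝ → Prop} {t : ℝ} (h : ∀ᶠ q in 𝓝 ((0 : ℝ), t), P q) :
    ∀ᶠ ε in 𝓝 (0 : ℝ), P (ε, t) :=
  (Continuous.tendsto (f := fun ε : ℝ => (ε, t)) (by fun_prop) 0).eventually h

theorem tay_cont {f : ℝ × ℝ → F} (h : ∀ t, ContDiffAt ℝ ∞ f (0, t)) :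
    Continuous fun t => f (0, t) :=
  continuous_iff_continuousAt.2 fun t => (tay_d2 ((h t).differentiableAt (by simp))).continuousAt

theorem tay_int {f : ℝ × ℝ → ℝ} (h : ∀ t, ContDiffAt ℝ ∞ f (0, t)) (l : ℝ) :
    ∀ᶠ ε in 𝓝 (0 : ℝ), HasDerivAt (fun ε => ∫ t in (0 : ℝ)..l, f (ε, t))
      (∫ t in (0 : ℝ)..l, tayD (1, 0) f (ε, t)) ε := by
  filter_upwards [par_tube 1 (a := 0) (b := l) fun t _ => (h t).of_le (by exact_mod_cast le_top)]
    with ε hε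
  have h1 := (par_main hε).hasDerivAt
  rwa [ContinuousLinearMap.intervalIntegral_apply (par_cont
    (g := fun p => (fderiv ℝ f p).comp (ContinuousLinearMap.inl ℝ ℝ ℝ)) fun t ht =>
      ((hε t ht).continuousAt_fderiv (by simp)).clm_comp continuousAt_const).intervalIntegrable]
    at h1

theorem tay_le {r r' : ℝ → ℝ} {c : ℝ} (h1 : ∀ᶠ ε in 𝓝 (0 : ℝ), HasDerivAt r (r' ε) ε)
    (h2 : HasDerivAt r' c 0) (ho : r =o[𝓝 0] fun ε => ε ^ 2) : r' 0 = 0 ∧ c ≤ 0 := by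
  have r0 : r 0 = 0 := ho.isBigO.eq_zero_imp.self_of_nhds (by simp)
  have d0 : HasDerivAt r 0 0 := by
    rw [hasDerivAt_iff_isLittleO_nhds_zero]
    simpa only [r0, zero_add, smul_zero, sub_zero] using ho.trans (isLittleO_pow_id one_lt_two)
  have e0 := h1.self_of_nhds.unique d0
  refine ⟨e0, not_lt.1 fun hc => ?_⟩
  have g1 : ∀ᶠ ε in 𝓝 (0 : ℝ),
      HasDerivAt (fun ε => r ε - c / 4 * ε ^ 2) (r' ε - c / 2 * ε) ε := h1.mono fun ε hε =>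
    (hε.sub ((hasDerivAt_pow 2 ε).const_mul (c / 4))).congr_deriv (by norm_num; ring)
  have g2 : deriv (fun ε => r ε - c / 4 * ε ^ 2) =ᶠ[𝓝 0] fun ε => r' ε - c / 2 * ε :=
    g1.mono fun ε hε => hε.deriv
  have g3 : HasDerivAt (fun ε => r' ε - c / 2 * ε) (c - c / 2) 0 :=
    h2.sub (hasDerivAt_const_mul (c / 2))
  have g4 := isLocalMin_of_deriv_deriv_pos (f := fun ε => r ε - c / 4 * ε ^ 2)
    (by rw [g2.deriv_eq, g3.deriv]; linarith) (by rw [g2.eq_of_nhds]; simp [e0])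
    g1.self_of_nhds.continuousAt
  obtain ⟨ε, ⟨a1, a2⟩, a3⟩ := (((g4.and (ho.def (c := c / 8) (by positivity))).filter_mono
    (nhdsWithin_le_nhds (s := {0}ᶜ))).and self_mem_nhdsWithin).exists
  have a4 : 0 < ε ^ 2 := sq_pos_of_ne_zero a3
  rw [Real.norm_eq_abs, Real.norm_eq_abs, abs_of_pos a4] at a2
  simp only [r0] at a1
  nlinarith [le_abs_self (r ε), mul_pos hc a4]

theorem tay_two {r r' : ℝ → ℝ} {c : ℝ} (h1 : ∀ᶠ ε in 𝓝 (0 : ℝ), HasDerivAt r (r' ε) ε)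
    (h2 : HasDerivAt r' c 0) (ho : r =o[𝓝 0] fun ε => ε ^ 2) : r' 0 = 0 ∧ c = 0 :=
  ⟨(tay_le h1 h2 ho).1, le_antisymm (tay_le h1 h2 ho).2 (neg_nonpos.1
    (tay_le (h1.mono fun _ h => h.neg) h2.neg ho.neg_left).2)⟩

end Aux

omit [FiniteDimensional ℝ W] in
theorem tay_pt {μ : W → W →L[ℝ] ℝ} (hμ : ContDiffAt ℝ ∞ μ 0) {ζ : ℝ × ℝ → W} {t : ℝ}
    (hζ : ContDiffAt ℝ ∞ ζ (0, t)) (h0 : ∀ t, ζ (0, t) = 0)
    (hm : μ 0 (tayD (1, 0) (tayD (0, 1) ζ) (0, t)) = 0) {q : ℝ × ℝ → ℝ}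
    (hq : ContDiffAt ℝ ∞ q (0, t))
    (hr : (fun ε => q (ε, t) - (1 + μ (ζ (ε, t)) (deriv (fun s => ζ (ε, s)) t)) ^ 2)
      =o[𝓝 0] fun ε => ε ^ 2) :
    tayD (1, 0) q (0, t) = 0 ∧ tayD (1, 0) (tayD (1, 0) q) (0, t) =
      4 * fderiv ℝ μ 0 (tayD (1, 0) ζ (0, t)) (tayD (1, 0) (tayD (0, 1) ζ) (0, t)) +
        2 * μ 0 (tayD (1, 0) (tayD (1, 0) (tayD (0, 1) ζ)) (0, t)) := by
  have dd : ∀ {F : Type _} [NormedAddCommGroup F] [NormedSpace ℝ F] {f : ℝ × ℝ → F},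
      ContDiffAt ℝ ∞ f (0, t) → ∀ᶠ ε in 𝓝 (0 : ℝ),
        HasDerivAt (fun ε => f (ε, t)) (tayD (1, 0) f (ε, t)) ε := fun h =>
    (tay_ev1 (tay_ev h)).mono fun _ h => tay_d1 h
  have z2 : tayD (0, 1) ζ (0, t) = 0 := by
    have := tay_d2 (hζ.differentiableAt (by simp))
    simp only [h0] at this
    exact this.unique (hasDerivAt_const t 0)
  have s2 := tay_sm hζ (0, 1)
  have s12 := tay_sm s2 (1, 0)
  have hμ' : ContDiffAt ℝ ∞ μ (ζ (0, t)) := by rwa [h0]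
  have a1 : ∀ᶠ ε in 𝓝 (0 : ℝ), HasDerivAt (fun ε => μ (ζ (ε, t)))
      (fderiv ℝ μ (ζ (ε, t)) (tayD (1, 0) ζ (ε, t))) ε := by
    filter_upwards [dd hζ, tay_ev1 (hζ.continuousAt.eventually (tay_ev hμ'))] with ε b1 b2
    exact b2.hasFDerivAt.comp_hasDerivAt ε b1
  have m1 : ∀ᶠ ε in 𝓝 (0 : ℝ), HasDerivAt (fun ε => μ (ζ (ε, t)) (tayD (0, 1) ζ (ε, t)))
      (fderiv ℝ μ (ζ (ε, t)) (tayD (1, 0) ζ (ε, t)) (tayD (0, 1) ζ (ε, t)) +
        μ (ζ (ε, t)) (tayD (1, 0) (tayD (0, 1) ζ) (ε, t))) ε := by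
    filter_upwards [a1, dd s2] with ε b1 b2
    exact b1.clm_apply b2
  have sB : ContDiffAt ℝ ∞ (fun p => fderiv ℝ μ (ζ p) (tayD (1, 0) ζ p)) (0, t) :=
    ((hμ'.fderiv_right (by simp)).comp _ hζ).clm_apply (tay_sm hζ _)
  have m2 := ((tay_d1 (sB.differentiableAt (by simp))).clm_apply (dd s2).self_of_nhds).add
    (a1.self_of_nhds.clm_apply (dd s12).self_of_nhds)
  have key := tay_two (r := fun ε => q (ε, t) - (1 + μ (ζ (ε, t)) (tayD (0, 1) ζ (ε, t))) ^ 2)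
    (r' := fun ε => tayD (1, 0) q (ε, t) - 2 * (1 + μ (ζ (ε, t)) (tayD (0, 1) ζ (ε, t))) *
      (fderiv ℝ μ (ζ (ε, t)) (tayD (1, 0) ζ (ε, t)) (tayD (0, 1) ζ (ε, t)) +
        μ (ζ (ε, t)) (tayD (1, 0) (tayD (0, 1) ζ) (ε, t))))
    (by
      filter_upwards [m1, (tay_ev1 (tay_ev hq))] with ε b1 b2
      exact ((tay_d1 b2).sub ((b1.const_add 1).pow 2)).congr_deriv (by norm_num))
    ((tay_d1 ((tay_sm hq _).differentiableAt (by simp))).sub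
      (((m1.self_of_nhds.const_add 1).const_mul 2).mul m2))
    (hr.congr' ((tay_ev1 (tay_ev hζ)).mono fun ε h => by simp only [(tay_d2 h).deriv])
      EventuallyEq.rfl)
  simp only [h0, z2, hm, map_zero] at key
  constructor <;> linarith [key.1, key.2]

/-- Put `m ε t = μ (ζ (ε, t)) (∂ₜ ζ (ε, t))`. Then `m 0 t = 0`, `∂_ε m 0 t = μ 0 (Z' t) = 0`,
`∂²_ε m 0 t = 2 * Dμ (Z t) (Z' t) + μ 0 (∂ₜ ∂²_ε ζ)`; the derivatives of `q` in `ε` at `0` up to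
order two are those of `(1 + m) ^ 2`. Differentiate under the integral (`hasFDerivAt_par`,
locally in `ε`), the integral of `∂ₜ` of a periodic function vanishes; apply this also to
`t ↦ Dμ (Z t) (Z t)`. -/
theorem taylor_energy {μ : W → W →L[ℝ] ℝ} (hμ : ContDiffAt ℝ ∞ μ 0) {ζ : ℝ × ℝ → W} {l : ℝ}
    (hζ : ∀ t, ContDiffAt ℝ ∞ ζ (0, t)) (h0 : ∀ t, ζ (0, t) = 0)
    (hp : ∀ ε t, ζ (ε, t + l) = ζ (ε, t)) {Z Z' : ℝ → W}
    (hZ : ∀ t, HasDerivAt (fun ε => ζ (ε, t)) (Z t) 0) (hZ' : ∀ t, HasDerivAt Z (Z' t) t)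
    (hm : ∀ t, μ 0 (Z' t) = 0) {q : ℝ × ℝ → ℝ} (hq : ∀ t, ContDiffAt ℝ ∞ q (0, t))
    (hr : ∀ t, (fun ε => q (ε, t) - (1 + μ (ζ (ε, t)) (deriv (fun s => ζ (ε, s)) t)) ^ 2)
      =o[𝓝 0] fun ε => ε ^ 2) :
    deriv (fun ε => ∫ t in (0 : ℝ)..l, q (ε, t)) 0 = 0 ∧
      deriv (deriv fun ε => ∫ t in (0 : ℝ)..l, q (ε, t)) 0 =
        2 * ∫ t in (0 : ℝ)..l, (fderiv ℝ μ 0 (Z t) (Z' t) - fderiv ℝ μ 0 (Z' t) (Z t)) := by
  have dif : ∀ {f : ℝ × ℝ → W} {t}, ContDiffAt ℝ ∞ f (0, t) → DifferentiableAt ℝ f (0, t) :=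
    fun h => h.differentiableAt (by simp)
  have s1 := fun t => tay_sm (hζ t) (1, 0)
  have s11 := fun t => tay_sm (s1 t) (1, 0)
  have eZ : Z = fun t => tayD (1, 0) ζ (0, t) := funext fun t =>
    (hZ t).unique (tay_d1 (dif (hζ t)))
  have eZ2 : ∀ t, Z' t = tayD (0, 1) (tayD (1, 0) ζ) (0, t) := fun t =>
    (hZ' t).unique (eZ ▸ tay_d2 (dif (s1 t)))
  have eZ' : ∀ t, tayD (1, 0) (tayD (0, 1) ζ) (0, t) = Z' t := fun t => by
    rw [eZ2, tay_comm (tay_ev2 (hζ t)).self_of_nhds]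
  have eY : ∀ t, tayD (1, 0) (tayD (1, 0) (tayD (0, 1) ζ)) (0, t) =
      tayD (0, 1) (tayD (1, 0) (tayD (1, 0) ζ)) (0, t) := fun t => by
    rw [← tay_comm (tay_ev2 (s1 t)).self_of_nhds]
    have e : tayD (1, 0) (tayD (0, 1) ζ) =ᶠ[𝓝 (0, t)] tayD (0, 1) (tayD (1, 0) ζ) :=
      (tay_ev2 (hζ t)).mono fun p h => tay_comm h _ _
    exact congrArg (fun L : ℝ × ℝ →L[ℝ] W => L (1, 0)) e.fderiv_eq
  have pt := fun t => tay_pt hμ (hζ t) h0 (by rw [eZ', hm]) (hq t) (hr t)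
  have i1 := tay_int hq l
  have i2 := (tay_int (fun t => tay_sm (hq t) (1, 0)) l).self_of_nhds
  refine ⟨by simp [i1.self_of_nhds.deriv, fun t => (pt t).1], ?_⟩
  rw [EventuallyEq.deriv_eq (i1.mono fun ε h => h.deriv), i2.deriv]
  have cZ : Continuous Z := eZ ▸ tay_cont s1
  have cZ' : Continuous Z' := funext eZ2 ▸ tay_cont fun t => tay_sm (s1 t) _
  have cY := tay_cont fun t => tay_sm (s11 t) (0, 1)
  have p0 : ∀ p, ζ (p + (0, l)) = ζ p := fun p => by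
    rw [← hp p.1 p.2, ← add_zero p.1]
    congr 2
  have p1 := tay_per p0 (1, 0) (0, 0)
  have p2 := tay_per (tay_per p0 (1, 0)) (1, 0) (0, 0)
  rw [Prod.mk_add_mk, zero_add, zero_add] at p1 p2
  have pZ : Z l = Z 0 := by rw [eZ]; exact p1
  have c1 : Continuous fun t => fderiv ℝ μ 0 (Z' t) (Z t) + fderiv ℝ μ 0 (Z t) (Z' t) +
      μ 0 (tayD (0, 1) (tayD (1, 0) (tayD (1, 0) ζ)) (0, t)) := by fun_prop
  have c2 : Continuous fun t => fderiv ℝ μ 0 (Z t) (Z' t) - fderiv ℝ μ 0 (Z' t) (Z t) := by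
    fun_prop
  have ftc := intervalIntegral.integral_eq_sub_of_hasDerivAt (a := 0) (b := l)
    (f := fun t => fderiv ℝ μ 0 (Z t) (Z t) + μ 0 (tayD (1, 0) (tayD (1, 0) ζ) (0, t)))
    (fun t _ => (((fderiv ℝ μ 0).hasFDerivAt.comp_hasDerivAt t (hZ' t)).clm_apply (hZ' t)).add
      ((μ 0).hasFDerivAt.comp_hasDerivAt t (tay_d2 (dif (s11 t))))) (c1.intervalIntegrable _ _)
  simp only [pZ, p2, sub_self, Function.comp_apply] at ftc
  have e := intervalIntegral.integral_add (μ := MeasureTheory.volume)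
    (c2.intervalIntegrable 0 l) (c1.intervalIntegrable 0 l)
  rw [ftc, add_zero] at e
  rw [← e, ← intervalIntegral.integral_const_mul]
  refine intervalIntegral.integral_congr fun t _ => ?_
  simp only [(pt t).2, eZ', eY, ← congrFun eZ t]
  ring

/-- The second derivative in `ε` is continuous, so negative near `(a₀, 0)`; mean value theorem
twice (or strict concavity). -/
theorem taylor_unif {E : W × ℝ → ℝ} {a₀ : W} {c : ℝ} (hE : ContDiffAt ℝ ∞ E (a₀, 0))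
    (h0 : ∀ᶠ a in 𝓝 a₀, E (a, 0) = c ∧ deriv (fun ε => E (a, ε)) 0 = 0)
    (h2 : deriv (deriv fun ε => E (a₀, ε)) 0 < 0) :
    ∃ δ : ℝ, 0 < δ ∧ ∀ᶠ a in 𝓝 a₀, ∀ ε ∈ Ioo 0 δ, E (a, ε) < c := by
  have s1 := tay_sm hE (0, 1)
  have e1 : deriv (fun ε => E (a₀, ε)) =ᶠ[𝓝 0] fun ε => tayD (0, 1) E (a₀, ε) :=
    ((Continuous.tendsto (f := fun ε : ℝ => (a₀, ε)) (by fun_prop) 0).eventually
      (tay_ev hE)).mono fun ε h => (tay_d2 h).deriv
  rw [e1.deriv_eq, (tay_d2 (s1.differentiableAt (by simp))).deriv] at h2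
  have h3 := ((tay_ev hE).and (tay_ev s1)).and
    ((tay_sm s1 (0, 1)).continuousAt.eventually (gt_mem_nhds h2))
  rw [nhds_prod_eq, Metric.eventually_prod_nhds_iff] at h3
  obtain ⟨pa, h4, δ, hδ, h5⟩ := h3
  refine ⟨δ, hδ, ?_⟩
  filter_upwards [h0, h4] with a ha h6 ε hε
  have h7 := fun s (hs : s ∈ Ico 0 δ) => h5 h6 (x := s) (by
    rw [Real.dist_eq, sub_zero, abs_of_nonneg hs.1]; exact hs.2)
  have z : (0 : ℝ) ∈ Ico 0 δ := ⟨le_rfl, hδ⟩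
  have a1 := strictAntiOn_of_deriv_neg (convex_Ico 0 δ) (f := fun s => tayD (0, 1) E (a, s))
    (fun s hs => (tay_d2 (h7 s hs).1.2).continuousAt.continuousWithinAt) fun s hs => by
      rw [(tay_d2 (h7 s (interior_subset hs)).1.2).deriv]; exact (h7 s (interior_subset hs)).2
  have a2 := strictAntiOn_of_deriv_neg (convex_Ico 0 δ) (f := fun s => E (a, s))
    (fun s hs => (tay_d2 (h7 s hs).1.1).continuousAt.continuousWithinAt) fun s hs => by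
      rw [(tay_d2 (h7 s (interior_subset hs)).1.1).deriv, ← ha.2, (tay_d2 (h7 0 z).1.1).deriv]
      rw [interior_Ico] at hs
      exact a1 z (Ioo_subset_Ico_self hs) hs.1
  exact ha.1 ▸ a2 z (Ioo_subset_Ico_self hε) hε.1

end Vale.Agent.P231C
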