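import Vale.Agent.P231C.ShC
import Vale.Agent.P231C.Tay

/-! Expansion of the velocity of the deformed orbits. -/

open scoped ContDiff Topology
open Filter Set MeasureTheory

noncomputable section

namespace Vale.Agent.P231C

open Vale.Agent.P234 Vale.Agent.P231

variable {M : Type*} [MetricSpace M] [CompactSpace M] {n : ℕ} {e : M → Eu n → M} {D : ℝ}
variable {h : BC e D} {J : XT M D → Eu n}

/-- The deformed orbit, seen from the moving frame of the flow. -/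
def Ori.ze (hJ : Ori h J) (z : XT M D) (p : ℝ × ℝ) : Eu n × Eu n :=
  chi e z (h.fl (hJ.Ph (h.fl (z, p.2), p.1), -p.2))

theorem shd_back (h : BC e D) (z : XT M D) (t : ℝ) : h.fl (h.fl (z, t), -t) = z := by
  rw [h.fl_add, add_neg_cancel, h.fl_zero]

theorem Ori.ze_zero (hJ : Ori h J) (z : XT M D) (t : ℝ) : hJ.ze z (0, t) = 0 := by
  rw [Ori.ze, hJ.Ph_zero, shd_back, h.chi_self]

theorem Ori.ze_per (hJ : Ori h J) (z : XT M D) (ε t : ℝ) :
    hJ.ze z (ε, t + 2 * D) = hJ.ze z (ε, t) := by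
  unfold Ori.ze
  rw [h.fl_per, ← h.fl_per _ (-(t + 2 * D)), show -(t + 2 * D) + 2 * D = -t by ring]

theorem shd_fl (h : BC e D) (z : XT M D) (u : ℝ × ℝ) :
    h.DX.P ⟨FS.line.ext, fun p => h.fl (z, p.2), u⟩ :=
  lamx_plot h (h.DX.const FS.line.ext z u) (sg_of_contDiff contDiff_snd _)

theorem shd_Ph (hJ : Ori h J) (z : XT M D) (t : ℝ) :
    h.DX.P ⟨FS.line.ext, fun p => hJ.Ph (h.fl (z, p.2), p.1), (0, t)⟩ ∧
      ∀ᶠ p in 𝓝 ((0 : ℝ), t), ev (hJ.Ph (h.fl (z, p.2), p.1)) = hJ.cc (h.fl (z, p.2), p.1) :=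
  hJ.plot_Ph (shd_fl h z (0, t)) (sg_of_contDiff contDiff_fst _) rfl

theorem shd_plot (hJ : Ori h J) (z : XT M D) (t : ℝ) :
    h.DX.P ⟨FS.line.ext, fun p => h.fl (hJ.Ph (h.fl (z, p.2), p.1), -p.2), (0, t)⟩ :=
  lamx_plot h (shd_Ph hJ z t).1 (sg_of_contDiff contDiff_snd.neg _)

theorem shd_sg (hJ : Ori h J) (z : XT M D) (t : ℝ) : Sg (hJ.ze z) (0, t) := by
  have h1 := h.sg_chi (shd_plot hJ z t)
  beta_reduce at h1
  rw [hJ.Ph_zero, shd_back] at h1
  exact h1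

theorem Ori.contDiffAt_ze (hJ : Ori h J) (z : XT M D) (t : ℝ) :
    ContDiffAt ℝ ∞ (hJ.ze z) (0, t) := (shd_sg hJ z t).self_of_nhds

theorem Ori.hasDerivAt_ze (hJ : Ori h J) (z : XT M D) (t : ℝ) :
    HasDerivAt (fun ε => hJ.ze z (ε, t)) (∫ s in (0 : ℝ)..D, hJ.om z (s - t)) 0 := by
  have h1 : Sg (fun a => chi e (h.fl (h.psi (h.fl (z, t)) 0, -t))
      (h.fl (h.psi (h.fl (z, t)) a, -t))) 0 :=
    h.sg_chi (h.smo_fl (-t) _ (h.plot_psi (h.fl (z, t))))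
  rw [h.psi_zero, shd_back] at h1
  have h2 := (hJ.lin (h.fl (z, t)) (G := fun w => chi e z (h.fl (w, -t)))
    (h1.self_of_nhds.differentiableAt (by simp))).1
  simp only [hJ.RR_fl] at h2
  exact h2

theorem shd_psi (hJ : Ori h J) (z : XT M D) (p : ℝ × ℝ) :
    h.fl (h.psi z (hJ.ze z p), p.2) = hJ.Ph (h.fl (z, p.2), p.1) := by
  rw [Ori.ze, h.psi_chi, h.fl_add, neg_add_cancel, h.fl_zero]

theorem shd_cc (hJ : Ori h J) (z : XT M D) (ε t : ℝ) :
    Sm e (fun s : ℝ => hJ.cc (h.fl (z, s), ε)) t :=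
  (hJ.smo_cc ⟨FS.line, fun s => (h.fl (z, s), ε), t⟩
    ⟨lamx_plot h (h.DX.const FS.line z t) (sg_of_contDiff contDiff_id _),
      sg_of_contDiff contDiff_const _⟩).self_of_nhds

/-- The geodesics near `z` in the chart at the base point. -/
def shdH (h : BC e D) (z : XT M D) (q : (Eu n × Eu n) × ℝ) : Eu n :=
  lg e (ev z) (geo e (h.psi z q.1) q.2)

theorem shd_H (h : BC e D) (z : XT M D) : Sg (shdH h z) (0, 0) := by
  refine h.sg_lg (h.smo_geo _ (xb_ext (h.plot_psi z) 0)) ?_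
  change dist (ev z) (geo e (h.psi z 0) 0) < D
  rw [h.psi_zero, h.geo_zero, dist_self]
  exact h.dpos

theorem shd_A (hJ : Ori h J) (z : XT M D) {s : ℝ} (hs : ∀ θ, ev (hJ.RR z s θ) = ev z) :
    fderiv ℝ (fun a => shdH h z (a, 0)) 0 (hJ.om z s) = 0 := by
  have h1 : DifferentiableAt ℝ (fun a => shdH h z (a, 0)) 0 :=
    ((shd_H h z).self_of_nhds.differentiableAt (by simp)).comp 0 (f := fun a => (a, (0 : ℝ)))
      (by fun_prop)
  have h2 := (hJ.lin z (G := fun w => lg e (ev z) (geo e w 0)) h1).2 s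
  simp only [h.geo_zero, hs, deriv_const] at h2
  simp only [shdH, h.geo_zero]
  exact h2.symm

theorem shd_diff (hJ : Ori h J) (z : XT M D) : ContDiffAt ℝ ∞ (fun p : ℝ × ℝ =>
    shdH h z (hJ.ze z p, p.2) - shdH h z (hJ.ze z (p.1, 0), p.2)) (0, 0) := by
  have h0 := hJ.contDiffAt_ze z 0
  refine ContDiffAt.sub (ContDiffAt.comp (g := shdH h z) _ ?_ (h0.prodMk contDiffAt_snd))
    (ContDiffAt.comp (g := shdH h z) _ ?_ ((ContDiffAt.comp (g := hJ.ze z)
      (f := fun p : ℝ × ℝ => (p.1, (0 : ℝ))) _ h0 (by fun_prop)).prodMk contDiffAt_snd))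
  all_goals
    simp only [hJ.ze_zero]
    exact (shd_H h z).self_of_nhds

/-- The mixed second derivative of the difference vanishes. -/
theorem shd_mixed (hJ : Ori h J) (z : XT M D) :
    (fun ε => tayD (0, 1) (fun p : ℝ × ℝ => shdH h z (hJ.ze z p, p.2) -
      shdH h z (hJ.ze z (p.1, 0), p.2)) (ε, 0)) =o[𝓝 0] fun ε : ℝ => ε := by
  set δ : ℝ × ℝ → Eu n := fun p => shdH h z (hJ.ze z p, p.2) - shdH h z (hJ.ze z (p.1, 0), p.2)
    with hδ
  have hH := shd_H h z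
  have hs : ContDiffAt ℝ ∞ δ (0, 0) := shd_diff hJ z
  have v0 : tayD (0, 1) δ (0, 0) = 0 := by
    have h1 := tay_d2 (hs.differentiableAt (by simp))
    simp only [hδ, hJ.ze_zero, sub_self] at h1
    exact h1.unique (hasDerivAt_const _ _)
  have hc := (hJ.contDiff_om z).continuous
  have hΩ : HasDerivAt (fun t => (∫ s in (0 : ℝ)..D, hJ.om z (s - t)) -
      ∫ s in (0 : ℝ)..D, hJ.om z (s - 0)) (hJ.om z 0 - hJ.om z D) 0 := by
    have e1 : ∀ t, ∫ s in (0 : ℝ)..D, hJ.om z (s - t) =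
        (∫ s in (0 : ℝ)..D - t, hJ.om z s) - ∫ s in (0 : ℝ)..0 - t, hJ.om z s := fun t => by
      rw [intervalIntegral.integral_comp_sub_right, intervalIntegral.integral_interval_sub_left
        (hc.intervalIntegrable _ _) (hc.intervalIntegrable _ _)]
    have e2 : ∀ c, HasDerivAt (fun t => ∫ s in (0 : ℝ)..c - t, hJ.om z s) (-hJ.om z c) 0 := by
      intro c
      have h1 := (hc.integral_hasStrictDerivAt 0 (c - 0)).hasDerivAt.scomp 0
        ((hasDerivAt_id' (0 : ℝ)).const_sub c)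
      simpa [Function.comp_def] using h1
    simp only [e1]
    refine (((e2 D).fun_sub (e2 0)).sub_const _).congr_deriv ?_
    abel
  have hA : DifferentiableAt ℝ (fun t : ℝ => fderiv ℝ (fun a => shdH h z (a, t)) 0) 0 :=
    ((contDiffAt_fderiv_fst hH.self_of_nhds).differentiableAt (by simp)).comp 0
      (f := fun t : ℝ => ((0 : Eu n × Eu n), t)) (by fun_prop)
  have hφ := hA.hasDerivAt.clm_apply hΩ
  rw [sub_self, map_zero, zero_add, map_sub, shd_A hJ z (hJ.ev_RR_zero z),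
    shd_A hJ z (hJ.ev_RR_D z), sub_self] at hφ
  have t0 : Tendsto (fun t : ℝ => ((0 : ℝ), t)) (𝓝 0) (𝓝 (0, 0)) :=
    Continuous.tendsto' (by fun_prop) _ _ rfl
  have t1 : Tendsto (fun t : ℝ => ((0 : Eu n × Eu n), t)) (𝓝 0) (𝓝 (0, 0)) :=
    Continuous.tendsto' (by fun_prop) _ _ rfl
  have e3 : (fun t => tayD (1, 0) δ (0, t)) =ᶠ[𝓝 0] fun t => fderiv ℝ (fun a => shdH h z (a, t)) 0
      ((∫ s in (0 : ℝ)..D, hJ.om z (s - t)) - ∫ s in (0 : ℝ)..D, hJ.om z (s - 0)) := by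
    filter_upwards [t0.eventually (tay_ev hs), t1.eventually hH] with t h1 h2
    have h3 : HasFDerivAt (fun a => shdH h z (a, t)) (fderiv ℝ (fun a => shdH h z (a, t)) 0) 0 :=
      ((h2.differentiableAt (by simp)).comp 0 (f := fun a => (a, t)) (by fun_prop)).hasFDerivAt
    have h4 := (h3.comp_hasDerivAt_of_eq 0 (hJ.hasDerivAt_ze z t) (hJ.ze_zero z t).symm).fun_sub
      (h3.comp_hasDerivAt_of_eq 0 (hJ.hasDerivAt_ze z 0) (hJ.ze_zero z 0).symm)
    rw [← map_sub] at h4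
    exact (tay_d1 h1).unique h4
  have v1 : tayD (1, 0) (tayD (0, 1) δ) (0, 0) = 0 := by
    rw [tay_comm (contDiffAt_infty.1 hs 2)]
    exact (tay_d2 ((tay_sm hs (1, 0)).differentiableAt (by simp))).unique
      (hφ.congr_of_eventuallyEq e3)
  have h5 := (tay_d1 ((tay_sm hs (0, 1)).differentiableAt (by simp))).isLittleO
  simpa only [v0, v1, sub_zero, smul_zero] using h5

/-- The chart at `p` is uniformly comparable with the metric near `p`. -/
theorem shd_big (h : BC e D) (p : M) {x : ℝ → M} (hx : Tendsto x (𝓝 0) (𝓝 p)) (w : ℝ → Eu n) :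
    w =O[𝓝 0] fun ε => Lmap e (x ε) 0 p (w ε) := by
  obtain ⟨G, hG, -, -, -, h1⟩ := h.metric p
  have h2 : Tendsto (fun ε => dist p (x ε)) (𝓝 0) (𝓝 0) := by
    simpa using (tendsto_const_nhds (x := p)).dist hx
  have h3 : Tendsto (fun ε => lg e p (x ε)) (𝓝 0) (𝓝 0) :=
    tendsto_zero_iff_norm_tendsto_zero.2 (by simpa only [h.toGeo.norm_lg] using h2)
  have h4 : ∀ᶠ ε in 𝓝 (0 : ℝ), ‖G (lg e p (x ε))‖ ≤ ‖G 0‖ + 1 :=
    (((Continuous.norm (E := Eu n →L[ℝ] Eu n →L[ℝ] ℝ) hG.continuous).tendsto 0).comp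
      h3).eventually_le_const (lt_add_one ‖G 0‖)
  refine Asymptotics.IsBigO.of_bound (‖G 0‖ + 1) ?_
  filter_upwards [h2.eventually_lt_const h.dpos, h4] with ε k1 k2
  have k3 := h1 _ k1 (w ε) (w ε)
  have k4 := (le_abs_self _).trans ((G (lg e p (x ε))).le_opNorm₂ (Lmap e (x ε) 0 p (w ε))
    (Lmap e (x ε) 0 p (w ε)))
  rw [k3, real_inner_self_eq_norm_sq] at k4
  have k5 := norm_nonneg (G 0)
  have k6 := mul_self_nonneg ‖Lmap e (x ε) 0 p (w ε)‖
  refine (sq_le_sq₀ (norm_nonneg _) (by positivity)).1 (k4.trans ?_)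
  nlinarith [mul_le_mul_of_nonneg_right k2 k6, mul_nonneg (mul_nonneg k5 k5) k6, mul_nonneg k5 k6]

/-- By symmetry of second derivatives the chart expressions of the two vectors agree to first
order. -/
theorem Ori.vel_close (hJ : Ori h J) (z : XT M D) :
    (fun ε => Tm e (fun s : ℝ => hJ.cc (h.fl (z, s), ε)) 0 1 - vel e (hJ.Ph (z, ε)))
      =o[𝓝 0] fun ε : ℝ => ε := by
  have hc : Tendsto (fun ε => hJ.cc (z, ε)) (𝓝 0) (𝓝 (ev z)) := by
    have h1 := h.plot_cont (hJ.smo_cc ⟨FS.line, fun ε => (z, ε), 0⟩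
      ⟨h.DX.const _ z 0, sg_of_contDiff contDiff_id _⟩)
    rw [← hJ.cc_zero]
    exact h1
  refine (shd_big h (ev z) hc _).trans_isLittleO ((shd_mixed hJ z).congr' ?_ EventuallyEq.rfl)
  have h2 : Tendsto (fun ε => dist (ev z) (hJ.cc (z, ε))) (𝓝 0) (𝓝 0) := by
    simpa using (tendsto_const_nhds (x := ev z)).dist hc
  filter_upwards [h2.eventually_lt_const h.dpos,
    tay_ev1 (eventually_eventually_nhds.2 (shd_Ph hJ z 0).2), tay_ev1 (tay_ev (shd_diff hJ z))]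
    with ε k1 k2 k4
  have k3 := k2.self_of_nhds
  simp only [h.fl_zero] at k3
  have e1 : h.psi z (hJ.ze z (ε, 0)) = hJ.Ph (z, ε) := by
    have := shd_psi hJ z (ε, 0)
    rwa [h.fl_zero, h.fl_zero] at this
  have s1 := shd_cc hJ z ε 0
  have s2 : Sm e (geo e (hJ.Ph (z, ε))) 0 :=
    (h.smo_geo ⟨FS.line, fun s => (hJ.Ph (z, ε), s), 0⟩
      ⟨h.DX.const _ _ 0, sg_of_contDiff contDiff_id _⟩).self_of_nhds
  have d1 : dist (ev z) (hJ.cc (h.fl (z, 0), ε)) < D := by rwa [h.fl_zero]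
  have d2 : dist (ev z) (geo e (hJ.Ph (z, ε)) 0) < D := by rwa [h.geo_zero, k3]
  have f1 := h.fderiv_chart s1 d1
  have f2 := h.fderiv_chart s2 d2
  have f3 : Tm e (geo e (hJ.Ph (z, ε))) 0 1 = vel e (hJ.Ph (z, ε)) :=
    h.Tm_ray (Eventually.of_forall fun s => by rw [zero_add, h.geo_zero, geo])
  have g1 := ((s1.lg h.toGeo (h.toBl.sp d1)).differentiableAt (by simp)).hasFDerivAt.hasDerivAt
  have g2 := ((s2.lg h.toGeo (h.toBl.sp d2)).differentiableAt (by simp)).hasFDerivAt.hasDerivAt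
  rw [f1, h.fl_zero] at g1
  rw [f2, h.geo_zero, k3] at g2
  have g3 := g1.fun_sub g2
  rw [ContinuousLinearMap.comp_apply, ContinuousLinearMap.comp_apply, f3, ← map_sub] at g3
  refine (tay_d2 k4).unique (g3.congr_of_eventuallyEq ?_)
  filter_upwards [(Continuous.tendsto (f := fun s : ℝ => (ε, s)) (by fun_prop) 0).eventually k2]
    with s hs
  simp only [shdH]
  rw [e1, ← ev_fl h, shd_psi hJ z (ε, s), hs]

/-- `Ph (fl (z, s), ε) = fl (psi z (ze (ε, s)), s)`, `gauss_fl`, `mu_curve`. -/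
theorem Ori.inner_vel (hJ : Ori h J) (z : XT M D) (t : ℝ) : ∀ᶠ ε in 𝓝 (0 : ℝ),
    inner ℝ (vel e (hJ.Ph (h.fl (z, t), ε))) (Tm e (fun s : ℝ => hJ.cc (h.fl (z, s), ε)) t 1) =
      1 + h.mu z (hJ.ze z (ε, t)) (deriv (fun s => hJ.ze z (ε, s)) t) := by
  have h1 : Tendsto (fun ε => hJ.ze z (ε, t)) (𝓝 0) (𝓝 0) := by
    have := (hJ.hasDerivAt_ze z t).continuousAt.tendsto
    rwa [hJ.ze_zero] at this
  filter_upwards [h1.eventually (h.mu_curve z), tay_ev1 (shd_sg hJ z t),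
    tay_ev1 (h.DX.ev (shd_plot hJ z t)),
    tay_ev1 (eventually_eventually_nhds.2 (shd_Ph hJ z t).2)] with ε k1 k2 k3 k4
  have hl : ContDiff ℝ ∞ fun s : ℝ => (ε, s) := by fun_prop
  have k5 : h.DX.P ⟨FS.line, fun s => h.psi z (hJ.ze z (ε, s)), t⟩ :=
    h.DX.comp (Z := FS.line.ext) (W := FS.line) (g := fun s : ℝ => (ε, s)) k3 (sg_of_contDiff hl _)
      (Eventually.of_forall fun s => h.psi_chi _ _)
  have k6 := h.gauss_fl k5 (sg_of_contDiff contDiff_id t) 1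
  have k7 : (fun s : ℝ => geo e (h.psi z (hJ.ze z (ε, s))) (id s)) =ᶠ[𝓝 t]
      fun s => hJ.cc (h.fl (z, s), ε) := by
    filter_upwards [(hl.continuous.tendsto t).eventually k4] with s hs
    rw [← ev_fl h, ← hs]
    exact congrArg ev (shd_psi hJ z (ε, s))
  rw [Tm_congr k7] at k6
  rw [k1 (fun s => hJ.ze z (ε, s)) t rfl
    ((k2.differentiableAt (by simp)).comp t (hl.differentiable (by simp) t)), add_comm,
    ← shd_psi hJ z (ε, t)]
  simpa only [fderiv_id, id, ContinuousLinearMap.id_apply] using k6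

theorem shd_unit {v : Eu n} (hv : ‖v‖ = 1) (w : Eu n) :
    |‖w‖ ^ 2 - inner ℝ v w ^ 2| ≤ ‖w - v‖ ^ 2 := by
  have h1 := abs_real_inner_le_norm v w
  rw [hv, one_mul] at h1
  have h2 := pow_le_pow_left₀ (abs_nonneg _) h1 2
  rw [sq_abs] at h2
  rw [abs_of_nonneg (sub_nonneg.2 h2), norm_sub_sq_real, hv, real_inner_comm]
  nlinarith [sq_nonneg (inner ℝ w v - 1)]

/-- For a unit vector `v`: `0 ≤ ‖w‖ ^ 2 - ⟪v, w⟫ ^ 2 ≤ ‖w - v‖ ^ 2`; apply `vel_close` at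
`fl (z, t)` (`Tm_comp` with a translation). -/
theorem Ori.speed_sq (hJ : Ori h J) (z : XT M D) (t : ℝ) :
    (fun ε => ‖Tm e (fun s : ℝ => hJ.cc (h.fl (z, s), ε)) t 1‖ ^ 2 -
      (1 + h.mu z (hJ.ze z (ε, t)) (deriv (fun s => hJ.ze z (ε, s)) t)) ^ 2)
      =o[𝓝 0] fun ε : ℝ => ε ^ 2 := by
  have h1 := (hJ.vel_close (h.fl (z, t))).norm_left.pow two_pos
  refine Asymptotics.IsBigO.trans_isLittleO (Asymptotics.IsBigO.of_bound 1 ?_) h1
  filter_upwards [hJ.inner_vel z t] with ε k1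
  have k2 : Tm e (fun s : ℝ => hJ.cc (h.fl (h.fl (z, t), s), ε)) 0 1 =
      Tm e (fun s : ℝ => hJ.cc (h.fl (z, s), ε)) t 1 := by
    have k3 := Tm_comp (k := fun s : ℝ => t + s) (w := 0) (shd_cc hJ z ε (t + 0)) (by fun_prop)
    simp only [h.fl_add]
    rw [k3, add_zero, ContinuousLinearMap.comp_apply, fderiv_const_add]
    simp
  rw [← k1, k2, one_mul, Real.norm_eq_abs, Real.norm_of_nonneg (sq_nonneg _)]
  exact shd_unit (h.norm_vel _) _

end Vale.Agent.P231C
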