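import Vale.Agent.P231C.ShD
import Vale.Agent.P231C.Tay
import Vale.Agent.P231C.LenA

/-! The deformed orbits are short. -/

open scoped ContDiff Topology
open Filter Set MeasureTheory

noncomputable section

namespace Vale.Agent.P231C

open Vale.Agent.P234 Vale.Agent.P231

variable {M : Type*} [MetricSpace M] [CompactSpace M] {n : ℕ} {e : M → Eu n → M} {D : ℝ}
variable {h : BC e D} {J : XT M D → Eu n}

theorem she_smo (hJ : Ori h J) :
    Smo h.DX.ext.ext h.DM fun p => hJ.cc (h.fl (p.1.1, p.2), p.1.2) :=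
  hJ.smo_cc.comp ((h.cir_fl.sm.comp (((smo_fst _ _).comp (smo_fst _ _)).pair (smo_snd _ _))).pair
    ((smo_snd _ _).comp (smo_fst _ _)))

/-- `BC.smoV_Tm` for `G ((z, ε), s) = cc (fl (z, s), ε)`, `SmoV.inner`. -/
theorem Ori.smo_speed (hJ : Ori h J) : Smo h.DX.ext.ext (Dif.vec ℝ) fun p =>
    ‖Tm e (fun s : ℝ => hJ.cc (h.fl (p.1.1, s), p.1.2)) p.2 1‖ ^ 2 := by
  simp only [← real_inner_self_eq_norm_sq]
  exact (h.smoV_Tm (she_smo hJ)).inner (h.smoV_Tm (she_smo hJ)) h (she_smo hJ)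

theorem Ori.smo_En (hJ : Ori h J) : Smo h.DX.ext (Dif.vec ℝ) fun p => hJ.En p.1 p.2 :=
  hJ.smo_speed.integral 0 (2 * D)

theorem Ori.En_zero (hJ : Ori h J) (z : XT M D) : hJ.En z 0 = 2 * D := by
  have h1 : ∀ t, Tm e (geo e z) t 1 = vel e (h.fl (z, t)) := fun t =>
    h.Tm_ray (Eventually.of_forall fun s => (h.line z).flow t s)
  simp only [Ori.En, hJ.cc_zero, ev_fl, h1, h.norm_vel]
  simp

theorem she_neg {f : ℝ → ℝ} {l : ℝ} (hl : 0 < l) (hf : Continuous f)
    (h : ∀ t ∈ Ioo 0 l, f t < 0) : ∫ t in (0 : ℝ)..l, f t < 0 := by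
  have h1 := intervalIntegral.intervalIntegral_pos_of_pos_on (f := fun t => -f t)
    (hf.neg.intervalIntegrable 0 l) (fun t ht => neg_pos.2 (h t ht)) hl
  rwa [intervalIntegral.integral_neg, neg_pos] at h1

/-- `taylor_energy` with `Z t = ∫ s in 0..D, om z (s - t)`, `Z' t = om z (-t) - om z (D - t)`;
`Bz (Z t) (Z' t) = ∫ s in 0..D, (Bz (om (s - t)) (om (-t)) + Bz (om (D - t)) (om (s - t))) < 0`
by `Bz_neg` (`intervalIntegral.intervalIntegral_pos_of_pos_on`). -/
theorem Ori.En_deriv (hJ : Ori h J) (z : XT M D) :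
    deriv (hJ.En z) 0 = 0 ∧ deriv (deriv (hJ.En z)) 0 < 0 := by
  have hD := h.dpos
  have hc := (hJ.contDiff_om z).continuous
  have hZ : ∀ t, HasDerivAt (fun t => ∫ s in (0 : ℝ)..D, hJ.om z (s - t))
      (hJ.om z (0 - t) - hJ.om z (D - t)) t := fun t => by
    have h1 : ∀ c : ℝ, HasDerivAt (fun t => ∫ s in (0 : ℝ)..c - t, hJ.om z s)
        (-hJ.om z (c - t)) t := fun c =>
      (hc.integral_hasStrictDerivAt 0 (c - t)).hasDerivAt.comp_const_sub c t
    have h2 := (h1 D).fun_sub (h1 0)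
    rw [neg_sub_neg] at h2
    refine h2.congr_of_eventuallyEq (Eventually.of_forall fun t => ?_)
    simp only [intervalIntegral.integral_comp_sub_right]
    exact (intervalIntegral.integral_interval_sub_left (hc.intervalIntegrable _ _)
      (hc.intervalIntegrable _ _)).symm
  obtain ⟨h1, h2⟩ := taylor_energy (h.sg_mu z).self_of_nhds (hJ.contDiffAt_ze z) (hJ.ze_zero z)
    (hJ.ze_per z) (hJ.hasDerivAt_ze z) hZ (fun t => by rw [map_sub, hJ.mu_om, hJ.mu_om, sub_zero])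
    (q := fun p => ‖Tm e (fun s : ℝ => hJ.cc (h.fl (z, s), p.1)) p.2 1‖ ^ 2)
    (fun t => (hJ.smo_speed ⟨FS.line.ext, fun p => ((z, p.1), p.2), (0, t)⟩
      ⟨⟨h.DX.const _ z _, sg_of_contDiff contDiff_fst _⟩,
        sg_of_contDiff contDiff_snd _⟩).self_of_nhds) (hJ.speed_sq z)
  refine ⟨h1, h2.trans_lt (mul_neg_of_pos_of_neg two_pos (she_neg (by positivity) ?_ fun t _ => ?_))⟩
  · have h3 : Continuous fun t => ∫ s in (0 : ℝ)..D, hJ.om z (s - t) :=
      continuous_iff_continuousAt.2 fun t => (hZ t).continuousAt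
    fun_prop
  · have h3 := ((fderiv ℝ (h.mu z) 0).flip (hJ.om z (0 - t) - hJ.om z (D - t)) -
      fderiv ℝ (h.mu z) 0 (hJ.om z (0 - t) - hJ.om z (D - t))).intervalIntegral_comp_comm
      ((show Continuous fun s => hJ.om z (s - t) by fun_prop).intervalIntegrable (μ := volume) 0 D)
    refine h3.symm.trans_lt (she_neg hD (by fun_prop) fun s hs => ?_)
    have h4 := hJ.Bz_neg z (a := s - t) (b := 0 - t) (by linarith [hs.2]) (by linarith [hs.1])
    have h5 := hJ.Bz_neg z (a := D - t) (b := s - t) (by linarith [hs.1]) (by linarith [hs.2])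
    simp only [BC.Bz, sub_apply, ContinuousLinearMap.flip_apply, map_sub] at h4 h5 ⊢
    linarith

/-- `taylor_unif` along the plot `psi z`, `psi_chi`, `continuousAt_chi`, compactness. -/
theorem Ori.exists_eps (hJ : Ori h J) : ∃ ε : ℝ, ∀ z, hJ.En z ε < 2 * D := by
  have hc := compact_XT (M := M) D
  have h1 := isCompact_univ.eventually_forall_of_forall_eventually (x₀ := (0 : ℝ))
    (P := fun ε z => 0 < ε → hJ.En z ε < 2 * D) fun z _ => by
      obtain ⟨δ, hδ, h2⟩ := taylor_unif (W := Eu n × Eu n) (c := 2 * D)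
        (E := fun p => hJ.En (h.psi z p.1) p.2) (a₀ := 0)
        (hJ.smo_En ⟨((FS.euc n).prod (FS.euc n)).ext, fun p => (h.psi z p.1, p.2), (0, 0)⟩
          ⟨h.DX.comp (W := ((FS.euc n).prod (FS.euc n)).ext) (g := Prod.fst) (h.plot_psi z)
            (sg_of_contDiff contDiff_fst _) EventuallyEq.rfl,
            sg_of_contDiff contDiff_snd _⟩).self_of_nhds
        (Eventually.of_forall fun a => ⟨hJ.En_zero (h.psi z a), (hJ.En_deriv (h.psi z a)).1⟩)
        (hJ.En_deriv (h.psi z 0)).2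
      have h3 : Tendsto (chi e z) (𝓝 z) (𝓝 0) := h.chi_self z ▸ (h.continuousAt_chi z).tendsto
      filter_upwards [continuousAt_snd.eventually (h3.eventually h2),
        continuousAt_fst.eventually (gt_mem_nhds hδ)] with p h4 h5 h6
      simpa only [h.psi_chi] using h4 p.1 ⟨h6, h5⟩
  obtain ⟨ε, h2, h3⟩ := ((h1.filter_mono nhdsWithin_le_nhds).and
    (self_mem_nhdsWithin (s := Ioi 0))).exists
  exact ⟨ε, fun z => h2 z (mem_univ z) h3⟩

theorem Ori.short (hJ : Ori h J) : ∃ c : XT M D → M, Smo h.DX h.DM c ∧ SH h.DX h.DM ev c ∧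
    ∀ v, eVariationOn (fun t => c (h.fl (v, t))) (Icc 0 (2 * D)) < ENNReal.ofReal (2 * D) := by
  obtain ⟨ε, hε⟩ := hJ.exists_eps
  refine ⟨fun v => hJ.cc (v, ε), hJ.smo_cc.comp (smo_slice _ ε), ⟨fun p => hJ.cc (p.1, p.2 * ε),
    hJ.smo_cc.comp ((smo_fst _ _).pair ((smo_snd _ _).contDiff_comp (g := fun s => s * ε)
      (contDiff_id.mul contDiff_const))), fun v => by simp only [zero_mul, hJ.cc_zero],
      fun v => by simp only [one_mul]⟩, fun v => h.eVar_lt (fun t => ?_) (by linarith [h.dpos])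
      (hε v)⟩
  exact (she_smo hJ ⟨FS.line, fun t => ((v, ε), t), t⟩
    ⟨h.DX.ext.const _ (v, ε) _, sg_of_contDiff contDiff_id _⟩).self_of_nhds

end Vale.Agent.P231C
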