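import Vale.Agent.P231C.PushB

/-! Great circle fibrations. -/

open scoped ContDiff Topology
open Filter Set MeasureTheory

noncomputable section

namespace Vale.Agent.P231C

variable {n : ℕ} {J : FS.euc n → FS.euc n}

theorem sphb_ne (v : Sp n) : v.1 ≠ 0 := fun h => by
  have h1 := v.2
  rw [h, norm_zero] at h1
  exact zero_ne_one h1

theorem sphb_val : Smo (DS n) (Dif.vec (FS.euc n)) fun v => v.1 := smo_ind_val _ _

theorem GC.smo (h : GC J) : Smo (DS n) (Dif.vec (FS.euc n)) fun v => J v.1 :=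
  sphb_val.sg_comp fun v => sg_of_open isOpen_ne (fun a ha => h.sm a ha) (sphb_ne v)

theorem GC.rot_add (h : GC J) (v : FS.euc n) (s t : ℝ) :
    Real.cos t • (Real.cos s • v + Real.sin s • J v) +
        Real.sin t • J (Real.cos s • v + Real.sin s • J v) =
      Real.cos (s + t) • v + Real.sin (s + t) • J v := by
  rw [h.rot, Real.cos_add, Real.sin_add]
  module

theorem GC.cir (h : GC J) : Cir (DS n) h.rho (2 * Real.pi) := by
  refine ⟨smo_ind.2 ?_, fun y => Subtype.ext ?_, fun y s t => Subtype.ext (h.rot_add _ _ _),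
    fun y => Subtype.ext ?_⟩
  · have h1 : ContDiff ℝ ∞ fun q : (FS.euc n × FS.euc n) × ℝ =>
        Real.cos q.2 • q.1.1 + Real.sin q.2 • q.1.2 := by fun_prop
    exact (((sphb_val.comp (smo_fst _ _)).prodMk (h.smo.comp (smo_fst _ _))).prodMk
      (smo_snd (DS n) (Dif.vec ℝ))).contDiff_comp h1
  · simp [GC.rho]
  · simp [GC.rho]

theorem sphb_inner {Z : FS} {a b : Z → FS.euc n} {u : Z} {A B : Z →L[ℝ] FS.euc n} {c : ℝ}
    (ha : HasFDerivAt a A u) (hb : HasFDerivAt b B u) (h : ∀ z, inner ℝ (a z) (b z) = c) (w : Z) :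
    inner ℝ (a u) (B w) + inner ℝ (b u) (A w) = 0 := by
  have h1 := ha.inner ℝ hb
  rw [funext h] at h1
  have h2 := congrArg (fun T : Z →L[ℝ] ℝ => T w) (h1.unique (hasFDerivAt_const c u))
  rw [real_inner_comm (A w)]
  simpa using h2

theorem sphb_form {Z : FS} {a b : Z → FS.euc n} {τ : Z → ℝ} {u : Z}
    (ha : DifferentiableAt ℝ a u) (hb : DifferentiableAt ℝ b u) (hτ : DifferentiableAt ℝ τ u)
    (h1 : ∀ z, ‖a z‖ = 1) (h2 : ∀ z, ‖b z‖ = 1) (h3 : ∀ z, inner ℝ (b z) (a z) = 0) :
    (innerSL ℝ (-Real.sin (τ u) • a u + Real.cos (τ u) • b u)).comp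
        (fderiv ℝ (fun z => Real.cos (τ z) • a z + Real.sin (τ z) • b z) u) =
      (innerSL ℝ (b u)).comp (fderiv ℝ a u) + fderiv ℝ τ u := by
  have e1 : ∀ z, inner ℝ (a z) (a z) = 1 := fun z => by
    rw [real_inner_self_eq_norm_sq, h1, one_pow]
  have e2 : ∀ z, inner ℝ (b z) (b z) = 1 := fun z => by
    rw [real_inner_self_eq_norm_sq, h2, one_pow]
  rw [((hτ.hasFDerivAt.cos.fun_smul ha.hasFDerivAt).fun_add
    (hτ.hasFDerivAt.sin.fun_smul hb.hasFDerivAt)).fderiv]
  ext w
  have k1 := sphb_inner ha.hasFDerivAt ha.hasFDerivAt e1 w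
  have k2 := sphb_inner hb.hasFDerivAt hb.hasFDerivAt e2 w
  have k3 := sphb_inner hb.hasFDerivAt ha.hasFDerivAt h3 w
  have k4 : inner ℝ (a u) (b u) = 0 := by rw [real_inner_comm, h3]
  have k5 := Real.sin_sq_add_cos_sq (τ u)
  simp only [ContinuousLinearMap.comp_apply, innerSL_apply_apply, add_apply,
    smul_apply, ContinuousLinearMap.smulRight_apply, inner_add_left,
    inner_add_right, real_inner_smul_left, real_inner_smul_right, e1, e2, h3, k4, smul_eq_mul]
  linear_combination (fderiv ℝ τ u w + inner ℝ (b u) (fderiv ℝ a u w)) * k5 -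
    Real.sin (τ u) * Real.cos (τ u) / 2 * (k1 - k2) - Real.sin (τ u) ^ 2 * k3

theorem sphb_diff {A B : Type*} [NormedAddCommGroup A] [NormedSpace ℝ A] [NormedAddCommGroup B]
    [NormedSpace ℝ B] {g : A → B} {a : A} (h : Sg g a) : DifferentiableAt ℝ g a :=
  h.self_of_nhds.differentiableAt (by simp)

/-- With `u = cos t • v + sin t • J v`, `⟪J u, du⟫ = ⟪J v, dv⟫ + dt`, because
`⟪v, dv⟫ = 0`, `⟪J v, d J v⟫ = 0`, `⟪v, d J v⟫ = -⟪J v, dv⟫`. -/
theorem GC.pull_ip (h : GC J) :
    pull h.cir.sm (ip (DS n) (fun v => J v.1) fun v => v.1) =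
      pull (smo_fst _ _) (ip (DS n) (fun v => J v.1) fun v => v.1) +
        dx (fn (DS n).ext fun p => p.2) := by
  refine rf_ext fun Z f u hp => ?_
  have e : loc (fn (DS n).ext fun p => p.2) Z f =ᶠ[𝓝 u]
      fun z => algebraMap ℝ (Lam Z) (f z).2 := ((DS n).ext.ev hp).mono fun z hz => loc_fn _ hz
  have hτ : DifferentiableAt ℝ (fun z => (f z).2) u := sphb_diff hp.2
  have ha : DifferentiableAt ℝ (fun z => (f z).1.1) u := sphb_diff hp.1
  have hb : DifferentiableAt ℝ (fun z => J (f z).1.1) u := sphb_diff (h.smo _ hp.1)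
  rw [P231C.pull_ip, P231C.pull_ip, loc_add, loc_ip _ _ hp, loc_ip _ _ hp, loc_dx _ hp, dd_congr e, dd_fun hτ,
    ← map_add, ← sphb_form ha hb hτ (fun z => (f z).1.2)
      (fun z => (h.norm _).trans (f z).1.2) fun z => h.orth _, ← h.rot]
  rfl

theorem GC.conn (h : GC J) : h.cir.Conn (thJ J) :=
  h.cir.conn_of (by positivity) (fm_ip h.smo sphb_val) h.pull_ip

theorem sphb_unit {S T : FS.euc n →L[ℝ] FS.euc n}
    (h : S.comp T = ContinuousLinearMap.id ℝ (FS.euc n)) : T.det ≠ 0 := fun h4 => by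
  have h1 : S.toLinearMap ∘ₗ T.toLinearMap = LinearMap.id :=
    congrArg ContinuousLinearMap.toLinearMap h
  have h2 := congrArg LinearMap.det h1
  rw [LinearMap.det_comp, LinearMap.det_id, show LinearMap.det T.toLinearMap = 0 from h4,
    mul_zero] at h2
  exact zero_ne_one h2

theorem sphb_smul (c : ℝ) (T : FS.euc n →L[ℝ] FS.euc n) :
    (c • ContinuousLinearMap.id ℝ (FS.euc n) + (0 : ℝ) • T).det = c ^ n := by
  have e : (c • ContinuousLinearMap.id ℝ (FS.euc n) + (0 : ℝ) • T).toLinearMap =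
      c • LinearMap.id := LinearMap.ext fun x => by simp
  rw [ContinuousLinearMap.det, e]
  rw [LinearMap.det_smul, LinearMap.det_id, finrank_euclideanSpace_fin, mul_one]

theorem sphb_det (h : GC J) {v : FS.euc n} (hv : v ≠ 0) (t : ℝ) :
    (Real.cos t • ContinuousLinearMap.id ℝ (FS.euc n) + Real.sin t • fderiv ℝ J v).det ≠ 0 := by
  have hd : ∀ s : ℝ, ∀ w : FS.euc n, w ≠ 0 →
      HasFDerivAt (fun x => Real.cos s • x + Real.sin s • J x)
        (Real.cos s • ContinuousLinearMap.id ℝ (FS.euc n) + Real.sin s • fderiv ℝ J w) w :=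
    fun s w hw => ((hasFDerivAt_id w).fun_const_smul _).fun_add
      (((h.sm w hw).differentiableAt (by simp)).hasFDerivAt.fun_const_smul _)
  have h1 : Real.cos t • v + Real.sin t • J v ≠ 0 := by
    rw [← norm_ne_zero_iff, h.norm_rot, norm_ne_zero_iff]
    exact hv
  have h2 := (hd (-t) _ h1).comp v (hd t v hv)
  have e : ((fun x => Real.cos (-t) • x + Real.sin (-t) • J x) ∘
      fun x => Real.cos t • x + Real.sin t • J x) = id := funext fun x => by
    rw [Function.comp_apply, h.rot_add]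
    simp
  rw [e] at h2
  exact sphb_unit (h2.unique (hasFDerivAt_id v))

/-- For `v ≠ 0` the derivative `cos t • id + sin t • fderiv J v` of the rotation by `t` is injective
(the rotation by `-t` is a differentiable left inverse), so `fderiv J v` has no real eigenvalue.
An endomorphism of an odd dimensional real space has one (for instance `t ↦ det` changes sign
between `0` and `π`, intermediate value theorem). -/
theorem GC.even (h : GC J) : Even n := by
  refine (Nat.even_or_odd n).resolve_right fun hn => ?_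
  have hv : eb n ⟨0, hn.pos⟩ ≠ 0 := by
    rw [← norm_ne_zero_iff, eb, PiLp.norm_single, norm_one]
    exact one_ne_zero
  have hc : Continuous fun t : ℝ => (Real.cos t • ContinuousLinearMap.id ℝ (FS.euc n) +
      Real.sin t • fderiv ℝ J (eb n ⟨0, hn.pos⟩)).det :=
    ContinuousLinearMap.continuous_det.comp (by fun_prop)
  obtain ⟨t, ht⟩ := intermediate_value_univ Real.pi 0 hc (show (0 : ℝ) ∈ _ from ⟨by
    rw [Real.sin_pi, Real.cos_pi, sphb_smul, hn.neg_one_pow]
    norm_num, by
    rw [Real.sin_zero, Real.cos_zero, sphb_smul]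
    norm_num⟩)
  exact sphb_det h hv t ht

end Vale.Agent.P231C
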