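import Vale.Agent.P231C.SphB
import Vale.Agent.P231C.SphA
import Vale.Agent.P231C.LamS

/-! The Hopf fibration. -/

open scoped ContDiff Topology
open Filter Set MeasureTheory

noncomputable section

namespace Vale.Agent.P231C

/-- The standard complex structure `(a, w) ↦ (-w, a)`. -/
def J0 (k : ℕ) (v : FS.euc (k + k)) : FS.euc (k + k) :=
  WithLp.toLp 2 (Fin.append (fun j => -v (Fin.natAdd k j)) fun j => v (Fin.castAdd k j))

/-- Complex coordinates. -/
def cc (k : ℕ) (v : FS.euc (k + k)) : EuclideanSpace ℂ (Fin k) :=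
  WithLp.toLp 2 fun j => (v (Fin.castAdd k j) : ℂ) + v (Fin.natAdd k j) * Complex.I

theorem std_l (k : ℕ) (v : FS.euc (k + k)) (j : Fin k) :
    J0 k v (Fin.castAdd k j) = -v (Fin.natAdd k j) :=
  Fin.append_left (fun j => -v (Fin.natAdd k j)) (fun j => v (Fin.castAdd k j)) j

theorem std_r (k : ℕ) (v : FS.euc (k + k)) (j : Fin k) :
    J0 k v (Fin.natAdd k j) = v (Fin.castAdd k j) :=
  Fin.append_right (fun j => -v (Fin.natAdd k j)) (fun j => v (Fin.castAdd k j)) j

theorem std_ext {k : ℕ} {u v : FS.euc (k + k)}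
    (h : ∀ j, u (Fin.castAdd k j) = v (Fin.castAdd k j))
    (h' : ∀ j, u (Fin.natAdd k j) = v (Fin.natAdd k j)) : u = v :=
  PiLp.ext fun i => Fin.addCases h h' i

theorem std_add (k : ℕ) (u v : FS.euc (k + k)) : J0 k (u + v) = J0 k u + J0 k v :=
  std_ext (fun j => by simp only [PiLp.add_apply, std_l]; ring) fun j => by
    simp only [PiLp.add_apply, std_r]

theorem std_smul (k : ℕ) (c : ℝ) (v : FS.euc (k + k)) : J0 k (c • v) = c • J0 k v :=
  std_ext (fun j => by simp only [PiLp.smul_apply, std_l, smul_neg]) fun j => by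
    simp only [PiLp.smul_apply, std_r]

theorem std_sq (k : ℕ) (v : FS.euc (k + k)) : J0 k (J0 k v) = -v :=
  std_ext (fun j => by simp only [PiLp.neg_apply, std_l, std_r]) fun j => by
    simp only [PiLp.neg_apply, std_l, std_r]

theorem std_inner (k : ℕ) (u v : FS.euc (k + k)) : inner ℝ (J0 k u) v =
    ∑ j, (u (Fin.castAdd k j) * v (Fin.natAdd k j) - u (Fin.natAdd k j) * v (Fin.castAdd k j)) := by
  rw [PiLp.inner_apply, Fin.sum_univ_add, ← Finset.sum_add_distrib]
  refine Finset.sum_congr rfl fun j _ => ?_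
  simp only [std_l, std_r, RCLike.inner_apply, conj_trivial]
  ring

theorem std_anti (k : ℕ) (u v : FS.euc (k + k)) : inner ℝ (J0 k u) v = -inner ℝ (J0 k v) u := by
  rw [std_inner, std_inner, ← Finset.sum_neg_distrib]
  exact Finset.sum_congr rfl fun j _ => by ring

theorem std_orth (k : ℕ) (v : FS.euc (k + k)) : inner ℝ (J0 k v) v = 0 := by
  have := std_anti k v v
  linarith

/-- The complex structure as a linear map. -/
def stdJ (k : ℕ) : FS.euc (k + k) →L[ℝ] FS.euc (k + k) :=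
  LinearMap.toContinuousLinearMap ⟨⟨J0 k, std_add k⟩, std_smul k⟩

/-- The coefficients of the contact form. -/
def stdA (k : ℕ) : FS.euc (k + k) →L[ℝ] FS.euc (k + k) →L[ℝ] ℝ :=
  LinearMap.toContinuousLinearMap ⟨⟨fun v => innerSL ℝ (J0 k v), fun u v => by
    rw [std_add, map_add]⟩, fun c v => by
      change innerSL ℝ (J0 k (c • v)) = c • innerSL ℝ (J0 k v)
      rw [std_smul]
      ext w
      simp⟩

theorem stdA_apply (k : ℕ) (u v : FS.euc (k + k)) : stdA k u v = inner ℝ (J0 k u) v := rfl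

theorem gc_J0 (k : ℕ) : GC (J0 k) := by
  refine ⟨fun v _ => (stdJ k).contDiff.contDiffAt, fun c _ v => std_smul k c v, fun v => ?_,
    std_orth k, fun v t => ?_⟩
  · have h := std_anti k v (J0 k v)
    rw [std_sq, inner_neg_left, neg_neg, real_inner_self_eq_norm_sq,
      real_inner_self_eq_norm_sq] at h
    exact (pow_left_inj₀ (norm_nonneg _) (norm_nonneg _) two_ne_zero).1 h
  · rw [std_add, std_smul, std_smul, std_sq, smul_neg, neg_smul]
    exact add_comm _ _

theorem contDiff_cc (k : ℕ) : ContDiff ℝ ∞ (cc k) := by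
  refine PiLp.contDiff_toLp.comp (contDiff_pi.2 fun j => ?_)
  have h : ∀ i, ContDiff ℝ ∞ fun v : EuclideanSpace ℝ (Fin (k + k)) => (v i : ℂ) := fun i =>
    Complex.ofRealCLM.contDiff.comp (EuclideanSpace.proj (𝕜 := ℝ) i).contDiff
  exact (h _).add ((h _).mul contDiff_const)

theorem cc_ne {k : ℕ} {v : FS.euc (k + k)} (hv : v ≠ 0) : cc k v ≠ 0 := fun h => by
  have h1 : ∀ j, (v (Fin.castAdd k j) : ℂ) + v (Fin.natAdd k j) * Complex.I = 0 := fun j =>
    congrArg (fun x : EuclideanSpace ℂ (Fin k) => x j) h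
  exact hv (std_ext (fun j => by simpa using congrArg Complex.re (h1 j)) fun j => by
    simpa using congrArg Complex.im (h1 j))

theorem cc_rot {k : ℕ} (v : FS.euc (k + k)) (t : ℝ) :
    cc k (Real.cos t • v + Real.sin t • J0 k v) = Complex.exp (t * Complex.I) • cc k v := by
  refine PiLp.ext fun j => ?_
  simp only [cc, PiLp.smul_apply, PiLp.add_apply, std_l, std_r, smul_eq_mul, Complex.exp_mul_I]
  push_cast
  linear_combination (-(Complex.sin t * v (Fin.natAdd k j))) * Complex.I_mul_I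

/-- The symplectic form. -/
def stdO (k : ℕ) : Lam (FS.euc (k + k)) := dd (fun v => io (stdA k v)) 0

theorem std_dd (k : ℕ) (u : FS.euc (k + k)) : dd (fun v => io (stdA k v)) u ∈ Dg _ 2 :=
  dd_mem (k := 1) (Eventually.of_forall fun _ => io_mem _)

theorem std_evl (k : ℕ) (u a b : FS.euc (k + k)) :
    evl [a, b] (dd (fun v => io (stdA k v)) u) = 2 * inner ℝ (J0 k a) b := by
  rw [evl_dd_io (stdA k).differentiableAt, (stdA k).fderiv, stdA_apply, stdA_apply, std_anti k b]
  ring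

theorem std_dd_eq (k : ℕ) (u : FS.euc (k + k)) : dd (fun v => io (stdA k v)) u = stdO k :=
  dg_ext_two (std_dd k u) (std_dd k 0) fun a b => (std_evl k u a b).trans (std_evl k 0 a b).symm

theorem std_ct (k : ℕ) (v : FS.euc (k + k)) : ct v (stdO k) = (2 : ℝ) • io (stdA k v) := by
  refine dg_ext (ct_mem (k := 1) v (std_dd k 0)) (Submodule.smul_mem _ _ (io_mem _)) fun L hL => ?_
  obtain ⟨w, rfl⟩ := List.length_eq_one_iff.1 hL
  rw [evl_smul, evl_io]
  exact std_evl k 0 v w

theorem std_ct_pow {Z : FS} {a : Lam Z} (ha : a ∈ Dg Z 2) (v : Z) (m : ℕ) :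
    ct v (a ^ (m + 1)) = ((m : ℝ) + 1) • (ct v a * a ^ m) := by
  induction m with
  | zero => simp
  | succ m ih =>
    have hc := (lams_comm ha (ct_mem (k := 1) v ha)).eq
    rw [pow_succ' a (m + 1), ct_mul v ha, ih, mul_smul_comm, ← mul_assoc, hc, mul_assoc,
      ← pow_succ', neg_one_sq, one_smul]
    push_cast
    rw [add_smul ((m : ℝ) + 1), one_smul, add_comm]

theorem std_key (m : ℕ) (v : FS.euc (m + 1 + (m + 1))) :
    ‖v‖ ^ 2 • stdO (m + 1) ^ (m + 1) = (2 * ((m : ℝ) + 1)) •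
      (io (Z := FS.euc _) (innerSL ℝ v) * io (stdA (m + 1) v) * stdO (m + 1) ^ m) := by
  have h0 : io (Z := FS.euc _) (innerSL ℝ v) * stdO (m + 1) ^ (m + 1) = 0 :=
    dg_eq_zero (dg_mul (io_mem _) (dg_pow (std_dd _ 0) _)) (by simp; omega)
  have h1 := ct_io_mul (Z := FS.euc _) v (innerSL ℝ v) (stdO (m + 1) ^ (m + 1))
  rw [h0, map_zero, std_ct_pow (a := stdO (m + 1)) (std_dd _ 0), innerSL_apply_apply, real_inner_self_eq_norm_sq,
    eq_comm, sub_eq_zero] at h1
  rw [h1, std_ct, smul_mul_assoc, smul_smul, mul_smul_comm, mul_assoc, mul_comm (2 : ℝ)]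

/-- The identification of the product with the total space. -/
def stdB (k : ℕ) : (FS.euc k).prod (FS.euc k) →L[ℝ] FS.euc (k + k) :=
  LinearMap.toContinuousLinearMap
    ⟨⟨fun p => WithLp.toLp 2 (Fin.append (fun j => p.1 j) fun j => p.2 j),
      fun p q => std_ext (fun j => by simp) fun j => by simp [-Fin.natAdd_eq_addNat]⟩,
    fun c p => std_ext (fun j => by simp) fun j => by simp [-Fin.natAdd_eq_addNat]⟩

theorem stdB_l (k : ℕ) (p : (FS.euc k).prod (FS.euc k)) (j : Fin k) :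
    stdB k p (Fin.castAdd k j) = p.1 j := Fin.append_left (fun j => p.1 j) (fun j => p.2 j) j

theorem stdB_r (k : ℕ) (p : (FS.euc k).prod (FS.euc k)) (j : Fin k) :
    stdB k p (Fin.natAdd k j) = p.2 j := Fin.append_right (fun j => p.1 j) (fun j => p.2 j) j

theorem std_top (k : ℕ) : |top (eb (k + k)) (stdO k ^ k)| = 2 ^ k * k.factorial := by
  have h1 : (fun i => stdB k (eb2 k i)) = eb (k + k) := funext fun i => by
    refine Fin.addCases (fun i => ?_) (fun i => ?_) i
    · refine std_ext (fun j => ?_) fun j => ?_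
      · rw [stdB_l, eb2, Fin.append_left]
        simp [eb, PiLp.single_apply]
      · rw [stdB_r, eb2, Fin.append_left]
        have : Fin.natAdd k j ≠ Fin.castAdd k i := fun e => by
          have := congrArg Fin.val e
          simp at this
          omega
        simp [eb, this, -Fin.natAdd_eq_addNat]
    · refine std_ext (fun j => ?_) fun j => ?_
      · rw [stdB_l, eb2, Fin.append_right]
        have : Fin.castAdd k j ≠ Fin.natAdd k i := fun e => by
          have := congrArg Fin.val e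
          simp at this
          omega
        simp [eb, this, -Fin.natAdd_eq_addNat]
      · rw [stdB_r, eb2, Fin.append_right]
        simp [eb, PiLp.single_apply]
  have h2 : pb (stdB k) (stdO k) = (-2 : ℝ) • sy (ContinuousLinearMap.id ℝ (FS.euc k)) := by
    refine dg_ext_two (pb_mem _ (std_dd k 0)) (Submodule.smul_mem _ _ (lams_sy_mem _))
      fun p q => ?_
    rw [evl_pb, evl_smul, lams_evl]
    refine (std_evl k 0 _ _).trans ?_
    rw [std_inner, Finset.sum_congr rfl fun j _ => by rw [stdB_l, stdB_l, stdB_r, stdB_r]]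
    simp only [ContinuousLinearMap.id_apply, PiLp.inner_apply, RCLike.inner_apply,
      conj_trivial, Finset.sum_sub_distrib, mul_comm (q.1 _)]
    ring
  rw [← h1, ← top_pb, map_pow, h2, smul_pow, ← topL_apply, map_smul, topL_apply, smul_eq_mul,
    abs_mul, abs_top_sy, abs_pow]
  norm_num

theorem std_pow {R : Type} [Ring R] {P a S : R} (h : P * a = 0) (hc : Commute a S) (m : ℕ) :
    P * (a + S) ^ m = P * S ^ m := by
  induction m with
  | zero => simp
  | succ m ih =>
    rw [pow_succ, ← mul_assoc, ih, mul_add, mul_assoc, ← (hc.pow_right m).eq, ← mul_assoc, h,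
      zero_mul, zero_add, mul_assoc, ← pow_succ]

theorem std_norm {E : Type*} [NormedAddCommGroup E] [InnerProductSpace ℝ E] {v : E} (hv : v ≠ 0) :
    HasFDerivAt (fun w : E => ‖w‖) (‖v‖⁻¹ • innerSL ℝ v) v := by
  have h0 := norm_ne_zero_iff.2 hv
  have h := (hasStrictFDerivAt_norm_sq v).hasFDerivAt.sqrt (pow_ne_zero 2 h0)
  simp only [Real.sqrt_sq (norm_nonneg _)] at h
  refine h.congr_fderiv ?_
  ext w
  simp
  field_simp

theorem std_loc {k : ℕ} (o : Sp (k + k)) {v : FS.euc (k + k)} (hv : v ≠ 0) :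
    loc (thJ (J0 k)) _ (rad o) v = ((2 * Real.pi)⁻¹ * (‖v‖ ^ 2)⁻¹) • io (stdA k v) := by
  have h0 := norm_ne_zero_iff.2 hv
  have h1 : (fun z : FS.euc (k + k) => (rad o z).1) =ᶠ[𝓝 v] fun z => ‖z‖⁻¹ • z := by
    filter_upwards [isOpen_ne.mem_nhds hv] with z hz
    exact congrArg Subtype.val (dif_neg hz)
  have h2 := (((hasDerivAt_inv h0).comp_hasFDerivAt v (std_norm hv)).smul (hasFDerivAt_id v)).fderiv
  rw [thJ, loc_smul, loc_ip _ _ (plot_rad o hv), h1.fderiv_eq, h1.eq_of_nhds, mul_smul,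
    ← map_smul io (‖v‖ ^ 2)⁻¹]
  congr 2
  refine ContinuousLinearMap.ext fun w => ?_
  rw [ContinuousLinearMap.comp_apply]
  erw [h2]
  rw [std_smul, smul_apply, stdA_apply]
  have := std_orth k v
  simp [inner_add_right, inner_smul_right, this]
  field_simp

/-- Let `lam v = io (innerSL (J0 v))`, `om = dd lam` (constant). The pull back of `om` by the linear
map `euc k × euc k → euc (k + k)` that sends `eb2` to `eb` is `± 2 • sy id` (`dg_ext_two`), so
`|top (om ^ k)| = 2 ^ k * k !` (`abs_top_sy`, `top_pb`). With `r = ‖v‖`, `ρ = io (innerSL v)`: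
`ct v om = 2 • lam`, `ρ * om ^ k = 0`, hence `r ^ 2 • om ^ k = (2 k) • ρ * lam * om ^ (k - 1)`.
The local expression of `thJ` along `rad` is `(2 π r ^ 2)⁻¹ • lam`. -/
theorem top_std (m : ℕ) (o : Sp (m + 1 + (m + 1))) : ∃ σ : ℝ, |σ| = 1 ∧
    ∀ v : FS.euc (m + 1 + (m + 1)), v ≠ 0 →
      top (eb _) (io (Z := FS.euc _) (innerSL ℝ v) *
        loc (thJ (J0 (m + 1)) * dx (thJ (J0 (m + 1))) ^ m) _ (rad o) v) =
        σ * (m.factorial / (2 * Real.pi ^ (m + 1))) * (‖v‖ ^ (2 * m))⁻¹ := by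
  have hk : (0 : ℝ) < 2 ^ (m + 1) * (m + 1).factorial := by positivity
  refine ⟨top (eb _) (stdO (m + 1) ^ (m + 1)) / (2 ^ (m + 1) * (m + 1).factorial), by
    rw [abs_div, std_top, abs_of_pos hk, div_self hk.ne'], fun v hv => ?_⟩
  have h0 := norm_ne_zero_iff.2 hv
  have hp := plot_rad o hv
  have h1 : HasFDerivAt (fun z : FS.euc (m + 1 + (m + 1)) => (2 * Real.pi)⁻¹ * (‖z‖ ^ 2)⁻¹) _ v :=
    ((hasDerivAt_inv (pow_ne_zero 2 h0)).comp_hasFDerivAt v
      (hasStrictFDerivAt_norm_sq v).hasFDerivAt).const_mul (2 * Real.pi)⁻¹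
  have h2 : loc (thJ (J0 (m + 1))) _ (rad o) =ᶠ[𝓝 v]
      fun z => ((2 * Real.pi)⁻¹ * (‖z‖ ^ 2)⁻¹) • io (stdA (m + 1) z) := by
    filter_upwards [isOpen_ne.mem_nhds hv] with z hz using std_loc o hz
  obtain ⟨c, h3⟩ : ∃ c : ℝ, fderiv ℝ (fun z : FS.euc (m + 1 + (m + 1)) =>
      (2 * Real.pi)⁻¹ * (‖z‖ ^ 2)⁻¹) v = c • innerSL ℝ v :=
    ⟨_, h1.fderiv.trans (by rw [← Nat.cast_smul_eq_nsmul ℝ, smul_smul, smul_smul])⟩
  have h4 := congrArg (topL (eb _)) (std_key m v)
  rw [map_smul, map_smul, smul_eq_mul, smul_eq_mul, topL_apply] at h4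
  rw [loc_mul, loc_pow _ _ hp, loc_dx _ hp, dd_congr h2, dd_fun_smul h1.differentiableAt
    ((cd_io (N := 1) (stdA _).contDiff.contDiffAt).differentiableAt one_ne_zero), std_dd_eq, h3,
    std_loc o hv, ← mul_assoc, mul_smul_comm, smul_mul_assoc, map_smul, smul_mul_assoc,
    std_pow (by rw [mul_smul_comm, lams_sq, smul_zero]) ((((lams_comm (a := stdO _) (std_dd _ 0)
      (dg_mul (io_mem _) (io_mem _))).symm).smul_left _).smul_right _), smul_pow, mul_smul_comm,
    smul_smul, ← topL_apply, map_smul, smul_eq_mul,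
    eq_div_of_mul_eq (by positivity) ((mul_comm _ _).trans h4.symm), Nat.factorial_succ]
  have := Real.pi_pos
  push_cast
  simp only [mul_pow, inv_pow, ← pow_mul]
  field_simp
  ring

/-- `fderiv (χ ‖·‖) v = (deriv χ ‖v‖ / ‖v‖) • innerSL v`, `integral_fun_norm_addHaar`,
`EuclideanSpace.volume_ball` or `InnerProductSpace.volume_ball_of_dim_even`, and
`∫ deriv χ = 1` on `Ioi 0`. -/
theorem IS_std (m : ℕ) (o : Sp (m + 1 + (m + 1))) {χ : ℝ → ℝ} {a b : ℝ} (hχ : Cut χ a b) :
    |IS o χ (thJ (J0 (m + 1)) * dx (thJ (J0 (m + 1))) ^ m)| = 1 := by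
  obtain ⟨σ, hσ, h⟩ := top_std m o
  have hd : Module.finrank ℝ (EuclideanSpace ℝ (Fin (m + 1 + (m + 1)))) = 2 * (m + 1) := by
    simp
    omega
  have hχd : Differentiable ℝ χ := hχ.sm.differentiable (by simp)
  have h1 : IS o χ (thJ (J0 (m + 1)) * dx (thJ (J0 (m + 1))) ^ m) =
      ∫ v : EuclideanSpace ℝ (Fin (m + 1 + (m + 1))), deriv χ ‖v‖ * ‖v‖⁻¹ *
        (σ * (m.factorial / (2 * Real.pi ^ (m + 1))) * (‖v‖ ^ (2 * m))⁻¹) := by
    refine integral_congr_ae ?_
    filter_upwards [Measure.ae_ne volume 0] with v hv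
    have h2 : fderiv ℝ (fun w : FS.euc (m + 1 + (m + 1)) => χ ‖w‖) v = _ :=
      ((hχd ‖v‖).hasDerivAt.comp_hasFDerivAt v (std_norm hv)).fderiv
    rw [h2, smul_smul, map_smul, smul_mul_assoc, ← topL_apply, map_smul, topL_apply, h v hv,
      smul_eq_mul]
  have hab : a < b := by
    by_contra hh
    have := hχ.zero a le_rfl
    rw [hχ.one a (not_lt.1 hh)] at this
    exact one_ne_zero this
  have h3 : ∫ r in Ioi (0 : ℝ), deriv χ r = 1 := by
    have hb : 0 ≤ b := (hχ.pos.trans hab).le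
    rw [setIntegral_eq_of_subset_of_forall_sdiff_eq_zero measurableSet_Ioi
      (Ioc_subset_Ioi_self : Ioc 0 b ⊆ _) fun r hr => ?_, ← intervalIntegral.integral_of_le hb,
      intervalIntegral.integral_deriv_eq_sub (fun r _ => hχd r)
        ((hχ.sm.continuous_deriv (by simp)).intervalIntegrable _ _),
      hχ.one b le_rfl, hχ.zero 0 hχ.pos.le, sub_zero]
    have h4 : b < r := not_le.1 fun e => hr.2 ⟨hr.1, e⟩
    have h5 : χ =ᶠ[𝓝 r] fun _ => 1 := by
      filter_upwards [Ioi_mem_nhds h4] with t ht using hχ.one t ht.le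
    rw [h5.deriv_eq, deriv_const]
  rw [h1, integral_fun_norm_addHaar volume fun r => deriv χ r * r⁻¹ *
      (σ * (m.factorial / (2 * Real.pi ^ (m + 1))) * (r ^ (2 * m))⁻¹), Measure.real,
    InnerProductSpace.volume_ball_of_dim_even hd, hd, setIntegral_congr_fun measurableSet_Ioi
      (g := fun r => σ * (m.factorial / (2 * Real.pi ^ (m + 1))) * deriv χ r) fun r hr => ?_,
    integral_const_mul, h3, ENNReal.ofReal_one, one_pow, one_mul,
    ENNReal.toReal_ofReal (by positivity)]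
  · refine (congrArg abs ?_).trans hσ
    have := Real.pi_pos
    rw [nsmul_eq_mul, smul_eq_mul, Nat.factorial_succ]
    push_cast
    field_simp
  · have h6 : r ≠ 0 := ne_of_gt hr
    simp only [smul_eq_mul, show 2 * (m + 1) - 1 = 2 * m + 1 by omega, pow_succ r]
    field_simp

end Vale.Agent.P231C
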