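import Mathlib

/-! The two functions of the chord sweep. -/

open scoped ContDiff Topology
open Filter Set

noncomputable section

namespace Vale.Agent.P231C

theorem swa_gen {g : ℝ → ℝ} (hg : ContDiff ℝ ∞ g) {δ c : ℝ} (hδ : 0 < δ) (h0 : ∀ t ≤ δ, g t = 0)
    (h1 : ∀ t, 1 - δ ≤ t → g t = c) :
    ContDiff ℝ ∞ fun t : ℝ => c * (⌊t⌋ : ℝ) + g (Int.fract t) := by
  refine contDiff_iff_contDiffAt.2 fun x => ?_
  rcases (Int.floor_le x).eq_or_lt with h | h
  · refine (contDiffAt_const (c := c * x)).congr_of_eventuallyEq ?_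
    filter_upwards [Ioo_mem_nhds (sub_lt_self x (lt_min hδ one_pos))
      (lt_add_of_pos_right x (lt_min hδ one_pos))] with t ht
    have h2 := min_le_left δ 1
    have h3 := min_le_right δ 1
    rcases le_or_gt x t with h4 | h4
    · have h5 : ⌊t⌋ = ⌊x⌋ := Int.floor_eq_iff.2 ⟨by linarith, by linarith [ht.2]⟩
      rw [Int.fract, h5, h, h0 _ (by linarith [ht.2]), add_zero]
    · have h5 : ⌊t⌋ = ⌊x⌋ - 1 := Int.floor_eq_iff.2
        ⟨by push_cast; linarith [ht.1], by push_cast; linarith⟩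
      rw [Int.fract, h5]
      push_cast
      rw [h, h1 _ (by linarith [ht.1])]
      ring
  · refine (contDiffAt_const (c := c * (⌊x⌋ : ℝ)).add
      (hg.comp (contDiff_id.sub (contDiff_const (c := (⌊x⌋ : ℝ))))).contDiffAt).congr_of_eventuallyEq ?_
    filter_upwards [Ioo_mem_nhds h (Int.lt_floor_add_one x)] with t ht
    have h5 : ⌊t⌋ = ⌊x⌋ := Int.floor_eq_iff.2 ⟨ht.1.le, ht.2⟩
    rw [Int.fract, h5]
    rfl

/-- If `g` is smooth, `0` near `(-∞, 0]` and `1` near `[1, ∞)`, then `⌊t⌋ + g (fract t)` is smooth: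
near a non integer `t` the floor is locally constant, near an integer `n` the function is the
constant `n`. -/
theorem swa_stair {g : ℝ → ℝ} (hg : ContDiff ℝ ∞ g) {δ : ℝ} (hδ : 0 < δ) (h0 : ∀ t ≤ δ, g t = 0)
    (h1 : ∀ t, 1 - δ ≤ t → g t = 1) : ContDiff ℝ ∞ fun t : ℝ => (⌊t⌋ : ℝ) + g (Int.fract t) := by
  simpa only [one_mul] using swa_gen hg hδ h0 h1

theorem swa_per {g : ℝ → ℝ} (hg : ContDiff ℝ ∞ g) {δ : ℝ} (hδ : 0 < δ) (h0 : ∀ t ≤ δ, g t = 0)
    (h1 : ∀ t, 1 - δ ≤ t → g t = 0) : ContDiff ℝ ∞ fun t : ℝ => g (Int.fract t) := by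
  simpa only [zero_mul, zero_add] using swa_gen hg hδ h0 h1

theorem swa_step {a b : ℝ} (h : a < b) : ∃ g : ℝ → ℝ, ContDiff ℝ ∞ g ∧ Monotone g ∧
    (∀ t ≤ a, g t = 0) ∧ (∀ t, b ≤ t → g t = 1) ∧ ∀ t, 0 ≤ g t ∧ g t ≤ 1 :=
  ⟨fun t => Real.smoothTransition ((t - a) / (b - a)),
    Real.smoothTransition.contDiff.comp ((contDiff_id.sub contDiff_const).div_const _),
    fun _ _ hst => Real.smoothTransition.monotone
      (div_le_div_of_nonneg_right (sub_le_sub_right hst a) (sub_pos.2 h).le),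
    fun _ ht => Real.smoothTransition.zero_of_nonpos
      (div_nonpos_of_nonpos_of_nonneg (sub_nonpos.2 ht) (sub_pos.2 h).le),
    fun _ ht => Real.smoothTransition.one_of_one_le
      ((one_le_div (sub_pos.2 h)).2 (sub_le_sub_right ht a)),
    fun _ => ⟨Real.smoothTransition.nonneg _, Real.smoothTransition.le_one _⟩⟩

theorem swa_beta {a b : ℝ} (h0 : 0 < a) (h : a < b) (h1 : b < 1) : ∃ β : ℝ → ℝ, ContDiff ℝ ∞ β ∧
    Monotone β ∧ (∀ t, β (t + 1) = β t + 1) ∧ (∀ t, 0 ≤ t → t ≤ a → β t = 0) ∧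
      ∀ t, b ≤ t → t ≤ 1 → β t = 1 := by
  obtain ⟨g, g1, g2, g3, g4, g5⟩ := swa_step h
  refine ⟨fun t => (⌊t⌋ : ℝ) + g (Int.fract t), swa_stair g1 (lt_min h0 (sub_pos.2 h1))
    (fun t ht => g3 t (ht.trans (min_le_left _ _)))
    (fun t ht => g4 t (by linarith [min_le_right a (1 - b)])), fun s t hst => ?_, fun t => ?_,
    fun t h2 h3 => ?_, fun t h2 h3 => ?_⟩
  · rcases (Int.floor_mono hst).eq_or_lt with e | e
    · simp only [Int.fract, e]
      exact add_le_add le_rfl (g2 (sub_le_sub_right hst _))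
    · have h2 : (⌊s⌋ : ℝ) + 1 ≤ ⌊t⌋ := by exact_mod_cast e
      change (⌊s⌋ : ℝ) + g (Int.fract s) ≤ ⌊t⌋ + g (Int.fract t)
      linarith [(g5 (Int.fract s)).2, (g5 (Int.fract t)).1]
  · simp only [Int.floor_add_one, Int.fract_add_one]
    push_cast
    ring
  · have h4 : ⌊t⌋ = 0 := Int.floor_eq_zero_iff.2 ⟨h2, by linarith⟩
    simp only [Int.fract, h4, Int.cast_zero, sub_zero, g3 t h3, add_zero]
  · rcases h3.eq_or_lt with e | e
    · simp [e, g3 0 h0.le]
    · have h4 : ⌊t⌋ = 0 := Int.floor_eq_zero_iff.2 ⟨by linarith, e⟩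
      simp only [Int.fract, h4, Int.cast_zero, sub_zero, g4 t h2, zero_add]

theorem swa_chi : ∃ k : ℝ → ℝ, ContDiff ℝ ∞ k ∧ (∀ t, k (t + 1) = k t) ∧
    (∀ t, 0 ≤ k t ∧ k t ≤ 1) ∧ (∀ t, 0 ≤ t → t ≤ 1 / 10 → k t = 0) ∧
      MonotoneOn k (Icc (1 / 10) (4 / 10)) ∧ ∀ t, 4 / 10 ≤ t → t ≤ 8 / 10 → k t = 1 := by
  obtain ⟨g, g1, g2, g3, g4, g5⟩ := swa_step (show (1 / 10 : ℝ) < 4 / 10 by norm_num)
  obtain ⟨f, f1, -, f3, f4, f5⟩ := swa_step (show (8 / 10 : ℝ) < 9 / 10 by norm_num)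
  have e : ∀ t : ℝ, 0 ≤ t → t ≤ 8 / 10 → g (Int.fract t) * (1 - f (Int.fract t)) = g t := by
    intro t h1 h2
    rw [Int.fract_eq_self.2 ⟨h1, by linarith⟩, f3 t h2, sub_zero, mul_one]
  refine ⟨fun t => g (Int.fract t) * (1 - f (Int.fract t)),
    swa_per (g := fun t => g t * (1 - f t)) (g1.mul (contDiff_const.sub f1)) (δ := 1 / 10)
      (by norm_num) (fun t ht => by rw [g3 t ht, zero_mul])
      (fun t ht => by rw [f4 t (by linarith), sub_self, mul_zero]),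
    fun t => by simp only [Int.fract_add_one],
    fun t => ⟨mul_nonneg (g5 _).1 (sub_nonneg.2 (f5 _).2),
      mul_le_one₀ (g5 _).2 (sub_nonneg.2 (f5 _).2) (sub_le_self _ (f5 _).1)⟩,
    fun t h1 h2 => (e t h1 (by linarith)).trans (g3 t h2), fun s hs t ht hst => ?_,
    fun t h1 h2 => (e t (by linarith) h2).trans (g4 t h1)⟩
  exact ((e s (by linarith [hs.1]) (by linarith [hs.2])).trans_le (g2 hst)).trans_eq
    (e t (by linarith [ht.1]) (by linarith [ht.2])).symm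

/-- The time `T` and the chord parameter `χ`, as functions of the stage and of the phase. -/
structure Swp (T χ : ℝ × ℝ → ℝ) : Prop where
  smT : ContDiff ℝ ∞ T
  smχ : ContDiff ℝ ∞ χ
  perT : ∀ s t, T (s, t + 1) = T (s, t) + 1
  perχ : ∀ s t, χ (s, t + 1) = χ (s, t)
  T0 : ∀ t, T (0, t) = t
  χ0 : ∀ t, χ (0, t) = 1
  mem : ∀ s t, χ (s, t) ∈ Icc (0 : ℝ) 1
  mono : ∀ s, Monotone fun t => T (s, t)
  base : ∀ s, T (s, 0) = 0
  last : ∀ t ∈ Icc (0 : ℝ) 1, χ (1, t) = 0 ∨ T (1, t) = 0 ∨ T (1, t) = 1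
  shape : ∀ s, (∀ t ∈ Icc (0 : ℝ) 1, χ (s, t) = 1 ∨ T (s, t) = 0 ∨ T (s, t) = 1) ∨
    ∃ p q : ℝ, 0 ≤ p ∧ p ≤ q ∧ q ≤ 1 ∧ (∀ t ∈ Icc 0 p, χ (s, t) = 0 ∨ T (s, t) = 0) ∧
      χ (s, p) = 0 ∧ (∀ t ∈ Icc p q, T (s, t) = T (s, q)) ∧
      MonotoneOn (fun t => χ (s, t)) (Icc p q) ∧ ∀ t ∈ Icc q 1, χ (s, t) = 1 ∨ T (s, t) = 1

/-- With `S = Real.smoothTransition`: `l₁ = S (3 s)`, `l₂ = S (3 s - 1)`, `l₃ = S (3 s - 2)`;
`β` the stair function that rises on `[5 / 10, 8 / 10]`, `β'` the one that rises on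
`[1 / 20, 1 / 10]`; `χ₀` periodic, `0` on `[0, 1 / 10]`, rising on `[1 / 10, 4 / 10]`, `1` on
`[4 / 10, 8 / 10]`, falling on `[8 / 10, 9 / 10]`, `0` on `[9 / 10, 1]`.
`T = t + l₁ (β t - t) + l₃ (β' t - β t)`, `χ = 1 - l₂ (1 - χ₀ t)`. For `s ≤ 2 / 3` the first
alternative of `shape` holds, for `2 / 3 ≤ s` the second one with `p = 1 / 10`, `q = 4 / 10`. -/
theorem exists_swp : ∃ T χ, Swp T χ := by
  obtain ⟨β, b1, b2, b3, b4, b5⟩ := swa_beta (a := 5 / 10) (b := 8 / 10) (by norm_num)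
    (by norm_num) (by norm_num)
  obtain ⟨β', c1, c2, c3, c4, c5⟩ := swa_beta (a := 1 / 20) (b := 1 / 10) (by norm_num)
    (by norm_num) (by norm_num)
  obtain ⟨k, k1, k2, k3, k4, k5, k6⟩ := swa_chi
  obtain ⟨S, s1, s2, s3, s4, s5⟩ := swa_step (zero_lt_one (α := ℝ))
  have hl : ∀ c : ℝ, ContDiff ℝ ∞ fun p : ℝ × ℝ => S (3 * p.1 - c) := fun c =>
    s1.comp ((contDiff_const.mul contDiff_fst).sub contDiff_const)
  refine ⟨fun p => p.2 + S (3 * p.1 - 0) * (β p.2 - p.2) + S (3 * p.1 - 2) * (β' p.2 - β p.2),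
    fun p => 1 - S (3 * p.1 - 1) * (1 - k p.2),
    (contDiff_snd.add ((hl 0).mul ((b1.comp contDiff_snd).sub contDiff_snd))).add
      ((hl 2).mul ((c1.comp contDiff_snd).sub (b1.comp contDiff_snd))),
    contDiff_const.sub ((hl 1).mul (contDiff_const.sub (k1.comp contDiff_snd))),
    fun s t => ?_, fun s t => by simp only [k2], fun t => ?_, fun t => ?_, fun s t => ?_,
    fun s t t' h => ?_, fun s => ?_, fun t ht => ?_, fun s => ?_⟩
  · simp only [b3, c3]
    ring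
  · simp only [s3 (3 * 0 - 0) (by norm_num), s3 (3 * 0 - 2) (by norm_num)]
    ring
  · simp only [s3 (3 * 0 - 1) (by norm_num)]
    ring
  · have h1 := s5 (3 * s - 1)
    have h2 := k3 t
    constructor <;> simp only <;> nlinarith
  · have h1 := mul_nonneg (sub_nonneg.2 (s5 (3 * s - 0)).2) (sub_nonneg.2 h)
    have h2 := mul_nonneg (sub_nonneg.2 (s2 (show 3 * s - 2 ≤ 3 * s - 0 by linarith)))
      (sub_nonneg.2 (b2 h))
    have h3 := mul_nonneg (s5 (3 * s - 2)).1 (sub_nonneg.2 (c2 h))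
    simp only
    linarith
  · simp only [b4 0 le_rfl (by norm_num), c4 0 le_rfl (by norm_num)]
    ring
  · simp only [s4 (3 * 1 - 0) (by norm_num), s4 (3 * 1 - 1) (by norm_num),
      s4 (3 * 1 - 2) (by norm_num)]
    rcases le_total t (1 / 10) with h | h
    · left
      rw [k4 t ht.1 h]
      ring
    · right; right
      rw [c5 t h ht.2]
      ring
  · rcases le_total (3 * s) 1 with h | h
    · refine Or.inl fun t _ => Or.inl ?_
      simp only [s3 (3 * s - 1) (by linarith)]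
      ring
    · rcases le_total (3 * s) 2 with h' | h'
      · refine Or.inl fun t ht => ?_
        simp only [s4 (3 * s - 0) (by linarith), s3 (3 * s - 2) (by linarith)]
        rcases le_total t (5 / 10) with h1 | h1
        · right; left
          rw [b4 t ht.1 h1]
          ring
        · rcases le_total t (8 / 10) with h2 | h2
          · left
            rw [k6 t (by linarith) h2]
            ring
          · right; right
            rw [b5 t h2 ht.2]
            ring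
      · refine Or.inr ⟨1 / 10, 4 / 10, by norm_num, by norm_num, by norm_num, ?_⟩
        simp only [s4 (3 * s - 0) (by linarith), s4 (3 * s - 1) (by linarith), one_mul,
          sub_sub_cancel, add_sub_cancel]
        refine ⟨fun t ht => Or.inl (k4 t ht.1 ht.2), k4 _ (by norm_num) le_rfl, fun t ht => ?_, k5,
          fun t ht => ?_⟩
        · rw [b4 t (by linarith [ht.1]) (by linarith [ht.2]), b4 _ (by norm_num) (by norm_num),
            c5 t ht.1 (by linarith [ht.2]), c5 _ (by norm_num) (by norm_num)]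
        · rcases le_total t (8 / 10) with h2 | h2
          · exact Or.inl (k6 t ht.1 h2)
          · right
            rw [b5 t h2 ht.2, c5 t (by linarith) ht.2]
            ring

end Vale.Agent.P231C
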