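import Vale.Agent.P231C.SwA
import Vale.Agent.P231C.SphDef

/-! Length of the swept loops. -/

open scoped ContDiff Topology
open Filter Set MeasureTheory

noncomputable section

namespace Vale.Agent.P231C

variable {M : Type*} [MetricSpace M] {γ : ℝ → M} {l D : ℝ}

theorem swb_add (γ : ℝ → M) {a b c : ℝ} (hab : a ≤ b) (hbc : b ≤ c) :
    eVariationOn γ (Icc a b) + eVariationOn γ (Icc b c) = eVariationOn γ (Icc a c) := by
  simpa only [univ_inter] using eVariationOn.Icc_add_Icc γ hab hbc (mem_univ b)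

theorem swb_tr {c : ℝ} (hp : Function.Periodic γ c) (a b : ℝ) :
    eVariationOn γ (Icc (a + c) (b + c)) = eVariationOn γ (Icc a b) := by
  rw [← image_add_const_Icc, ← eVariationOn.comp_eq_of_monotoneOn γ (fun t => t + c)
    fun _ _ _ _ h => add_le_add_left h c]
  exact eVariationOn.eq_of_eqOn fun t _ => hp t

theorem swb_shift (hl : 0 < l) (hp : Function.Periodic γ l) (a : ℝ) :
    eVariationOn γ (Icc a (a + l)) = eVariationOn γ (Icc 0 l) := by
  obtain ⟨h1, h2⟩ := toIcoMod_mem_Ico' hl a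
  have h3 := swb_tr (hp.zsmul (toIcoDiv hl 0 a)) (toIcoMod hl 0 a) (toIcoMod hl 0 a + l)
  rw [add_right_comm, toIcoMod_add_toIcoDiv_zsmul] at h3
  have h4 := swb_tr hp 0 (toIcoMod hl 0 a)
  rw [zero_add] at h4
  rw [h3, ← swb_add γ h2.le (le_add_of_nonneg_left h1), h4, add_comm, swb_add γ h1 h2.le]

/-- Both arcs between the two points have variation at least the distance. -/
theorem swb_dist (hl : 0 < l) (hp : Function.Periodic γ l)
    (h : eVariationOn γ (Icc 0 l) < ENNReal.ofReal (2 * D)) (s t : ℝ) : dist (γ s) (γ t) < D := by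
  obtain ⟨h1, h2⟩ := toIcoMod_mem_Ico hl s t
  have h3 : γ (toIcoMod hl s t) = γ t := hp.sub_zsmul_eq _
  have h4 := eVariationOn.edist_le γ (left_mem_Icc.2 h1) (right_mem_Icc.2 h1)
  have h5 := eVariationOn.edist_le γ (right_mem_Icc.2 h2.le) (left_mem_Icc.2 h2.le)
  rw [hp s] at h5
  rw [← swb_shift hl hp s, ← swb_add γ h1 h2.le] at h
  have h6 := (add_le_add h4 h5).trans_lt h
  rw [h3, edist_dist, ← ENNReal.ofReal_add dist_nonneg dist_nonneg,
    ENNReal.ofReal_lt_ofReal_iff_of_nonneg (add_nonneg dist_nonneg dist_nonneg)] at h6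
  linarith

theorem swb_scale (hl : 0 < l) (γ : ℝ → M) (a : ℝ) :
    eVariationOn (fun t => γ (a + t / l)) (Icc 0 l) = eVariationOn γ (Icc a (a + 1)) := by
  refine (eVariationOn.comp_eq_of_monotoneOn γ (fun t => a + t / l) fun _ _ _ _ h =>
    add_le_add_right (div_le_div_of_nonneg_right h hl.le) a).trans ?_
  congr 1
  ext u
  constructor
  · rintro ⟨t, ht, rfl⟩
    exact ⟨le_add_of_nonneg_right (div_nonneg ht.1 hl.le),
      add_le_add_right ((div_le_one hl).2 ht.2) a⟩
  · intro hu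
    refine ⟨(u - a) * l, ⟨mul_nonneg (sub_nonneg.2 hu.1) hl.le,
      mul_le_of_le_one_left hl.le (by linarith [hu.2])⟩, ?_⟩
    simp only [mul_div_cancel_right₀ _ hl.ne', add_sub_cancel]

variable {𝒟M : Dif M} {ch : M → M → ℝ → M} {T χ : ℝ × ℝ → ℝ}

theorem swb_chord (hch : Chord 𝒟M ch D) {x y : M} (hd : dist x y < D) {φ : ℝ → ℝ} {p q : ℝ}
    (hm : MonotoneOn φ (Icc p q)) (h01 : ∀ t, φ t ∈ Icc (0 : ℝ) 1) :
    eVariationOn (fun t => ch x y (φ t)) (Icc p q) ≤ edist x y := by
  refine (eVariationOn.comp_le_of_monotoneOn (ch x y) φ hm fun t _ => h01 t).trans ?_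
  have h1 : LipschitzOnWith (nndist x y) (ch x y) (Icc 0 1) :=
    LipschitzOnWith.of_dist_le_mul fun s hs t ht => by
      rw [hch.dist x y hd s hs t ht, Real.dist_eq, coe_nndist, mul_comm]
  have h2 := (monotoneOn_id (s := (univ : Set ℝ))).eVariationOn_le (mem_univ 0) (mem_univ 1)
  rw [univ_inter, id, id, sub_zero, ENNReal.ofReal_one] at h2
  refine (h1.comp_eVariationOn_le (g := id) (mapsTo_id _)).trans ?_
  rw [edist_nndist]
  exact mul_le_of_le_one_right zero_le h2

/-- `eVariationOn.Icc_add_Icc`, `eVariationOn.comp_le_of_monotoneOn`, `eVariationOn.edist_le`,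
`eVariationOn.eq_of_eqOn`. -/
theorem Swp.short (h : Swp T χ) (hch : Chord 𝒟M ch D) (hp : Function.Periodic γ 1)
    (hd : ∀ s t, dist (γ s) (γ t) < D) (s : ℝ) :
    eVariationOn (fun t => ch (γ 0) (γ (T (s, t))) (χ (s, t))) (Icc 0 1) ≤
      eVariationOn γ (Icc 0 1) := by
  have h1 : γ 1 = γ 0 := hp.eq
  have h2 : T (s, 1) = 1 := by simpa [h.base] using h.perT s 0
  have h3 : ∀ q, (∀ t ∈ Icc q 1, χ (s, t) = 1 ∨ T (s, t) = 0 ∨ T (s, t) = 1) →
      eVariationOn (fun t => ch (γ 0) (γ (T (s, t))) (χ (s, t))) (Icc q 1) ≤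
        eVariationOn γ (Icc (T (s, q)) 1) := by
    intro q hq
    refine le_trans (le_of_eq (eVariationOn.eq_of_eqOn fun t ht => ?_))
      (eVariationOn.comp_le_of_monotoneOn γ (fun t => T (s, t)) ((h.mono s).monotoneOn _)
        fun t ht => ⟨h.mono s ht.1, (h.mono s ht.2).trans_eq h2⟩)
    rcases hq t ht with e | e | e
    · simp only [e, hch.one _ _ (hd _ _), Function.comp_apply]
    · simp only [e, hch.self, Function.comp_apply]
    · simp only [e, h1, hch.self, Function.comp_apply]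
  rcases h.shape s with h4 | ⟨p, q, h4, h5, h6, h7, -, h8, h9, h10⟩
  · simpa only [h.base] using h3 0 h4
  · have h11 : 0 ≤ T (s, q) := (h.base s).ge.trans (h.mono s (h4.trans h5))
    have h12 : T (s, q) ≤ 1 := (h.mono s h6).trans_eq h2
    have h13 : eVariationOn (fun t => ch (γ 0) (γ (T (s, t))) (χ (s, t))) (Icc 0 p) = 0 := by
      have e : ∀ t ∈ Icc 0 p, ch (γ 0) (γ (T (s, t))) (χ (s, t)) = γ 0 := fun t ht => by
        rcases h7 t ht with e | e
        · rw [e, hch.zero]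
        · rw [e, hch.self]
      exact (eVariationOn.eq_zero_iff _).2 fun t ht t' ht' => by rw [e t ht, e t' ht', edist_self]
    rw [← swb_add _ (h4.trans h5) h6, ← swb_add _ h4 h5, h13, zero_add, ← swb_add γ h11 h12]
    refine add_le_add ?_ (h3 q fun t ht => (h10 t ht).imp_right Or.inr)
    refine le_trans (le_of_eq (eVariationOn.eq_of_eqOn fun t ht => ?_))
      ((swb_chord hch (hd 0 (T (s, q))) h9 (h.mem s)).trans
        (eVariationOn.edist_le γ (left_mem_Icc.2 h11) (right_mem_Icc.2 h11)))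
    simp only [h8 t ht]

theorem Swp.periodic (h : Swp T χ) (hp : Function.Periodic γ 1) (s : ℝ) :
    Function.Periodic (fun t => ch (γ 0) (γ (T (s, t))) (χ (s, t))) 1 := by
  intro t
  simp only [h.perT, h.perχ, hp (T (s, t))]

theorem Swp.const (h : Swp T χ) (hch : Chord 𝒟M ch D) (hp : Function.Periodic γ 1) (t : ℝ) :
    ch (γ 0) (γ (T (1, t))) (χ (1, t)) = γ 0 := by
  have h1 := (h.periodic (ch := ch) hp 1).sub_int_mul_eq (x := t) ⌊t⌋
  rw [mul_one] at h1
  refine h1.symm.trans ?_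
  rcases h.last (t - ⌊t⌋) ⟨Int.fract_nonneg t, (Int.fract_lt_one t).le⟩ with e | e | e
  · rw [e, hch.zero]
  · rw [e, hch.self]
  · rw [e, hp.eq, hch.self]

end Vale.Agent.P231C
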