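import Vale.Agent.P231C.SwB
import Vale.Agent.P231C.SphA

/-! The equivariant contraction. -/

open scoped ContDiff Topology
open Filter Set MeasureTheory

noncomputable section

namespace Vale.Agent.P231C

variable {X M : Type*} {𝒟 : Dif X} {𝒟M : Dif M} [MetricSpace M] {ch : M → M → ℝ → M} {D : ℝ}
  {a : X × ℝ → X} {l : ℝ} {T χ : ℝ × ℝ → ℝ}

/-- The swept point, for the stage `s` and the phase `τ`. -/
def swp (ch : M → M → ℝ → M) (a : X × ℝ → X) (l : ℝ) (T χ : ℝ × ℝ → ℝ) (c : X → M) (v : X)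
    (s τ : ℝ) : M :=
  ch (c (a (v, -(l * τ)))) (c (a (v, l * (T (s, τ) - τ)))) (χ (s, τ))

theorem swc_per (ha : Cir 𝒟 a l) (y : X) : Function.Periodic (fun t => a (y, t)) l := by
  intro t
  simp only
  rw [← ha.add, ha.per]

theorem swp_int (ha : Cir 𝒟 a l) (h : Swp T χ) (c : X → M) (v : X) (s τ : ℝ) (k : ℤ) :
    swp ch a l T χ c v s (τ + k) = swp ch a l T χ c v s τ := by
  have h1 : Function.Periodic (fun t => T (s, t) - t) 1 := fun t => by
    simp only [h.perT]; ring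
  have h2 : Function.Periodic (fun t => χ (s, t)) 1 := h.perχ s
  have h3 := h1.int_mul k τ
  have h4 := h2.int_mul k τ
  have h5 := (swc_per ha v).int_mul (-k) (-(l * τ))
  have h6 : -(l * τ) + ((-k : ℤ) : ℝ) * l = -(l * (τ + k)) := by push_cast; ring
  simp only [mul_one, h6] at h3 h4 h5
  rw [swp, swp, h3, h4, h5]

theorem swp_act (ha : Cir 𝒟 a l) (hl : 0 < l) (c : X → M) (v : X) (s τ t : ℝ) :
    swp ch a l T χ c (a (v, t)) s (τ + t / l) =
      ch (c (a (v, -(l * τ)))) (c (a (v, l * (T (s, τ + t / l) - τ)))) (χ (s, τ + t / l)) := by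
  have h1 : t + -(l * (τ + t / l)) = -(l * τ) := by field_simp; ring
  have h2 : t + l * (T (s, τ + t / l) - (τ + t / l)) = l * (T (s, τ + t / l) - τ) := by
    field_simp; ring
  rw [swp, ha.add, ha.add, h1, h2]

/-- A local smooth branch of the argument. -/
theorem swc_arg {Z : Type*} [NormedAddCommGroup Z] [NormedSpace ℝ Z] {σ : Z → ℂ} {u : Z}
    (hσ : Sg σ u) (h0 : σ u ≠ 0) : ∃ τ : Z → ℝ, Sg τ u ∧
      ∀ᶠ z in 𝓝 u, ∃ k : ℤ, Complex.arg (σ z) / (2 * Real.pi) = τ z + k := by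
  have hc := hσ.self_of_nhds.continuousAt
  have h1 : ∀ᶠ z in 𝓝 u, σ z / σ u ∈ Complex.slitPlane :=
    (hc.div_const (σ u)).eventually (Complex.isOpen_slitPlane.mem_nhds
      (by simp only [div_self h0]; exact Complex.one_mem_slitPlane))
  refine ⟨fun z => (Complex.arg (σ u) + (Complex.log (σ z / σ u)).im) / (2 * Real.pi), ?_, ?_⟩
  · filter_upwards [hσ, h1] with z h2 h3
    exact (contDiffAt_const.add (Complex.imCLM.contDiff.contDiffAt.comp z
      (((Complex.contDiffAt_log h3).restrict_scalars ℝ).comp z (h2.div_const _)))).div_const _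
  · filter_upwards [h1] with z h2
    have h3 := Complex.arg_mul_coe_angle h0 (Complex.slitPlane_ne_zero h2)
    rw [mul_div_cancel₀ _ h0, ← Real.Angle.coe_add, Real.Angle.angle_eq_iff_two_pi_dvd_sub] at h3
    obtain ⟨k, hk⟩ := h3
    refine ⟨k, ?_⟩
    rw [Complex.log_im]
    field_simp
    linarith

/-- One step. `τ v = arg (σ v) / (2 π)`, `lam v = smoothTransition (2 * ‖σ v‖ ^ 2 - 1)`,
`H (v, s) = swp v (s * lam v) (τ v)`, `c' v = H (v, 1)`. Where `‖σ v‖ ^ 2 < 1 / 2` one has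
`H (v, s) = c v`; where `σ v ≠ 0` use `swc_arg`, `swp_int`, `Chord.sm`. The phase of `a (v, t)` is
`τ v + t / l` up to an integer. -/
theorem sweep_step (hch : Chord 𝒟M ch D) (ha : Cir 𝒟 a l) (hl : 0 < l) {σ : X → ℂ}
    (hs : Smo 𝒟 (Dif.vec ℂ) σ)
    (he : ∀ v t, σ (a (v, t)) = Complex.exp (2 * Real.pi * t / l * Complex.I) * σ v)
    {c : X → M} (hc : Smo 𝒟 𝒟M c)
    (short : ∀ v, eVariationOn (fun t => c (a (v, t))) (Icc 0 l) < ENNReal.ofReal (2 * D)) :
    ∃ c', Smo 𝒟 𝒟M c' ∧ SH 𝒟 𝒟M c c' ∧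
      (∀ v, eVariationOn (fun t => c' (a (v, t))) (Icc 0 l) < ENNReal.ofReal (2 * D)) ∧
      ∀ v, (1 ≤ ‖σ v‖ ∨ ∀ t, c (a (v, t)) = c v) → ∀ t, c' (a (v, t)) = c' v := by
  obtain ⟨T, χ, h⟩ := exists_swp
  have hd : ∀ v s t, dist (c (a (v, s))) (c (a (v, t))) < D := fun v =>
    swb_dist (γ := fun t => c (a (v, t))) hl ((swc_per ha v).comp c) (short v)
  have H0 : ∀ v τ, swp ch a l T χ c v 0 τ = c v := fun v τ => by
    rw [swp, h.T0, h.χ0, hch.one _ _ (hd v _ _), sub_self, mul_zero, ha.zero]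
  have L0 : ∀ v, ‖σ v‖ ^ 2 < 1 / 2 → Real.smoothTransition (2 * ‖σ v‖ ^ 2 - 1) = 0 := fun v hv =>
    Real.smoothTransition.zero_of_nonpos (by linarith)
  have sm : Smo 𝒟.ext 𝒟M fun w => swp ch a l T χ c w.1
      (w.2 * Real.smoothTransition (2 * ‖σ w.1‖ ^ 2 - 1)) (Complex.arg (σ w.1) / (2 * Real.pi)) := by
    rintro ⟨Z, f, u⟩ ⟨p1, p2⟩
    have p3 : Sg (fun z => σ (f z).1) u := hs _ p1
    by_cases h0 : σ (f u).1 = 0
    · refine Dif.congr (hc _ p1) ?_
      filter_upwards [(p3.self_of_nhds.continuousAt.norm.pow 2).eventually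
        (gt_mem_nhds (a := 1 / 2) (by simp [h0]))] with z hz
      rw [L0 _ hz, mul_zero, H0]
    obtain ⟨τ, q1, q2⟩ := swc_arg p3 h0
    have q3 : Sg (fun z => ((f z).2 * Real.smoothTransition (2 * ‖σ (f z).1‖ ^ 2 - 1), τ z)) u := by
      filter_upwards [p2, p3, q1] with z a1 a2 a3
      exact (a1.mul (Real.smoothTransition.contDiffAt.comp z
        ((contDiffAt_const.mul (a2.norm_sq ℝ)).sub contDiffAt_const))).prodMk a3
    refine Dif.congr (hch.sm Z _ _ _ u
      (hc _ (ha.sm ⟨Z, fun z => ((f z).1, -(l * τ z)), u⟩ ⟨p1, q1.mono fun z a1 =>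
        (contDiffAt_const.mul a1).neg⟩))
      (hc _ (ha.sm ⟨Z, fun z => ((f z).1, l * (T ((f z).2 *
        Real.smoothTransition (2 * ‖σ (f z).1‖ ^ 2 - 1), τ z) - τ z)), u⟩
          ⟨p1, (q1.and q3).mono fun z a1 =>
            contDiffAt_const.mul ((h.smT.contDiffAt.comp z a1.2).sub a1.1)⟩))
      (q3.mono fun z a1 => h.smχ.contDiffAt.comp z a1) (hd _ _ _)) (q2.mono ?_)
    rintro z ⟨k, hk⟩
    simp only [hk]
    exact swp_int ha h c _ _ _ k
  have K : ∀ v t, swp ch a l T χ c (a (v, t))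
      (1 * Real.smoothTransition (2 * ‖σ (a (v, t))‖ ^ 2 - 1))
      (Complex.arg (σ (a (v, t))) / (2 * Real.pi)) = swp ch a l T χ c (a (v, t))
        (Real.smoothTransition (2 * ‖σ v‖ ^ 2 - 1))
        (Complex.arg (σ v) / (2 * Real.pi) + t / l) := fun v t => by
    have e1 : (2 * Real.pi * t / l : ℂ) = ((2 * Real.pi * t / l : ℝ) : ℂ) := by push_cast; rfl
    have e2 : ‖σ (a (v, t))‖ = ‖σ v‖ := by
      rw [he, norm_mul, e1, Complex.norm_exp_ofReal_mul_I, one_mul]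
    rw [e2, one_mul]
    by_cases h0 : σ v = 0
    · rw [L0 v (by simp [h0]), H0, H0]
    have h3 := Complex.arg_mul_coe_angle
      (Complex.exp_ne_zero (2 * Real.pi * t / l * Complex.I)) h0
    rw [← he, e1, Complex.arg_exp_mul_I, Real.Angle.coe_toIocMod, ← Real.Angle.coe_add,
      Real.Angle.angle_eq_iff_two_pi_dvd_sub] at h3
    obtain ⟨k, hk⟩ := h3
    rw [← swp_int ha h c _ _ (_ + t / l) k]
    congr 1
    field_simp
    field_simp at hk
    linarith
  have hγ : ∀ v τ, Function.Periodic (fun r => c (a (v, l * (r - τ)))) 1 := fun v τ r => by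
    have := swc_per ha v (l * (r - τ))
    simp only at this ⊢
    rw [← this]
    congr 3
    ring
  have K' : ∀ v t s τ, swp ch a l T χ c (a (v, t)) s (τ + t / l) =
      (fun r => ch (c (a (v, l * (0 - τ)))) (c (a (v, l * (T (s, r) - τ)))) (χ (s, r)))
        (τ + t / l) := fun v t s τ => by
    rw [swp_act ha hl, zero_sub, mul_neg]
  refine ⟨_, sm.comp (smo_slice 𝒟 1), ⟨_, sm, fun v => by simp only [zero_mul, H0], fun v => rfl⟩,
    fun v => ?_, fun v hv t => ?_⟩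
  · simp only [K, K']
    generalize Complex.arg (σ v) / (2 * Real.pi) = τ
    have h1 := swb_scale hl (fun r => c (a (v, l * (r - τ)))) τ
    simp only [add_sub_cancel_left, mul_div_cancel₀ _ hl.ne'] at h1
    rw [swb_shift one_pos (hγ v τ)] at h1
    refine lt_of_le_of_lt ?_ (short v)
    rw [h1]
    refine le_trans (le_of_eq ?_) (h.short hch (hγ v τ) (fun _ _ => hd v _ _)
      (Real.smoothTransition (2 * ‖σ v‖ ^ 2 - 1)))
    rw [← swb_shift one_pos (h.periodic (hγ v τ) _) τ, ← swb_scale hl]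
  · conv_rhs => rw [← ha.zero v]
    simp only [K, K']
    rcases hv with hv | hv
    · rw [Real.smoothTransition.one_of_one_le (by nlinarith)]
      exact (h.const hch (hγ v _) _).trans (h.const hch (hγ v _) _).symm
    · simp only [hv, hch.self]

/-- Loops of length less than `2 D` can be contracted equivariantly. Induction on `N`, or on a
finite set of indices, with `sweep_step` and `SH.trans`. -/
theorem sweep (hch : Chord 𝒟M ch D) (ha : Cir 𝒟 a l) (hl : 0 < l) {N : ℕ} {s : Fin N → X → ℂ}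
    (hs : ∀ i, Smo 𝒟 (Dif.vec ℂ) (s i))
    (he : ∀ i v t, s i (a (v, t)) = Complex.exp (2 * Real.pi * t / l * Complex.I) * s i v)
    (hc : ∀ v, ∃ i, 1 ≤ ‖s i v‖) {c : X → M} (hs : Smo 𝒟 𝒟M c)
    (short : ∀ v, eVariationOn (fun t => c (a (v, t))) (Icc 0 l) < ENNReal.ofReal (2 * D)) :
    ∃ f, SH 𝒟 𝒟M c f ∧ ∀ v t, f (a (v, t)) = f v := by
  have hσ := ‹∀ i, Smo 𝒟 (Dif.vec ℂ) (s i)›
  have key : ∀ S : Finset (Fin N), ∃ f, Smo 𝒟 𝒟M f ∧ SH 𝒟 𝒟M c f ∧
      (∀ v, eVariationOn (fun t => f (a (v, t))) (Icc 0 l) < ENNReal.ofReal (2 * D)) ∧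
      ∀ v, (∃ i ∈ S, 1 ≤ ‖s i v‖) → ∀ t, f (a (v, t)) = f v := by
    intro S
    induction S using Finset.induction_on with
    | empty => exact ⟨c, hs, SH.refl hs, short, fun v hv => by simp at hv⟩
    | insert i S _ ih =>
      obtain ⟨f, h1, h2, h3, h4⟩ := ih
      obtain ⟨f', g1, g2, g3, g4⟩ := sweep_step hch ha hl (hσ i) (he i) h1 h3
      refine ⟨f', g1, h2.trans g2, g3, fun v hv => g4 v ?_⟩
      obtain ⟨j, hj, hv⟩ := hv
      rcases Finset.mem_insert.1 hj with rfl | hj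
      · exact Or.inl hv
      · exact Or.inr (h4 v ⟨j, hj, hv⟩)
  obtain ⟨f, -, h2, -, h4⟩ := key Finset.univ
  exact ⟨f, h2, fun v => h4 v ((hc v).imp fun i hi => ⟨Finset.mem_univ i, hi⟩)⟩

end Vale.Agent.P231C
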