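import Vale.Agent.P231C.GeoDef

/-! Tangent maps and changes of normal coordinates. Tools: `Sm.lg`, `Bl.sp`, `Geo.exp_lg`,
`Bl.lg_exp'`, `Lmap_inv`, `Lmap_bij`, `exists_metric`, `Geo.Lmap_zero` (files P231/Fam, Line, Bi,
P234/Smooth, Glob). `h.toBl`, `h.toGeo` give the structures with `r = D`. -/

open scoped ContDiff Topology
open Filter Set MeasureTheory

noncomputable section

namespace Vale.Agent.P231C

open Vale.Agent.P234 Vale.Agent.P231

variable {M : Type*} [MetricSpace M] [CompactSpace M] {n : ℕ} {e : M → Eu n → M} {D : ℝ}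
variable {Z : Type*} [NormedAddCommGroup Z] [NormedSpace ℝ Z] {f g : Z → M} {ζ ζ' : Z → Eu n}
  {z₀ : Z}

theorem Tm_exp (x : M) (a : Eu n) : Tm e (e x) a = Lmap e x a (e x a) := rfl

theorem BC.Tm_const (h : BC e D) (x : M) (z : Z) : Tm e (fun _ : Z => x) z = 0 := by
  simp [Tm]

theorem Tm_congr (he : g =ᶠ[𝓝 z₀] f) : Tm e g z₀ = Tm e f z₀ := by
  unfold Tm
  rw [he.self_of_nhds]
  exact Filter.EventuallyEq.fderiv_eq (he.mono fun z hz => by simp only [hz])

theorem Tm_comp {W : Type*} [NormedAddCommGroup W] [NormedSpace ℝ W] {k : W → Z} {w : W}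
    (hf : Sm e f (k w)) (hk : DifferentiableAt ℝ k w) :
    Tm e (fun w' => f (k w')) w = (Tm e f (k w)).comp (fderiv ℝ k w) := by
  exact fderiv_comp w (hf.differentiableAt (by simp)) hk

theorem BC.Tm_exp_zero (h : BC e D) (x : M) : Tm e (e x) 0 = ContinuousLinearMap.id ℝ (Eu n) := by
  rw [Tm_exp, h.zero]
  exact h.toGeo.Lmap_zero x

theorem veca_has (h : BC e D) {p q : M} {z : Z}
    (hk : DifferentiableAt ℝ (fun z' => lg e q (f z')) z) (hp : dist p (f z) < D) :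
    HasFDerivAt (fun z' => lg e p (f z'))
      ((Lmap e q (lg e q (f z)) p).comp (fderiv ℝ (fun z' => lg e q (f z')) z)) z := by
  have h1 := (h.toGeo.contDiffAt_lg (h.toBl.sp hp) (h.toGeo.exp_lg q (f z))).differentiableAt
    (by simp)
  have h2 := h1.hasFDerivAt.comp z hk.hasFDerivAt
  simp only [Function.comp_def, h.toGeo.exp_lg] at h2
  exact h2

/-- Chain rule in the chart at `p`. -/
theorem BC.fderiv_chart (h : BC e D) (hf : Sm e f z₀) {p : M} (hd : dist p (f z₀) < D) :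
    fderiv ℝ (fun z => lg e p (f z)) z₀ = (Lmap e (f z₀) 0 p).comp (Tm e f z₀) := by
  have h1 := (veca_has h (ContDiffAt.differentiableAt hf (by simp)) hd).fderiv
  rw [h.toGeo.lg_self] at h1
  exact h1

theorem BC.Tm_chart (h : BC e D) (hf : Sm e f z₀) {p : M} (hd : dist p (f z₀) < D) :
    Tm e f z₀ = (Lmap e p (lg e p (f z₀)) (f z₀)).comp
      (fderiv ℝ (fun z => lg e p (f z)) z₀) := by
  exact (veca_has h ((hf.lg h.toGeo (h.toBl.sp hd)).differentiableAt (by simp))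
    (by rw [dist_self]; exact h.dpos)).fderiv

theorem BC.Lmap_left (h : BC e D) {p x : M} (hd : dist p x < D) (ξ : Eu n) :
    Lmap e x 0 p (Lmap e p (lg e p x) x ξ) = ξ := by
  have h1 := Lmap_inv h.toGeo (h.toBl.lg_mem_inj hd) ξ
  rw [h.toGeo.exp_lg] at h1
  exact h1

theorem BC.Lmap_right (h : BC e D) {p x : M} (hd : dist p x < D) (ξ : Eu n) :
    Lmap e p (lg e p x) x (Lmap e x 0 p ξ) = ξ := by
  have h1 := (Lmap_bij h.toGeo (h.toBl.lg_mem_inj hd)).2
  rw [h.toGeo.exp_lg] at h1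
  obtain ⟨η, rfl⟩ := h1 ξ
  rw [h.Lmap_left hd]

theorem BC.Lmap_trans (h : BC e D) (x : M) (a : Eu n) {p : M} (hd : dist p (e x a) < D) :
    Lmap e x a p = (Lmap e (e x a) 0 p).comp (Lmap e x a (e x a)) := by
  exact h.fderiv_chart (sm_exp h.toGeo x a) hd

theorem BC.sm_of_chart (h : BC e D) {p : M} (hc : ContinuousAt f z₀)
    (hf : ContDiffAt ℝ ∞ (fun z => lg e p (f z)) z₀) : Sm e f z₀ := by
  exact (Sm.comp (sm_exp h.toGeo p _) hf).congr
    (Eventually.of_forall fun z => (h.toGeo.exp_lg p (f z)).symm)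

/-- A smooth map is differentiable in normal coordinates at nearby points. -/
theorem BC.ev_diff (h : BC e D) (hf : Sm e f z₀) :
    ∀ᶠ z in 𝓝 z₀, DifferentiableAt ℝ (fun z' => lg e (f z) (f z')) z ∧
      fderiv ℝ (fun z' => lg e (f z₀) (f z')) z = (Lmap e (f z) 0 (f z₀)).comp (Tm e f z) := by
  have hc := hf.continuousAt h.toGeo
  have h1 : ∀ᶠ z in 𝓝 z₀, dist (f z₀) (f z) < D :=
    (continuousAt_const.dist hc).eventually_lt continuousAt_const
      (by rw [dist_self]; exact h.dpos)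
  filter_upwards [h1, smooth_ev_diff hf] with z hz hd
  have h2 := (veca_has h (p := f z) hd (by rw [dist_self]; exact h.dpos)).differentiableAt
  refine ⟨h2, ?_⟩
  have h3 := (veca_has h h2 hz).fderiv
  rw [h.toGeo.lg_self] at h3
  exact h3

theorem BC.contDiffAt_dist (h : BC e D) (hf : Sm e f z₀) (hg : Sm e g z₀)
    (h0 : 0 < dist (f z₀) (g z₀)) (h1 : dist (f z₀) (g z₀) < D) :
    ContDiffAt ℝ ∞ (fun z => dist (f z) (g z)) z₀ := by
  have h2 : ContDiffAt ℝ ∞ (fun z => 2 * cost (f z) (g z)) z₀ :=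
    contDiffAt_const.mul (hf.cost h.toGeo hg (h.toBl.sp h1))
  have h3 : ∀ x y : M, 2 * cost x y = dist x y ^ 2 := fun x y => by
    unfold cost
    ring
  simp only [h3] at h2
  have h4 := h2.sqrt (by positivity)
  simpa only [Real.sqrt_sq dist_nonneg] using h4

/-- First variation, `jacg2_fv`. -/
theorem BC.fderiv_cost (h : BC e D) (hf : Sm e f z₀) (hg : Sm e g z₀)
    (h1 : dist (f z₀) (g z₀) < D) (w : Z) :
    fderiv ℝ (fun z => cost (f z) (g z)) z₀ w =
      -inner ℝ (lg e (f z₀) (g z₀)) (Tm e f z₀ w) - inner ℝ (lg e (g z₀) (f z₀)) (Tm e g z₀ w) := by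
  have hC : DifferentiableAt ℝ (fun z : Eu n × Eu n => cost (e (f z₀) z.1) (e (g z₀) z.2))
      (lg e (f z₀) (f z₀), lg e (g z₀) (g z₀)) := by
    rw [h.toGeo.lg_self, h.toGeo.lg_self]
    exact ContDiffAt.differentiableAt (h.toBl.sp h1) (by simp)
  have h2 := hC.hasFDerivAt.comp z₀
    ((ContDiffAt.differentiableAt hf (by simp)).hasFDerivAt.prodMk
      (ContDiffAt.differentiableAt hg (by simp)).hasFDerivAt)
  simp only [Function.comp_def, h.toGeo.exp_lg, h.toGeo.lg_self] at h2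
  rw [h2.fderiv]
  exact jacg2_fv h.toGeo h1 _ _

theorem BC.fderiv_dist (h : BC e D) (hf : Sm e f z₀) (hg : Sm e g z₀)
    (h0 : 0 < dist (f z₀) (g z₀)) (h1 : dist (f z₀) (g z₀) < D) (w : Z) :
    fderiv ℝ (fun z => dist (f z) (g z)) z₀ w = -(dist (f z₀) (g z₀))⁻¹ *
      (inner ℝ (lg e (f z₀) (g z₀)) (Tm e f z₀ w) + inner ℝ (lg e (g z₀) (f z₀)) (Tm e g z₀ w)) := by
  have h2 := ((h.contDiffAt_dist hf hg h0 h1).differentiableAt (by simp)).hasFDerivAt
  have h3 := h.fderiv_cost hf hg h1 w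
  have h4 : HasFDerivAt (fun z => cost (f z) (g z))
      (dist (f z₀) (g z₀) • fderiv ℝ (fun z => dist (f z) (g z)) z₀) z₀ := by
    have h5 := (h2.mul h2).const_mul (1 / 2 : ℝ)
    refine (h5.congr_of_eventuallyEq (Eventually.of_forall fun z => ?_)).congr_fderiv ?_
    · simp only [cost, Pi.mul_apply]
      ring
    · ext v
      simp only [smul_apply, add_apply, smul_eq_mul]
      ring
  rw [h4.fderiv, smul_apply, smul_eq_mul] at h3
  have h6 := h0.ne'
  field_simp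
  linarith

/-- Velocity of a geodesic. -/
theorem BC.Tm_ray (h : BC e D) {σ : ℝ → M} {t : ℝ} {w : Eu n}
    (hw : ∀ᶠ s in 𝓝 (0 : ℝ), σ (t + s) = e (σ t) (s • w)) : Tm e σ t 1 = w := by
  have h1 : Tendsto (fun s : ℝ => s • w) (𝓝 0) (𝓝 0) := by
    have h2 : ContinuousAt (fun s : ℝ => s • w) 0 := by fun_prop
    simpa only [ContinuousAt, zero_smul] using h2
  have h2 : Tendsto (fun s : ℝ => s - t) (𝓝 t) (𝓝 0) := by
    have h3 : ContinuousAt (fun s : ℝ => s - t) t := by fun_prop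
    simpa only [ContinuousAt, sub_self] using h3
  have h3 : (fun s => lg e (σ t) (σ s)) =ᶠ[𝓝 t] fun s => (s - t) • w := by
    filter_upwards [h2.eventually (hw.and (h1.eventually (h.toGeo.smooth_ev_lg (σ t))))] with s hs
    rw [← hs.2, ← hs.1, add_sub_cancel]
  have h4 : HasDerivAt (fun s : ℝ => (s - t) • w) ((1 : ℝ) • w) t :=
    ((hasDerivAt_id t).sub_const t).smul_const w
  rw [one_smul] at h4
  exact (h4.congr_of_eventuallyEq h3).deriv

/-- The metric in the chart at `p`. -/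
theorem BC.metric (h : BC e D) (p : M) : ∃ G : Eu n → Eu n →L[ℝ] Eu n →L[ℝ] ℝ, ContDiff ℝ ∞ G ∧
    (∀ a, ‖a‖ < D → ∀ ξ, ξ ≠ 0 → 0 < G a ξ ξ) ∧ (∀ a ξ η, G a ξ η = G a η ξ) ∧
    (∀ ξ η, G 0 ξ η = inner ℝ ξ η) ∧ ∀ x, dist p x < D → ∀ ξ η,
      G (lg e p x) (Lmap e x 0 p ξ) (Lmap e x 0 p η) = inner ℝ ξ η := by
  obtain ⟨G, hG, he⟩ := exists_metric h.toGeo p
  refine ⟨G, hG, fun a ha ξ hξ => ?_, fun a ξ η => ?_, fun ξ η => ?_, fun x hx ξ η => ?_⟩
  · rw [he]
    refine real_inner_self_pos.2 fun h0 => hξ ?_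
    exact (Lmap_bij h.toGeo (h.toBl.mem_inj ha)).1 (h0.trans (map_zero _).symm)
  · rw [he, he, real_inner_comm]
  · rw [he, h.zero, h.toGeo.Lmap_zero]
    rfl
  · rw [he, h.toGeo.exp_lg, h.Lmap_right hx, h.Lmap_right hx]

end Vale.Agent.P231C
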