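import Vale.Agent.P231C.VecA

/-! Smooth vector fields along maps. -/

open scoped ContDiff Topology
open Filter Set MeasureTheory

noncomputable section

namespace Vale.Agent.P231C

open Vale.Agent.P234 Vale.Agent.P231

variable {M : Type*} [MetricSpace M] [CompactSpace M] {n : ℕ} {e : M → Eu n → M} {D : ℝ}
variable {Z : Type*} [NormedAddCommGroup Z] [NormedSpace ℝ Z] {f g : Z → M} {ζ ζ' : Z → Eu n}
  {z₀ : Z}

section Plain

omit [CompactSpace M]

theorem SmV.add (h : SmV e f ζ z₀) (h' : SmV e f ζ' z₀) : SmV e f (fun z => ζ z + ζ' z) z₀ := by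
  simp only [SmV, map_add]
  exact ContDiffAt.add h h'

theorem SmV.smul (h : SmV e f ζ z₀) {c : Z → ℝ} (hc : ContDiffAt ℝ ∞ c z₀) :
    SmV e f (fun z => c z • ζ z) z₀ := by
  simp only [SmV, map_smul]
  exact hc.smul h

theorem SmV.neg (h : SmV e f ζ z₀) : SmV e f (fun z => -ζ z) z₀ := by
  simp only [SmV, map_neg]
  exact ContDiffAt.neg h

theorem SmV.sub (h : SmV e f ζ z₀) (h' : SmV e f ζ' z₀) : SmV e f (fun z => ζ z - ζ' z) z₀ := by
  simp only [SmV, map_sub]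
  exact ContDiffAt.sub h h'

theorem SmV.comp {W : Type*} [NormedAddCommGroup W] [NormedSpace ℝ W] {k : W → Z} {w : W}
    (h : SmV e f ζ (k w)) (hk : ContDiffAt ℝ ∞ k w) :
    SmV e (fun w' => f (k w')) (fun w' => ζ (k w')) w :=
  ContDiffAt.comp (g := fun z => Lmap e (f z) 0 (f (k w)) (ζ z)) w h hk

theorem SmV.congr (h : SmV e f ζ z₀) (he : g =ᶠ[𝓝 z₀] f) (he' : ζ' =ᶠ[𝓝 z₀] ζ) :
    SmV e g ζ' z₀ := by
  unfold SmV
  rw [he.eq_of_nhds]
  refine ContDiffAt.congr_of_eventuallyEq h ?_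
  filter_upwards [he, he'] with z h1 h2
  rw [h1, h2]

theorem BC.smv_const (h : BC e D) (x : M) : SmV e (fun _ : Z => x) ζ z₀ ↔ ContDiffAt ℝ ∞ ζ z₀ := by
  simp only [SmV, h.toGeo.Lmap_zero, ContinuousLinearMap.id_apply]

theorem vecb_self (h : BC e D) (x : M) : dist x x < D := by
  rw [dist_self]; exact h.dpos

end Plain

theorem vecb_ev (h : BC e D) (hf : Sm e f z₀) {p : M} (hd : dist p (f z₀) < D) :
    ∀ᶠ z in 𝓝 z₀, dist p (f z) < D :=
  (continuousAt_const.dist (hf.continuousAt h.toGeo)).eventually (gt_mem_nhds hd)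

theorem vecb_change (h : BC e D) (hf : Sm e f z₀) {p q : M} (hp : dist p (f z₀) < D)
    (hq : dist q (f z₀) < D) (hζ : ContDiffAt ℝ ∞ (fun z => Lmap e (f z) 0 q (ζ z)) z₀) :
    ContDiffAt ℝ ∞ (fun z => Lmap e (f z) 0 p (ζ z)) z₀ := by
  have h1 : ContDiffAt ℝ ∞ (fun a => Lmap e q a p) (lg e q (f z₀)) :=
    (h.toGeo.contDiffAt_lg (h.toBl.sp hp) (h.toGeo.exp_lg q (f z₀))).fderiv_right (by simp)
  refine ((smooth_comp h1 _ z₀ (hf.lg h.toGeo (h.toBl.sp hq)) rfl).clm_apply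
    hζ).congr_of_eventuallyEq ?_
  filter_upwards [vecb_ev h hf hp, vecb_ev h hf hq] with z h2 h3
  have h4 := h.Lmap_trans q (lg e q (f z)) (p := p) (by rwa [h.toGeo.exp_lg])
  rw [h.toGeo.exp_lg] at h4
  rw [h4, ContinuousLinearMap.comp_apply, h.Lmap_right h3]

theorem SmV.chart (hζ : SmV e f ζ z₀) (h : BC e D) (hf : Sm e f z₀) {p : M}
    (hd : dist p (f z₀) < D) : ContDiffAt ℝ ∞ (fun z => Lmap e (f z) 0 p (ζ z)) z₀ :=
  vecb_change h hf hd (vecb_self h _) hζ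

theorem BC.smv_of_chart (h : BC e D) (hf : Sm e f z₀) {p : M} (hd : dist p (f z₀) < D)
    (hζ : ContDiffAt ℝ ∞ (fun z => Lmap e (f z) 0 p (ζ z)) z₀) : SmV e f ζ z₀ :=
  vecb_change h hf (vecb_self h _) hd hζ

theorem BC.smv_lift (h : BC e D) (hf : Sm e f z₀) {p : M} (hd : dist p (f z₀) < D) {k : Z → Eu n}
    (hk : ContDiffAt ℝ ∞ k z₀) : SmV e f (fun z => Lmap e p (lg e p (f z)) (f z) (k z)) z₀ :=
  h.smv_of_chart hf hd (hk.congr_of_eventuallyEq
    ((vecb_ev h hf hd).mono fun _ hz => h.Lmap_left hz _))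

theorem SmV.inner (hζ : SmV e f ζ z₀) (hζ' : SmV e f ζ' z₀) (h : BC e D) (hf : Sm e f z₀) :
    ContDiffAt ℝ ∞ (fun z => inner ℝ (ζ z) (ζ' z)) z₀ := by
  obtain ⟨G, hG, -, -, -, h1⟩ := h.metric (f z₀)
  exact (((smooth_comp hG.contDiffAt _ z₀ hf rfl).clm_apply hζ).clm_apply
    hζ').congr_of_eventuallyEq ((vecb_ev h hf (vecb_self h _)).mono fun z hz => (h1 _ hz _ _).symm)

theorem BC.smv_Tm (h : BC e D) (hf : Sm e f z₀) {w : Z → Z} (hw : ContDiffAt ℝ ∞ w z₀) :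
    SmV e f (fun z => Tm e f z (w z)) z₀ :=
  ((ContDiffAt.fderiv_right (m := ∞) hf (by simp)).clm_apply hw).congr_of_eventuallyEq
    ((h.ev_diff hf).mono fun z hz => (congrArg (fun L : Z →L[ℝ] Eu n => L (w z)) hz.2).symm)

theorem BC.smv_lg (h : BC e D) (hf : Sm e f z₀) (hg : Sm e g z₀) (hd : dist (f z₀) (g z₀) < D) :
    SmV e f (fun z => lg e (f z) (g z)) z₀ := by
  obtain ⟨G, hG, -, -, h0, h1⟩ := h.metric (f z₀)
  obtain ⟨sh, -, hsh⟩ := smooth_sharp (Eu n)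
  have hA : ContDiffAt ℝ ∞ (fun z => sh.comp (G (lg e (f z₀) (f z)))) z₀ :=
    contDiffAt_const.clm_comp (smooth_comp hG.contDiffAt _ z₀ hf rfl)
  have hA0 : sh.comp (G (lg e (f z₀) (f z₀))) = (1 : (Eu n →L[ℝ] Eu n)ˣ) := by
    refine ContinuousLinearMap.ext fun ξ => Eq.trans (congrArg sh ?_) (hsh ξ)
    rw [h.toGeo.lg_self]
    exact ContinuousLinearMap.ext (h0 ξ)
  have hF : ContDiffAt ℝ ∞ (fun q : Z × Eu n => cost (e (f z₀) q.2) (g q.1))
      (z₀, lg e (f z₀) (f z₀)) :=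
    Sm.cost h.toGeo (Sm.comp (k := Prod.snd) (sm_exp h.toGeo _ _) contDiffAt_snd)
      (Sm.comp (k := Prod.fst) hg contDiffAt_fst) (h.toBl.sp (by rwa [h.toGeo.exp_lg]))
  have hΦ := ContDiffAt.fderiv (m := ∞) (f := fun z a => cost (e (f z₀) a) (g z)) hF hf (by simp)
  refine ((smooth_comp (contDiffAt_ringInverse ℝ 1) _ z₀ hA hA0).clm_apply
    (sh.contDiff.contDiffAt.comp z₀ hΦ.neg)).congr_of_eventuallyEq ?_
  have hu : ∀ᶠ z in 𝓝 z₀, IsUnit (sh.comp (G (lg e (f z₀) (f z)))) :=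
    hA.continuousAt.eventually (Units.isOpen.mem_nhds ⟨1, hA0.symm⟩)
  filter_upwards [hu, vecb_ev h hf (vecb_self h _), ((hf.continuousAt h.toGeo).dist
    (hg.continuousAt h.toGeo)).eventually (gt_mem_nhds hd)] with z h2 h3 h4
  have h5 : -fderiv ℝ (fun a => cost (e (f z₀) a) (g z)) (lg e (f z₀) (f z)) =
      G (lg e (f z₀) (f z)) (Lmap e (f z) 0 (f z₀) (lg e (f z) (g z))) := by
    refine ContinuousLinearMap.ext fun η => ?_
    have h6 := h.fderiv_cost (sm_exp h.toGeo (f z₀) (lg e (f z₀) (f z)))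
      (sm_const h.toGeo (g z) _) (by rwa [h.toGeo.exp_lg]) η
    rw [h.Tm_const, Tm_exp, h.toGeo.exp_lg] at h6
    rw [neg_apply, h6, ← h1 _ h3, h.Lmap_left h3]
    simp
  have h7 := congrArg (fun L : Eu n →L[ℝ] Eu n => L (Lmap e (f z) 0 (f z₀) (lg e (f z) (g z))))
    (Ring.inverse_mul_cancel _ h2)
  rw [Function.comp_apply, h5]
  exact h7.symm

theorem SmV.integral [FiniteDimensional ℝ Z] (h : BC e D) (hf : Sm e f z₀) {ζ : Z × ℝ → Eu n}
    {a b : ℝ} (hζ : ∀ t ∈ uIcc a b, SmV e (fun p : Z × ℝ => f p.1) ζ (z₀, t)) :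
    SmV e f (fun z => ∫ t in a..b, ζ (z, t)) z₀ := by
  refine (contDiffAt_par (f := fun p : Z × ℝ => Lmap e (f p.1) 0 (f z₀) (ζ p))
    hζ).congr_of_eventuallyEq ((vecb_ev h hf (vecb_self h _)).mono fun z hz => ?_)
  have h1 := fun μ : Measure ℝ => (ContinuousLinearEquiv.equivOfInverse _ _ (h.Lmap_right hz)
    (h.Lmap_left hz)).integral_comp_comm (μ := μ) fun t => ζ (z, t)
  simp only [intervalIntegral, map_sub]
  exact congrArg₂ _ (h1 _).symm (h1 _).symm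

/-- Derivative in the last variable. -/
theorem BC.smv_deriv (h : BC e D) {F : Z × ℝ → M} {t : ℝ} (hF : Sm e F (z₀, t)) :
    SmV e (fun z => F (z, t)) (fun z => deriv (fun s => lg e (F (z, t)) (F (z, s))) t) z₀ := by
  have hk : ContDiffAt ℝ ∞ (fun z : Z => (z, t)) z₀ := contDiffAt_id.prodMk contDiffAt_const
  refine (SmV.comp (k := fun z => (z, t)) (h.smv_Tm hF (w := fun _ => (0, 1)) contDiffAt_const)
    hk).congr EventuallyEq.rfl ((hk.continuousAt.eventually (h.ev_diff hF)).mono fun z hz => ?_)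
  exact (hz.1.hasFDerivAt.comp_hasDerivAt t
    ((hasDerivAt_const t z).prodMk (hasDerivAt_id t))).deriv

theorem BC.Tm_slice (h : BC e D) {F : Z × ℝ → M} {t : ℝ} (hF : Sm e F (z₀, t)) :
    Tm e (fun s => F (z₀, s)) t 1 = Tm e F (z₀, t) (0, 1) :=
  ((h.ev_diff hF).self_of_nhds.1.hasFDerivAt.comp_hasDerivAt t
    ((hasDerivAt_const t z₀).prodMk (hasDerivAt_id t))).deriv

end Vale.Agent.P231C
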