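import Vale.Agent.P231C.WinB
import Vale.Agent.P231C.LamX
import Vale.Agent.P231C.LamS

/-! The Liouville form in normal coordinates. -/

open scoped ContDiff Topology
open Filter Set MeasureTheory

noncomputable section

namespace Vale.Agent.P231C

open Vale.Agent.P234 Vale.Agent.P231

variable {M : Type*} [MetricSpace M] [CompactSpace M] {n : ℕ} {e : M → Eu n → M} {D : ℝ}

theorem vola_norm {w : Eu n} (hw : w ≠ 0) :
    HasFDerivAt (fun a : Eu n => ‖a‖) (innerSL ℝ (‖w‖⁻¹ • w)) w := by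
  have h0 : 0 < ‖w‖ := norm_pos_iff.2 hw
  have h1 := (hasStrictFDerivAt_norm_sq w).hasFDerivAt.sqrt (by positivity)
  simp only [Real.sqrt_sq (norm_nonneg _)] at h1
  refine h1.congr_fderiv (ContinuousLinearMap.ext fun v => ?_)
  simp only [_root_.smul_apply, innerSL_apply_apply, smul_eq_mul, real_inner_smul_left,
    nsmul_eq_mul]
  field_simp
  norm_num

theorem vola_snd {A B C : Type*} [NormedAddCommGroup A] [NormedSpace ℝ A] [NormedAddCommGroup B]
    [NormedSpace ℝ B] [NormedAddCommGroup C] [NormedSpace ℝ C] {G : A × B → C} {a : A} {b : B}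
    (hG : DifferentiableAt ℝ G (a, b)) {k : B → C} {k' : B →L[ℝ] C} (hk : HasFDerivAt k k' b)
    (he : (fun b' => G (a, b')) =ᶠ[𝓝 b] k) (v : B) : fderiv ℝ G (a, b) (0, v) = k' v := by
  have h1 := hG.hasFDerivAt.comp b (hasFDerivAt_prodMk_right (𝕜 := ℝ) a b)
  exact congrArg (fun L : B →L[ℝ] C => L v) (h1.unique (hk.congr_of_eventuallyEq he))

theorem vola_app {A : Type*} [NormedAddCommGroup A] [NormedSpace ℝ A] {μ : A → A →L[ℝ] ℝ} {u : A}
    (h : DifferentiableAt ℝ μ u) (v w : A) :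
    fderiv ℝ μ u v w = fderiv ℝ (fun z => μ z w) u v := by
  rw [fderiv_clm_apply h (differentiableAt_const w)]
  simp

theorem vola_deriv (hD : 0 < D) {t : ℝ} (ht : t < D / 8 ∨ D / 4 < t) : deriv (cut D) t = 0 := by
  rcases ht with h | h
  · have h1 : cut D =ᶠ[𝓝 t] fun _ => 0 :=
      (eventually_lt_nhds h).mono fun s hs => (cut_cut hD).zero s hs.le
    rw [h1.deriv_eq, deriv_const]
  · have h1 : cut D =ᶠ[𝓝 t] fun _ => 1 :=
      (eventually_gt_nhds h).mono fun s hs => (cut_cut hD).one s hs.le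
    rw [h1.deriv_eq, deriv_const]

theorem vola_fst (h : BC e D) (x : M) (p : Eu n × Eu n) :
    h.DM.P ⟨(FS.euc n).prod (FS.euc n), fun a => e x a.1, p⟩ :=
  h.smo_exp0 x ⟨(FS.euc n).prod (FS.euc n), fun a => a.1, p⟩ (sg_of_contDiff contDiff_fst _)

theorem vola_sn (h : BC e D) (x : M) (p : Eu n × Eu n) :
    h.DM.P ⟨(FS.euc n).prod (FS.euc n), fun a => e x a.2, p⟩ :=
  h.smo_exp0 x ⟨(FS.euc n).prod (FS.euc n), fun a => a.2, p⟩ (sg_of_contDiff contDiff_snd _)

omit [CompactSpace M] in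
theorem vola_dist (h : BC e D) (x : M) {b : Eu n} (hb : ‖b‖ ≤ D) :
    dist (e x 0) (e x b) = ‖b‖ := by
  rw [h.zero, h.min x b hb]

/-- The contact form in the plot. -/
def vola_Mu (h : BC e D) (z₀ : XT M D) (x : M) (p : Eu n × Eu n) : Eu n × Eu n →L[ℝ] ℝ :=
  (innerSL ℝ (vel e (h.kp z₀ (e x p.1, e x p.2)))).comp
    (Tm e (fun z : Eu n × Eu n => ev (h.kp z₀ (e x z.1, e x z.2))) p)

theorem vola_pos (h : BC e D) (x : M) {p : Eu n × Eu n} (hp : 0 < dist (e x p.1) (e x p.2)) :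
    ∀ᶠ z : Eu n × Eu n in 𝓝 p, 0 < dist (e x z.1) (e x z.2) :=
  continuousAt_const.eventually_lt
    ((h.plot_cont (vola_fst h x p)).dist (h.plot_cont (vola_sn h x p))) hp

theorem vola_mu (h : BC e D) (z₀ : XT M D) (x : M) {p : Eu n × Eu n}
    (hp : 0 < dist (e x p.1) (e x p.2)) (v : Eu n × Eu n) :
    vola_Mu h z₀ x p v = inner ℝ ((dist (e x p.1) (e x p.2))⁻¹ • lg e (e x p.1) (e x p.2))
      (Tm e (e x) p.1 v.1) := by
  have h1 : (fun z : Eu n × Eu n => ev (h.kp z₀ (e x z.1, e x z.2))) =ᶠ[𝓝 p] fun z => e x z.1 :=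
    (vola_pos h x hp).mono fun z hz => h.ev_kp z₀ hz
  rw [vola_Mu, Tm_congr h1, h.vel_kp z₀ hp, Tm_comp (f := e x) (k := fun z : Eu n × Eu n => z.1)
    (sm_exp h.toGeo x p.1) differentiableAt_fst, fderiv_fst]
  rfl

theorem vola_mu0 (h : BC e D) (z₀ : XT M D) (x : M) {b : Eu n} (h0 : 0 < ‖b‖) (h1 : ‖b‖ < D)
    (v : Eu n × Eu n) : vola_Mu h z₀ x (0, b) v = inner ℝ (‖b‖⁻¹ • b) v.1 := by
  have h2 := vola_dist h x h1.le
  rw [vola_mu h z₀ x (p := (0, b)) (by rw [h2]; exact h0)]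
  simp only []
  rw [h2, h.Tm_exp_zero, h.zero, h.toBl.lg_exp' h1]
  rfl

/-- If `‖w‖ < D / 8` or `D / 4 < ‖w‖` both sides vanish (`cX_zero`). Otherwise apply
`top_contact` with `u = ‖w‖⁻¹ • w`, `t = ‖w‖`, `c = deriv (cut D) ‖w‖`: for the plot
`F a = kp (e x a.1, e x a.2)` one has `loc lam F a = io (μ a)` (`loc_lam`), with
`μ a (0, b) = 0` for all `a` near `(0, w)`, `μ (0, b) (a', b') = ⟪‖b‖⁻¹ • b, a'⟫`
(`vel_kp`, `Tm_exp_zero`), and `dist (e x 0) (e x b) = ‖b‖`; use `evl_dd_io`. -/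
theorem BC.top_liou {N : ℕ} {e : M → Eu (N + 1) → M} (h : BC e D) (z₀ : XT M D) :
    ∃ σ : ℝ, |σ| = 1 ∧ ∀ (x : M) (w : Eu (N + 1)), ‖w‖ ≤ D →
      top (eb2 (N + 1)) (loc (h.OmX z₀ (h.lam * dx h.lam ^ N))
        ((FS.euc (N + 1)).prod (FS.euc (N + 1))) (fun a => (e x a.1, e x a.2)) (0, w)) =
      σ * deriv (cut D) ‖w‖ * N.factorial * ‖w‖⁻¹ ^ N := by
  obtain ⟨σ, hσ, H⟩ := top_contact N
  refine ⟨σ, hσ, fun x w hw => ?_⟩
  have hD := h.dpos
  have hf := vola_fst h x (0, w)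
  have hg := vola_sn h x (0, w)
  have hd : dist (e x 0) (e x w) = ‖w‖ := vola_dist h x hw
  rw [h.loc_OmX z₀ _ hf hg]
  by_cases hc : ‖w‖ < D / 8 ∨ D / 4 < ‖w‖
  · rw [(h.cX_zero hf hg (by rw [← hd] at hc; exact hc)).self_of_nhds, zero_mul, top, lamt_zero,
      vola_deriv hD hc]
    ring
  rw [not_or, not_lt, not_lt] at hc
  have h0 : 0 < ‖w‖ := by linarith [hc.1]
  have h1 : ‖w‖ < D := by linarith [hc.2]
  have hw0 : w ≠ 0 := norm_pos_iff.1 h0
  have hp : 0 < dist (e x 0) (e x w) := by rw [hd]; exact h0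
  have hF := h.plot_kp z₀ hf hg hp (by rw [← hd] at h1; exact h1)
  have hμ : DifferentiableAt ℝ (vola_Mu h z₀ x) (0, w) :=
    (h.contDiffAt_lam hF).differentiableAt (by simp)
  have hb : ∀ᶠ b : Eu (N + 1) in 𝓝 w, 0 < ‖b‖ ∧ ‖b‖ < D :=
    (continuousAt_const.eventually_lt continuous_norm.continuousAt h0).and
      (continuous_norm.continuousAt.eventually_lt continuousAt_const h1)
  have hz : ∀ (v : Eu (N + 1) × Eu (N + 1)) (b : Eu (N + 1)),
      fderiv ℝ (vola_Mu h z₀ x) (0, w) v (0, b) = 0 := by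
    intro v b
    have h2 : (fun z => vola_Mu h z₀ x z (0, b)) =ᶠ[𝓝 (0, w)] fun _ => 0 :=
      (vola_pos h x (p := (0, w)) hp).mono fun z hz => by
        simp only [vola_mu h z₀ x hz, map_zero, inner_zero_right]
    rw [vola_app hμ, h2.fderiv_eq]
    simp
  have e1 : cX D (Z := (FS.euc (N + 1)).prod (FS.euc (N + 1))) (fun a => e x a.1)
      (fun a => e x a.2) (0, w) = io (Z := (FS.euc (N + 1)).prod (FS.euc (N + 1)))
        (((fderiv ℝ (fun z : Eu (N + 1) × Eu (N + 1) => cut D (dist (e x z.1) (e x z.2)))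
          (0, w)).comp (ContinuousLinearMap.inl ℝ _ _)).comp (ContinuousLinearMap.fst ℝ _ _) +
          deriv (cut D) ‖w‖ • (innerSL ℝ (‖w‖⁻¹ • w)).comp (ContinuousLinearMap.snd ℝ _ _)) := by
    rw [cX]
    congr 1
    refine ContinuousLinearMap.ext fun v => ?_
    have h2 := vola_snd (G := fun z : Eu (N + 1) × Eu (N + 1) => cut D (dist (e x z.1) (e x z.2)))
      ((h.sg_cut hf hg).self_of_nhds.differentiableAt (by simp))
      ((((cut_cut hD).sm.differentiable (by simp)) ‖w‖).hasDerivAt.comp_hasFDerivAt w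
        (vola_norm hw0)) (hb.mono fun b hb => by
          simp only [vola_dist h x hb.2.le]
          rfl) v.2
    have h3 : v = (v.1, 0) + (0, v.2) := by simp
    conv_lhs => rw [h3, map_add, h2]
    rfl
  have e2 : loc h.lam ((FS.euc (N + 1)).prod (FS.euc (N + 1)))
      (fun z => h.kp z₀ (e x z.1, e x z.2)) =ᶠ[𝓝 (0, w)] fun z => io (vola_Mu h z₀ x z) :=
    (h.DX.ev hF).mono fun z hz => h.loc_lam hz
  have e3 : vola_Mu h z₀ x (0, w) =
      (innerSL ℝ (‖w‖⁻¹ • w)).comp (ContinuousLinearMap.fst ℝ _ _) :=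
    ContinuousLinearMap.ext fun v => vola_mu0 h z₀ x h0 h1 v
  rw [loc_mul, loc_pow _ _ hF, loc_dx _ hF, dd_congr e2, e2.self_of_nhds, e1]
  simp only []
  rw [e3]
  refine H _ _ _ _ _ (norm_smul_inv_norm hw0) h0.ne'
    (dd_mem (Eventually.of_forall fun z => io_mem _)) (fun a b => ?_) fun a b => ?_
  · rw [evl_dd_io hμ, hz, hz, sub_zero]
  · have h2 := ((hasDerivAt_inv h0.ne').comp_hasFDerivAt w (vola_norm hw0)).mul
      (innerSL ℝ a).hasFDerivAt
    rw [evl_dd_io hμ, hz, sub_zero, vola_app hμ, vola_snd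
      (G := fun z => vola_Mu h z₀ x z (a, 0)) (hμ.clm_apply (differentiableAt_const _)) h2
      (hb.mono fun b hb => by
        simp only [vola_mu0 h z₀ x hb.1 hb.2, real_inner_smul_left, real_inner_comm a b]
        rfl)]
    simp only [_root_.add_apply, _root_.smul_apply, innerSL_apply_apply, smul_eq_mul,
      real_inner_smul_left, Function.comp_apply, real_inner_comm a b, real_inner_comm a w]
    field_simp
    ring

omit [CompactSpace M] in
/-- `integral_fun_norm_addHaar`, `EuclideanSpace.volume_ball` (see `toSphere_univ`). -/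
theorem integral_cut (N : ℕ) (hD : 0 < D) :
    ∫ w : Eu (N + 1), deriv (cut D) ‖w‖ * ‖w‖⁻¹ ^ N = sphA (N + 1) := by
  have hm : Module.finrank ℝ (Eu (N + 1)) = N + 1 := finrank_euclideanSpace_fin
  have h1 := integral_fun_norm_addHaar (volume : Measure (Eu (N + 1)))
    (fun t : ℝ => deriv (cut D) t * t⁻¹ ^ N)
  have h2 : ∫ y in Ioi (0 : ℝ), y ^ (N + 1 - 1) • (deriv (cut D) y * y⁻¹ ^ N) =
      ∫ y in Ioi (0 : ℝ), deriv (cut D) y := by
    refine setIntegral_congr_fun measurableSet_Ioi fun y hy => ?_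
    have h3 : y ≠ 0 := ne_of_gt hy
    simp only [Nat.add_sub_cancel, smul_eq_mul]
    rw [mul_left_comm, ← mul_pow, mul_inv_cancel₀ h3, one_pow, mul_one]
  have hs := (cut_cut hD).sm
  have h3 : ∫ y in Ioi (0 : ℝ), deriv (cut D) y = 1 - cut D 0 := by
    refine integral_Ioi_of_hasDerivAt_of_tendsto' (fun y _ =>
      (hs.differentiable (by simp) y).hasDerivAt) ?_ ?_
    · refine ((hs.continuous_deriv (by simp)).integrable_of_hasCompactSupport ?_).integrableOn
      refine HasCompactSupport.intro (isCompact_Icc (a := D / 8) (b := D / 4)) fun y hy => ?_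
      refine vola_deriv hD ?_
      by_contra hc
      rw [not_or, not_lt, not_lt] at hc
      exact hy hc
    · exact tendsto_const_nhds.congr' ((eventually_ge_atTop (D / 4)).mono fun y hy =>
        ((cut_cut hD).one y hy).symm)
  rw [h1, hm, h2, h3, (cut_cut hD).zero 0 (by positivity), Measure.real,
    InnerProductSpace.volume_ball, hm, ENNReal.ofReal_one, one_pow, one_mul,
    ENNReal.toReal_ofReal (div_pos (pow_pos (Real.sqrt_pos.2 Real.pi_pos) _)
      (Real.Gamma_pos_of_pos (by positivity))).le, sphA, sub_zero, smul_eq_mul, mul_one,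
    nsmul_eq_mul]

/-- `Bl.area` with `f = 1`, `continuous_jac`. -/
theorem BC.integral_jac [MeasurableSpace M] [BorelSpace M] (h : BC e D) (p₀ : M) :
    ∫ a in Metric.ball (0 : Eu n) D, jac (T := fun _ => Eu n) e p₀ a =
      (μHE[n] (univ : Set M)).toReal := by
  have h1 := h.toBl.area p₀ (f := fun _ => 1) measurable_const
  simp only [finrank_euclideanSpace_fin, one_mul, lintegral_const] at h1
  rw [h1]
  exact integral_eq_lintegral_of_nonneg_ae
    (Eventually.of_forall fun a => LinearMap.normDet_nonneg _)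
    (continuous_jac h.toGeo p₀).aestronglyMeasurable

end Vale.Agent.P231C
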