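import Vale.Agent.P231C.WinA

/-! Forms on pairs of points; integration on the unit tangent bundle. -/

open scoped ContDiff Topology
open Filter Set MeasureTheory

noncomputable section

namespace Vale.Agent.P231C

open Vale.Agent.P234 Vale.Agent.P231

variable {M : Type*} [MetricSpace M] [CompactSpace M] {n : ℕ} {e : M → Eu n → M} {D : ℝ}

/-- The form `d (cut dist) * kp^* w` on `M × M`. -/
def BC.OmX (h : BC e D) (z₀ : XT M D) (w : RF h.DX) : RF (h.DM.prod h.DM) := fun p =>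
  cX D (fun z => (p.1.f z).1) (fun z => (p.1.f z).2) p.1.u *
    loc w p.1.Z (fun z => h.kp z₀ (p.1.f z)) p.1.u

variable {Z : FS} {f g : Z → M} {u : Z}

theorem winb_const (h : BC e D) (hf : ContinuousAt f u) (hg : ContinuousAt g u)
    (hd : dist (f u) (g u) < D / 8 ∨ D / 4 < dist (f u) (g u)) :
    ∃ c : ℝ, (fun z => cut D (dist (f z) (g z))) =ᶠ[𝓝 u] fun _ => c := by
  rcases hd with hd | hd
  · exact ⟨0, ((hf.dist hg).eventually_lt_const hd).mono fun z hz =>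
      (cut_cut h.dpos).zero _ hz.le⟩
  · exact ⟨1, ((hf.dist hg).eventually_const_lt hd).mono fun z hz =>
      (cut_cut h.dpos).one _ hz.le⟩

theorem winb_mid (h : BC e D) (t : ℝ) : (t < D / 8 ∨ D / 4 < t) ∨ 0 < t ∧ t < D := by
  have h0 := h.dpos
  rcases lt_or_ge t (D / 8) with h1 | h1
  · exact Or.inl (Or.inl h1)
  rcases lt_or_ge (D / 4) t with h2 | h2
  · exact Or.inl (Or.inr h2)
  · exact Or.inr ⟨by linarith, by linarith⟩

/-- Locally constant where the distance is less than `D / 8` or more than `D / 4`. -/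
theorem BC.sg_cut (h : BC e D) (hf : h.DM.P ⟨Z, f, u⟩) (hg : h.DM.P ⟨Z, g, u⟩) :
    Sg (fun z => cut D (dist (f z) (g z))) u := by
  filter_upwards [hf, hg] with z h1 h2
  rcases winb_mid h (dist (f z) (g z)) with hd | hd
  · obtain ⟨c, hc⟩ := winb_const h (Sm.continuousAt h.toGeo h1) (Sm.continuousAt h.toGeo h2) hd
    exact contDiffAt_const.congr_of_eventuallyEq hc
  · exact (cut_cut h.dpos).sm.contDiffAt.comp z (h.contDiffAt_dist h1 h2 hd.1 hd.2)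

theorem BC.cX_zero (h : BC e D) (hf : h.DM.P ⟨Z, f, u⟩) (hg : h.DM.P ⟨Z, g, u⟩)
    (hd : dist (f u) (g u) < D / 8 ∨ D / 4 < dist (f u) (g u)) : ∀ᶠ z in 𝓝 u, cX D f g z = 0 :=
  let ⟨_, hc⟩ := winb_const h (h.plot_cont hf) (h.plot_cont hg) hd
  hc.eventuallyEq_nhds.mono fun z hz => by
    rw [cX, hz.fderiv_eq, fderiv_fun_const, Pi.zero_apply, map_zero]

theorem winb_cases (h : BC e D) (z₀ : XT M D) (hf : h.DM.P ⟨Z, f, u⟩) (hg : h.DM.P ⟨Z, g, u⟩) :
    (∀ᶠ z in 𝓝 u, cX D f g z = 0) ∨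
      0 < dist (f u) (g u) ∧ h.DX.P ⟨Z, fun z => h.kp z₀ (f z, g z), u⟩ :=
  (winb_mid h _).imp (h.cX_zero hf hg) fun hd => ⟨hd.1, h.plot_kp z₀ hf hg hd.1 hd.2⟩

theorem winb_sm (h : BC e D) (hf : h.DM.P ⟨Z, f, u⟩) (hg : h.DM.P ⟨Z, g, u⟩) :
    ContDiffAt ℝ ∞ (cX D f g) u :=
  cd_io ((h.sg_cut hf hg).self_of_nhds.fderiv_right (by exact_mod_cast le_top))

theorem winb_dd (h : BC e D) (hf : h.DM.P ⟨Z, f, u⟩) (hg : h.DM.P ⟨Z, g, u⟩) :
    dd (cX D f g) u = 0 :=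
  dd_dfun ((h.sg_cut hf hg).self_of_nhds.of_le (WithTop.coe_le_coe.2 (le_top : (2 : ℕ∞) ≤ ⊤)))

theorem BC.loc_OmX (h : BC e D) (z₀ : XT M D) (w : RF h.DX) (hf : h.DM.P ⟨Z, f, u⟩)
    (hg : h.DM.P ⟨Z, g, u⟩) : loc (h.OmX z₀ w) Z (fun z => (f z, g z)) u =
      cX D f g u * loc w Z (fun z => h.kp z₀ (f z, g z)) u := loc_eq (𝒟 := h.DM.prod h.DM) _ ⟨hf, hg⟩

theorem winb_loc (h : BC e D) (z₀ : XT M D) (w : RF h.DX) {F : Z → M × M}
    (hF : (h.DM.prod h.DM).P ⟨Z, F, u⟩) : loc (h.OmX z₀ w) Z F u =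
      cX D (fun z => (F z).1) (fun z => (F z).2) u * loc w Z (fun z => h.kp z₀ (F z)) u :=
  loc_eq _ hF

theorem BC.fm_OmX (h : BC e D) (z₀ : XT M D) {w : RF h.DX} {k : ℕ} (hw : Fm k w) :
    Fm (k + 1) (h.OmX z₀ w) := by
  refine ⟨fun p => add_comm 1 k ▸ dg_mul (io_mem _) (hw.loc_mem _ _ _),
    fun Z F u hF => difa_sm hF (fun _ h' => winb_loc h z₀ w h') ?_,
    fun Z W F r v F' hF hr he => ?_⟩
  · rcases winb_cases h z₀ hF.1 hF.2 with h1 | h1
    · exact (contDiffAt_const (c := 0)).congr_of_eventuallyEq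
        (h1.mono fun z hz => by simp only [hz, zero_mul])
    · exact cd_mul (winb_sm h hF.1 hF.2) (hw.sm _ _ _ h1.2)
  · have h0 : cX D (fun z => (F' z).1) (fun z => (F' z).2) v =
        pb (fderiv ℝ r v) (cX D (fun z => (F z).1) (fun z => (F z).2) (r v)) := by
      have h2 : (fun z => cut D (dist (F' z).1 (F' z).2)) =ᶠ[𝓝 v]
          (fun z => cut D (dist (F z).1 (F z).2)) ∘ r :=
        he.mono fun _ hz => congrArg (fun q : M × M => cut D (dist q.1 q.2)) hz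
      rw [cX, cX, pb_io, h2.fderiv_eq, fderiv_comp v
        ((h.sg_cut hF.1 hF.2).self_of_nhds.differentiableAt (by simp))
        (hr.self_of_nhds.differentiableAt (by simp))]
    rw [winb_loc h z₀ w hF, winb_loc h z₀ w ((h.DM.prod h.DM).comp hF hr he), map_mul, h0]
    rcases winb_cases h z₀ hF.1 hF.2 with h1 | h1
    · rw [h1.self_of_nhds, map_zero, zero_mul, zero_mul]
    · rw [hw.nat Z W _ r v _ h1.2 hr (he.mono fun _ hz => congrArg (h.kp z₀) hz)]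

theorem BC.dx_OmX (h : BC e D) (z₀ : XT M D) {w : RF h.DX} {k : ℕ} (hw : Fm k w) :
    dx (h.OmX z₀ w) = -h.OmX z₀ (dx w) := by
  refine rf_ext fun Z F u hF => ?_
  rw [loc_dx _ hF, loc_neg, winb_loc h z₀ _ hF,
    dd_congr (((h.DM.prod h.DM).ev hF).mono fun _ h' => winb_loc h z₀ w h')]
  rcases winb_cases h z₀ hF.1 hF.2 with h1 | h1
  · rw [dd_congr (ψ := fun _ => 0) (h1.mono fun z hz => by simp only [hz, zero_mul]), dd_const,
      h1.self_of_nhds, zero_mul, neg_zero]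
  · rw [dd_mul ((winb_sm h hF.1 hF.2).differentiableAt (by simp))
      ((hw.sm _ _ _ h1.2).differentiableAt (by simp)) (io_mem _), winb_dd h hF.1 hF.2, zero_mul,
      zero_add, pow_one, neg_one_smul, loc_dx w h1.2]

theorem BC.OmX_mul (h : BC e D) (z₀ : XT M D) {φ : RF h.DM} {k : ℕ} (hφ : Fm k φ) (w : RF h.DX) :
    h.OmX z₀ (pull h.smo_ev φ * w) =
      (-1 : ℝ) ^ k • (pull (smo_fst h.DM h.DM) φ * h.OmX z₀ w) := by
  refine rf_ext fun Z F u hF => ?_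
  rw [loc_smul, loc_mul, winb_loc h z₀ _ hF, winb_loc h z₀ _ hF, loc_mul, loc_pull _ _ hF]
  rcases winb_cases h z₀ hF.1 hF.2 with h1 | h1
  · simp only [h1.self_of_nhds, zero_mul, mul_zero, smul_zero]
  · rw [loc_pull _ _ h1.2, hφ.loc_congr hF.1 ((((h.plot_cont hF.1).dist
      (h.plot_cont hF.2)).eventually_const_lt h1.1).mono fun z hz => h.ev_kp z₀ hz),
      ← mul_assoc, ← mul_assoc, cX, lama_comm _ (hφ.loc_mem _ _ _), smul_mul_assoc]

theorem BC.OmX_smul (h : BC e D) (z₀ : XT M D) (c : ℝ) (w : RF h.DX) :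
    h.OmX z₀ (c • w) = c • h.OmX z₀ w := by
  refine rf_ext fun Z F u hF => ?_
  rw [loc_smul, winb_loc h z₀ _ hF, winb_loc h z₀ _ hF, loc_smul, mul_smul_comm]

theorem winb_p1 (h : BC e D) (p₀ : M) (a : Eu n × Eu n) :
    h.DM.P ⟨(FS.euc n).prod (FS.euc n), fun a => EE e D p₀ a.1, a⟩ :=
  Eventually.of_forall fun z => (h.sm_EE p₀ z.1).comp contDiffAt_fst

theorem winb_p2 (h : BC e D) (p₀ : M) (a : Eu n × Eu n) :
    h.DM.P ⟨(FS.euc n).prod (FS.euc n), fun a => EE e D p₀ a.2, a⟩ :=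
  Eventually.of_forall fun z => (h.sm_EE p₀ z.2).comp contDiffAt_snd

theorem BC.IX_eq (h : BC e D) (p₀ : M) (z₀ : XT M D) (w : RF h.DX) :
    h.IX p₀ z₀ w = ∫ a : Eu n × Eu n, top (eb2 n) (loc (h.OmX z₀ w) ((FS.euc n).prod (FS.euc n))
      (fun a => (EE e D p₀ a.1, EE e D p₀ a.2)) a) := integral_congr_ae <|
  Eventually.of_forall fun a =>
    congrArg (top (eb2 n)) (h.loc_OmX z₀ w (winb_p1 h p₀ a) (winb_p2 h p₀ a)).symm

theorem winb_rank {W : Type*} [NormedAddCommGroup W] [NormedSpace ℝ W] [FiniteDimensional ℝ W]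
    (A B : W →L[ℝ] W) (A' B' : Z →L[ℝ] W) :
    Module.finrank ℝ (LinearMap.range ((A.comp A').prod (B.comp B')).toLinearMap) ≤
      Module.finrank ℝ (LinearMap.range A.toLinearMap) +
        Module.finrank ℝ (LinearMap.range B.toLinearMap) := by
  have h1 : LinearMap.range ((A.comp A').prod (B.comp B')).toLinearMap ≤
      (LinearMap.range A.toLinearMap).map (LinearMap.inl ℝ W W) ⊔
        (LinearMap.range B.toLinearMap).map (LinearMap.inr ℝ W W) := by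
    rintro _ ⟨z, rfl⟩
    refine Submodule.mem_sup.2 ⟨_, ⟨_, ⟨A' z, rfl⟩, rfl⟩, _, ⟨_, ⟨B' z, rfl⟩, rfl⟩, ?_⟩
    simp
  exact (Submodule.finrank_mono h1).trans
    ((Submodule.finrank_add_le_finrank_add_finrank _ _).trans
      (add_le_add (Submodule.finrank_map_le _ _) (Submodule.finrank_map_le _ _)))

/-- `loc_chart2`, `rank_EE`, `pb_eq_zero`. -/
theorem BC.loc_EE2 (h : BC e D) (p₀ : M) {φ : RF (h.DM.prod h.DM)} {k : ℕ} (hφ : Fm k φ)
    (hk : 2 * n - 1 ≤ k) {a : Eu n × Eu n} (ha : D < ‖a.1‖ ∨ D < ‖a.2‖) :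
    loc φ ((FS.euc n).prod (FS.euc n)) (fun a => (EE e D p₀ a.1, EE e D p₀ a.2)) a = 0 := by
  rw [h.loc_chart2 (winb_p1 h p₀ a) (winb_p2 h p₀ a) hφ]
  refine pb_eq_zero _ (hφ.loc_mem _ _ _) ?_
  rw [Tm_comp (h.sm_EE p₀ a.1) differentiableAt_fst, Tm_comp (h.sm_EE p₀ a.2) differentiableAt_snd]
  refine (winb_rank (W := Eu n) _ _ _ _).trans_lt ?_
  have h1 : ∀ A : Eu n →L[ℝ] Eu n, Module.finrank ℝ (LinearMap.range A.toLinearMap) ≤ n :=
    fun A => (LinearMap.finrank_range_le _).trans finrank_euclideanSpace_fin.le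
  have h2 := h1 (Tm e (EE e D p₀) a.1)
  have h3 := h1 (Tm e (EE e D p₀) a.2)
  have h4 := h.three
  rcases ha with ha | ha
  · have := h.rank_EE p₀ ha
    omega
  · have := h.rank_EE p₀ ha
    omega

theorem BC.win_X (h : BC e D) (p₀ : M) (z₀ : XT M D) :
    Win h.DX ((FS.euc n).prod (FS.euc n))
      (cX D (fun a => EE e D p₀ a.1) fun a => EE e D p₀ a.2)
      (fun a => h.kp z₀ (EE e D p₀ a.1, EE e D p₀ a.2)) 1 (2 * n - 2)
      (Metric.closedBall (0 : Eu n) D ×ˢ Metric.closedBall (0 : Eu n) D) := by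
  refine ⟨contDiff_iff_contDiffAt.2 fun a => winb_sm h (winb_p1 h p₀ a) (winb_p2 h p₀ a),
    fun _ => io_mem _, fun a => winb_dd h (winb_p1 h p₀ a) (winb_p2 h p₀ a),
    fun a ha => ((winb_cases h z₀ (winb_p1 h p₀ a) (winb_p2 h p₀ a)).resolve_left fun h1 =>
      notMem_tsupport_iff_eventuallyEq.2 h1 ha).2, fun a ha j w hj hw => ?_⟩
  rw [← h.loc_OmX z₀ w (winb_p1 h p₀ a) (winb_p2 h p₀ a)]
  refine h.loc_EE2 p₀ (h.fm_OmX z₀ hw) (by omega) ?_
  simpa only [mem_prod, mem_closedBall_zero_iff, not_and_or, not_le] using ha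

theorem BC.integ_IX {m : ℕ} {e : M → Eu (2 * m + 2) → M} (h : BC e D) (p₀ : M) (z₀ : XT M D) :
    Integ h.DX (4 * m + 2) (h.IX p₀ z₀) := by
  rw [show 4 * m + 2 = 2 * (2 * m + 2) - 2 by omega]
  exact (h.win_X p₀ z₀).integ ((volume : Measure (Eu _)).prod (volume : Measure (Eu _)))
    ((isCompact_closedBall _ _).prod (isCompact_closedBall _ _)) (h.rank_DX.mono (by omega)) _

end Vale.Agent.P231C
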